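import Vale.Agent.P365.Stm

/-! Time reversal puts the limit vector in the orthogonal complement of the cyclic space. -/

open MeasureTheory Filter Topology Set
open scoped InnerProductSpace

namespace Vale.Agent.P365

namespace Anti

variable {E : Type} [NormedAddCommGroup E] [InnerProductSpace ℂ E] [CompleteSpace E]

theorem rev {A V : E →L[ℂ] E} {δ : E} (hA : IsSelfAdjoint A) (h : Anti A V δ) (ρ t : ℝ) :
    ⟪U A ρ δ, avg A V t δ⟫_ℂ = -⟪δ, avg A V (-t) (U A (-ρ) δ)⟫_ℂ := by
  have e : (fun r : ℝ => ⟪U A r (U A ρ δ), V (U A r δ)⟫_ℂ) =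
      fun r : ℝ => -⟪U A (-r) δ, V (U A (-r) (U A (-ρ) δ))⟫_ℂ := funext fun r => by
    rw [← U_add_apply, h, ← U_add_apply, neg_add]
  rw [inner_avg hA, inner_avg hA, e, intervalIntegral.integral_neg,
    intervalIntegral.integral_comp_neg fun r : ℝ => ⟪U A r δ, V (U A r (U A (-ρ) δ))⟫_ℂ, neg_zero,
    ← intervalIntegral.integral_symm]
  push_cast
  ring

end Anti

theorem s_anti : S_lim → S_anti := by
  intro hl E _ _ _ A V Q δ t hA hV ht hQ h r
  have h1 := (tendsto_const_nhds (x := U A (-r) δ)).inner (𝕜 := ℂ) (hQ δ).1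
  have h2 := ((tendsto_const_nhds (x := δ)).inner (𝕜 := ℂ) (hQ (U A (-(-r)) δ)).2).neg
  have h3 := tendsto_nhds_unique h1 (h2.congr fun n => (Anti.rev hA h (-r) (t n)).symm)
  rw [(hl E A V Q t hA hV ht hQ).2.2, inner_U_left hA, neg_neg] at h3
  linear_combination h3 / 2

end Vale.Agent.P365
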