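import Vale.Agent.P365.Stm

/-! From basis vectors to the limit operator. -/

open MeasureTheory Filter Topology Set
open scoped InnerProductSpace

namespace Vale.Agent.P365

namespace Ext

variable {E : Type} [NormedAddCommGroup E] [InnerProductSpace ℂ E] {κ : Type} {e : κ → E}

theorem null {ι : Type} {l : Filter ι} (D : ι → E →L[ℂ] E) {M : ℝ} (hM : ∀ i, ‖D i‖ ≤ M)
    (he : ∀ v, ∃ c : κ → ℂ, HasSum (fun x => c x • e x) v)
    (h : ∀ x, Tendsto (fun i => D i (e x)) l (𝓝 0)) (v : E) :
    Tendsto (fun i => D i v) l (𝓝 0) := by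
  have h1 : Equicontinuous fun i v => D i v :=
    (LipschitzWith.uniformEquicontinuous (fun i v => D i v) M.toNNReal fun i =>
      (D i).lipschitz.weaken (Real.le_toNNReal_iff_coe_le ((norm_nonneg _).trans (hM i)) |>.2
        (hM i))).equicontinuous
  have h2 := h1.isClosed_setOfPred_tendsto (l := l) (f := fun _ => 0) continuous_const
  obtain ⟨c, hc⟩ := he v
  refine h2.mem_of_tendsto hc (.of_forall fun s => ?_)
  have h3 := tendsto_finsetSum s fun x _ => (h x).const_smul (c x)
  simpa only [mem_ofPred_eq, map_sum, map_smul, smul_zero, Finset.sum_const_zero] using h3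

theorem lim [CompleteSpace E] (B B' : ℕ → E →L[ℂ] E) {M : ℝ} (hM : ∀ n, ‖B n‖ ≤ M)
    (hM' : ∀ n, ‖B' n‖ ≤ M) (he : ∀ v, ∃ c : κ → ℂ, HasSum (fun x => c x • e x) v)
    (h : ∀ x, ∃ y, Tendsto (fun n => B n (e x)) atTop (𝓝 y) ∧
      Tendsto (fun n => B' n (e x)) atTop (𝓝 y)) :
    ∃ Q : E →L[ℂ] E, ∀ v, Tendsto (fun n => B n v) atTop (𝓝 (Q v)) ∧
      Tendsto (fun n => B' n v) atTop (𝓝 (Q v)) := by
  have h1 := null (l := atTop) (fun n => B' n - B n) (M := M + M)
    (fun n => (norm_sub_le _ _).trans (add_le_add (hM' n) (hM n))) he fun x => by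
      obtain ⟨y, a, b⟩ := h x
      simpa only [sub_self, sub_apply] using b.sub a
  have h2 := null (l := atTop) (fun p : ℕ × ℕ => B p.1 - B p.2) (M := M + M)
    (fun p => (norm_sub_le _ _).trans (add_le_add (hM _) (hM _))) he fun x => by
      obtain ⟨y, a, -⟩ := h x
      have k := cauchySeq_iff_tendsto_dist_atTop_0.1 a.cauchySeq
      rw [tendsto_zero_iff_norm_tendsto_zero]
      simpa only [dist_eq_norm, sub_apply] using k
  have h3 : ∀ v, ∃ y, Tendsto (fun n => B n v) atTop (𝓝 y) := fun v =>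
    cauchySeq_tendsto_of_complete (cauchySeq_iff_tendsto_dist_atTop_0.2 (by
      simpa only [dist_eq_norm, sub_apply] using
        tendsto_zero_iff_norm_tendsto_zero.1 (h2 v)))
  choose f hf using h3
  refine ⟨continuousLinearMapOfTendsto B (tendsto_pi_nhds.2 hf), fun v => ⟨hf v, ?_⟩⟩
  have k := (h1 v).add (hf v)
  simp only [sub_apply, sub_add_cancel, zero_add] at k
  exact k

end Ext

theorem s_ext : S_ext := by
  intro d A V t hA h
  choose B hB hB' using fun s : ℝ => exists_avgL hA V s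
  obtain ⟨Q, hQ⟩ := Ext.lim (e := fun x : Site d => dlt x) (fun n => B (t n))
    (fun n => B (-(t n))) (fun _ => hB _) (fun _ => hB _) (fun v => ⟨fun x => v x, by
      have k := lp.hasSum_single (p := 2) (by simp) v
      simpa only [dlt, ← lp.single_smul, smul_eq_mul, mul_one] using k⟩)
    (by simpa only [hB'] using h)
  exact ⟨Q, fun v => by simpa only [hB'] using hQ v⟩

end Vale.Agent.P365
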