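import Vale.Agent.P365.Stm2
import Vale.Agent.P365.Ext

/-! Almost sure strong convergence of the averaged velocity along a subsequence. -/

open MeasureTheory Filter Topology Set
open scoped InnerProductSpace ENNReal

namespace Vale.Agent.P365

namespace Asub

/-- Summable integrals give almost sure convergence to zero. -/
theorem ae_zero {Ω : Type} [MeasurableSpace Ω] (μ : Measure Ω) (f : ℕ → Ω → ℝ)
    (h0 : ∀ n ω, 0 ≤ f n ω) (hi : ∀ n, Integrable (f n) μ)
    (hb : ∀ n, ∫ ω, f n ω ∂μ ≤ (1 / 2 : ℝ) ^ n) :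
    ∀ᵐ ω ∂μ, Tendsto (fun n => f n ω) atTop (𝓝 0) := by
  have hm : ∀ n, AEMeasurable (fun ω => ENNReal.ofReal (f n ω)) μ := fun n =>
    (hi n).aemeasurable.ennreal_ofReal
  have h1 : ∫⁻ ω, ∑' n, ENNReal.ofReal (f n ω) ∂μ ≠ ⊤ := by
    rw [lintegral_tsum hm]
    have h2 : ∀ n, ∫⁻ ω, ENNReal.ofReal (f n ω) ∂μ ≤ ENNReal.ofReal ((1 / 2 : ℝ) ^ n) := by
      intro n
      rw [← ofReal_integral_eq_lintegral_ofReal (hi n) (Eventually.of_forall (h0 n))]
      exact ENNReal.ofReal_le_ofReal (hb n)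
    refine ne_top_of_le_ne_top ?_ (ENNReal.tsum_le_tsum h2)
    rw [← ENNReal.ofReal_tsum_of_nonneg (fun n => by positivity) summable_geometric_two]
    exact ENNReal.ofReal_ne_top
  have h3 : ∀ᵐ ω ∂μ, ∑' n, ENNReal.ofReal (f n ω) < ⊤ :=
    ae_lt_top' (AEMeasurable.tsum hm) h1
  filter_upwards [h3] with ω hω
  have h4 := ENNReal.tendsto_atTop_zero_of_tsum_ne_top hω.ne
  have h5 := (ENNReal.tendsto_toReal ENNReal.zero_ne_top).comp h4
  rw [ENNReal.toReal_zero] at h5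
  refine h5.congr fun n => ?_
  exact ENNReal.toReal_ofReal (h0 n ω)

theorem clip_abs (s : ℝ) : |clip s| ≤ 1 := by
  unfold clip
  rw [abs_le]
  exact ⟨le_max_left _ _, max_le (by norm_num) (min_le_left _ _)⟩

theorem zero_of_sq {E : Type} [NormedAddCommGroup E] {u : ℕ → E}
    (h : Tendsto (fun n => ‖u n‖ ^ 2) atTop (𝓝 0)) : Tendsto u atTop (𝓝 0) := by
  rw [tendsto_zero_iff_norm_tendsto_zero]
  have h1 := h.sqrt
  rw [Real.sqrt_zero] at h1
  exact h1.congr fun n => Real.sqrt_sq (norm_nonneg _)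

end Asub

theorem s_as : S_vel → S_velx → S_model → S_as := by
  intro hvel hvelx hmod d lam H V t hlam hH hV ht
  have hsa : ∀ ω, IsSelfAdjoint (H ω) := fun ω =>
    ((hmod d lam).2.1 _ _ (fun x => Asub.clip_abs _) (hH ω)).1
  have hev : ∀ n : ℕ, ∀ᶠ m in atTop, ∀ i : Fin d,
      ∫ ω, ‖avg (H ω) (V i) (t m) (dlt 0)‖ ^ 2 ∂(PP d) ≤ (1 / 2 : ℝ) ^ n := by
    intro n
    rw [eventually_all]
    intro i
    have h1 := ((hvel d lam H i (V i) hlam hH (hV i)).2).comp ht
    exact h1.eventually (ge_mem_nhds (by positivity))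
  obtain ⟨k, hk, hkb⟩ := Filter.extraction_forall_of_eventually hev
  refine ⟨k, hk, ?_⟩
  have hae : ∀ (i : Fin d) (x : Site d), ∀ᵐ ω ∂(PP d),
      Tendsto (fun n => ‖avg (H ω) (V i) (t (k n)) (dlt x)‖ ^ 2) atTop (𝓝 0) := by
    intro i x
    obtain ⟨hc, he⟩ := hvelx d lam H i (V i) hH (hV i)
    refine Asub.ae_zero (PP d) (fun n ω => ‖avg (H ω) (V i) (t (k n)) (dlt x)‖ ^ 2)
      (fun n ω => by positivity) (fun n => ?_) (fun n => ?_)
    · refine Integrable.of_bound (((hc (t (k n)) (dlt x)).norm.pow 2).aestronglyMeasurable)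
        ((‖V i‖ * ‖dlt x‖) ^ 2) (Eventually.of_forall fun ω => ?_)
      rw [Real.norm_eq_abs, abs_of_nonneg (by positivity)]
      exact pow_le_pow_left₀ (norm_nonneg _) (norm_avg_le (hsa ω) (V i) _ _) 2
    · exact (he (t (k n)) x).le.trans (hkb n i)
  have hall : ∀ᵐ ω ∂(PP d), ∀ (i : Fin d) (x : Site d),
      Tendsto (fun n => ‖avg (H ω) (V i) (t (k n)) (dlt x)‖ ^ 2) atTop (𝓝 0) :=
    ae_all_iff.2 fun i => ae_all_iff.2 fun x => hae i x
  filter_upwards [hall] with ω hω i ψ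
  choose B hB hB' using fun s : ℝ => exists_avgL (hsa ω) (V i) s
  have h := Ext.null (e := fun x : Site d => dlt x) (l := atTop) (fun n => B (t (k n)))
    (fun _ => hB _) (fun v => ⟨fun x => v x, by
      have k := lp.hasSum_single (p := 2) (by simp) v
      simpa only [dlt, ← lp.single_smul, smul_eq_mul, mul_one] using k⟩)
    (fun x => by simpa only [hB'] using Asub.zero_of_sq (hω i x)) ψ
  simpa only [hB'] using h

end Vale.Agent.P365
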