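import Vale.Agent.P365.Stm

/-! The averaged vector has bounded spectral density. -/

open MeasureTheory Filter Topology Set
open scoped InnerProductSpace

namespace Vale.Agent.P365

theorem s_avM : S_spec → S_lim → S_meas → S_avM := by
  intro h1 h2 h3 E _ _ _ H V R Q δ a b t S hH hV ht hab hS hR hU hQ v T hT
  have hl := hQ.mono fun s hs => h2 E _ V (Q s) t (add_Pr_sa hH δ s) hV ht hs
  have hi : Integrable (fun s => R (Q s δ)) (volume.restrict (Set.Ioc a b)) :=
    Integrable.of_bound (R.continuous.comp_aestronglyMeasurable (h3 E H V Q δ δ a b t hQ))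
      (‖V‖ * ‖δ‖) (hl.mono fun s hs => (hR _).trans (hs.1 δ))
  have k := h1 E H δ a b (‖V‖ * ‖v‖) T (S.indicator fun s => Q s (R v)) hH hab hT (by positivity)
    ((h3 E H V Q δ (R v) a b t hQ).indicator hS)
    (hl.mono fun s hs => (norm_indicator_le_norm_self _ _).trans
      ((hs.1 _).trans (mul_le_mul_of_nonneg_left (hR v) (norm_nonneg _))))
  have e : ∀ r : ℝ, ⟪v, U H r (∫ s in S, R (Q s δ) ∂(volume.restrict (Set.Ioc a b)))⟫_ℂ =
      ∫ s in Set.Ioc a b,
        ⟪S.indicator (fun s => Q s (R v)) s, U (H + (s : ℂ) • Pr δ) r δ⟫_ℂ := fun r => by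
    have e1 := ((innerSL ℂ v).comp (U H r)).integral_comp_comm (hi.integrableOn (s := S))
    refine e1.symm.trans ?_
    rw [← integral_indicator hS]
    refine integral_congr_ae (hl.mono fun s hs => ?_)
    by_cases m : s ∈ S
    · simp only [indicator_of_mem m]
      exact (hU v _ s r).trans (by rw [hs.2.1, hs.2.2])
    · simp only [indicator_of_notMem m, inner_zero_left]
  simp only [e]
  exact k.trans_eq (by ring)

end Vale.Agent.P365
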