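import Vale.Agent.P365.Defs

/-! Basic facts on the unitary group `U`. -/

open MeasureTheory Filter Topology Set
open scoped InnerProductSpace

namespace Vale.Agent.P365

variable {E : Type} [NormedAddCommGroup E] [InnerProductSpace ℂ E] [CompleteSpace E]

theorem U_zero (A : E →L[ℂ] E) : U A 0 = 1 := by
  simp [U]

theorem U_zero_apply (A : E →L[ℂ] E) (v : E) : U A 0 v = v := by
  simp [U_zero]

theorem U_add (A : E →L[ℂ] E) (s t : ℝ) : U A (s + t) = U A s * U A t := by
  let _ : NormedAlgebra ℚ (E →L[ℂ] E) := NormedAlgebra.restrictScalars ℚ ℂ _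
  unfold U
  rw [← NormedSpace.exp_add_of_commute]
  · congr 1
    rw [← add_smul]; congr 1; push_cast; ring
  · exact (Commute.refl A).smul_left _ |>.smul_right _

theorem U_add_apply (A : E →L[ℂ] E) (s t : ℝ) (v : E) : U A (s + t) v = U A s (U A t v) := by
  rw [U_add]; rfl

theorem U_neg_U (A : E →L[ℂ] E) (t : ℝ) (v : E) : U A (-t) (U A t v) = v := by
  rw [← U_add_apply]; simp [U_zero]

theorem U_U_neg (A : E →L[ℂ] E) (t : ℝ) (v : E) : U A t (U A (-t) v) = v := by
  rw [← U_add_apply]; simp [U_zero]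

theorem U_neg_op (A : E →L[ℂ] E) (t : ℝ) : U (-A) t = U A (-t) := by
  unfold U; congr 1; rw [smul_neg, ← neg_smul]; congr 1; push_cast; ring

theorem continuous_U2 : Continuous (fun p : (E →L[ℂ] E) × ℝ => U p.1 p.2) := by
  let _ : NormedAlgebra ℚ (E →L[ℂ] E) := NormedAlgebra.restrictScalars ℚ ℂ _
  unfold U
  exact NormedSpace.exp_continuous.comp (by fun_prop)

theorem continuous_U (A : E →L[ℂ] E) : Continuous (fun t : ℝ => U A t) :=
  continuous_U2.comp (continuous_const.prodMk continuous_id)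

theorem continuous_U_apply (A : E →L[ℂ] E) (v : E) : Continuous (fun t : ℝ => U A t v) :=
  (continuous_U A).clm_apply continuous_const

theorem hasDerivAt_U (A : E →L[ℂ] E) (t : ℝ) :
    HasDerivAt (fun t : ℝ => U A t) ((-Complex.I) • (A * U A t)) t := by
  have h := hasDerivAt_exp_smul_const' (𝕂 := ℂ) A (-(t : ℂ) * Complex.I)
  have h2 : HasDerivAt (fun t : ℝ => -(t : ℂ) * Complex.I) (-Complex.I) t := by
    have := ((Complex.ofRealCLM.hasDerivAt (x := t)).neg).mul_const Complex.I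
    simpa using this
  exact h.scomp t h2

theorem hasDerivAt_U_apply (A : E →L[ℂ] E) (v : E) (t : ℝ) :
    HasDerivAt (fun t : ℝ => U A t v) ((-Complex.I) • A (U A t v)) t := by
  have h := ((ContinuousLinearMap.apply ℂ E v).restrictScalars ℝ).hasFDerivAt.comp_hasDerivAt t
    (hasDerivAt_U A t)
  exact h

theorem U_comm (A : E →L[ℂ] E) (t : ℝ) (v : E) : A (U A t v) = U A t (A v) := by
  have h : Commute A (U A t) := by
    unfold U
    exact ((Commute.refl A).smul_right _).exp_right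
  exact congrArg (fun B : E →L[ℂ] E => B v) h.eq

/-- Derivative of `r ↦ U A (σ r) (y r)` for a differentiable curve `y`. -/
theorem hasDerivAt_U_curve (A : E →L[ℂ] E) {y : ℝ → E} {y' : E} {t : ℝ} (hy : HasDerivAt y y' t) :
    HasDerivAt (fun r : ℝ => U A (-r) (y r))
      (U A (-t) (Complex.I • A (y t) + y')) t := by
  have h1 : HasDerivAt (fun r : ℝ => U A (-r)) (Complex.I • (A * U A (-t))) t := by
    have := (hasDerivAt_U A (-t)).scomp t (hasDerivAt_neg t)
    rw [neg_smul, one_smul, neg_smul, neg_neg] at this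
    exact this
  have h2 : HasDerivAt (fun r : ℝ => (U A (-r)).restrictScalars ℝ)
      ((Complex.I • (A * U A (-t))).restrictScalars ℝ) t :=
    (ContinuousLinearMap.restrictScalarsL ℂ E E ℝ ℝ).hasFDerivAt.comp_hasDerivAt t h1
  have h3 := h2.clm_apply hy
  simp only [ContinuousLinearMap.coe_restrictScalars', smul_apply,
    mul_apply_eq_comp] at h3
  rw [map_add, map_smul, ← U_comm]
  exact h3

theorem star_U {A : E →L[ℂ] E} (hA : IsSelfAdjoint A) (t : ℝ) : star (U A t) = U A (-t) := by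
  unfold U
  rw [NormedSpace.star_exp, star_smul, hA.star_eq]
  congr 2
  simp

theorem inner_U_left {A : E →L[ℂ] E} (hA : IsSelfAdjoint A) (t : ℝ) (v w : E) :
    ⟪U A t v, w⟫_ℂ = ⟪v, U A (-t) w⟫_ℂ := by
  rw [← star_U hA, ContinuousLinearMap.star_eq_adjoint, ContinuousLinearMap.adjoint_inner_right]

theorem inner_U_U {A : E →L[ℂ] E} (hA : IsSelfAdjoint A) (t : ℝ) (v w : E) :
    ⟪U A t v, U A t w⟫_ℂ = ⟪v, w⟫_ℂ := by
  rw [inner_U_left hA, U_neg_U]

theorem norm_U {A : E →L[ℂ] E} (hA : IsSelfAdjoint A) (t : ℝ) (v : E) : ‖U A t v‖ = ‖v‖ := by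
  rw [@norm_eq_sqrt_re_inner ℂ, inner_U_U hA, ← @norm_eq_sqrt_re_inner ℂ]

theorem opNorm_U {A : E →L[ℂ] E} (hA : IsSelfAdjoint A) (t : ℝ) : ‖U A t‖ ≤ 1 :=
  ContinuousLinearMap.opNorm_le_bound _ zero_le_one (fun v => by rw [norm_U hA, one_mul])

theorem inner_sa {A : E →L[ℂ] E} (hA : IsSelfAdjoint A) (v w : E) :
    ⟪A v, w⟫_ℂ = ⟪v, A w⟫_ℂ := hA.isSymmetric v w

omit [CompleteSpace E] in
theorem Pr_apply (δ v : E) : Pr δ v = ⟪δ, v⟫_ℂ • δ := rfl

theorem Pr_sa (δ : E) : IsSelfAdjoint (Pr δ) := by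
  rw [ContinuousLinearMap.isSelfAdjoint_iff_isSymmetric]
  intro v w
  change ⟪Pr δ v, w⟫_ℂ = ⟪v, Pr δ w⟫_ℂ
  rw [Pr_apply, Pr_apply, inner_smul_left, inner_smul_right, inner_conj_symm, mul_comm]

theorem add_Pr_sa {A : E →L[ℂ] E} (hA : IsSelfAdjoint A) (δ : E) (s : ℝ) :
    IsSelfAdjoint (A + (s : ℂ) • Pr δ) := by
  refine hA.add ?_
  exact IsSelfAdjoint.smul (by simp [IsSelfAdjoint]) (Pr_sa δ)

/-- Duhamel formula. -/
theorem duhamel (A B : E →L[ℂ] E) (ψ : E) (t : ℝ) :
    U B (-t) (U A t ψ) - ψ = ∫ r in (0 : ℝ)..t, U B (-r) (Complex.I • (B - A) (U A r ψ)) := by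
  have hd : ∀ r : ℝ, HasDerivAt (fun r : ℝ => U B (-r) (U A r ψ))
      (U B (-r) (Complex.I • (B - A) (U A r ψ))) r := by
    intro r
    have := hasDerivAt_U_curve B (hasDerivAt_U_apply A ψ r)
    convert this using 2
    rw [sub_apply, smul_sub, neg_smul, sub_eq_add_neg]
  have hc : Continuous (fun r : ℝ => U B (-r) (Complex.I • (B - A) (U A r ψ))) :=
    ((continuous_U B).comp continuous_neg).clm_apply
      (((B - A).continuous.comp (continuous_U_apply A ψ)).const_smul _)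
  rw [intervalIntegral.integral_eq_sub_of_hasDerivAt (fun r _ => hd r) (hc.intervalIntegrable _ _)]
  simp [U_zero]

theorem duh_bound (A : E →L[ℂ] E) {B : E →L[ℂ] E} (hB : IsSelfAdjoint B) (ψ : E) (t : ℝ) :
    ‖U B t ψ - U A t ψ‖ ≤ |∫ r in (0 : ℝ)..t, ‖(B - A) (U A r ψ)‖| := by
  have h1 : ‖U B t ψ - U A t ψ‖ = ‖U B (-t) (U A t ψ) - ψ‖ := by
    rw [← norm_U hB (-t), map_sub, U_neg_U, norm_sub_rev]
  rw [h1, duhamel]
  refine (intervalIntegral.norm_integral_le_abs_integral_norm).trans (le_of_eq ?_)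
  congr 2
  funext r
  rw [norm_U hB, norm_smul, Complex.norm_I, one_mul]

/-- Intertwining passes to the time evolutions. -/
theorem U_intertwine {A B T : E →L[ℂ] E} (h : ∀ v, T (A v) = B (T v)) (t : ℝ) (ψ : E) :
    T (U A t ψ) = U B t (T ψ) := by
  have hd : ∀ r : ℝ, HasDerivAt (fun r : ℝ => U B (-r) (T (U A r ψ))) 0 r := by
    intro r
    have h0 : HasDerivAt (fun r : ℝ => T (U A r ψ)) (T ((-Complex.I) • A (U A r ψ))) r :=
      (T.restrictScalars ℝ).hasFDerivAt.comp_hasDerivAt r (hasDerivAt_U_apply A ψ r)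
    have := hasDerivAt_U_curve B h0
    rw [map_smul, h, neg_smul, add_neg_cancel, map_zero] at this
    exact this
  have h2 := is_const_of_deriv_eq_zero (fun r => (hd r).differentiableAt) (fun r => (hd r).deriv) t 0
  simp only [neg_zero, U_zero_apply] at h2
  rw [← h2, U_U_neg]

/-- On the orthogonal complement of the cyclic space the perturbation is invisible. -/
theorem perp_free {A : E →L[ℂ] E} (hA : IsSelfAdjoint A) {δ ψ : E} (h : Perp A δ ψ) (s r : ℝ) :
    U (A + (s : ℂ) • Pr δ) r ψ = U A r ψ := by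
  have := duh_bound A (add_Pr_sa hA δ s) ψ r
  have h0 : ∀ r : ℝ, ‖((A + (s : ℂ) • Pr δ) - A) (U A r ψ)‖ = 0 := by
    intro r
    rw [add_sub_cancel_left, smul_apply, Pr_apply, h r]; simp
  simp only [h0, intervalIntegral.integral_zero, abs_zero] at this
  exact sub_eq_zero.mp (norm_le_zero_iff.mp this)

theorem inner_iavg {Ξ : ℝ → E} (hc : Continuous Ξ) (η : E) (t : ℝ) :
    ⟪η, iavg Ξ t⟫_ℂ = ((t⁻¹ : ℝ) : ℂ) * ∫ r in (0 : ℝ)..t, ⟪η, Ξ r⟫_ℂ := by
  unfold iavg
  rw [← Complex.coe_smul, inner_smul_right]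
  congr 1
  exact (((innerSL ℂ η).restrictScalars ℝ).intervalIntegral_comp_comm
    (hc.intervalIntegrable _ _)).symm

omit [CompleteSpace E] in
theorem norm_iavg_le {Ξ : ℝ → E} {M : ℝ} (hM : 0 ≤ M) (t : ℝ)
    (h : ∀ r ∈ Set.uIoc 0 t, ‖Ξ r‖ ≤ M) : ‖iavg Ξ t‖ ≤ M := by
  unfold iavg
  have h1 := intervalIntegral.norm_integral_le_of_norm_le_const h
  rw [norm_smul, Real.norm_eq_abs, abs_inv]
  rcases eq_or_ne t 0 with rfl | ht
  · simpa using hM
  · have : 0 < |t| := abs_pos.mpr ht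
    rw [sub_zero] at h1
    calc |t|⁻¹ * ‖∫ r in (0 : ℝ)..t, Ξ r‖ ≤ |t|⁻¹ * (M * |t|) := by gcongr
      _ = M := by field_simp

theorem map_iavg {F : Type} [NormedAddCommGroup F] [InnerProductSpace ℂ F] [CompleteSpace F]
    (T : E →L[ℂ] F) {Ξ : ℝ → E} (hc : Continuous Ξ) (t : ℝ) :
    T (iavg Ξ t) = iavg (fun r => T (Ξ r)) t := by
  unfold iavg
  rw [← Complex.coe_smul, map_smul, Complex.coe_smul]
  congr 1
  exact ((T.restrictScalars ℝ).intervalIntegral_comp_comm (hc.intervalIntegrable _ _)).symm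

omit [CompleteSpace E] in
theorem iavg_smul (c : ℂ) (Ξ : ℝ → E) (t : ℝ) : iavg (fun r => c • Ξ r) t = c • iavg Ξ t := by
  unfold iavg
  rw [intervalIntegral.integral_smul, smul_comm]

omit [CompleteSpace E] in
theorem iavg_sub {Ξ Ξ' : ℝ → E} (hc : Continuous Ξ) (hc' : Continuous Ξ') (t : ℝ) :
    iavg (fun r => Ξ r - Ξ' r) t = iavg Ξ t - iavg Ξ' t := by
  unfold iavg
  rw [intervalIntegral.integral_sub (hc.intervalIntegrable _ _) (hc'.intervalIntegrable _ _),
    smul_sub]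

omit [CompleteSpace E] in
theorem continuous_iavg {X : Type} [TopologicalSpace X] {f : X → ℝ → E}
    (hf : Continuous (fun p : X × ℝ => f p.1 p.2)) (t : ℝ) : Continuous (fun x => iavg (f x) t) := by
  unfold iavg
  exact (intervalIntegral.continuous_parametric_intervalIntegral_of_continuous' (f := f) hf 0 t).const_smul _

theorem duhamel_norm (A B : E →L[ℂ] E) (ψ : E) (t : ℝ) :
    ‖U B (-t) (U A t ψ) - ψ‖ = |t| * ‖iavg (fun r => U B (-r) ((A - B) (U A r ψ))) t‖ := by
  rw [duhamel]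
  have h : (fun r : ℝ => U B (-r) (Complex.I • (B - A) (U A r ψ))) =
      fun r : ℝ => (-Complex.I) • U B (-r) ((A - B) (U A r ψ)) := by
    funext r
    rw [map_smul, ← neg_sub A B, neg_apply, map_neg, smul_neg, neg_smul]
  rw [h, intervalIntegral.integral_smul, norm_smul, norm_neg, Complex.norm_I, one_mul]
  unfold iavg
  rw [norm_smul, Real.norm_eq_abs, abs_inv]
  rcases eq_or_ne t 0 with rfl | ht
  · simp
  · have : 0 < |t| := abs_pos.mpr ht
    field_simp

theorem continuous_heis (A V : E →L[ℂ] E) (v : E) :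
    Continuous (fun r : ℝ => U A (-r) (V (U A r v))) :=
  ((continuous_U A).comp continuous_neg).clm_apply (V.continuous.comp (continuous_U_apply A v))

theorem norm_avg_le {A : E →L[ℂ] E} (hA : IsSelfAdjoint A) (V : E →L[ℂ] E) (t : ℝ) (v : E) :
    ‖avg A V t v‖ ≤ ‖V‖ * ‖v‖ := by
  refine norm_iavg_le (by positivity) t (fun r _ => ?_)
  rw [norm_U hA]
  refine (V.le_opNorm _).trans (le_of_eq ?_)
  rw [norm_U hA]

theorem inner_avg {A : E →L[ℂ] E} (hA : IsSelfAdjoint A) (V : E →L[ℂ] E) (t : ℝ) (w v : E) :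
    ⟪w, avg A V t v⟫_ℂ = ((t⁻¹ : ℝ) : ℂ) * ∫ r in (0 : ℝ)..t, ⟪U A r w, V (U A r v)⟫_ℂ := by
  unfold avg
  rw [inner_iavg (continuous_heis A V v)]
  congr 2
  funext r
  rw [inner_U_left hA]

theorem avg_add (A V : E →L[ℂ] E) (t : ℝ) (v w : E) :
    avg A V t (v + w) = avg A V t v + avg A V t w := by
  unfold avg iavg
  rw [← smul_add, ← intervalIntegral.integral_add ((continuous_heis A V v).intervalIntegrable _ _)
    ((continuous_heis A V w).intervalIntegrable _ _)]
  simp only [map_add]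

theorem avg_smul (A V : E →L[ℂ] E) (t : ℝ) (c : ℂ) (v : E) :
    avg A V t (c • v) = c • avg A V t v := by
  unfold avg iavg
  simp only [map_smul]
  rw [intervalIntegral.integral_smul, smul_comm]

/-- The time average as a bounded operator. -/
theorem exists_avgL {A : E →L[ℂ] E} (hA : IsSelfAdjoint A) (V : E →L[ℂ] E) (t : ℝ) :
    ∃ B : E →L[ℂ] E, ‖B‖ ≤ ‖V‖ ∧ ∀ v, B v = avg A V t v := by
  let L : E →ₗ[ℂ] E := { toFun := avg A V t, map_add' := avg_add A V t, map_smul' := avg_smul A V t }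
  exact ⟨L.mkContinuous ‖V‖ (norm_avg_le hA V t), L.mkContinuous_norm_le (norm_nonneg _) _,
    fun _ => rfl⟩

omit [CompleteSpace E] in
/-- A bounded strongly continuous family applied to a continuous curve. -/
theorem sc_apply {X : Type} [TopologicalSpace X] {B : X → E →L[ℂ] E} {M : ℝ}
    (hM : ∀ x, ‖B x‖ ≤ M) (hB : ∀ v, Continuous (fun x => B x v)) {y : X → E}
    (hy : Continuous y) : Continuous (fun x => B x (y x)) := by
  rw [continuous_iff_continuousAt]
  intro x₀
  have h1 : Tendsto (fun x => B x (y x - y x₀)) (𝓝 x₀) (𝓝 0) := by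
    refine squeeze_zero_norm (fun x => ((B x).le_opNorm _).trans
      (mul_le_mul_of_nonneg_right (hM x) (norm_nonneg _))) ?_
    have : Tendsto (fun x => M * ‖y x - y x₀‖) (𝓝 x₀) (𝓝 (M * ‖y x₀ - y x₀‖)) :=
      (((hy.tendsto x₀).sub_const _).norm).const_mul M
    simpa using this
  have h2 := h1.add ((hB (y x₀)).tendsto x₀)
  simp only [map_sub, sub_add_cancel, zero_add] at h2
  exact h2

instance unif_prob : IsProbabilityMeasure unif :=
  ProbabilityTheory.cond_isProbabilityMeasure_of_finite (by simp) (by simp)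

instance PP_prob (d : ℕ) : IsProbabilityMeasure (PP d) := by
  unfold PP; infer_instance

end Vale.Agent.P365
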