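import Vale.Agent.P365.Stm

/-! Comparison of two limit operators. -/

open MeasureTheory Filter Topology Set
open scoped InnerProductSpace

namespace Vale.Agent.P365

namespace Cmp

variable {E : Type} [NormedAddCommGroup E] [InnerProductSpace ℂ E] [CompleteSpace E]

theorem key {A B : E →L[ℂ] E} (V : E →L[ℂ] E) (hA : IsSelfAdjoint A) (hB : IsSelfAdjoint B)
    {ψ b : E} {η t : ℝ} (hη : 0 ≤ η) (h : ∀ r, U B r ψ = U A r ψ)
    (hb : ∀ r ∈ Set.uIoc 0 t, ‖U B r b - U A r b‖ ≤ η) :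
    ‖⟪b, avg B V t ψ⟫_ℂ - ⟪b, avg A V t ψ⟫_ℂ‖ ≤ η * (‖V‖ * ‖ψ‖) := by
  have cA := continuous_heis A V ψ
  have cB := continuous_heis B V ψ
  have e : ⟪b, avg B V t ψ⟫_ℂ - ⟪b, avg A V t ψ⟫_ℂ = iavg (fun r => innerSL ℂ b
      (U B (-r) (V (U B r ψ)) - U A (-r) (V (U A r ψ)))) t := by
    have cC : Continuous fun r => U B (-r) (V (U B r ψ)) - U A (-r) (V (U A r ψ)) := cB.sub cA
    rw [← map_iavg (innerSL ℂ b) cC, iavg_sub cB cA, ← inner_sub_right]
    rfl
  rw [e]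
  refine norm_iavg_le (by positivity) t fun r hr => ?_
  rw [innerSL_apply_apply, inner_sub_right, ← inner_U_left hB, ← inner_U_left hA, h,
    ← inner_sub_left]
  refine (norm_inner_le_norm _ _).trans (mul_le_mul (hb r hr) ?_ (norm_nonneg _) hη)
  refine (V.le_opNorm _).trans (le_of_eq ?_)
  rw [norm_U hA]

end Cmp

theorem s_cmp : S_cmp := by
  intro E _ _ _ A B V QA QB t ψ b η hA hB ht hQA hQB h hb
  have hη : 0 ≤ η := by
    rcases hb with hb | hb <;> exact (norm_nonneg _).trans (hb 0 le_rfl)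
  have h0 : ∀ᶠ n in atTop, 0 ≤ t n := ht.eventually_ge_atTop 0
  rcases hb with hb | hb
  · refine le_of_tendsto ((((tendsto_const_nhds (x := b)).inner (𝕜 := ℂ) (hQB ψ).1).sub
      ((tendsto_const_nhds (x := b)).inner (𝕜 := ℂ) (hQA ψ).1)).norm) ?_
    filter_upwards [h0] with n hn
    refine Cmp.key V hA hB hη h fun r hr => hb r ?_
    rw [uIoc_of_le hn] at hr
    exact hr.1.le
  · refine le_of_tendsto ((((tendsto_const_nhds (x := b)).inner (𝕜 := ℂ) (hQB ψ).2).sub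
      ((tendsto_const_nhds (x := b)).inner (𝕜 := ℂ) (hQA ψ).2)).norm) ?_
    filter_upwards [h0] with n hn
    refine Cmp.key V hA hB hη h fun r hr => hb r ?_
    rw [uIoc_of_ge (neg_nonpos.2 hn)] at hr
    exact hr.2

end Vale.Agent.P365
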