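import Vale.Agent.P365.Stm

/-! An orthogonal family of square integrable functions is countable. -/

open MeasureTheory Filter Topology Set
open scoped InnerProductSpace

namespace Vale.Agent.P365

namespace Cnt

theorem orth_countable {E : Type} [NormedAddCommGroup E] [InnerProductSpace ℂ E]
    [SecondCountableTopology E] (v : ℝ → E) (S : Set ℝ) (h0 : ∀ s ∈ S, v s ≠ 0)
    (ho : ∀ s ∈ S, ∀ s' ∈ S, s ≠ s' → ⟪v s, v s'⟫_ℂ = 0) : S.Countable := by
  set u : ℝ → E := fun s => ((‖v s‖⁻¹ : ℝ) : ℂ) • v s with hu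
  have hn : ∀ s ∈ S, ‖u s‖ = 1 := by
    intro s hs
    have h1 : ‖v s‖ ≠ 0 := norm_ne_zero_iff.mpr (h0 s hs)
    simp only [hu, norm_smul, Complex.norm_real, norm_inv, norm_norm]
    exact inv_mul_cancel₀ h1
  have hd : S.PairwiseDisjoint (fun s => Metric.ball (u s) (1 / 2)) := by
    intro s hs s' hs' hne
    refine Metric.ball_disjoint_ball ?_
    have h1 : ⟪u s, u s'⟫_ℂ = 0 := by
      simp only [hu, inner_smul_left, inner_smul_right, ho s hs s' hs' hne, mul_zero]
    have h2 : ‖u s - u s'‖ ^ 2 = 2 := by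
      rw [@norm_sub_sq ℂ, h1, hn s hs, hn s' hs']
      norm_num
    rw [dist_eq_norm]
    nlinarith [norm_nonneg (u s - u s')]
  exact hd.countable_of_isOpen (fun s _ => Metric.isOpen_ball)
    (fun s _ => ⟨u s, Metric.mem_ball_self (by norm_num)⟩)

theorem mem2 (f : ℝ → ℂ) (hf : Continuous f) (C : ℝ)
    (hC : ∀ T, 0 ≤ T → ∫ r in (-T)..T, ‖f r‖ ^ 2 ≤ C) : MemLp f 2 volume := by
  rw [memLp_two_iff_integrable_sq_norm hf.aestronglyMeasurable]
  have hc : Continuous fun r => ‖f r‖ ^ 2 := by fun_prop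
  refine integrable_of_intervalIntegral_norm_bounded (l := atTop) (a := fun T : ℝ => -T)
    (b := fun T : ℝ => T) C (fun T => hc.integrableOn_Ioc) tendsto_neg_atTop_atBot tendsto_id ?_
  filter_upwards [eventually_ge_atTop (0 : ℝ)] with T hT
  have : ∀ r, ‖‖f r‖ ^ 2‖ = ‖f r‖ ^ 2 := fun r => Real.norm_of_nonneg (sq_nonneg _)
  simp only [this]
  exact hC T hT

end Cnt

theorem s_cnt : S_cnt := by
  intro a G hc hb ho
  have hm : ∀ s ∈ G, MemLp (a s) 2 volume := fun s hs => by
    obtain ⟨C, hC⟩ := hb s hs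
    exact Cnt.mem2 _ (hc s hs) C hC
  classical
  set v : ℝ → Lp ℂ 2 (volume : Measure ℝ) :=
    fun s => if h : s ∈ G then (hm s h).toLp (a s) else 0 with hv
  have hae : ∀ s ∈ G, (v s : ℝ → ℂ) =ᵐ[volume] a s := by
    intro s hs
    simp only [hv, hs, dif_pos]
    exact MemLp.coeFn_toLp _
  have : Fact ((2 : ENNReal) ≠ ⊤) := ⟨by norm_num⟩
  refine Cnt.orth_countable v _ ?_ ?_
  · rintro s ⟨hs, h0⟩ hz
    have h1 : a s =ᵐ[volume] fun _ => (0 : ℂ) := by
      have h2 := hae s hs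
      rw [hz] at h2
      exact h2.symm.trans (Lp.coeFn_zero ℂ 2 volume)
    have h3 : a s = fun _ => (0 : ℂ) :=
      (Continuous.ae_eq_iff_eq volume (hc s hs) continuous_const).mp h1
    exact h0 (by rw [h3])
  · rintro s ⟨hs, -⟩ s' ⟨hs', -⟩ hne
    have hi : Integrable (fun r => (starRingEnd ℂ) (a s r) * a s' r) volume := by
      have h1 : MemLp (fun r => (starRingEnd ℂ) (a s r)) 2 volume := (hm s hs).star
      exact h1.integrable_mul (hm s' hs')
    have h1 := intervalIntegral_tendsto_integral hi (l := atTop) (a := fun T : ℝ => -T)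
      (b := fun T : ℝ => T) tendsto_neg_atTop_atBot tendsto_id
    have h2 := tendsto_nhds_unique h1 (ho s hs s' hs' hne)
    rw [L2.inner_def, ← h2]
    refine integral_congr_ae ?_
    filter_upwards [hae s hs, hae s' hs'] with r h3 h4
    rw [h3, h4, RCLike.inner_apply, mul_comm]

end Vale.Agent.P365
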