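import Vale.Agent.P365.Stm

open MeasureTheory Filter Topology Set
open scoped InnerProductSpace

namespace Vale.Agent.P365

namespace Core

theorem perp_back {E : Type} [NormedAddCommGroup E] [InnerProductSpace ℂ E] [CompleteSpace E]
    {H : E →L[ℂ] E} (hH : IsSelfAdjoint H) {δ ψ : E} (s : ℝ)
    (h : Perp (H + (s : ℂ) • Pr δ) δ ψ) : Perp H δ ψ := by
  intro r
  have h1 := perp_free (add_Pr_sa hH δ s) h (-s) r
  have e : H + (s : ℂ) • Pr δ + ((-s : ℝ) : ℂ) • Pr δ = H := by
    rw [add_assoc, ← add_smul]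
    simp
  rw [e] at h1
  rw [h1]
  exact h r

end Core

theorem s_core : S_proj → S_anti → S_core := by
  intro hproj hanti E _ _ _ H V δ a b t hH hV ht hab hA hQ
  classical
  let Q : ℝ → E →L[ℂ] E := fun s =>
    if h : ∃ Q, IsLim (H + ((s : ℝ) : ℂ) • Pr δ) V t Q then h.choose else 0
  have hlim : ∀ᵐ s ∂(volume.restrict (Set.Ioc a b)),
      IsLim (H + ((s : ℝ) : ℂ) • Pr δ) V t (Q s) := by
    filter_upwards [hQ] with s hs
    have e : Q s = hs.choose := dif_pos hs
    rw [e]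
    exact hs.choose_spec
  have hp := hproj E H V Q δ a b t hH hV ht hab hlim
  filter_upwards [hlim, hp, ae_restrict_mem measurableSet_Ioc] with s h1 h2 h3
  have h4 := hanti E (H + ((s : ℝ) : ℂ) • Pr δ) V (Q s) δ t (add_Pr_sa hH δ s) hV ht h1 (hA s h3)
  have h5 := h2 (Q s δ) (Core.perp_back hH s h4)
  have h6 : Q s δ = 0 := inner_self_eq_zero.mp h5
  have h7 := (h1 δ).1
  rwa [h6] at h7

end Vale.Agent.P365
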