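import Vale.Agent.P365.Stm

/-! Closure properties of covariant families. -/

open MeasureTheory Filter Topology Set
open scoped InnerProductSpace

namespace Vale.Agent.P365

namespace CovC

theorem abs_clip (s : ℝ) : |clip s| ≤ 1 := by
  unfold clip
  rw [abs_le]
  exact ⟨le_max_left _ _, max_le (by norm_num) (min_le_left _ _)⟩

theorem cov_H {d : ℕ} {lam : ℝ} {T : Site d → L2 d →L[ℂ] L2 d}
    {H : (Site d → ℝ) → L2 d →L[ℂ] L2 d} (hT : IsShift T) (hH : IsFam lam H)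
    (x : Site d) (ω : Site d → ℝ) (ψ : L2 d) : T x (H ω ψ) = H (sh x ω) (T x ψ) := by
  apply lp.ext
  funext y
  rw [hT x (H ω ψ) y, hH ω ψ (y + x), hH (sh x ω) (T x ψ) y, hT x ψ y]
  congr 1
  refine Finset.sum_congr rfl fun i _ => ?_
  rw [hT x ψ, hT x ψ, add_right_comm y x, add_sub_right_comm y x]

theorem cov_V {d : ℕ} {T : Site d → L2 d →L[ℂ] L2 d} (hT : IsShift T) {i : Fin d}
    {V : L2 d →L[ℂ] L2 d} (hV : IsVel i V) (x : Site d) (ψ : L2 d) : T x (V ψ) = V (T x ψ) := by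
  apply lp.ext
  funext y
  rw [hT x (V ψ) y, hV ψ (y + x), hV (T x ψ) y, hT x ψ, hT x ψ, add_right_comm y x,
    add_sub_right_comm y x]

end CovC

theorem s_cov : S_model → S_hcont → S_ucont → S_cov := by
  intro hm hc hu d lam T H hT hH
  have hsa : ∀ ω, IsSelfAdjoint (H ω) ∧ ‖H ω‖ ≤ 2 * d + |lam| := fun ω =>
    (hm d lam).2.1 _ _ (fun x => CovC.abs_clip (ω x)) (hH ω)
  refine ⟨⟨⟨_, fun ω => (hsa ω).2⟩, hc d lam H hH, CovC.cov_H hT hH⟩, fun r => ?_,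
    fun i V hV => ⟨⟨‖V‖, fun _ => le_rfl⟩, fun _ => continuous_const,
      fun x _ ψ => CovC.cov_V hT hV x ψ⟩, fun A B hA hB => ?_⟩
  · refine ⟨⟨1, fun ω => opNorm_U (hsa ω).1 r⟩, fun ψ => ?_,
      fun x ω ψ => U_intertwine (CovC.cov_H hT hH x ω) r ψ⟩
    have h1 := hu (L2 d) d H _ (fun ω => (hsa ω).1) (fun ω => (hsa ω).2) (hc d lam H hH) ψ
    have h2 : Continuous (fun ω : Site d → ℝ => ((r, ω) : ℝ × (Site d → ℝ))) :=
      continuous_const.prodMk continuous_id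
    exact h1.comp h2
  · obtain ⟨⟨MA, hMA⟩, cA, tA⟩ := hA
    obtain ⟨⟨MB, hMB⟩, cB, tB⟩ := hB
    refine ⟨⟨MA * MB, fun ω => (norm_mul_le _ _).trans (mul_le_mul (hMA ω) (hMB ω)
      (norm_nonneg _) ((norm_nonneg _).trans (hMA ω)))⟩, fun ψ => ?_, fun x ω ψ => ?_⟩
    · exact sc_apply hMA cA (cB ψ)
    · change T x (A ω (B ω ψ)) = A (sh x ω) (B (sh x ω) (T x ψ))
      rw [tA, tB]

end Vale.Agent.P365
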