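import Vale.Agent.P365.Stm

open MeasureTheory Filter Topology Set
open scoped InnerProductSpace

namespace Vale.Agent.P365

namespace Disc

variable {E : Type} [NormedAddCommGroup E] [InnerProductSpace ℂ E] [CompleteSpace E]

theorem der1 (A : E →L[ℂ] E) (y : E) (r : ℝ) :
    HasDerivAt (fun r : ℝ => U A (-r) y) (Complex.I • A (U A (-r) y)) r := by
  have h := hasDerivAt_U_curve A (hasDerivAt_const r y)
  rw [add_zero, map_smul, ← U_comm] at h
  exact h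

theorem der2 {H : E →L[ℂ] E} (hH : IsSelfAdjoint H) (δ y y' : E) (s s' r : ℝ) :
    HasDerivAt (fun r : ℝ => ⟪U (H + (s : ℂ) • Pr δ) (-r) y, U (H + (s' : ℂ) • Pr δ) (-r) y'⟫_ℂ)
      (-Complex.I * ((s : ℂ) - s') * (⟪y, U (H + (s : ℂ) • Pr δ) r δ⟫_ℂ *
        (starRingEnd ℂ) ⟪y', U (H + (s' : ℂ) • Pr δ) r δ⟫_ℂ)) r := by
  have h := (der1 (H + (s : ℂ) • Pr δ) y r).inner ℂ (der1 (H + (s' : ℂ) • Pr δ) y' r)
  refine h.congr_deriv ?_
  have e1 : ⟪y, U (H + (s : ℂ) • Pr δ) r δ⟫_ℂ = ⟪U (H + (s : ℂ) • Pr δ) (-r) y, δ⟫_ℂ := by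
    rw [inner_U_left (add_Pr_sa hH δ s), neg_neg]
  have e2 : (starRingEnd ℂ) ⟪y', U (H + (s' : ℂ) • Pr δ) r δ⟫_ℂ =
      ⟪δ, U (H + (s' : ℂ) • Pr δ) (-r) y'⟫_ℂ := by
    rw [inner_conj_symm, inner_U_left (add_Pr_sa hH δ s')]
  rw [e1, e2, inner_smul_left, inner_smul_right, inner_sa (add_Pr_sa hH δ s)]
  generalize U (H + (s : ℂ) • Pr δ) (-r) y = v
  generalize U (H + (s' : ℂ) • Pr δ) (-r) y' = w
  simp only [add_apply, smul_apply, Pr_apply,
    inner_add_right, inner_smul_right, Complex.conj_I]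
  ring

theorem sum_off (N : ℕ) (c : ℕ → ℂ) (ε : ℝ) :
    ∑ j ∈ Finset.range N, ∑ k ∈ Finset.range N,
      -Complex.I * (((j : ℂ) - k) * ε) * (c j * (starRingEnd ℂ) (c k)) / ((j : ℂ) - (k : ℂ)) =
    -Complex.I * ε * ((‖∑ j ∈ Finset.range N, c j‖ ^ 2 - ∑ j ∈ Finset.range N, ‖c j‖ ^ 2 : ℝ) : ℂ) := by
  have h1 : ∀ z : ℂ, ((‖z‖ ^ 2 : ℝ) : ℂ) = z * (starRingEnd ℂ) z := fun z => by
    rw [Complex.mul_conj']; push_cast; rfl
  rw [Complex.ofReal_sub, h1, Complex.ofReal_sum, map_sum, Finset.sum_mul_sum,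
    ← Finset.sum_sub_distrib, Finset.mul_sum]
  refine Finset.sum_congr rfl fun j hj => ?_
  rw [h1, ← Finset.add_sum_erase _ _ hj, ← Finset.add_sum_erase _ _ hj, sub_self, div_zero,
    zero_add, add_sub_cancel_left, Finset.mul_sum]
  refine Finset.sum_congr rfl fun k hk => ?_
  have h2 : (j : ℂ) - k ≠ 0 :=
    sub_ne_zero.2 (by exact_mod_cast (Finset.ne_of_mem_erase hk).symm)
  field_simp

end Disc

open Disc in
theorem s_disc : S_hilb → S_disc := by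
  intro hh E _ _ _ H δ ε u T N y hH hε hT
  set A : ℕ → E →L[ℂ] E := fun j => H + ((u + j * ε : ℝ) : ℂ) • Pr δ with hA
  have sa : ∀ j, IsSelfAdjoint (A j) := fun j => add_Pr_sa hH δ _
  set c : ℕ → ℝ → ℂ := fun j r => ⟪y j, U (A j) r δ⟫_ℂ with hc
  have cc : ∀ j, Continuous (c j) := fun j => continuous_const.inner (continuous_U_apply _ _)
  have c1 : Continuous fun r => ‖∑ j ∈ Finset.range N, c j r‖ ^ 2 := by fun_prop
  have c2 : Continuous fun r => ∑ j ∈ Finset.range N, ‖c j r‖ ^ 2 := by fun_prop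
  set f : ℝ → ℂ := fun r => ∑ j ∈ Finset.range N, ∑ k ∈ Finset.range N,
    ⟪U (A j) (-r) (y j), U (A k) (-r) (y k)⟫_ℂ / ((j : ℂ) - (k : ℂ)) with hf
  have hd : ∀ r, HasDerivAt f (-Complex.I * ε *
      ((‖∑ j ∈ Finset.range N, c j r‖ ^ 2 - ∑ j ∈ Finset.range N, ‖c j r‖ ^ 2 : ℝ) : ℂ)) r := by
    intro r
    rw [← sum_off N (fun j => c j r) ε]
    refine HasDerivAt.fun_sum fun j _ => HasDerivAt.fun_sum fun k _ => ?_
    refine ((der2 hH δ (y j) (y k) (u + j * ε) (u + k * ε) r).div_const _).congr_deriv ?_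
    have : (((u + j * ε : ℝ) : ℂ) - ((u + k * ε : ℝ) : ℂ)) = ((j : ℂ) - k) * ε := by
      push_cast; ring
    rw [this]
  have hb : ∀ r, ‖f r‖ ≤ Real.pi * ∑ j ∈ Finset.range N, ‖y j‖ ^ 2 := by
    intro r
    have := hh E N fun j => U (A j) (-r) (y j)
    simp only [norm_U (sa _)] at this
    exact this
  have c3 : Continuous fun r => -Complex.I * ε *
      ((‖∑ j ∈ Finset.range N, c j r‖ ^ 2 - ∑ j ∈ Finset.range N, ‖c j r‖ ^ 2 : ℝ) : ℂ) :=
    continuous_const.mul (Complex.continuous_ofReal.comp (c1.sub c2))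
  have h1 := intervalIntegral.integral_eq_sub_of_hasDerivAt (a := -T) (b := T)
    (fun r _ => hd r) (c3.intervalIntegrable _ _)
  rw [intervalIntegral.integral_const_mul, intervalIntegral.integral_ofReal,
    intervalIntegral.integral_sub (c1.intervalIntegrable _ _) (c2.intervalIntegrable _ _)] at h1
  have h2 := congrArg norm h1
  rw [norm_mul, norm_mul, norm_neg, Complex.norm_I, one_mul, Complex.norm_real, Complex.norm_real,
    Real.norm_eq_abs, Real.norm_eq_abs, abs_of_pos hε] at h2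
  have h3 := (norm_sub_le (f T) (f (-T))).trans (add_le_add (hb T) (hb (-T)))
  have h4 : ∫ r in (-T)..T, ∑ j ∈ Finset.range N, ‖c j r‖ ^ 2 ≤
      ∫ _ in (-T)..T, ‖δ‖ ^ 2 * ∑ j ∈ Finset.range N, ‖y j‖ ^ 2 := by
    refine intervalIntegral.integral_mono_on (by linarith) (c2.intervalIntegrable _ _)
      intervalIntegrable_const fun r _ => ?_
    rw [Finset.mul_sum]
    refine Finset.sum_le_sum fun j _ => ?_
    have := norm_inner_le_norm (𝕜 := ℂ) (y j) (U (A j) r δ)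
    rw [norm_U (sa j)] at this
    calc _ ≤ (‖y j‖ * ‖δ‖) ^ 2 := pow_le_pow_left₀ (norm_nonneg _) this 2
      _ = _ := by ring
  rw [intervalIntegral.integral_const, smul_eq_mul] at h4
  have h5 := le_abs_self ((∫ r in (-T)..T, ‖∑ j ∈ Finset.range N, c j r‖ ^ 2) -
    ∫ r in (-T)..T, ∑ j ∈ Finset.range N, ‖c j r‖ ^ 2)
  have h6 : |(∫ r in (-T)..T, ‖∑ j ∈ Finset.range N, c j r‖ ^ 2) -
      ∫ r in (-T)..T, ∑ j ∈ Finset.range N, ‖c j r‖ ^ 2| ≤
      2 * Real.pi / ε * ∑ j ∈ Finset.range N, ‖y j‖ ^ 2 := by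
    rw [div_mul_eq_mul_div, le_div_iff₀ hε]
    linarith
  change ∫ r in (-T)..T, ‖∑ j ∈ Finset.range N, c j r‖ ^ 2 ≤ _
  linarith

end Vale.Agent.P365
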