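import Vale.Agent.P365.Stm

/-! Mean ergodic theorem for a random stationary curve. -/

open MeasureTheory Filter Topology Set
open scoped InnerProductSpace

namespace Vale.Agent.P365

namespace Erg

variable {X E : Type} [MeasurableSpace X] {μ : Measure X} [NormedAddCommGroup E]

theorem sub2 {f g : ℕ → Lp E 2 μ} {y : Lp E 2 μ} (hf : Tendsto f atTop (𝓝 y))
    (hg : Tendsto g atTop (𝓝 y)) : ∃ φ : ℕ → ℕ, StrictMono φ ∧
      ∀ᵐ ω ∂μ, Tendsto (fun n => f (φ n) ω) atTop (𝓝 (y ω)) ∧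
        Tendsto (fun n => g (φ n) ω) atTop (𝓝 (y ω)) := by
  obtain ⟨a, ha, h1⟩ := (tendstoInMeasure_of_tendsto_Lp hf).exists_seq_tendsto_ae
  obtain ⟨b, hb, h2⟩ :=
    (tendstoInMeasure_of_tendsto_Lp (hg.comp ha.tendsto_atTop)).exists_seq_tendsto_ae
  refine ⟨a ∘ b, ha.comp hb, ?_⟩
  filter_upwards [h1, h2] with ω k1 k2
  exact ⟨k1.comp hb.tendsto_atTop, k2⟩

theorem nsq [InnerProductSpace ℂ E] (f : Lp E 2 μ) : ∫ ω, ‖f ω‖ ^ 2 ∂μ = ‖f‖ ^ 2 := by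
  have h := L2.inner_def (𝕜 := ℂ) f f
  simp only [inner_self_eq_norm_sq_to_K] at h
  have e : ∫ ω, ((‖f ω‖ ^ 2 : ℝ) : ℂ) ∂μ = ((∫ ω, ‖f ω‖ ^ 2 ∂μ : ℝ) : ℂ) := integral_ofReal
  have e2 : ((∫ ω, ‖f ω‖ ^ 2 ∂μ : ℝ) : ℂ) = ((‖f‖ ^ 2 : ℝ) : ℂ) := by
    rw [← e]
    push_cast
    exact h.symm
  exact_mod_cast e2

end Erg

theorem s_erg : S_stat → S_lp → S_erg := by
  intro hs hl E _ _ _ d ξ M hc hM hst
  obtain ⟨Ξ, hΞ, he, hi⟩ := hl E d ξ M hc hM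
  have hin : ∀ r r' : ℝ, ⟪Ξ r, Ξ r'⟫_ℂ = ∫ ω, ⟪ξ r ω, ξ r' ω⟫_ℂ ∂(PP d) := fun r r' => by
    rw [L2.inner_def]
    refine integral_congr_ae ?_
    filter_upwards [he r, he r'] with ω h1 h2
    rw [h1, h2]
  obtain ⟨y, hy1, hy2⟩ := hs (Lp E 2 (PP d)) Ξ hΞ fun r r' a => by rw [hin, hin, hst]
  obtain ⟨φ, hφ, hae⟩ := Erg.sub2 (hy1.comp tendsto_natCast_atTop_atTop)
    (hy2.comp tendsto_natCast_atTop_atTop)
  have key : ∀ᵐ ω ∂(PP d),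
      Tendsto (fun n => iavg (fun r => ξ r ω) ((φ n : ℕ) : ℝ)) atTop (𝓝 (y ω)) ∧
        Tendsto (fun n => iavg (fun r => ξ r ω) (-((φ n : ℕ) : ℝ))) atTop (𝓝 (y ω)) := by
    filter_upwards [hae, ae_all_iff.2 fun n : ℕ => hi ((φ n : ℕ) : ℝ),
      ae_all_iff.2 fun n : ℕ => hi (-((φ n : ℕ) : ℝ))] with ω h h1 h2
    exact ⟨h.1.congr h1, h.2.congr h2⟩
  refine ⟨fun n => ((φ n : ℕ) : ℝ), tendsto_natCast_atTop_atTop.comp hφ.tendsto_atTop,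
    key.mono fun ω h => ⟨y ω, h⟩, fun h0 => ?_⟩
  have hy0 : y = 0 := by
    rw [Lp.eq_zero_iff_ae_eq_zero]
    filter_upwards [key, h0] with ω h1 h2
    exact tendsto_nhds_unique h1.1 h2
  have h1 := hy1.norm.pow 2
  rw [hy0, norm_zero, zero_pow two_ne_zero] at h1
  refine h1.congr fun τ => ?_
  rw [← Erg.nsq]
  refine integral_congr_ae ?_
  filter_upwards [hi τ] with ω h
  rw [h]

end Vale.Agent.P365
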