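import Vale.Agent.P365.Stm

/-! Almost sure existence of the limit operator. -/

open MeasureTheory Filter Topology Set
open scoped InnerProductSpace

namespace Vale.Agent.P365

namespace Good

theorem map_avg {E : Type} [NormedAddCommGroup E] [InnerProductSpace ℂ E] [CompleteSpace E]
    {A B V T : E →L[ℂ] E} (h : ∀ v, T (A v) = B (T v)) (hV : ∀ v, T (V v) = V (T v)) (t : ℝ)
    (v : E) : T (avg A V t v) = avg B V t (T v) := by
  unfold avg
  rw [map_iavg T (continuous_heis A V v)]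
  simp only [U_intertwine h, hV]

theorem shift_dlt {d : ℕ} {T : Site d → L2 d →L[ℂ] L2 d} (hT : IsShift T) (x : Site d) :
    T (-x) (dlt 0) = dlt x := by
  ext y
  rw [hT]
  simp only [dlt, lp.single_apply, Pi.single_apply, add_neg_eq_zero]

theorem sh_sh {d : ℕ} (x : Site d) (ω : Site d → ℝ) : sh (-x) (sh x ω) = ω := by
  funext y
  simp [sh]

theorem clip_le (s : ℝ) : |clip s| ≤ 1 :=
  abs_le.2 ⟨le_max_left _ _, max_le (by norm_num) (min_le_left _ _)⟩

end Good

theorem s_good : S_shift → S_cov → S_sinv → S_ext → S_model → S_good := by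
  intro h1 h2 h3 h4 h5 d lam H i V t hH hV hae
  obtain ⟨T, hT, -, -⟩ := h1 d
  obtain ⟨c1, -, c2, -⟩ := h2 d lam T H hT hH
  have e : ∀ (x : Site d) (ω : Site d → ℝ) (τ : ℝ),
      T (-x) (avg (H (sh x ω)) V τ (dlt 0)) = avg (H ω) V τ (dlt x) := by
    intro x ω τ
    rw [Good.map_avg (c1.2.2 (-x) (sh x ω)) ((c2 i V hV).2.2 (-x) ω), Good.sh_sh,
      Good.shift_dlt hT]
  have key : ∀ᵐ ω ∂(PP d), ∀ x : Site d, ∃ y : L2 d,
      Tendsto (fun n => avg (H ω) V (t n) (dlt x)) atTop (𝓝 y) ∧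
        Tendsto (fun n => avg (H ω) V (-(t n)) (dlt x)) atTop (𝓝 y) := by
    refine ae_all_iff.2 fun x => ?_
    filter_upwards [(h3 d x).quasiMeasurePreserving.ae hae] with ω ⟨y, a1, a2⟩
    exact ⟨T (-x) y, (((T (-x)).continuous.tendsto y).comp a1).congr fun n => e x ω _,
      (((T (-x)).continuous.tendsto y).comp a2).congr fun n => e x ω _⟩
  filter_upwards [key] with ω hω
  exact h4 d (H ω) V t ((h5 d lam).2.1 _ _ (fun x => Good.clip_le (ω x)) (hH ω)).1 hω

end Vale.Agent.P365
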