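import Vale.Agent.P365.Stm

/-! P365: strong continuity in the potential. -/

open Filter Topology

namespace Vale.Agent.P365

theorem Hcont.sq {d : ℕ} (φ : L2 d) : HasSum (fun x => ‖φ x‖ ^ 2) (‖φ‖ ^ 2) := by
  simpa using lp.hasSum_norm (p := 2) (by simp) φ

theorem s_hcont : S_hcont := fun d lam H hH ψ => continuous_iff_continuousAt.2 fun ω0 => by
  have e : ∀ ω x, (H ω ψ - H ω0 ψ) x = ((lam * (clip (ω x) - clip (ω0 x)) : ℝ) : ℂ) * ψ x :=
    fun ω x => by
    rw [lp.coeFn_sub, Pi.sub_apply, hH ω ψ x, hH ω0 ψ x]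
    push_cast
    ring
  have b : ∀ s, |clip s| ≤ 1 := fun s =>
    abs_le.2 ⟨le_max_left _ _, max_le (by norm_num) (min_le_left _ _)⟩
  have c : Continuous fun ω => ∑' x, ‖(H ω ψ - H ω0 ψ) x‖ ^ 2 := by
    simp only [e]
    refine continuous_tsum (fun x => by unfold clip; fun_prop)
      ((Hcont.sq ψ).summable.mul_left ((|lam| * 2) ^ 2)) fun x ω => ?_
    rw [Real.norm_of_nonneg (sq_nonneg _), norm_mul, mul_pow, Complex.norm_real, Real.norm_eq_abs,
      abs_mul]
    gcongr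
    linarith [abs_sub (clip (ω x)) (clip (ω0 x)), b (ω x), b (ω0 x)]
  simp only [(Hcont.sq _).tsum_eq] at c
  rw [ContinuousAt, tendsto_iff_norm_sub_tendsto_zero]
  simpa using c.sqrt.tendsto ω0

end Vale.Agent.P365
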