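import Vale.Agent.P365.Stm

/-! A conjugation gives the time reversal antisymmetry. -/

open MeasureTheory Filter Topology Set
open scoped InnerProductSpace

namespace Vale.Agent.P365

namespace Jconj

variable {E : Type} [NormedAddCommGroup E] [InnerProductSpace ℂ E] [CompleteSpace E]

omit [CompleteSpace E] in
theorem exists_clm (J : E → E) (hadd : ∀ v w, J (v + w) = J v + J w)
    (hsm : ∀ (c : ℂ) v, J (c • v) = (starRingEnd ℂ) c • J v)
    (hin : ∀ v w, ⟪J v, J w⟫_ℂ = ⟪w, v⟫_ℂ) : ∃ L : E →L[ℝ] E, ∀ v, L v = J v := by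
  have hn : ∀ v, ‖J v‖ ≤ 1 * ‖v‖ := by
    intro v
    rw [one_mul, @norm_eq_sqrt_re_inner ℂ, hin, ← @norm_eq_sqrt_re_inner ℂ]
  have hr : ∀ (c : ℝ) v, J (c • v) = c • J v := by
    intro c v
    rw [← Complex.coe_smul, hsm, Complex.conj_ofReal, Complex.coe_smul]
  let L : E →ₗ[ℝ] E := { toFun := J, map_add' := hadd, map_smul' := hr }
  exact ⟨L.mkContinuous 1 hn, fun _ => rfl⟩

theorem J_U (A : E →L[ℂ] E) (J : E → E) (hadd : ∀ v w, J (v + w) = J v + J w)
    (hsm : ∀ (c : ℂ) v, J (c • v) = (starRingEnd ℂ) c • J v)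
    (hin : ∀ v w, ⟪J v, J w⟫_ℂ = ⟪w, v⟫_ℂ) (hA : ∀ v, J (A v) = A (J v)) (ψ : E) (t : ℝ) :
    J (U A t ψ) = U A (-t) (J ψ) := by
  obtain ⟨L, hL⟩ := exists_clm J hadd hsm hin
  have hd : ∀ r : ℝ, HasDerivAt (fun r : ℝ => U (-A) (-r) (L (U A r ψ))) 0 r := by
    intro r
    have h0 : HasDerivAt (fun r : ℝ => L (U A r ψ)) (L ((-Complex.I) • A (U A r ψ))) r :=
      L.hasFDerivAt.comp_hasDerivAt r (hasDerivAt_U_apply A ψ r)
    have := hasDerivAt_U_curve (-A) h0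
    have h1 : Complex.I • (-A) (L (U A r ψ)) + L ((-Complex.I) • A (U A r ψ)) = 0 := by
      rw [hL, hL, hsm, hA, map_neg, Complex.conj_I, neg_neg, neg_apply, smul_neg, neg_add_cancel]
    rw [h1, map_zero] at this
    exact this
  have h2 := is_const_of_deriv_eq_zero (fun r => (hd r).differentiableAt)
    (fun r => (hd r).deriv) t 0
  simp only [neg_zero, U_zero_apply] at h2
  rw [U_neg_op, neg_neg, hL, hL] at h2
  rw [← h2, U_neg_U]

end Jconj

theorem s_J : S_J := by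
  intro E _ _ _ A V δ J _ hV hadd hsm hin hδ hA hJV r₁ r₂
  rw [← hin (V (U A r₂ δ)) (U A r₁ δ), hJV, Jconj.J_U A J hadd hsm hin hA,
    Jconj.J_U A J hadd hsm hin hA, hδ, inner_neg_left, inner_sa hV]

end Vale.Agent.P365
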