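import Vale.Agent.P365.Stm

/-! The limit operator does not couple the vector to vectors of bounded density. -/

open MeasureTheory Filter Topology Set
open scoped InnerProductSpace

namespace Vale.Agent.P365

theorem s_kill : S_orth → S_mq → S_cnt → S_kill := by
  intro hO hQ hC E _ _ _ H V Q δ ψ a b K t hH hV ht hP hK hM hL
  have hcnt := hC (fun s r => ⟪δ, U (H + ((s : ℝ) : ℂ) • Pr δ) r (Q s ψ)⟫_ℂ)
    {s | IsLim (H + ((s : ℝ) : ℂ) • Pr δ) V t (Q s)}
    (fun s _ => continuous_const.inner (continuous_U_apply _ _))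
    (fun s hs => ⟨K * ‖V‖ ^ 2 * ‖δ‖ ^ 2, fun T hT =>
      hQ E H V (Q s) δ ψ s K t hH hV ht hP hK hM hs δ T hT⟩)
    (fun s hs s' hs' hne => hO E H V (Q s) (Q s') δ ψ s s' K t hH hV ht hP hK hM hne hs hs')
  have hnull := (hcnt.ae_notMem (volume.restrict (Set.Ioc a b)))
  filter_upwards [hL, hnull] with s hs hn
  by_contra hne
  apply hn
  refine ⟨hs, ?_⟩
  simpa only [U_zero_apply] using hne

end Vale.Agent.P365
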