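import Vale.Agent.P365.Stm

/-! Properties of the limit operator. -/

open MeasureTheory Filter Topology Set
open scoped InnerProductSpace

namespace Vale.Agent.P365

namespace Lim

variable {E : Type} [NormedAddCommGroup E] [InnerProductSpace ℂ E] [CompleteSpace E]

theorem avg_symm {A V : E →L[ℂ] E} (hA : IsSelfAdjoint A) (hV : IsSelfAdjoint V) (t : ℝ)
    (v w : E) : ⟪avg A V t v, w⟫_ℂ = ⟪v, avg A V t w⟫_ℂ := by
  rw [← inner_conj_symm, inner_avg hA, inner_avg hA, map_mul, Complex.conj_ofReal]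
  congr 1
  have hc : Continuous (fun r : ℝ => ⟪U A r w, V (U A r v)⟫_ℂ) :=
    (continuous_U_apply A w).inner (V.continuous.comp (continuous_U_apply A v))
  have h := (Complex.conjCLE : ℂ →L[ℝ] ℂ).intervalIntegral_comp_comm
    (hc.intervalIntegrable (μ := volume) 0 t)
  have h' : (starRingEnd ℂ) (∫ r in (0 : ℝ)..t, ⟪U A r w, V (U A r v)⟫_ℂ) =
      ∫ r in (0 : ℝ)..t, (starRingEnd ℂ) ⟪U A r w, V (U A r v)⟫_ℂ := h.symm
  rw [h']
  congr 1
  funext r
  rw [inner_conj_symm, inner_sa hV]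

omit [CompleteSpace E] in
theorem shift_bound {h : ℝ → E} (hc : Continuous h) {M : ℝ} (hM : ∀ r, ‖h r‖ ≤ M) (ρ t : ℝ) :
    ‖iavg (fun r => h (r + ρ)) t - iavg h t‖ ≤ |t|⁻¹ * (2 * (M * |ρ|)) := by
  unfold iavg
  rw [← smul_sub, norm_smul, Real.norm_eq_abs, abs_inv]
  refine mul_le_mul_of_nonneg_left ?_ (by positivity)
  rw [intervalIntegral.integral_comp_add_right h ρ, zero_add]
  have e1 := intervalIntegral.integral_add_adjacent_intervals
    (hc.intervalIntegrable (μ := volume) 0 ρ) (hc.intervalIntegrable (μ := volume) ρ (t + ρ))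
  have e2 := intervalIntegral.integral_add_adjacent_intervals
    (hc.intervalIntegrable (μ := volume) 0 t) (hc.intervalIntegrable (μ := volume) t (t + ρ))
  have e3 : (∫ x in ρ..t + ρ, h x) - ∫ x in (0 : ℝ)..t, h x =
      (∫ x in t..t + ρ, h x) - ∫ x in (0 : ℝ)..ρ, h x := by
    rw [sub_eq_sub_iff_add_eq_add, add_comm (∫ x in ρ..t + ρ, h x), e1,
      add_comm (∫ x in t..t + ρ, h x), e2]
  rw [e3]
  have b1 : ‖∫ x in t..t + ρ, h x‖ ≤ M * |t + ρ - t| :=
    intervalIntegral.norm_integral_le_of_norm_le_const (fun x _ => hM x)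
  have b2 : ‖∫ x in (0 : ℝ)..ρ, h x‖ ≤ M * |ρ - 0| :=
    intervalIntegral.norm_integral_le_of_norm_le_const (fun x _ => hM x)
  rw [add_sub_cancel_left] at b1
  rw [sub_zero] at b2
  have := norm_sub_le (∫ x in t..t + ρ, h x) (∫ x in (0 : ℝ)..ρ, h x)
  linarith

theorem avg_U {A : E →L[ℂ] E} (V : E →L[ℂ] E) (t ρ : ℝ) (v : E) :
    avg A V t (U A ρ v) =
      U A ρ (iavg (fun r => U A (-(r + ρ)) (V (U A (r + ρ) v))) t) := by
  have hc : Continuous (fun r : ℝ => U A (-(r + ρ)) (V (U A (r + ρ) v))) :=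
    (continuous_heis A V v).comp (continuous_add_const ρ)
  rw [map_iavg _ hc]
  unfold avg
  congr 1
  funext r
  rw [← U_add_apply A r ρ v, ← U_add_apply A ρ]
  congr 2
  ring

theorem comm_bound {A : E →L[ℂ] E} (hA : IsSelfAdjoint A) (V : E →L[ℂ] E) (t ρ : ℝ) (v : E) :
    ‖avg A V t (U A ρ v) - U A ρ (avg A V t v)‖ ≤ |t|⁻¹ * (2 * ((‖V‖ * ‖v‖) * |ρ|)) := by
  rw [avg_U, ← map_sub, norm_U hA]
  refine shift_bound (h := fun r => U A (-r) (V (U A r v))) (continuous_heis A V v) ?_ ρ t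
  intro r
  rw [norm_U hA]
  refine (V.le_opNorm _).trans (le_of_eq ?_)
  rw [norm_U hA]

end Lim

theorem s_lim : S_lim := by
  intro E _ _ _ A V Q t hA hV ht hQ
  refine ⟨fun v => ?_, fun v w => ?_, fun ρ v => ?_⟩
  · exact le_of_tendsto' (hQ v).1.norm (fun n => norm_avg_le hA V (t n) v)
  · have h1 : Tendsto (fun n => ⟪avg A V (t n) v, w⟫_ℂ) atTop (𝓝 ⟪Q v, w⟫_ℂ) :=
      (hQ v).1.inner tendsto_const_nhds
    have h2 : Tendsto (fun n => ⟪v, avg A V (t n) w⟫_ℂ) atTop (𝓝 ⟪v, Q w⟫_ℂ) :=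
      tendsto_const_nhds.inner (hQ w).1
    refine tendsto_nhds_unique h1 ?_
    simpa only [Lim.avg_symm hA hV] using h2
  · have h1 : Tendsto (fun n => avg A V (t n) (U A ρ v) - U A ρ (avg A V (t n) v)) atTop
        (𝓝 (Q (U A ρ v) - U A ρ (Q v))) :=
      (hQ _).1.sub (((U A ρ).continuous.tendsto _).comp (hQ v).1)
    have h2 : Tendsto (fun n => avg A V (t n) (U A ρ v) - U A ρ (avg A V (t n) v)) atTop
        (𝓝 0) := by
      refine squeeze_zero_norm (fun n => Lim.comm_bound hA V (t n) ρ v) ?_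
      have h3 : Tendsto (fun n => |t n|⁻¹) atTop (𝓝 0) :=
        tendsto_inv_atTop_zero.comp (tendsto_abs_atTop_atTop.comp ht)
      simpa using h3.mul_const (2 * ((‖V‖ * ‖v‖) * |ρ|))
    exact sub_eq_zero.mp (tendsto_nhds_unique h1 h2)

end Vale.Agent.P365
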