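import Vale.Agent.P365.Stm

/-! A bounded continuous random curve as a curve of square integrable maps. -/

open MeasureTheory Filter Topology Set
open scoped InnerProductSpace

namespace Vale.Agent.P365

namespace LpC

theorem prob (d : ℕ) : IsProbabilityMeasure (PP d) := by
  have : IsProbabilityMeasure unif :=
    ProbabilityTheory.cond_isProbabilityMeasure_of_finite (by simp) (by simp)
  unfold PP
  infer_instance

theorem gen {E : Type} [NormedAddCommGroup E] [InnerProductSpace ℂ E] [CompleteSpace E]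
    {X : Type} [TopologicalSpace X] [SecondCountableTopology X] [MeasurableSpace X] [BorelSpace X]
    (μ : Measure X) [IsFiniteMeasure μ] (ξ : ℝ → X → E) (M : ℝ)
    (hc : Continuous (fun p : ℝ × X => ξ p.1 p.2)) (hM : ∀ r ω, ‖ξ r ω‖ ≤ M) :
    ∃ Ξ : ℝ → Lp E 2 μ, Continuous Ξ ∧ (∀ r, Ξ r =ᵐ[μ] ξ r) ∧
      ∀ t, ((iavg Ξ t : Lp E 2 μ) : X → E) =ᵐ[μ] fun ω => iavg (fun r => ξ r ω) t := by
  have hm : ∀ {f : X → E}, Continuous f → (∀ x, ‖f x‖ ≤ M) → MemLp f 2 μ :=
    fun hf hb => MemLp.of_bound hf.aestronglyMeasurable M (ae_of_all _ hb)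
  have c1 : ∀ r, Continuous (ξ r) := fun r => hc.comp (Continuous.prodMk_right r)
  have c2 : ∀ ω, Continuous (fun r => ξ r ω) := fun ω => hc.comp (Continuous.prodMk_left ω)
  obtain ⟨Ξ, hΞ⟩ : ∃ Ξ : ℝ → Lp E 2 μ, ∀ r, Ξ r =ᵐ[μ] ξ r :=
    ⟨fun r => (hm (c1 r) (hM r)).toLp (ξ r), fun r => MemLp.coeFn_toLp _⟩
  have hcont : Continuous Ξ := by
    refine continuous_iff_continuousAt.2 fun s => tendsto_iff_norm_sub_tendsto_zero.2 ?_
    have e : ∀ r, ⟪Ξ r - Ξ s, Ξ r - Ξ s⟫_ℂ = ∫ ω, ⟪ξ r ω - ξ s ω, ξ r ω - ξ s ω⟫_ℂ ∂μ := by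
      intro r
      rw [MeasureTheory.L2.inner_def]
      refine integral_congr_ae ?_
      filter_upwards [Lp.coeFn_sub (Ξ r) (Ξ s), hΞ r, hΞ s] with ω h1 h2 h3
      rw [h1, Pi.sub_apply, h2, h3]
    have k : Continuous (fun r => ∫ ω, ⟪ξ r ω - ξ s ω, ξ r ω - ξ s ω⟫_ℂ ∂μ) := by
      refine continuous_of_dominated (bound := fun _ => (M + M) * (M + M))
        (fun r => (((c1 r).sub (c1 s)).inner ((c1 r).sub (c1 s))).aestronglyMeasurable)
        (fun r => ae_of_all _ fun ω => ?_) (integrable_const _)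
        (ae_of_all _ fun ω => ((c2 ω).sub continuous_const).inner ((c2 ω).sub continuous_const))
      have b : ‖ξ r ω - ξ s ω‖ ≤ M + M := (norm_sub_le _ _).trans (add_le_add (hM r ω) (hM s ω))
      exact (norm_inner_le_norm _ _).trans (mul_self_le_mul_self (norm_nonneg _) b)
    have k2 := ((RCLike.continuous_re.comp k).sqrt).tendsto s
    simp only [Function.comp_def, ← e, ← @norm_eq_sqrt_re_inner ℂ, sub_self, norm_zero] at k2
    exact k2
  refine ⟨Ξ, hcont, hΞ, fun t => ?_⟩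
  have cg : Continuous (fun ω => iavg (fun r => ξ r ω) t) :=
    continuous_iavg (f := fun ω r => ξ r ω) (hc.comp continuous_swap) t
  have bg : ∀ ω, ‖iavg (fun r => ξ r ω) t‖ ≤ M := fun ω =>
    norm_iavg_le ((norm_nonneg _).trans (hM 0 ω)) t fun r _ => hM r ω
  have e : iavg Ξ t = (hm cg bg).toLp _ := by
    refine ext_inner_left ℂ fun η => ?_
    have e1 : ∀ r, ⟪η, Ξ r⟫_ℂ = ∫ ω, ⟪η ω, ξ r ω⟫_ℂ ∂μ := by
      intro r
      rw [MeasureTheory.L2.inner_def]
      refine integral_congr_ae ?_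
      filter_upwards [hΞ r] with ω h
      rw [h]
    have e2 : ⟪η, (hm cg bg).toLp _⟫_ℂ =
        ∫ ω, ((t⁻¹ : ℝ) : ℂ) * ∫ r in (0 : ℝ)..t, ⟪η ω, ξ r ω⟫_ℂ ∂volume ∂μ := by
      rw [MeasureTheory.L2.inner_def]
      refine integral_congr_ae ?_
      filter_upwards [MemLp.coeFn_toLp (hm cg bg)] with ω h
      rw [h, inner_iavg (c2 ω)]
    have hi : Integrable (Function.uncurry fun r ω => ⟪η ω, ξ r ω⟫_ℂ)
        ((volume.restrict (Set.uIoc (0 : ℝ) t)).prod μ) := by
      have : IsFiniteMeasure (volume.restrict (Set.uIoc (0 : ℝ) t)) :=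
        isFiniteMeasure_restrict.2 (by rw [Set.uIoc]; exact measure_Ioc_lt_top.ne)
      have i1 : Integrable (fun ω => ‖η ω‖ * M) μ :=
        (((Lp.memLp η).integrable one_le_two).norm).mul_const M
      refine (i1.comp_snd _).mono'
        (((Lp.aestronglyMeasurable η).comp_snd).inner hc.aestronglyMeasurable)
        (ae_of_all _ fun p => ?_)
      exact (norm_inner_le_norm _ _).trans
        (mul_le_mul_of_nonneg_left (hM p.1 p.2) (norm_nonneg _))
    rw [inner_iavg hcont, e2, integral_const_mul, ← intervalIntegral_integral_swap hi]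
    simp only [e1]
  rw [e]
  exact MemLp.coeFn_toLp _

end LpC

theorem s_lp : S_lp := by
  intro E _ _ _ d ξ M hc hM
  have := LpC.prob d
  exact LpC.gen (PP d) ξ M hc hM

end Vale.Agent.P365
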