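import Vale.Agent.P365.Stm

/-! Assembly of the final statement from the velocity estimate. -/

open MeasureTheory Filter Topology Set
open scoped InnerProductSpace

namespace Vale.Agent.P365

namespace MainA

theorem abs_clip (s : ℝ) : |clip s| ≤ 1 := by
  unfold clip
  rw [abs_le]
  exact ⟨le_max_left _ _, max_le (by norm_num) (min_le_left _ _)⟩

theorem clip_eq {s : ℝ} (h : s ∈ Set.Icc (-1 : ℝ) 1) : clip s = s := by
  unfold clip
  rw [min_eq_right h.2, max_eq_right h.1]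

theorem and_ext {d : ℕ} {lam : ℝ} {ω : Site d → ℝ} {H H' : L2 d →L[ℂ] L2 d}
    (h : IsAnderson lam ω H) (h' : IsAnderson lam ω H') : H = H' := by
  refine ContinuousLinearMap.ext (fun ψ => ?_)
  refine lp.ext (funext (fun x => ?_))
  exact (h ψ x).trans (h' ψ x).symm

/-- Bounding the series by the finite sums. -/
theorem tsum_bound {d : ℕ} (a : Site d → ℝ) (b : Fin d → ℝ) (c : ℝ) (ha : ∀ x, 0 ≤ a x)
    (h : ∀ (i : Fin d) (F : Finset (Site d)), ∑ x ∈ F, ((x i : ℤ) : ℝ) ^ 2 * a x ≤ c * b i) :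
    ∑' x : Site d, ENNReal.ofReal ((∑ i : Fin d, ((x i : ℤ) : ℝ) ^ 2) * a x) ≤
      ENNReal.ofReal (c * ∑ i : Fin d, b i) := by
  rw [ENNReal.tsum_eq_iSup_sum]
  refine iSup_le (fun F => ?_)
  rw [← ENNReal.ofReal_sum_of_nonneg (fun x _ => mul_nonneg
    (Finset.sum_nonneg (fun i _ => sq_nonneg _)) (ha x))]
  refine ENNReal.ofReal_le_ofReal ?_
  simp only [Finset.sum_mul, Finset.mul_sum]
  rw [Finset.sum_comm]
  exact Finset.sum_le_sum (fun i _ => h i F)

/-- The abstract squeeze. -/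
theorem squeeze {X : Type} [MeasurableSpace X] (μ : Measure X) {d : ℕ} (f : ℝ → X → ENNReal)
    (g : Fin d → ℝ → X → ℝ) (hg : ∀ i t x, 0 ≤ g i t x) (hi : ∀ i t, Integrable (g i t) μ)
    (hl : ∀ i, Tendsto (fun t => ∫ x, g i t x ∂μ) atTop (𝓝 0))
    (hf : ∀ t, ∀ᵐ x ∂μ, f t x ≤ ENNReal.ofReal (t ^ 2 * ∑ i, g i t x)) :
    Tendsto (fun t : ℝ => (∫⁻ x, f t x ∂μ) / ENNReal.ofReal (t ^ 2)) atTop (𝓝 0) := by
  have h1 : Tendsto (fun t => ∑ i, ∫ x, g i t x ∂μ) atTop (𝓝 0) := by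
    have := tendsto_finsetSum (Finset.univ : Finset (Fin d)) (fun i _ => hl i)
    simpa using this
  have h2 : Tendsto (fun t => ENNReal.ofReal (∑ i, ∫ x, g i t x ∂μ)) atTop (𝓝 0) := by
    have := ENNReal.tendsto_ofReal h1
    simpa using this
  refine tendsto_of_tendsto_of_tendsto_of_le_of_le' tendsto_const_nhds h2
    (Eventually.of_forall (fun _ => zero_le)) ?_
  filter_upwards [eventually_gt_atTop (0 : ℝ)] with t ht
  have hint : Integrable (fun x => ∑ i, g i t x) μ := integrable_finsetSum _ (fun i _ => hi i t)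
  have h3 : ∫⁻ x, f t x ∂μ ≤ ENNReal.ofReal (t ^ 2) * ENNReal.ofReal (∑ i, ∫ x, g i t x ∂μ) := by
    refine (lintegral_mono_ae (hf t)).trans (le_of_eq ?_)
    rw [← ofReal_integral_eq_lintegral_ofReal (hint.const_mul _)
      (Eventually.of_forall (fun x => mul_nonneg (sq_nonneg _)
        (Finset.sum_nonneg (fun i _ => hg i t x)))), integral_const_mul,
      integral_finsetSum _ (fun i _ => hi i t), ENNReal.ofReal_mul (sq_nonneg _)]
  exact ENNReal.div_le_of_le_mul' h3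

end MainA

theorem s_main : S_vel → S_pos → S_model → S_slice → S_main := by
  intro hvel hpos hmodel hslice d lam hlam H hH
  obtain ⟨hex, hsa, hV, -⟩ := hmodel d lam
  choose Hc hHc using fun ω : Site d → ℝ =>
    hex (fun x => clip (ω x)) (fun x => MainA.abs_clip (ω x))
  choose V hV using hV
  have hfam : IsFam lam Hc := hHc
  refine MainA.squeeze (PP d) _ (fun i t ω => ‖avg (Hc ω) (V i) t (dlt 0)‖ ^ 2)
    (fun i t ω => sq_nonneg _) (fun i t => (hvel d lam Hc i (V i) hlam hfam (hV i)).1 t)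
    (fun i => (hvel d lam Hc i (V i) hlam hfam (hV i)).2) (fun t => ?_)
  filter_upwards [(hslice d).2.2] with ω hω
  have hc : (fun x => clip (ω x)) = ω := funext (fun x => MainA.clip_eq (hω x))
  have h1 : IsAnderson lam ω (Hc ω) := by
    have := hHc ω
    rwa [hc] at this
  have h2 : H ω = Hc ω := MainA.and_ext (hH ω hω) h1
  have h3 : IsSelfAdjoint (Hc ω) := (hsa ω (Hc ω) (fun x => abs_le.mpr (hω x)) h1).1
  rw [h2]
  exact MainA.tsum_bound (fun x => ‖(U (Hc ω) t (dlt 0)) x‖ ^ 2)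
    (fun i => ‖avg (Hc ω) (V i) t (dlt 0)‖ ^ 2) (t ^ 2) (fun x => sq_nonneg _)
    (fun i F => hpos d lam ω (Hc ω) (V i) i t F h1 h3 (hV i))

end Vale.Agent.P365
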