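import Vale.Agent.P365.Stm

/-! Measurability of the limit operator in the coupling. -/

open MeasureTheory Filter Topology Set
open scoped InnerProductSpace

namespace Vale.Agent.P365

namespace Meas

variable {E : Type} [NormedAddCommGroup E] [InnerProductSpace ℂ E] [CompleteSpace E]

theorem cont (H V : E →L[ℂ] E) (δ v : E) (t : ℝ) :
    Continuous (fun s : ℝ => avg (H + ((s : ℝ) : ℂ) • Pr δ) V t v) := by
  unfold avg
  refine continuous_iavg (f := fun (s : ℝ) (r : ℝ) =>
    U (H + ((s : ℝ) : ℂ) • Pr δ) (-r) (V (U (H + ((s : ℝ) : ℂ) • Pr δ) r v))) ?_ t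
  have hA : Continuous (fun p : ℝ × ℝ => H + ((p.1 : ℝ) : ℂ) • Pr δ) :=
    continuous_const.add ((Complex.continuous_ofReal.comp continuous_fst).smul continuous_const)
  have h1 : Continuous (fun p : ℝ × ℝ => U (H + ((p.1 : ℝ) : ℂ) • Pr δ) p.2) :=
    continuous_U2.comp (hA.prodMk continuous_snd)
  have h2 : Continuous (fun p : ℝ × ℝ => U (H + ((p.1 : ℝ) : ℂ) • Pr δ) (-p.2)) :=
    continuous_U2.comp (hA.prodMk continuous_snd.neg)
  exact h2.clm_apply (V.continuous.comp (h1.clm_apply continuous_const))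

end Meas

theorem s_meas : S_meas := by
  intro E _ _ _ H V Q δ v a b t h
  refine aestronglyMeasurable_of_tendsto_ae atTop
    (f := fun (n : ℕ) (s : ℝ) => avg (H + ((s : ℝ) : ℂ) • Pr δ) V (t n) v)
    (fun n => (Meas.cont H V δ v (t n)).aestronglyMeasurable) ?_
  filter_upwards [h] with s hs using (hs v).1

end Vale.Agent.P365
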