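import Vale.Agent.P365.Stm

/-! Existence and basic properties of the Anderson operator and of the velocity. -/

open MeasureTheory Filter Topology Set
open scoped InnerProductSpace

namespace Vale.Agent.P365

namespace Model

variable {d : ℕ}

theorem ext2 {A B : L2 d →L[ℂ] L2 d} (h : ∀ (ψ : L2 d) (x : Site d), (A ψ) x = (B ψ) x) : A = B :=
  ContinuousLinearMap.ext fun ψ => lp.ext (funext (h ψ))

theorem sa_of {A : L2 d →L[ℂ] L2 d} (h : ∀ ψ φ, ⟪A ψ, φ⟫_ℂ = ⟪ψ, A φ⟫_ℂ) : IsSelfAdjoint A :=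
  ContinuousLinearMap.isSelfAdjoint_iff_isSymmetric.2 h

theorem mul_sym {G : L2 d →L[ℂ] L2 d} {g : Site d → ℝ}
    (h : ∀ (ψ : L2 d) (x : Site d), (G ψ) x = (g x : ℂ) * ψ x) (ψ φ : L2 d) :
    ⟪G ψ, φ⟫_ℂ = ⟪ψ, G φ⟫_ℂ := by
  rw [lp.inner_eq_tsum, lp.inner_eq_tsum]
  refine tsum_congr fun x => ?_
  rw [h, h]
  simp only [RCLike.inner_apply, map_mul, Complex.conj_ofReal]
  ring

theorem sum_apply' (T : Fin d → L2 d →L[ℂ] L2 d) (ψ : L2 d) (x : Site d) :
    ((∑ i, T i) ψ) x = ∑ i, (T i ψ) x := by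
  rw [ContinuousLinearMap.sum_apply, lp.coeFn_sum, Finset.sum_apply]

end Model

open Model in
theorem s_model : S_mul → S_shift → S_model := by
  intro hm hs d lam
  obtain ⟨T, hT, hn, ha⟩ := hs d
  have hT1 : ∀ x, ‖T x‖ ≤ 1 := fun x =>
    ContinuousLinearMap.opNorm_le_bound _ zero_le_one fun ψ => by rw [hn, one_mul]
  have key : ∀ ω : Site d → ℝ, (∀ x, |ω x| ≤ 1) → ∃ H, IsAnderson lam ω H ∧ IsSelfAdjoint H ∧
      ‖H‖ ≤ 2 * d + |lam| := by
    intro ω hω
    obtain ⟨G, hG, hG'⟩ := hm d (fun x => ((lam * ω x : ℝ) : ℂ)) |lam| (abs_nonneg _) fun x => by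
      rw [Complex.norm_real, Real.norm_eq_abs, abs_mul]
      exact mul_le_of_le_one_right (abs_nonneg _) (hω x)
    refine ⟨∑ i : Fin d, (T (Pi.single i 1) + T (-Pi.single i 1)) + G, fun ψ x => ?_,
      sa_of fun ψ φ => ?_, ?_⟩
    · rw [add_apply, lp.coeFn_add, Pi.add_apply, sum_apply', hG']
      congr 1
      refine Finset.sum_congr rfl fun i _ => ?_
      rw [add_apply, lp.coeFn_add, Pi.add_apply, hT, hT, sub_eq_add_neg]
    · rw [add_apply, add_apply, inner_add_left, inner_add_right, mul_sym hG',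
        ContinuousLinearMap.sum_apply, ContinuousLinearMap.sum_apply, sum_inner, inner_sum]
      congr 1
      refine Finset.sum_congr rfl fun i _ => ?_
      rw [add_apply, add_apply, inner_add_left, inner_add_right, ha, ha, neg_neg, add_comm]
    · refine (norm_add_le _ _).trans (add_le_add ((norm_sum_le _ _).trans ?_) hG)
      have : ∀ i : Fin d, ‖T (Pi.single i 1) + T (-Pi.single i 1)‖ ≤ 2 := fun i =>
        (norm_add_le _ _).trans (by linarith [hT1 (Pi.single i 1), hT1 (-Pi.single i 1)])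
      refine (Finset.sum_le_sum fun i _ => this i).trans ?_
      simp [mul_comm]
  have vel : ∀ i : Fin d, ∃ V, IsVel i V ∧ IsSelfAdjoint V := by
    intro i
    refine ⟨Complex.I • (T (Pi.single i 1) - T (-Pi.single i 1)), fun ψ x => ?_,
      sa_of fun ψ φ => ?_⟩
    · rw [smul_apply, lp.coeFn_smul, Pi.smul_apply, sub_apply, lp.coeFn_sub, Pi.sub_apply, hT, hT,
        smul_eq_mul, ← sub_eq_add_neg]
    · rw [smul_apply, smul_apply, inner_smul_left, inner_smul_right, sub_apply, sub_apply,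
        inner_sub_left, inner_sub_right, ha, ha, neg_neg, Complex.conj_I]
      ring
  refine ⟨fun ω hω => (key ω hω).imp fun H h => h.1, fun ω H hω hH => ?_,
    fun i => (vel i).imp fun V h => h.1, fun i V hV => ?_⟩
  · obtain ⟨H', h1, h2⟩ := key ω hω
    rw [ext2 (A := H) (B := H') fun ψ x => by rw [hH, h1]]
    exact h2
  · obtain ⟨V', h1, h2⟩ := vel i
    rw [ext2 (A := V) (B := V') fun ψ x => by rw [hV, h1]]
    exact h2

end Vale.Agent.P365
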