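import Vale.Agent.P365.Stm

/-! The limit operator keeps bounded spectral density. -/

open MeasureTheory Filter Topology Set
open scoped InnerProductSpace

namespace Vale.Agent.P365

theorem s_mq : S_lim → S_mq := by
  intro hl E _ _ _ H V Q δ ψ s K t hH hV ht hp hK hM hQ v T hT
  obtain ⟨h1, h2, h3⟩ := hl E _ V Q t (add_Pr_sa hH δ s) hV ht hQ
  have e : ∀ r : ℝ, ⟪v, U (H + (s : ℂ) • Pr δ) r (Q ψ)⟫_ℂ = ⟪Q v, U H r ψ⟫_ℂ := fun r => by
    rw [← h3, ← h2, perp_free hH hp]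
  simp only [e]
  refine (hM (Q v) T hT).trans ?_
  rw [mul_assoc, ← mul_pow]
  exact mul_le_mul_of_nonneg_left (pow_le_pow_left₀ (norm_nonneg _) (h1 v) 2) hK

end Vale.Agent.P365
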