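import Vale.Agent.P365.Stm

/-! Multiplication operators. -/

open MeasureTheory Filter Topology Set
open scoped InnerProductSpace

namespace Vale.Agent.P365

namespace Mul

variable {d : ℕ} {g : Site d → ℂ} {C : ℝ}

theorem pt (hC : 0 ≤ C) (hg : ∀ x, ‖g x‖ ≤ C) (ψ : L2 d) (x : Site d) :
    ‖g x * ψ x‖ ≤ ‖((C : ℂ) • ψ) x‖ := by
  rw [lp.coeFn_smul, Pi.smul_apply, norm_smul, norm_mul, Complex.norm_real, Real.norm_of_nonneg hC]
  exact mul_le_mul_of_nonneg_right (hg x) (norm_nonneg _)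

/-- Multiplication as a linear map. -/
noncomputable def lin (hC : 0 ≤ C) (hg : ∀ x, ‖g x‖ ≤ C) : L2 d →ₗ[ℂ] L2 d where
  toFun ψ := ⟨fun x => g x * ψ x, (lp.memℓp ((C : ℂ) • ψ)).mono' (pt hC hg ψ)⟩
  map_add' ψ φ := lp.ext (funext fun x => mul_add (g x) (ψ x) (φ x))
  map_smul' c ψ := lp.ext (funext fun x => mul_left_comm (g x) c (ψ x))

theorem lin_le (hC : 0 ≤ C) (hg : ∀ x, ‖g x‖ ≤ C) (ψ : L2 d) : ‖lin hC hg ψ‖ ≤ C * ‖ψ‖ := by
  refine (lp.norm_mono two_ne_zero (y := (C : ℂ) • ψ) (pt hC hg ψ)).trans_eq ?_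
  rw [norm_smul, Complex.norm_real, Real.norm_of_nonneg hC]

end Mul

theorem s_mul : S_mul := fun _ _ C hC hg =>
  ⟨(Mul.lin hC hg).mkContinuous C (Mul.lin_le hC hg), LinearMap.mkContinuous_norm_le _ hC _,
    fun _ _ => rfl⟩

end Vale.Agent.P365
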