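import Vale.Agent.P365.Stm

open MeasureTheory Filter Topology Set
open scoped InnerProductSpace

namespace Vale.Agent.P365

theorem s_orth : S_pear → S_lim → S_cmp → S_mq → S_over → S_orth := by
  intro hpear hlim hcmp hmq hover E _ _ _ H V Q Q' δ ψ s s' K t hH hV ht hp hK hM hss hQ hQ'
  have hA := add_Pr_sa hH δ s
  have hB := add_Pr_sa hH δ s'
  have hb := hmq E H V Q δ ψ s K t hH hV ht hp hK hM hQ
  have lA := (hlim E _ V Q t hA hV ht hQ).2.2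
  have lB := (hlim E _ V Q' t hB hV ht hQ').2.2
  have eB : H + (s : ℂ) • Pr δ + ((s' - s : ℝ) : ℂ) • Pr δ = H + (s' : ℂ) • Pr δ := by
    rw [add_assoc, ← add_smul]
    congr 2
    push_cast
    ring
  have key : ∀ (T η : ℝ),
      ((∀ r, 0 ≤ r → ‖U (H + (s' : ℂ) • Pr δ) r (U (H + (s : ℂ) • Pr δ) T (Q ψ)) -
          U (H + (s : ℂ) • Pr δ) r (U (H + (s : ℂ) • Pr δ) T (Q ψ))‖ ≤ η) ∨
        (∀ r, r ≤ 0 → ‖U (H + (s' : ℂ) • Pr δ) r (U (H + (s : ℂ) • Pr δ) T (Q ψ)) -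
          U (H + (s : ℂ) • Pr δ) r (U (H + (s : ℂ) • Pr δ) T (Q ψ))‖ ≤ η)) →
      ‖⟪U (H + (s : ℂ) • Pr δ) T (Q ψ), U (H + (s' : ℂ) • Pr δ) T (Q' ψ)⟫_ℂ - ⟪Q ψ, Q ψ⟫_ℂ‖
        ≤ η * (‖V‖ * ‖ψ‖) := by
    intro T η h
    have hpT : Perp H δ (U H T ψ) := fun r => by rw [← U_add_apply]; exact hp _
    have h1 := hcmp E _ _ V Q Q' t (U H T ψ) _ η hA hB ht hQ hQ'
      (fun r => by rw [perp_free hH hpT, perp_free hH hpT]) h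
    have e1 : Q' (U H T ψ) = U (H + (s' : ℂ) • Pr δ) T (Q' ψ) := by
      rw [← lB, perp_free hH hp]
    have e2 : Q (U H T ψ) = U (H + (s : ℂ) • Pr δ) T (Q ψ) := by
      rw [← lA, perp_free hH hp]
    rwa [e1, e2, inner_U_U hA, norm_U hH] at h1
  have hc : Tendsto (fun T : ℝ =>
      ⟪U (H + (s : ℂ) • Pr δ) T (Q ψ), U (H + (s' : ℂ) • Pr δ) T (Q' ψ)⟫_ℂ -
      ⟪U (H + (s : ℂ) • Pr δ) (-T) (Q ψ), U (H + (s' : ℂ) • Pr δ) (-T) (Q' ψ)⟫_ℂ)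
      atTop (𝓝 0) := by
    rw [Metric.tendsto_atTop]
    intro ε hε
    have hM0 : 0 ≤ ‖V‖ * ‖ψ‖ := by positivity
    have hd : 0 < 2 * (‖V‖ * ‖ψ‖) + 1 := by positivity
    obtain ⟨T₀, h0⟩ := hpear E _ δ (Q ψ) (s' - s) _ (ε / (2 * (‖V‖ * ‖ψ‖) + 1)) hA
      (by positivity) hb (div_pos hε hd)
    rw [eB] at h0
    refine ⟨T₀, fun T hT => ?_⟩
    have k1 := key T _ (Or.inl (h0 T hT).1)
    have k2 := key (-T) _ (Or.inr (h0 T hT).2)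
    rw [dist_zero_right]
    have k3 := norm_sub_le_norm_sub_add_norm_sub
      ⟪U (H + (s : ℂ) • Pr δ) T (Q ψ), U (H + (s' : ℂ) • Pr δ) T (Q' ψ)⟫_ℂ ⟪Q ψ, Q ψ⟫_ℂ
      ⟪U (H + (s : ℂ) • Pr δ) (-T) (Q ψ), U (H + (s' : ℂ) • Pr δ) (-T) (Q' ψ)⟫_ℂ
    rw [norm_sub_rev ⟪Q ψ, Q ψ⟫_ℂ] at k3
    have k4 : ε / (2 * (‖V‖ * ‖ψ‖) + 1) * (2 * (‖V‖ * ‖ψ‖) + 1) = ε := div_mul_cancel₀ _ hd.ne'
    have k5 := div_pos hε hd
    linarith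
  have hne : Complex.I * ((s : ℂ) - (s' : ℂ)) ≠ 0 :=
    mul_ne_zero Complex.I_ne_zero (sub_ne_zero.2 (by exact_mod_cast hss))
  have h2 := hc.const_mul (Complex.I * ((s : ℂ) - (s' : ℂ)))⁻¹
  rw [mul_zero] at h2
  refine h2.congr fun T => ?_
  rw [hover E H δ _ _ s s' T hH, inv_mul_cancel_left₀ hne]

end Vale.Agent.P365
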