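import Vale.Agent.P365.Stm

/-! The time derivative of the overlap. -/

open MeasureTheory Filter Topology Set
open scoped InnerProductSpace

namespace Vale.Agent.P365

namespace Over

variable {E : Type} [NormedAddCommGroup E] [InnerProductSpace ℂ E] [CompleteSpace E]

theorem alg {H : E →L[ℂ] E} (hH : IsSelfAdjoint H) (δ u v : E) (s s' : ℝ) :
    ⟪u, (-Complex.I) • (H + (s' : ℂ) • Pr δ) v⟫_ℂ + ⟪(-Complex.I) • (H + (s : ℂ) • Pr δ) u, v⟫_ℂ =
      (Complex.I * ((s : ℂ) - (s' : ℂ))) * ((starRingEnd ℂ) ⟪δ, u⟫_ℂ * ⟪δ, v⟫_ℂ) := by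
  simp only [ContinuousLinearMap.add_apply, ContinuousLinearMap.smul_apply, Pr_apply,
    inner_smul_left, inner_smul_right, inner_add_left, inner_add_right, inner_sa hH, map_neg,
    Complex.conj_I, Complex.conj_ofReal, inner_conj_symm]
  ring

end Over

theorem s_over : S_over := by
  intro E _ _ _ H δ b b' s s' T hH
  rw [← intervalIntegral.integral_const_mul]
  refine (intervalIntegral.integral_eq_sub_of_hasDerivAt
    (f := fun r => ⟪U (H + (s : ℂ) • Pr δ) r b, U (H + (s' : ℂ) • Pr δ) r b'⟫_ℂ)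
    (fun r _ => ?_) (Continuous.intervalIntegrable ?_ _ _)).symm
  · have := (hasDerivAt_U_apply (H + (s : ℂ) • Pr δ) b r).inner ℂ
      (hasDerivAt_U_apply (H + (s' : ℂ) • Pr δ) b' r)
    rwa [Over.alg hH] at this
  · refine continuous_const.mul (Continuous.mul (Complex.continuous_conj.comp ?_) ?_)
    · exact continuous_const.inner (continuous_U_apply _ _)
    · exact continuous_const.inner (continuous_U_apply _ _)

end Vale.Agent.P365
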