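import Vale.Agent.P365.Stm

/-! P365: the rank one Kato Rosenblum estimate in both time directions. -/

open MeasureTheory Filter Topology Set
open scoped InnerProductSpace

namespace Vale.Agent.P365

namespace Pear

variable {E : Type} [NormedAddCommGroup E] [InnerProductSpace ℂ E] [CompleteSpace E]

theorem isM_neg {A : E →L[ℂ] E} {φ : E} {K : ℝ} (h : IsM A φ K) : IsM (-A) φ K := by
  intro v T hT
  have h1 := h v T hT
  have h3 := intervalIntegral.integral_comp_neg (a := -T) (b := T)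
    (fun r : ℝ => ‖⟪v, U A r φ⟫_ℂ‖ ^ 2)
  rw [neg_neg] at h3
  simp only [U_neg_op]
  rw [h3]
  exact h1

omit [CompleteSpace E] in
theorem neg_add_Pr (A : E →L[ℂ] E) (δ : E) (κ : ℝ) :
    -A + ((-κ : ℝ) : ℂ) • Pr δ = -(A + (κ : ℂ) • Pr δ) := by
  rw [Complex.ofReal_neg, neg_smul, neg_add]

end Pear

theorem s_pear : S_pear1 → S_pear := by
  intro h E _ _ _ A δ φ κ K η hA hK hM hη
  obtain ⟨T1, h1⟩ := h E A δ φ κ K η hA hK hM hη
  obtain ⟨T2, h2⟩ := h E (-A) δ φ (-κ) K η hA.neg hK (Pear.isM_neg hM) hη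
  refine ⟨max T1 T2, fun t ht => ⟨fun r hr => h1 t r (le_trans (le_max_left _ _) ht) hr,
    fun r hr => ?_⟩⟩
  have h3 := h2 t (-r) (le_trans (le_max_right _ _) ht) (neg_nonneg.mpr hr)
  rw [Pear.neg_add_Pr] at h3
  simpa only [U_neg_op, neg_neg] using h3

end Vale.Agent.P365
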