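import Vale.Agent.P365.Stm

/-! Rank one Kato Rosenblum theorem, forward Cauchy form. -/

open MeasureTheory Filter Topology Set
open scoped InnerProductSpace

namespace Vale.Agent.P365

namespace Pear1

theorem amgm_int {x y : ℝ → ℝ} (hx : Continuous x) (hy : Continuous y) {a γ X Y : ℝ}
    (ha : 0 ≤ a) (hγ : 0 < γ) (hX : ∫ τ in (0 : ℝ)..a, x τ ^ 2 ≤ X)
    (hY : ∫ τ in (0 : ℝ)..a, y τ ^ 2 ≤ Y) :
    ∫ τ in (0 : ℝ)..a, x τ * y τ ≤ X / (2 * γ) + γ * Y / 2 := by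
  have h1 : ∫ τ in (0 : ℝ)..a, x τ * y τ ≤
      ∫ τ in (0 : ℝ)..a, ((2 * γ)⁻¹ * x τ ^ 2 + (γ / 2) * y τ ^ 2) := by
    refine intervalIntegral.integral_mono_on ha ((hx.mul hy).intervalIntegrable _ _)
      (Continuous.intervalIntegrable (by fun_prop) _ _) (fun τ _ => ?_)
    have h2 : (2 * γ)⁻¹ * x τ ^ 2 + (γ / 2) * y τ ^ 2 - x τ * y τ =
        (2 * γ)⁻¹ * (x τ - γ * y τ) ^ 2 := by
      field_simp
      ring
    have h3 : 0 ≤ (2 * γ)⁻¹ * (x τ - γ * y τ) ^ 2 := by positivity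
    linarith
  rw [intervalIntegral.integral_add (Continuous.intervalIntegrable (by fun_prop) _ _)
    (Continuous.intervalIntegrable (by fun_prop) _ _), intervalIntegral.integral_const_mul,
    intervalIntegral.integral_const_mul] at h1
  have h4 : (2 * γ)⁻¹ * ∫ τ in (0 : ℝ)..a, x τ ^ 2 ≤ (2 * γ)⁻¹ * X :=
    mul_le_mul_of_nonneg_left hX (by positivity)
  have h5 : (γ / 2) * ∫ τ in (0 : ℝ)..a, y τ ^ 2 ≤ (γ / 2) * Y :=
    mul_le_mul_of_nonneg_left hY (by positivity)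
  have h6 : X / (2 * γ) + γ * Y / 2 = (2 * γ)⁻¹ * X + (γ / 2) * Y := by ring
  linarith

theorem amgm_two {x y z w : ℝ → ℝ} (hx : Continuous x) (hy : Continuous y) (hz : Continuous z)
    (hw : Continuous w) {a γ X Y : ℝ} (ha : 0 ≤ a) (hγ : 0 < γ)
    (hX : ∫ τ in (0 : ℝ)..a, x τ ^ 2 ≤ X) (hY : ∫ τ in (0 : ℝ)..a, y τ ^ 2 ≤ Y)
    (hZ : ∫ τ in (0 : ℝ)..a, z τ ^ 2 ≤ Y) (hW : ∫ τ in (0 : ℝ)..a, w τ ^ 2 ≤ X) :
    ∫ τ in (0 : ℝ)..a, (x τ * y τ + z τ * w τ) ≤ X / γ + γ * Y := by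
  have h5 := amgm_int hx hy ha hγ hX hY
  have h6 := amgm_int hw hz ha hγ hW hZ
  have h7 : X / (2 * γ) + γ * Y / 2 + (X / (2 * γ) + γ * Y / 2) = X / γ + γ * Y := by
    field_simp
    ring
  have h8 : ∫ τ in (0 : ℝ)..a, (x τ * y τ + z τ * w τ) =
      (∫ τ in (0 : ℝ)..a, x τ * y τ) + ∫ τ in (0 : ℝ)..a, w τ * z τ := by
    rw [← intervalIntegral.integral_add (Continuous.intervalIntegrable (by fun_prop) _ _)
      (Continuous.intervalIntegrable (by fun_prop) _ _)]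
    simp only [mul_comm (w _)]
  linarith

theorem sub_int {f : ℝ → ℝ} (hf : Continuous f) (h0 : ∀ r, 0 ≤ f r) {C : ℝ}
    (hC : ∀ T, 0 ≤ T → ∫ r in (-T)..T, f r ≤ C) (p a : ℝ) (ha : 0 ≤ a) :
    ∫ τ in (0 : ℝ)..a, f (p + τ) ≤ C := by
  rw [intervalIntegral.integral_comp_add_left f p, add_zero]
  refine le_trans ?_ (hC (|p| + a) (by positivity))
  refine intervalIntegral.integral_mono_interval ?_ (by linarith) ?_
    (Eventually.of_forall (fun r => h0 r)) (hf.intervalIntegrable _ _)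
  · have := neg_abs_le p
    linarith
  · have := le_abs_self p
    linarith

theorem tail_int {f : ℝ → ℝ} {T₀ η : ℝ}
    (h : ∀ t t', T₀ ≤ t → t ≤ t' → ∫ r in t..t', f r ≤ η) (p a : ℝ) (hp : T₀ ≤ p) (ha : 0 ≤ a) :
    ∫ τ in (0 : ℝ)..a, f (p + τ) ≤ η := by
  rw [intervalIntegral.integral_comp_add_left f p, add_zero]
  exact h p (p + a) hp (by linarith)

variable {E : Type} [NormedAddCommGroup E] [InnerProductSpace ℂ E] [CompleteSpace E]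

theorem cont_amp (A : E →L[ℂ] E) (v φ : E) : Continuous (fun s : ℝ => ‖⟪v, U A s φ⟫_ℂ‖) :=
  (continuous_const.inner (continuous_U_apply A φ)).norm

theorem sq_dist {A B : E →L[ℂ] E} (hA : IsSelfAdjoint A) (hB : IsSelfAdjoint B) (φ : E)
    (t r : ℝ) : ‖U B r (U A t φ) - U A r (U A t φ)‖ ^ 2 =
      2 * ‖φ‖ ^ 2 - 2 * (⟪U B r (U A t φ), U A (r + t) φ⟫_ℂ).re := by
  rw [@norm_sub_sq ℂ, norm_U hB, norm_U hA, norm_U hA, U_add_apply, norm_U hA]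
  simp only [RCLike.re_to_complex]
  ring

theorem late {A : E →L[ℂ] E} (hA : IsSelfAdjoint A) (δ φ : E) (κ p r β η : ℝ) (hr : 0 ≤ r)
    (hβ : 0 < β) (h : ∫ τ in (0 : ℝ)..r, ‖⟪δ, U A (p + τ) φ⟫_ℂ‖ ^ 2 ≤ η) :
    ‖U (A + (κ : ℂ) • Pr δ) r (U A p φ) - U A r (U A p φ)‖ ≤
      |κ| * ‖δ‖ * (η / (2 * β) + β * r / 2) := by
  refine (duh_bound A (add_Pr_sa hA δ κ) (U A p φ) r).trans ?_
  have h1 : ∀ τ : ℝ, ‖((A + (κ : ℂ) • Pr δ) - A) (U A τ (U A p φ))‖ =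
      |κ| * ‖δ‖ * (‖⟪δ, U A (p + τ) φ⟫_ℂ‖ * 1) := by
    intro τ
    rw [add_sub_cancel_left, smul_apply, Pr_apply, norm_smul, norm_smul, Complex.norm_real,
      Real.norm_eq_abs, ← U_add_apply, add_comm τ p]
    ring
  simp only [h1]
  rw [intervalIntegral.integral_const_mul, abs_of_nonneg]
  · refine mul_le_mul_of_nonneg_left ?_ (by positivity)
    refine amgm_int (x := fun τ => ‖⟪δ, U A (p + τ) φ⟫_ℂ‖) (y := fun _ => 1)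
      ((cont_amp A δ φ).comp (by fun_prop)) continuous_const hr hβ h ?_
    simp
  · refine mul_nonneg (by positivity) (intervalIntegral.integral_nonneg hr (fun τ _ => ?_))
    positivity

end Pear1

open Pear1 in
theorem s_pear1 : S_tail → S_pearA → S_pear1 := by
  intro htail hpear E _ _ _ A δ φ κ K η hA hK hM hη
  have hB := add_Pr_sa hA δ κ
  have hf : Continuous (fun s : ℝ => ‖⟪δ, U A s φ⟫_ℂ‖ ^ 2) := (cont_amp A δ φ).pow 2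
  have hT := fun (e : ℝ) (he : 0 < e) => htail (fun s : ℝ => ‖⟪δ, U A s φ⟫_ℂ‖ ^ 2)
    (K * ‖δ‖ ^ 2) e hf (fun _ => by positivity) (fun T hT => hM δ T hT) he
  obtain ⟨γ, hγ, hγ'⟩ : ∃ γ : ℝ, 0 < γ ∧ |κ| * (γ * (K * ‖δ‖ ^ 2)) ≤ η ^ 2 / 8 := by
    have hp : 0 < |κ| * (K * ‖δ‖ ^ 2) + 1 := by positivity
    refine ⟨η ^ 2 / 8 / (|κ| * (K * ‖δ‖ ^ 2) + 1), by positivity, ?_⟩
    rw [show |κ| * (η ^ 2 / 8 / (|κ| * (K * ‖δ‖ ^ 2) + 1) * (K * ‖δ‖ ^ 2)) =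
      η ^ 2 / 8 * (|κ| * (K * ‖δ‖ ^ 2) / (|κ| * (K * ‖δ‖ ^ 2) + 1)) by ring]
    refine mul_le_of_le_one_right (by positivity) ?_
    rw [div_le_one hp]
    linarith
  obtain ⟨e, he, he'⟩ : ∃ e : ℝ, 0 < e ∧ |κ| * (e / γ) ≤ η ^ 2 / 8 := by
    have hp : 0 < |κ| + 1 := by positivity
    refine ⟨η ^ 2 / 8 * γ / (|κ| + 1), by positivity, ?_⟩
    rw [show |κ| * (η ^ 2 / 8 * γ / (|κ| + 1) / γ) = η ^ 2 / 8 * (|κ| / (|κ| + 1)) by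
      field_simp]
    refine mul_le_of_le_one_right (by positivity) ?_
    rw [div_le_one hp]
    linarith
  obtain ⟨T₀, -, hT₀⟩ := hT e he
  refine ⟨T₀, fun t r ht hr => ?_⟩
  obtain ⟨β, hβ, hβ'⟩ : ∃ β : ℝ, 0 < β ∧ |κ| * ‖δ‖ * (β * r / 2) ≤ η / 4 := by
    have hp : 0 < |κ| * ‖δ‖ * r + 1 := by positivity
    refine ⟨η / 2 / (|κ| * ‖δ‖ * r + 1), by positivity, ?_⟩
    rw [show |κ| * ‖δ‖ * (η / 2 / (|κ| * ‖δ‖ * r + 1) * r / 2) =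
      η / 4 * (|κ| * ‖δ‖ * r / (|κ| * ‖δ‖ * r + 1)) by ring]
    refine mul_le_of_le_one_right (by positivity) ?_
    rw [div_le_one hp]
    linarith
  obtain ⟨e₂, he₂, he₂'⟩ : ∃ e₂ : ℝ, 0 < e₂ ∧ |κ| * ‖δ‖ * (e₂ / (2 * β)) ≤ η / 4 := by
    have hp : 0 < |κ| * ‖δ‖ + 1 := by positivity
    refine ⟨η / 2 * β / (|κ| * ‖δ‖ + 1), by positivity, ?_⟩
    rw [show |κ| * ‖δ‖ * (η / 2 * β / (|κ| * ‖δ‖ + 1) / (2 * β)) =
      η / 4 * (|κ| * ‖δ‖ / (|κ| * ‖δ‖ + 1)) by field_simp; ring]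
    refine mul_le_of_le_one_right (by positivity) ?_
    rw [div_le_one hp]
    linarith
  obtain ⟨T₂, -, hT₂⟩ := hT e₂ he₂
  obtain ⟨a, ha, hat⟩ : ∃ a : ℝ, 0 ≤ a ∧ T₂ ≤ t + a :=
    ⟨|T₂ - t|, abs_nonneg _, by have := le_abs_self (T₂ - t); linarith⟩
  have h1 := late hA δ φ κ (t + a) r β e₂ hr hβ
    (tail_int (f := fun s : ℝ => ‖⟪δ, U A s φ⟫_ℂ‖ ^ 2) hT₂ (t + a) r hat hr)
  have h2 : ‖U (A + (κ : ℂ) • Pr δ) r (U A (t + a) φ) - U A r (U A (t + a) φ)‖ ≤ η / 2 := by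
    rw [mul_add] at h1
    linarith
  have h3 : ‖U (A + (κ : ℂ) • Pr δ) r (U A (t + a) φ) - U A r (U A (t + a) φ)‖ ^ 2 ≤
      (η / 2) ^ 2 := pow_le_pow_left₀ (norm_nonneg _) h2 2
  have h4 := hpear E A δ φ κ t r a hA ha
  have hMv : ∀ (ρ p : ℝ), ∫ τ in (0 : ℝ)..a,
      ‖⟪U (A + (κ : ℂ) • Pr δ) ρ δ, U A (p + τ) φ⟫_ℂ‖ ^ 2 ≤ K * ‖δ‖ ^ 2 := by
    intro ρ p
    refine sub_int (f := fun s : ℝ => ‖⟪U (A + (κ : ℂ) • Pr δ) ρ δ, U A s φ⟫_ℂ‖ ^ 2)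
      ((cont_amp A _ φ).pow 2) (fun _ => by positivity) (fun T hT => ?_) p a ha
    have := hM (U (A + (κ : ℂ) • Pr δ) ρ δ) T hT
    rwa [norm_U hB] at this
  have c1 : Continuous (fun τ : ℝ => ‖⟪δ, U A (t + τ) φ⟫_ℂ‖) :=
    (cont_amp A δ φ).comp (by fun_prop)
  have c2 : Continuous (fun τ : ℝ => ‖⟪U (A + (κ : ℂ) • Pr δ) r δ, U A (r + t + τ) φ⟫_ℂ‖) :=
    (cont_amp A _ φ).comp (by fun_prop)
  have c3 : Continuous (fun τ : ℝ => ‖⟪U (A + (κ : ℂ) • Pr δ) (-r) δ, U A (t + τ) φ⟫_ℂ‖) :=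
    (cont_amp A _ φ).comp (by fun_prop)
  have c4 : Continuous (fun τ : ℝ => ‖⟪δ, U A (r + t + τ) φ⟫_ℂ‖) :=
    (cont_amp A δ φ).comp (by fun_prop)
  have h5 := amgm_two c1 c2 c3 c4 ha hγ
    (tail_int (f := fun s : ℝ => ‖⟪δ, U A s φ⟫_ℂ‖ ^ 2) hT₀ t a ht ha) (hMv r (r + t))
    (hMv (-r) t)
    (tail_int (f := fun s : ℝ => ‖⟪δ, U A s φ⟫_ℂ‖ ^ 2) hT₀ (r + t) a (by linarith) ha)
  simp only [← add_assoc r t] at h4
  have h8 := h4.trans (mul_le_mul_of_nonneg_left h5 (abs_nonneg κ))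
  have h9 := (Complex.re_le_norm _).trans h8
  rw [Complex.sub_re, mul_add] at h9
  have h10 := sq_dist hA hB φ t r
  have h11 := sq_dist hA hB φ (t + a) r
  rw [← add_assoc r t] at h11
  refine (pow_le_pow_iff_left₀ (norm_nonneg _) hη.le two_ne_zero).mp ?_
  nlinarith [sq_nonneg η]

end Vale.Agent.P365
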