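import Vale.Agent.P365.Stm

/-! The differential estimate in the Pearson argument. -/

open MeasureTheory Filter Topology Set
open scoped InnerProductSpace

namespace Vale.Agent.P365

namespace PearA

variable {E : Type} [NormedAddCommGroup E] [InnerProductSpace ℂ E] [CompleteSpace E]

theorem alg {A B : E →L[ℂ] E} (hB : IsSelfAdjoint B) (δ : E) (κ r : ℝ)
    (e : ∀ v, A v = B v - ((κ : ℂ) * ⟪δ, v⟫_ℂ) • δ) (x y : E) :
    ‖⟪U B r x, (-Complex.I) • A y⟫_ℂ + ⟪U B r ((-Complex.I) • A x), y⟫_ℂ‖ ≤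
      |κ| * (‖⟪δ, x⟫_ℂ‖ * ‖⟪U B r δ, y⟫_ℂ‖ + ‖⟪U B (-r) δ, x⟫_ℂ‖ * ‖⟪δ, y⟫_ℂ‖) := by
  have h1 : ⟪U B r x, (-Complex.I) • A y⟫_ℂ + ⟪U B r ((-Complex.I) • A x), y⟫_ℂ =
      -(Complex.I * κ * ((starRingEnd ℂ) ⟪δ, x⟫_ℂ * ⟪U B r δ, y⟫_ℂ)) +
        Complex.I * κ * (⟪x, U B (-r) δ⟫_ℂ * ⟪δ, y⟫_ℂ) := by
    rw [e, e, map_smul, map_sub, map_smul, inner_smul_left, inner_smul_right, inner_sub_left,
      inner_sub_right, inner_smul_left, inner_smul_right, ← U_comm, inner_sa hB,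
      ← inner_U_left hB r x δ, map_neg, Complex.conj_I, map_mul, Complex.conj_ofReal]
    ring
  rw [h1, mul_add]
  refine (norm_add_le _ _).trans (le_of_eq ?_)
  simp only [norm_neg, norm_mul, Complex.norm_I, one_mul, Complex.norm_real, Real.norm_eq_abs,
    Complex.norm_conj, norm_inner_symm x]

end PearA

theorem s_pearA : S_pearA := by
  intro E _ _ _ A δ φ κ t r a hA ha
  have hB := add_Pr_sa hA δ κ
  have e : ∀ v, A v = (A + (κ : ℂ) • Pr δ) v - ((κ : ℂ) * ⟪δ, v⟫_ℂ) • δ := fun v => by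
    rw [add_apply, smul_apply, Pr_apply, smul_smul, add_sub_cancel_right]
  generalize A + (κ : ℂ) • Pr δ = B at hB e ⊢
  have hd : ∀ τ : ℝ, HasDerivAt (fun τ : ℝ => ⟪U B r (U A (t + τ) φ), U A (r + (t + τ)) φ⟫_ℂ)
      (⟪U B r (U A (t + τ) φ), (-Complex.I) • A (U A (r + (t + τ)) φ)⟫_ℂ +
        ⟪U B r ((-Complex.I) • A (U A (t + τ) φ)), U A (r + (t + τ)) φ⟫_ℂ) τ := fun τ => by
    have h1 := (hasDerivAt_U_apply A φ (t + τ)).comp_const_add t τ
    have h2 := ((hasDerivAt_U_apply A φ (r + (t + τ))).comp_const_add r (t + τ)).comp_const_add t τ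
    exact (((U B r).restrictScalars ℝ).hasFDerivAt.comp_hasDerivAt τ h1).inner ℂ h2
  have c1 : Continuous fun τ : ℝ => U A (t + τ) φ := (continuous_U_apply A φ).comp (by fun_prop)
  have c2 : Continuous fun τ : ℝ => U A (r + (t + τ)) φ :=
    (continuous_U_apply A φ).comp (by fun_prop)
  have h := intervalIntegral.integral_eq_sub_of_hasDerivAt (a := 0) (b := a) (fun τ _ => hd τ)
    (Continuous.intervalIntegrable (by fun_prop) _ _)
  simp only [add_zero] at h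
  rw [← h, ← intervalIntegral.integral_const_mul]
  exact intervalIntegral.norm_integral_le_of_norm_le ha
    (Eventually.of_forall fun τ _ => PearA.alg hB δ κ r e _ _)
    (Continuous.intervalIntegrable (by fun_prop) _ _)

end Vale.Agent.P365
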