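import Vale.Agent.P365.Stm

/-! The projection on the orthogonal complement of the cyclic space. -/

open scoped InnerProductSpace

namespace Vale.Agent.P365

namespace Pi

variable {E : Type} [NormedAddCommGroup E] [InnerProductSpace ℂ E] [CompleteSpace E]

/-- The orthogonal complement of the cyclic space. -/
def KK (H : E →L[ℂ] E) (δ : E) : Submodule ℂ E where
  carrier := {ψ | Perp H δ ψ}
  add_mem' := fun {a b} ha hb r => by rw [map_add, inner_add_right, ha r, hb r, add_zero]
  zero_mem' := fun r => by rw [map_zero, inner_zero_right]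
  smul_mem' := fun c a ha r => by rw [map_smul, inner_smul_right, ha r, mul_zero]

theorem closed (H : E →L[ℂ] E) (δ : E) : IsClosed (KK H δ : Set E) := by
  have : (KK H δ : Set E) = ⋂ r : ℝ, {ψ | ⟪δ, U H r ψ⟫_ℂ = 0} := by
    ext ψ
    simp only [Set.mem_iInter]
    rfl
  rw [this]
  exact isClosed_iInter fun r =>
    isClosed_eq (continuous_const.inner (U H r).continuous) continuous_const

theorem inv {H : E →L[ℂ] E} {δ ψ : E} (h : Perp H δ ψ) (r : ℝ) : Perp H δ (U H r ψ) :=
  fun s => by rw [← U_add_apply]; exact h _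

end Pi

theorem s_pi : S_pi := by
  intro E _ _ _ H δ hH
  have : CompleteSpace (Pi.KK H δ) := (Pi.closed H δ).completeSpace_coe
  have h1 : ∀ y, Perp H δ ((Pi.KK H δ).starProjection y) := fun y =>
    (Pi.KK H δ).starProjection_apply_mem y
  have h0 : ∀ ψ, Perp H δ ψ → (Pi.KK H δ).starProjection ψ = ψ := fun ψ h =>
    Submodule.starProjection_eq_self_iff.2 h
  have h2 : ∀ ψ y, Perp H δ ψ → ⟪ψ, (Pi.KK H δ).starProjection y⟫_ℂ = ⟪ψ, y⟫_ℂ := fun ψ y h => by
    rw [← Submodule.inner_starProjection_left_eq_right, h0 ψ h]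
  refine ⟨(Pi.KK H δ).starProjection, h1, h2, fun y => ?_, fun v y s r => ?_⟩
  · exact ((Pi.KK H δ).starProjection.le_opNorm y).trans
      (mul_le_of_le_one_left (norm_nonneg _) (Pi.KK H δ).starProjection_norm_le)
  · rw [← h0 _ (Pi.inv (h1 y) r), ← Submodule.inner_starProjection_left_eq_right,
      ← neg_neg r, ← inner_U_left hH, h2 _ _ (Pi.inv (h1 v) _), ← perp_free hH (h1 v) s,
      inner_U_left (add_Pr_sa hH δ s)]

end Vale.Agent.P365
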