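import Vale.Agent.P365.Stm

/-! The position bound as the limit of the gauge twisted bounds. -/

open MeasureTheory Filter Topology Set
open scoped InnerProductSpace

namespace Vale.Agent.P365

namespace Pos

theorem slope_exp (c : ℂ) :
    Tendsto (fun θ : ℝ => ((θ : ℂ))⁻¹ * (Complex.exp (θ * c) - 1)) (𝓝[≠] 0) (𝓝 c) := by
  have h1 : HasDerivAt (fun θ : ℝ => (θ : ℂ) * c) c 0 := by
    have := (Complex.ofRealCLM.hasDerivAt (x := (0 : ℝ))).mul_const c
    simpa using this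
  have h2 : HasDerivAt (fun θ : ℝ => Complex.exp ((θ : ℂ) * c)) c 0 := by
    have := h1.cexp
    simpa using this
  have h3 := hasDerivAt_iff_tendsto_slope_zero.mp h2
  refine h3.congr (fun θ => ?_)
  simp

theorem exp_zero_lim (c : ℂ) :
    Tendsto (fun θ : ℝ => Complex.exp (θ * c) - 1) (𝓝[≠] 0) (𝓝 0) := by
  have h : Continuous (fun θ : ℝ => Complex.exp (θ * c) - 1) := by fun_prop
  have := h.tendsto 0
  simp only [Complex.ofReal_zero, zero_mul, Complex.exp_zero, sub_self] at this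
  exact this.mono_left nhdsWithin_le_nhds

variable {E : Type} [NormedAddCommGroup E] [InnerProductSpace ℂ E] [CompleteSpace E]

theorem cont_XY (H : E →L[ℂ] E) (v : E) (t : ℝ) :
    Continuous (fun p : (E →L[ℂ] E) × (E →L[ℂ] E) =>
      iavg (fun r => U H (-r) (p.1 (U (H + p.2) r v))) t) := by
  refine continuous_iavg (f := fun p : (E →L[ℂ] E) × (E →L[ℂ] E) =>
    fun r => U H (-r) (p.1 (U (H + p.2) r v))) ?_ t
  have h1 : Continuous (fun q : ((E →L[ℂ] E) × (E →L[ℂ] E)) × ℝ => U H (-q.2)) :=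
    (continuous_U H).comp continuous_snd.neg
  have h2 : Continuous (fun q : ((E →L[ℂ] E) × (E →L[ℂ] E)) × ℝ => U (H + q.1.2) q.2) :=
    continuous_U2.comp ((continuous_const.add continuous_fst.snd).prodMk continuous_snd)
  exact h1.clm_apply (continuous_fst.fst.clm_apply (h2.clm_apply continuous_const))

theorem lim_gen (H A B : E →L[ℂ] E) (v : E) (t : ℝ) (W : ℝ → E →L[ℂ] E)
    (hW : ∀ θ : ℝ, W θ = (Complex.exp (θ * Complex.I) - 1) • A +
      (Complex.exp (-(θ * Complex.I)) - 1) • B) :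
    Tendsto (fun θ : ℝ => (θ ^ 2)⁻¹ *
        ‖iavg (fun r => U H (-r) (W θ (U (H + W θ) r v))) t‖ ^ 2) (𝓝[≠] 0)
      (𝓝 (‖avg H (Complex.I • A + (-Complex.I) • B) t v‖ ^ 2)) := by
  have hW' : ∀ θ : ℝ, W θ = (Complex.exp (θ * Complex.I) - 1) • A +
      (Complex.exp (θ * (-Complex.I)) - 1) • B := by
    intro θ
    rw [hW θ, mul_neg]
  have h0 : Tendsto W (𝓝[≠] 0) (𝓝 0) := by
    have := ((exp_zero_lim Complex.I).smul_const A).add ((exp_zero_lim (-Complex.I)).smul_const B)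
    simp only [zero_smul, add_zero] at this
    exact this.congr (fun θ => (hW' θ).symm)
  have h1 : Tendsto (fun θ : ℝ => ((θ : ℂ))⁻¹ • W θ) (𝓝[≠] 0)
      (𝓝 (Complex.I • A + (-Complex.I) • B)) := by
    have := ((slope_exp Complex.I).smul_const A).add ((slope_exp (-Complex.I)).smul_const B)
    refine this.congr (fun θ => ?_)
    rw [hW' θ, smul_add, smul_smul, smul_smul]
  have h2 := ((cont_XY H v t).tendsto (Complex.I • A + (-Complex.I) • B, 0)).comp
    (h1.prodMk_nhds h0)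
  have h3 := (h2.norm).pow 2
  simp only [add_zero] at h3
  refine h3.congr (fun θ => ?_)
  simp only [Function.comp]
  have e : (fun r => U H (-r) ((((θ : ℂ))⁻¹ • W θ) (U (H + W θ) r v))) =
      fun r => ((θ : ℂ))⁻¹ • U H (-r) (W θ (U (H + W θ) r v)) := by
    funext r
    rw [smul_apply, map_smul]
  rw [e, iavg_smul, norm_smul, norm_inv, Complex.norm_real, mul_pow, inv_pow, Real.norm_eq_abs,
    sq_abs]

theorem lim_coef (k : ℤ) :
    Tendsto (fun θ : ℝ => (θ ^ 2)⁻¹ * ‖Complex.exp (-(θ * (k : ℤ) * Complex.I)) - 1‖ ^ 2)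
      (𝓝[≠] 0) (𝓝 ((k : ℝ) ^ 2)) := by
  have h := ((slope_exp (-((k : ℂ) * Complex.I))).norm).pow 2
  have e : ‖-((k : ℂ) * Complex.I)‖ ^ 2 = (k : ℝ) ^ 2 := by
    rw [norm_neg, norm_mul, Complex.norm_I, mul_one, Complex.norm_intCast, sq_abs]
  rw [e] at h
  refine h.congr (fun θ => ?_)
  rw [norm_mul, norm_inv, Complex.norm_real, mul_pow, inv_pow, Real.norm_eq_abs, sq_abs,
    mul_neg, mul_assoc]

end Pos

theorem s_pos : S_shift → S_pos1 → S_pos := by
  intro hs h1 d lam ω H V i t F hA hH hV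
  obtain ⟨T, hT, -, -⟩ := hs d
  have hVe : V = Complex.I • T (Pi.single i 1) + (-Complex.I) • T (-Pi.single i 1) := by
    ext ψ x
    rw [hV ψ x, add_apply, smul_apply,
      smul_apply, lp.coeFn_add, Pi.add_apply, lp.coeFn_smul, lp.coeFn_smul,
      Pi.smul_apply, Pi.smul_apply, hT, hT, smul_eq_mul, smul_eq_mul, ← sub_eq_add_neg]
    ring
  obtain ⟨W, hW⟩ : ∃ W : ℝ → L2 d →L[ℂ] L2 d, ∀ θ : ℝ,
      W θ = (Complex.exp (θ * Complex.I) - 1) • T (Pi.single i 1) +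
        (Complex.exp (-(θ * Complex.I)) - 1) • T (-Pi.single i 1) := ⟨_, fun _ => rfl⟩
  have hR := (Pos.lim_gen H (T (Pi.single i 1)) (T (-Pi.single i 1)) (dlt 0) t W hW).const_mul
    (t ^ 2)
  rw [← hVe] at hR
  have hL : Tendsto (fun θ : ℝ => ∑ x ∈ F, (θ ^ 2)⁻¹ *
      ‖Complex.exp (-(θ * (x i : ℤ) * Complex.I)) - 1‖ ^ 2 * ‖(U H t (dlt 0)) x‖ ^ 2) (𝓝[≠] 0)
      (𝓝 (∑ x ∈ F, ((x i : ℤ) : ℝ) ^ 2 * ‖(U H t (dlt 0)) x‖ ^ 2)) :=
    tendsto_finsetSum F (fun x _ => (Pos.lim_coef (x i)).mul_const _)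
  refine le_of_tendsto_of_tendsto' hL hR (fun θ => ?_)
  have h := h1 d lam ω H T i t θ F (W θ) hA hH hT (hW θ)
  have hp : 0 ≤ (θ ^ 2)⁻¹ := by positivity
  have h' := mul_le_mul_of_nonneg_left h hp
  rw [Finset.mul_sum] at h'
  refine le_of_eq_of_le ?_ (h'.trans (le_of_eq ?_))
  · exact Finset.sum_congr rfl (fun x _ => mul_assoc _ _ _)
  · exact mul_left_comm _ _ _

end Vale.Agent.P365
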