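import Vale.Agent.P365.Stm

/-! The gauge twisted position bound. -/

open MeasureTheory Filter Topology Set
open scoped InnerProductSpace

namespace Vale.Agent.P365

namespace Pos1

theorem gen {E : Type} [NormedAddCommGroup E] [InnerProductSpace ℂ E] [CompleteSpace E]
    {H W G : E →L[ℂ] E} (hH : IsSelfAdjoint H) (h : ∀ v, G (H v) = (H + W) (G v)) {δ : E}
    (hδ : G δ = δ) (t : ℝ) : ‖G (U H t δ) - U H t δ‖ ^ 2 =
      t ^ 2 * ‖iavg (fun r => U H (-r) (W (U (H + W) r δ))) t‖ ^ 2 := by
  have h1 := duhamel_norm (H + W) H δ t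
  rw [add_sub_cancel_left] at h1
  rw [U_intertwine h, hδ, ← norm_U hH (-t), map_sub, U_neg_U, h1, mul_pow, sq_abs]

theorem sum_le {d : ℕ} (φ : L2 d) (F : Finset (Site d)) : ∑ x ∈ F, ‖φ x‖ ^ 2 ≤ ‖φ‖ ^ 2 := by
  have := lp.sum_rpow_le_norm_rpow (p := 2) (by norm_num) φ F
  simpa using this

theorem ex1 (θ : ℝ) (n : ℤ) : Complex.exp (-(θ * n * Complex.I)) =
    Complex.exp (θ * Complex.I) * Complex.exp (-(θ * (n + 1 : ℤ) * Complex.I)) := by
  rw [← Complex.exp_add]
  congr 1
  push_cast
  ring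

theorem ex2 (θ : ℝ) (n : ℤ) : Complex.exp (-(θ * n * Complex.I)) =
    Complex.exp (-(θ * Complex.I)) * Complex.exp (-(θ * (n - 1 : ℤ) * Complex.I)) := by
  rw [← Complex.exp_add]
  congr 1
  push_cast
  ring

end Pos1

open Pos1 in
theorem s_pos1 : S_mul → S_pos1 := by
  intro hm d lam ω H T i t θ F W hA hH hT hW
  obtain ⟨G, -, hG⟩ := hm d (fun x => Complex.exp (-(θ * (x i : ℤ) * Complex.I))) 1 zero_le_one
    fun x => by
      rw [Complex.norm_exp]
      simp
  have hW' : ∀ (φ : L2 d) (x : Site d), (W φ) x =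
      (Complex.exp (θ * Complex.I) - 1) * φ (x + Pi.single i 1) +
        (Complex.exp (-(θ * Complex.I)) - 1) * φ (x - Pi.single i 1) := fun φ x => by
    rw [hW, ContinuousLinearMap.add_apply, ContinuousLinearMap.smul_apply,
      ContinuousLinearMap.smul_apply, lp.coeFn_add, lp.coeFn_smul, lp.coeFn_smul, Pi.add_apply,
      Pi.smul_apply, Pi.smul_apply, hT, hT, smul_eq_mul, smul_eq_mul, sub_eq_add_neg x]
  have h1 : ∀ v, G (H v) = (H + W) (G v) := fun v => by
    refine lp.ext (funext fun x => ?_)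
    rw [ContinuousLinearMap.add_apply, lp.coeFn_add, Pi.add_apply, hG, hA, hA, hW']
    have e : ∀ j : Fin d, Complex.exp (-(θ * (x i : ℤ) * Complex.I)) *
        (v (x + Pi.single j 1) + v (x - Pi.single j 1)) =
        ((G v) (x + Pi.single j 1) + (G v) (x - Pi.single j 1)) + if j = i then
          (Complex.exp (θ * Complex.I) - 1) * (G v) (x + Pi.single i 1) +
            (Complex.exp (-(θ * Complex.I)) - 1) * (G v) (x - Pi.single i 1) else 0 := fun j => by
      simp only [hG, Pi.add_apply, Pi.sub_apply]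
      by_cases c : j = i
      · subst c
        rw [if_pos rfl, Pi.single_eq_same]
        linear_combination v (x + Pi.single j 1) * ex1 θ (x j) + v (x - Pi.single j 1) * ex2 θ (x j)
      · rw [if_neg c, Pi.single_eq_of_ne' c, add_zero, add_zero, sub_zero]
        ring
    rw [mul_add, Finset.mul_sum, Finset.sum_congr rfl fun j _ => e j, Finset.sum_add_distrib,
      Finset.sum_ite_eq', if_pos (Finset.mem_univ i), hG v x]
    ring
  have h2 : G (dlt 0) = dlt 0 := by
    refine lp.ext (funext fun x => ?_)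
    rw [hG]
    by_cases c : x = 0
    · subst c
      simp
    · rw [dlt, lp.single_apply_ne _ _ _ c, mul_zero]
  rw [← gen hH h1 h2 t]
  refine le_trans (le_of_eq (Finset.sum_congr rfl fun x _ => ?_)) (sum_le _ F)
  rw [lp.coeFn_sub, Pi.sub_apply, hG, ← mul_pow, ← norm_mul, sub_mul, one_mul]

end Vale.Agent.P365
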