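import Vale.Agent.P365.Stm

/-! The rank one structure at the origin, and time reversal. -/

open MeasureTheory Filter Topology Set
open scoped InnerProductSpace

namespace Vale.Agent.P365

namespace Rank

theorem clip_eq {s : ℝ} (hs : s ∈ Set.Icc (-1 : ℝ) 1) : clip s = s := by
  unfold clip
  rw [min_eq_right hs.2, max_eq_right hs.1]

theorem dlt_apply {d : ℕ} (y x : Site d) : (dlt y) x = if x = y then 1 else 0 := by
  unfold dlt
  by_cases h : x = y
  · rw [if_pos h, h, lp.single_apply_self]
  · rw [if_neg h, lp.single_apply_ne _ _ _ h]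

theorem inner_dlt {d : ℕ} (y : Site d) (ψ : L2 d) : ⟪dlt y, ψ⟫_ℂ = ψ y := by
  unfold dlt
  rw [lp.inner_single_left]
  simp

theorem add_app {d : ℕ} (φ ψ : L2 d) (x : Site d) : (φ + ψ) x = φ x + ψ x := by
  rw [lp.coeFn_add]
  rfl

theorem smul_app {d : ℕ} (c : ℂ) (ψ : L2 d) (x : Site d) : (c • ψ) x = c * ψ x := by
  rw [lp.coeFn_smul]
  rfl

theorem neg_app {d : ℕ} (ψ : L2 d) (x : Site d) : (-ψ) x = -ψ x := by
  rw [lp.coeFn_neg]
  rfl

theorem star_app {d : ℕ} (ψ : L2 d) (x : Site d) : (star ψ) x = (starRingEnd ℂ) (ψ x) :=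
  lp.star_apply ψ x

theorem ext_app {d : ℕ} {φ ψ : L2 d} (h : ∀ x, φ x = ψ x) : φ = ψ := lp.ext (funext h)

end Rank

open Rank

theorem s_rank : S_J → S_rank := by
  intro hJ d lam H hlam hH
  refine ⟨fun ω s hs => ?_, fun ω i V c hV h1 h2 => ?_⟩
  · refine ContinuousLinearMap.ext fun ψ => ext_app fun x => ?_
    have hl : ((Real.sqrt lam : ℝ) : ℂ) * ((Real.sqrt lam : ℝ) : ℂ) = (lam : ℂ) := by
      rw [← Complex.ofReal_mul, Real.mul_self_sqrt hlam]
    rw [ContinuousLinearMap.add_apply, ContinuousLinearMap.smul_apply, Pr_apply, add_app, smul_app,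
      smul_app, smul_app, inner_smul_left, inner_dlt, dlt_apply, hH _ ψ x, hH _ ψ x,
      Complex.conj_ofReal]
    by_cases hx : x = 0
    · subst hx
      simp only [Function.update_self, clip_eq hs,
        clip_eq (show (0 : ℝ) ∈ Set.Icc (-1 : ℝ) 1 from ⟨by norm_num, by norm_num⟩), if_true]
      push_cast
      linear_combination (-(s : ℂ) * ψ 0) * hl
    · simp only [Function.update_of_ne hx, if_neg hx]
      ring
  · refine hJ (L2 d) (H ω) V _ (fun ψ => star ψ) h1 h2 (fun v w => ext_app fun x => ?_)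
      (fun a v => ext_app fun x => ?_) (fun v w => ?_) (ext_app fun x => ?_)
      (fun v => ext_app fun x => ?_) fun v => ext_app fun x => ?_
    · rw [add_app, star_app, star_app, star_app, add_app, map_add]
    · rw [smul_app, star_app, star_app, smul_app, map_mul]
    · rw [lp.inner_eq_tsum, lp.inner_eq_tsum]
      refine tsum_congr fun x => ?_
      rw [star_app, star_app, RCLike.inner_apply, RCLike.inner_apply, Complex.conj_conj, mul_comm]
    · rw [star_app, smul_app, dlt_apply, map_mul, Complex.conj_ofReal]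
      split_ifs <;> simp
    · rw [star_app, hH ω v x, hH ω (star v) x]
      simp only [star_app, map_add, map_sum, map_mul, Complex.conj_ofReal]
    · rw [star_app, neg_app, hV v x, hV (star v) x]
      simp only [star_app, map_sub, map_mul, Complex.conj_I]
      ring

end Vale.Agent.P365
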