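import Vale.Agent.P365.Stm

/-! Translations on the lattice. -/

open MeasureTheory Filter Topology Set
open scoped InnerProductSpace

namespace Vale.Agent.P365

namespace Shift

variable {d : ℕ}

theorem mem (x : Site d) (ψ : L2 d) : Memℓp (fun y => ψ (y + x)) 2 :=
  memℓp_gen ((Equiv.addRight x).summable_iff.2 ((lp.memℓp ψ).summable (by norm_num)))

theorem nrm (x : Site d) (ψ φ : L2 d) (h : ∀ y, φ y = ψ (y + x)) : ‖φ‖ = ‖ψ‖ := by
  rw [lp.norm_eq_tsum_rpow (by norm_num) φ, lp.norm_eq_tsum_rpow (by norm_num) ψ,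
    ← (Equiv.addRight x).tsum_eq fun i => ‖ψ i‖ ^ (2 : ENNReal).toReal]
  simp only [h, Equiv.coe_addRight]

theorem ex (x : Site d) : ∃ T : L2 d →L[ℂ] L2 d, ∀ (ψ : L2 d) (y : Site d), (T ψ) y = ψ (y + x) := by
  let L : L2 d →ₗ[ℂ] L2 d :=
    { toFun := fun ψ => ⟨fun y => ψ (y + x), mem x ψ⟩
      map_add' := fun _ _ => rfl
      map_smul' := fun _ _ => rfl }
  exact ⟨L.mkContinuous 1 fun ψ => by
    rw [one_mul]
    exact (nrm x ψ (L ψ) fun _ => rfl).le, fun _ _ => rfl⟩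

end Shift

theorem s_shift : S_shift := by
  intro d
  choose T hT using Shift.ex (d := d)
  refine ⟨T, hT, fun x ψ => Shift.nrm x ψ _ (hT x ψ), fun x ψ φ => ?_⟩
  rw [lp.inner_eq_tsum, lp.inner_eq_tsum,
    ← (Equiv.addRight x).tsum_eq fun i => ⟪ψ i, T (-x) φ i⟫_ℂ]
  simp only [hT, Equiv.coe_addRight, add_neg_cancel_right]

end Vale.Agent.P365
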