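import Vale.Agent.P365.Stm

/-! Translation invariance of the law of the potential. -/

open MeasureTheory

namespace Vale.Agent.P365

namespace Sinv

theorem meas_sh {d : ℕ} (x : Site d) : Measurable (sh x : (Site d → ℝ) → Site d → ℝ) :=
  measurable_pi_lambda _ (fun y => measurable_pi_apply (y + x))

end Sinv

theorem s_sinv : S_sinv := by
  intro d x
  refine ⟨Sinv.meas_sh x, ?_⟩
  have h := Measure.infinitePi_map_piCongrLeft (X := fun _ : Site d => ℝ)
    (fun _ : Site d => unif) (Equiv.subRight x)
  have e : (sh x : (Site d → ℝ) → Site d → ℝ) =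
      MeasurableEquiv.piCongrLeft (fun _ : Site d => ℝ) (Equiv.subRight x) := by
    funext ω y
    have := Equiv.piCongrLeft_apply_apply (fun _ : Site d => ℝ) (Equiv.subRight x) ω (y + x)
    simp only [Equiv.subRight_apply, add_sub_cancel_right] at this
    simp only [sh, MeasurableEquiv.coe_piCongrLeft]
    exact this.symm
  rw [e]
  exact h

end Vale.Agent.P365
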