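import Vale.Agent.P365.Stm

/-! Resampling the potential at the origin. -/

open MeasureTheory Filter Topology Set
open scoped InnerProductSpace

namespace Vale.Agent.P365

namespace Slice

lemma ae_unif {p : ℝ → Prop} :
    (∀ᵐ s ∂unif, p s) ↔ ∀ᵐ s ∂(volume.restrict (Ioc (-1 : ℝ) 1)), p s := by
  rw [restrict_Ioc_eq_restrict_Icc]
  exact Measure.ae_ennreal_smul_measure_iff (by simp)

lemma mp {ι : Type} [DecidableEq ι] (μ : Measure ℝ) [IsProbabilityMeasure μ] (i : ι) :
    MeasurePreserving (fun q : (ι → ℝ) × ℝ => Function.update q.1 i q.2)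
      ((Measure.infinitePi fun _ => μ).prod μ) (Measure.infinitePi fun _ => μ) := by
  have hm : Measurable fun q : (ι → ℝ) × ℝ => Function.update q.1 i q.2 := measurable_update'
  refine ⟨hm, Measure.eq_infinitePi _ fun s t ht => ?_⟩
  rw [Measure.map_apply hm (MeasurableSet.pi s.countable_toSet fun j _ => ht j)]
  by_cases hi : i ∈ s
  · have e : (fun q : (ι → ℝ) × ℝ => Function.update q.1 i q.2) ⁻¹' Set.pi s t =
        Set.pi (s.erase i) t ×ˢ t i := by
      ext q
      simp only [mem_preimage, Set.mem_pi, Finset.mem_coe, mem_prod, Finset.mem_erase]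
      refine ⟨fun h => ⟨fun j hj => ?_, ?_⟩, fun h j hj => ?_⟩
      · simpa only [Function.update_of_ne hj.1] using h j hj.2
      · simpa only [Function.update_self] using h i hi
      · by_cases e : j = i
        · subst e
          simpa only [Function.update_self] using h.2
        · simpa only [Function.update_of_ne e] using h.1 j ⟨e, hj⟩
    rw [e, Measure.prod_prod, Measure.infinitePi_pi _ fun j _ => ht j,
      Finset.prod_erase_mul _ _ hi]
  · have e : (fun q : (ι → ℝ) × ℝ => Function.update q.1 i q.2) ⁻¹' Set.pi s t =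
        Set.pi s t ×ˢ univ := by
      ext q
      simp only [mem_preimage, Set.mem_pi, Finset.mem_coe, mem_prod, mem_univ, and_true]
      refine forall₂_congr fun j hj => ?_
      rw [Function.update_of_ne fun e : j = i => hi (e ▸ hj)]
    rw [e, Measure.prod_prod, Measure.infinitePi_pi _ fun j _ => ht j, measure_univ, mul_one]

end Slice

theorem s_slice : S_slice := by
  intro d
  have h : MeasurePreserving (fun q : (Site d → ℝ) × ℝ => Function.update q.1 0 q.2)
      ((PP d).prod unif) (PP d) := Slice.mp unif 0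
  refine ⟨fun p hp => ?_, fun S hS hp => ?_, ?_⟩
  · exact (Measure.ae_ae_of_ae_prod (h.quasiMeasurePreserving.ae hp)).mono
      fun ω hω => Slice.ae_unif.1 hω
  · rw [← h.map_eq]
    refine (ae_map_iff h.measurable.aemeasurable (p := fun ω => ω ∈ S) hS).2 ?_
    exact (Measure.ae_prod_mem_iff_ae_ae_mem (h.measurable hS)).2
      (hp.mono fun ω hω => Slice.ae_unif.2 hω)
  · refine ae_all_iff.2 fun x => ?_
    have h1 : ∀ᵐ s ∂unif, s ∈ Icc (-1 : ℝ) 1 :=
      Slice.ae_unif.2 ((ae_restrict_mem measurableSet_Ioc).mono fun s hs => Ioc_subset_Icc_self hs)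
    exact (measurePreserving_eval_infinitePi (fun _ : Site d => unif)
      x).quasiMeasurePreserving.ae h1

end Vale.Agent.P365
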