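import Vale.Agent.P365.Stm

open MeasureTheory Filter Topology Set
open scoped InnerProductSpace

namespace Vale.Agent.P365

theorem s_spec : S_spec0 → S_spec := by
  intro h E _ _ _ H δ a b M T y hH hab hT hM hy hb
  classical
  let S : Set ℝ := {s | ‖hy.mk y s‖ ≤ M}
  have hS : MeasurableSet S :=
    measurableSet_le hy.stronglyMeasurable_mk.norm.measurable measurable_const
  have key := h E H δ a b M T (S.indicator (hy.mk y)) hH hab hT
    (hy.stronglyMeasurable_mk.indicator hS) (fun s => by
      by_cases hs : s ∈ S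
      · rw [indicator_of_mem hs]
        exact hs
      · rw [indicator_of_notMem hs, norm_zero]
        exact hM)
  have e : ∀ r : ℝ, ∫ s in Set.Ioc a b, ⟪y s, U (H + (s : ℂ) • Pr δ) r δ⟫_ℂ =
      ∫ s in Set.Ioc a b, ⟪S.indicator (hy.mk y) s, U (H + (s : ℂ) • Pr δ) r δ⟫_ℂ := fun r => by
    refine integral_congr_ae ?_
    filter_upwards [hy.ae_eq_mk, hb] with s h1 h2
    have hs : s ∈ S := by
      show ‖hy.mk y s‖ ≤ M
      rw [← h1]
      exact h2
    rw [indicator_of_mem hs, ← h1]
  simp only [e]
  exact key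

end Vale.Agent.P365
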