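import Vale.Agent.P365.Stm

open MeasureTheory Filter Topology Set
open scoped InnerProductSpace

namespace Vale.Agent.P365

namespace Spec02

theorem ii_of_bdd {F : Type} [NormedAddCommGroup F] {g : ℝ → F} (hg : StronglyMeasurable g) {C : ℝ}
    (hC : ∀ s, ‖g s‖ ≤ C) (a b : ℝ) : IntervalIntegrable g volume a b := by
  rw [intervalIntegrable_iff]
  exact Measure.integrableOn_of_bounded (M := C) (by simp [Set.uIoc]) hg.aestronglyMeasurable
    (Eventually.of_forall hC)

theorem cs {G : ℝ → ℂ} (hG : StronglyMeasurable G) {C : ℝ} (hC : ∀ s, ‖G s‖ ≤ C) {a ε : ℝ}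
    (hε : 0 < ε) : ‖∫ u in a..(a + ε), G u‖ ^ 2 ≤ ε * ∫ u in a..(a + ε), ‖G u‖ ^ 2 := by
  have hab : a ≤ a + ε := by linarith
  have h1 : IntervalIntegrable (fun u => ‖G u‖) volume a (a + ε) := (ii_of_bdd hG hC _ _).norm
  have h2 : IntervalIntegrable (fun u => ‖G u‖ ^ 2) volume a (a + ε) :=
    ii_of_bdd (g := fun u => ‖G u‖ ^ 2) (hG.norm.pow 2) (C := C ^ 2) (fun s => by
      rw [Real.norm_eq_abs, abs_of_nonneg (by positivity)]
      exact pow_le_pow_left₀ (norm_nonneg _) (hC s) 2) _ _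
  set I := ∫ u in a..(a + ε), ‖G u‖ with hI
  have h3 : ‖∫ u in a..(a + ε), G u‖ ≤ I := intervalIntegral.norm_integral_le_integral_norm hab
  have h4 : ∫ u in a..(a + ε), (2 * (I / ε) * ‖G u‖ - (I / ε) ^ 2) ≤ ∫ u in a..(a + ε), ‖G u‖ ^ 2 :=
    intervalIntegral.integral_mono_on hab ((h1.const_mul _).sub intervalIntegrable_const) h2
      (fun u _ => by nlinarith [sq_nonneg (‖G u‖ - I / ε)])
  rw [intervalIntegral.integral_sub (h1.const_mul _) intervalIntegrable_const,
    intervalIntegral.integral_const_mul, intervalIntegral.integral_const, ← hI] at h4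
  have h5 : ε * (2 * (I / ε) * I - (a + ε - a) • (I / ε) ^ 2) = I ^ 2 := by
    rw [smul_eq_mul]; field_simp; ring
  calc ‖∫ u in a..(a + ε), G u‖ ^ 2 ≤ I ^ 2 := pow_le_pow_left₀ (norm_nonneg _) h3 2
    _ ≤ _ := by rw [← h5]; exact mul_le_mul_of_nonneg_left h4 hε.le

theorem split {g : ℝ → ℂ} (hg : StronglyMeasurable g) {C : ℝ} (hC : ∀ s, ‖g s‖ ≤ C) (a ε : ℝ)
    (N : ℕ) : ∫ s in a..(a + N * ε), g s =
      ∫ u in a..(a + ε), ∑ j ∈ Finset.range N, g (u + j * ε) := by
  rw [intervalIntegral.integral_finsetSum (f := fun (j : ℕ) u => g (u + j * ε)) (fun j _ => ii_of_bdd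
    (hg.comp_measurable (measurable_id.add_const _)) (fun s => hC _) _ _)]
  have := intervalIntegral.sum_integral_adjacent_intervals (f := g) (μ := volume)
    (a := fun k : ℕ => a + k * ε) (n := N) (fun k _ => ii_of_bdd hg hC _ _)
  simp only [Nat.cast_zero, zero_mul, add_zero] at this
  rw [← this]
  refine Finset.sum_congr rfl fun j _ => ?_
  rw [intervalIntegral.integral_comp_add_right g]
  congr 1
  push_cast; ring

end Spec02

open Spec02 in
theorem s_spec02 : S_disc → S_spec0 := by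
  intro hd E _ _ _ H δ a b M T y hH hab hT hy hM
  set g : ℝ → ℝ → ℂ := fun r s => ⟪y s, U (H + (s : ℂ) • Pr δ) r δ⟫_ℂ with hg
  have hM0 : 0 ≤ M := (norm_nonneg _).trans (hM 0)
  have hgb : ∀ r s, ‖g r s‖ ≤ M * ‖δ‖ := fun r s => (norm_inner_le_norm _ _).trans (by
    rw [norm_U (add_Pr_sa hH δ s)]; gcongr; exact hM s)
  have hcU : Continuous (fun p : ℝ × ℝ => U (H + (p.2 : ℂ) • Pr δ) p.1 δ) := by
    have h1 : Continuous (fun p : ℝ × ℝ => (H + (p.2 : ℂ) • Pr δ, p.1)) := by fun_prop
    exact (continuous_U2.comp h1).clm_apply continuous_const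
  have hgm : StronglyMeasurable (fun p : ℝ × ℝ => g p.1 p.2) :=
    (hy.comp_measurable measurable_snd).inner hcU.stronglyMeasurable
  have key : ∀ N : ℕ, 0 < N → ∫ r in (-T)..T, ‖∫ s in Set.Ioc a b, g r s‖ ^ 2 ≤
      2 * Real.pi * (b - a) * M ^ 2 + 2 * T * ‖δ‖ ^ 2 * (b - a) ^ 2 * M ^ 2 / N := by
    intro N hN
    have hN' : (0 : ℝ) < N := by exact_mod_cast hN
    set ε := (b - a) / N with hεd
    have hε : 0 < ε := div_pos (by linarith) hN'
    have hb : b = a + N * ε := by rw [hεd]; field_simp; ring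
    set G : ℝ → ℝ → ℂ := fun r u => ∑ j ∈ Finset.range N, g r (u + j * ε) with hG
    have hGm : StronglyMeasurable (fun p : ℝ × ℝ => G p.1 p.2) :=
      Finset.stronglyMeasurable_fun_sum _ (fun j _ => hgm.comp_measurable
        (measurable_fst.prodMk (measurable_snd.add_const _)))
    have hGb : ∀ r u, ‖G r u‖ ≤ N * (M * ‖δ‖) := fun r u => (norm_sum_le _ _).trans (by
      simpa using Finset.sum_le_card_nsmul (Finset.range N) _ _ (fun j _ => hgb r (u + j * ε)))
    have hint : Integrable (Function.uncurry (fun r u => ‖G r u‖ ^ 2))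
        ((volume.restrict (Set.uIoc (-T) T)).prod (volume.restrict (Set.Ioc a (a + ε)))) := by
      have : IsFiniteMeasure (volume.restrict (Set.uIoc (-T) T)) :=
        ⟨by simp [Set.uIoc]⟩
      refine Integrable.of_bound (hGm.norm.pow 2).aestronglyMeasurable ((N * (M * ‖δ‖)) ^ 2)
        (Eventually.of_forall fun p => ?_)
      change ‖‖G p.1 p.2‖ ^ 2‖ ≤ _
      rw [Real.norm_eq_abs, abs_of_nonneg (by positivity)]
      exact pow_le_pow_left₀ (norm_nonneg _) (hGb _ _) 2
    have hpt : ∀ r, ‖∫ s in Set.Ioc a b, g r s‖ ^ 2 ≤ ε * ∫ u in Set.Ioc a (a + ε), ‖G r u‖ ^ 2 := by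
      intro r
      rw [← intervalIntegral.integral_of_le hab.le, ← intervalIntegral.integral_of_le (by linarith),
        hb, split (g := g r) (hgm.comp_measurable (measurable_const.prodMk measurable_id)) (hgb r)]
      exact cs (G := G r) (hGm.comp_measurable (measurable_const.prodMk measurable_id)) (hGb r) hε
    have hI2 : IntervalIntegrable (fun r => ∫ u in Set.Ioc a (a + ε), ‖G r u‖ ^ 2) volume (-T) T := by
      rw [intervalIntegrable_iff]
      exact hint.integral_prod_left
    have hI1 : IntervalIntegrable (fun r => ‖∫ s in Set.Ioc a b, g r s‖ ^ 2) volume (-T) T := by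
      refine ii_of_bdd (g := fun r => ‖∫ s in Set.Ioc a b, g r s‖ ^ 2) ((hgm.integral_prod_right' (ν := volume.restrict (Set.Ioc a b))).norm.pow 2)
        (C := (M * ‖δ‖ * (b - a)) ^ 2) (fun r => ?_) _ _
      rw [Real.norm_eq_abs, abs_of_nonneg (by positivity)]
      refine pow_le_pow_left₀ (norm_nonneg _) ?_ 2
      rw [← intervalIntegral.integral_of_le hab.le]
      have := intervalIntegral.norm_integral_le_of_norm_le_const (a := a) (b := b)
        (fun s _ => hgb r s)
      rwa [abs_of_pos (by linarith)] at this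
    have hD : ∀ u, ∫ r in (-T)..T, ‖G r u‖ ^ 2 ≤
        (2 * Real.pi / ε + 2 * T * ‖δ‖ ^ 2) * (N * M ^ 2) := by
      intro u
      refine (hd E H δ ε u T N (fun j => y (u + j * ε)) hH hε hT).trans ?_
      have : ∑ j ∈ Finset.range N, ‖y (u + j * ε)‖ ^ 2 ≤ N * M ^ 2 := by
        simpa using Finset.sum_le_card_nsmul (Finset.range N) _ _
          (fun j _ => pow_le_pow_left₀ (norm_nonneg _) (hM (u + j * ε)) 2)
      have h0 : 0 ≤ 2 * Real.pi / ε + 2 * T * ‖δ‖ ^ 2 := by positivity
      exact mul_le_mul_of_nonneg_left this h0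
    calc ∫ r in (-T)..T, ‖∫ s in Set.Ioc a b, g r s‖ ^ 2
        ≤ ∫ r in (-T)..T, ε * ∫ u in Set.Ioc a (a + ε), ‖G r u‖ ^ 2 :=
          intervalIntegral.integral_mono_on (by linarith) hI1 (hI2.const_mul ε) (fun r _ => hpt r)
      _ = ε * ∫ u in Set.Ioc a (a + ε), ∫ r in (-T)..T, ‖G r u‖ ^ 2 := by
          rw [intervalIntegral.integral_const_mul, intervalIntegral_integral_swap hint]
      _ ≤ ε * (ε * ((2 * Real.pi / ε + 2 * T * ‖δ‖ ^ 2) * (N * M ^ 2))) := by
          refine mul_le_mul_of_nonneg_left ?_ hε.le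
          refine (le_abs_self _).trans ?_
          have := norm_setIntegral_le_of_norm_le_const (μ := volume) (s := Set.Ioc a (a + ε))
            (f := fun u => ∫ r in (-T)..T, ‖G r u‖ ^ 2)
            (C := (2 * Real.pi / ε + 2 * T * ‖δ‖ ^ 2) * (N * M ^ 2)) (by simp) (fun u _ => by
              rw [Real.norm_eq_abs, abs_of_nonneg
                (intervalIntegral.integral_nonneg (by linarith) (fun r _ => by positivity))]
              exact hD u)
          rw [Real.volume_real_Ioc_of_le (by linarith), add_sub_cancel_left, mul_comm] at this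
          exact this
      _ = _ := by
          have : b - a ≠ 0 := (sub_pos.mpr hab).ne'
          rw [hεd]; field_simp
  have hlim : Tendsto (fun N : ℕ => 2 * Real.pi * (b - a) * M ^ 2 +
      2 * T * ‖δ‖ ^ 2 * (b - a) ^ 2 * M ^ 2 / N) atTop (𝓝 (2 * Real.pi * (b - a) * M ^ 2 + 0)) :=
    tendsto_const_nhds.add (tendsto_const_div_atTop_nhds_zero_nat _)
  rw [add_zero] at hlim
  exact ge_of_tendsto hlim ((eventually_gt_atTop 0).mono key)

end Vale.Agent.P365
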