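import Vale.Agent.P365.Stm

/-! Two sided mean ergodic theorem from the midpoint inequality. -/

open MeasureTheory Filter Topology Set
open scoped InnerProductSpace

namespace Vale.Agent.P365

namespace Stat

variable {E : Type} [NormedAddCommGroup E] [InnerProductSpace ℂ E]

theorem key (A : ℝ → E) (c : ℝ) (hc : 0 ≤ c) (h : ∀ a b t : ℝ, a ≠ 0 → b ≠ 0 → t ≠ 0 →
    2 * ‖A t‖ ≤ ‖A a + A b‖ + 2 * (|a| + |b|) * c / |t|) (ε : ℝ) (hε : 0 < ε) :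
    ∃ T : ℝ, 0 < T ∧ ∀ t t' : ℝ, T ≤ |t| → T ≤ |t'| → ‖A t - A t'‖ < ε := by
  obtain ⟨S, hS⟩ : ∃ S : Set ℝ, S = {x | ∃ a b : ℝ, a ≠ 0 ∧ b ≠ 0 ∧ x = ‖A a + A b‖} := ⟨_, rfl⟩
  have hne : S.Nonempty := by
    rw [hS]
    exact ⟨_, 1, 1, one_ne_zero, one_ne_zero, rfl⟩
  have h0 : ∀ x ∈ S, 0 ≤ x := by
    rw [hS]
    rintro x ⟨a, b, _, _, rfl⟩
    exact norm_nonneg _
  have hm0 : 0 ≤ sInf S := le_csInf hne h0
  have hm1 : ∀ a b : ℝ, a ≠ 0 → b ≠ 0 → sInf S ≤ ‖A a + A b‖ := fun a b ha hb =>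
    csInf_le ⟨0, h0⟩ (by rw [hS]; exact ⟨a, b, ha, hb, rfl⟩)
  obtain ⟨η, hη0, hη1, hη2⟩ : ∃ η : ℝ, 0 < η ∧ η ≤ 1 ∧ η * (2 * sInf S + 2) ≤ ε ^ 2 :=
    ⟨min 1 (ε ^ 2 / (2 * sInf S + 2)), lt_min one_pos (by positivity), min_le_left _ _,
      (le_div_iff₀ (by positivity)).1 (min_le_right _ _)⟩
  obtain ⟨x, hx, hx'⟩ := exists_lt_of_csInf_lt hne (show sInf S < sInf S + η / 2 by linarith)
  rw [hS] at hx
  obtain ⟨a, b, ha, hb, rfl⟩ := hx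
  have hK : 0 ≤ 2 * (|a| + |b|) * c := by positivity
  obtain ⟨K, hKe⟩ : ∃ K, K = 2 * (|a| + |b|) * c := ⟨_, rfl⟩
  rw [← hKe] at hK
  have hT : 0 < 1 + 2 * K / η := by positivity
  have big : ∀ t : ℝ, 1 + 2 * K / η ≤ |t| → t ≠ 0 ∧ 2 * ‖A t‖ ≤ sInf S + η := by
    intro t ht
    have t0 : 0 < |t| := hT.trans_le ht
    have t1 : t ≠ 0 := abs_pos.1 t0
    have h1 := h a b t ha hb t1
    rw [← hKe] at h1
    have h2 : K / |t| ≤ η / 2 := by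
      rw [div_le_iff₀ t0]
      have h3 : 2 * K / η ≤ |t| := by linarith
      rw [div_le_iff₀ hη0] at h3
      linarith
    exact ⟨t1, by linarith⟩
  refine ⟨_, hT, fun t t' ht ht' => ?_⟩
  obtain ⟨a1, a2⟩ := big t ht
  obtain ⟨b1, b2⟩ := big t' ht'
  have p := parallelogram_law_with_norm ℂ (A t) (A t')
  have q := hm1 t t' a1 b1
  have q1 := mul_self_le_mul_self hm0 q
  have q2 := mul_self_le_mul_self (by positivity) a2
  have q3 := mul_self_le_mul_self (by positivity) b2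
  refine lt_of_pow_lt_pow_left₀ 2 hε.le ?_
  nlinarith

theorem main [CompleteSpace E] (A : ℝ → E) (h : ∀ ε : ℝ, 0 < ε →
    ∃ T : ℝ, 0 < T ∧ ∀ t t' : ℝ, T ≤ |t| → T ≤ |t'| → ‖A t - A t'‖ < ε) :
    ∃ y : E, Tendsto (fun t => A t) atTop (𝓝 y) ∧ Tendsto (fun t => A (-t)) atTop (𝓝 y) := by
  have hc : CauchySeq A := Metric.cauchySeq_iff.2 fun ε hε => by
    obtain ⟨T, _, hT⟩ := h ε hε
    exact ⟨T, fun m hm n hn => by
      rw [dist_eq_norm]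
      exact hT m n (hm.trans (le_abs_self m)) (hn.trans (le_abs_self n))⟩
  obtain ⟨y, hy⟩ := cauchySeq_tendsto_of_complete hc
  refine ⟨y, hy, ?_⟩
  have h1 : Tendsto (fun t => A (-t) - A t) atTop (𝓝 0) := Metric.tendsto_atTop.2 fun ε hε => by
    obtain ⟨T, _, hT⟩ := h ε hε
    exact ⟨T, fun n hn => by
      rw [dist_zero_right]
      exact hT (-n) n (by rw [abs_neg]; exact hn.trans (le_abs_self n))
        (hn.trans (le_abs_self n))⟩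
  simpa using h1.add hy

end Stat

theorem s_stat : S_stat1 → S_stat := fun h1 E _ _ _ Ξ hc hs =>
  Stat.main (iavg Ξ) (Stat.key (iavg Ξ) ‖Ξ 0‖ (norm_nonneg _) (h1 E Ξ hc hs))

end Vale.Agent.P365
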