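import Vale.Agent.P365.Stm

/-! Long averages of a stationary curve are almost as short as any midpoint of two averages. -/

open MeasureTheory Filter Topology Set
open scoped InnerProductSpace

namespace Vale.Agent.P365

namespace Stat1

variable {E : Type} [NormedAddCommGroup E] [InnerProductSpace ℂ E] [CompleteSpace E]

theorem ip {Ξ Ξ' : ℝ → E} (hc : Continuous Ξ) (hc' : Continuous Ξ')
    (h : ∀ r r', ⟪Ξ' r, Ξ' r'⟫_ℂ = ⟪Ξ r, Ξ r'⟫_ℂ) (a b : ℝ) :
    ⟪iavg Ξ' a, iavg Ξ' b⟫_ℂ = ⟪iavg Ξ a, iavg Ξ b⟫_ℂ := by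
  have h1 : ∀ r, ⟪Ξ' r, iavg Ξ' a⟫_ℂ = ⟪Ξ r, iavg Ξ a⟫_ℂ := fun r => by
    rw [inner_iavg hc, inner_iavg hc']
    simp only [h]
  have h2 : ∀ r, ⟪iavg Ξ' a, Ξ' r⟫_ℂ = ⟪iavg Ξ a, Ξ r⟫_ℂ := fun r => by
    rw [← inner_conj_symm, h1, inner_conj_symm]
  rw [inner_iavg hc, inner_iavg hc']
  simp only [h2]

theorem key {Ξ : ℝ → E} (hc : Continuous Ξ) {M : ℝ} (hM : ∀ r, ‖Ξ r‖ ≤ M) {a : ℝ} (ha : a ≠ 0)
    (t : ℝ) : ‖(∫ c in (0 : ℝ)..t, iavg (fun r => Ξ (r + c)) a) - ∫ r in (0 : ℝ)..t, Ξ r‖ ≤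
      2 * |a| * M := by
  have M0 : 0 ≤ M := (norm_nonneg _).trans (hM 0)
  obtain ⟨F, hF⟩ : ∃ F : ℝ → E, ∀ s, F s = ∫ r in (0 : ℝ)..s, Ξ r := ⟨_, fun _ => rfl⟩
  have cF : Continuous F := by
    rw [funext hF]
    exact intervalIntegral.continuous_primitive (fun _ _ => hc.intervalIntegrable _ _) 0
  have d : ∀ u v, F v - F u = ∫ r in u..v, Ξ r := fun u v => by
    rw [hF, hF]
    exact intervalIntegral.integral_interval_sub_left (hc.intervalIntegrable _ _)
      (hc.intervalIntegrable _ _)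
  have nd : ∀ u v, ‖∫ r in u..v, Ξ r‖ ≤ M * |v - u| := fun u v =>
    intervalIntegral.norm_integral_le_of_norm_le_const fun r _ => hM r
  have e1 : ∀ c, iavg (fun r => Ξ (r + c)) a = (a⁻¹ : ℝ) • (F (c + a) - F c) := fun c => by
    unfold iavg
    rw [intervalIntegral.integral_comp_add_right, d, zero_add, add_comm]
  have e2 : ∀ u v : ℝ, ∫ c in (0 : ℝ)..u, (F (c + v) - F c) =
      (∫ c in v..u + v, F c) - ∫ c in (0 : ℝ)..u, F c := fun u v => by
    have c1 : Continuous fun c => F (c + v) := by fun_prop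
    rw [intervalIntegral.integral_sub (c1.intervalIntegrable _ _)
      (cF.intervalIntegrable _ _), intervalIntegral.integral_comp_add_right, zero_add]
  have e3 : ∫ c in (0 : ℝ)..t, (F (c + a) - F c) = ∫ r in (0 : ℝ)..a, (F (r + t) - F r) := by
    rw [e2, e2, add_comm a t]
    exact intervalIntegral.integral_interval_sub_interval_comm' (cF.intervalIntegrable _ _)
      (cF.intervalIntegrable _ _) (cF.intervalIntegrable _ _)
  have e4 : F t = iavg (fun _ => F t) a := by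
    unfold iavg
    rw [intervalIntegral.integral_const, sub_zero, smul_smul, inv_mul_cancel₀ ha, one_smul]
  have e5 : (∫ c in (0 : ℝ)..t, iavg (fun r => Ξ (r + c)) a) =
      iavg (fun r => F (r + t) - F r) a := by
    simp only [e1]
    rw [intervalIntegral.integral_smul, e3]
    rfl
  rw [e5, ← hF, e4, ← iavg_sub (by fun_prop) continuous_const]
  refine norm_iavg_le (by positivity) a fun r hr => ?_
  have r1 : |r| ≤ |a| := by
    simpa only [sub_zero] using abs_sub_left_of_mem_uIcc (uIoc_subset_uIcc hr)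
  have n1 := nd t (r + t)
  have n2 := nd 0 r
  rw [← d, add_sub_cancel_right] at n1
  rw [← hF, sub_zero] at n2
  rw [sub_right_comm]
  have := mul_le_mul_of_nonneg_left r1 M0
  linarith [norm_sub_le (F (r + t) - F t) (F r)]

end Stat1

open Stat1 in
theorem s_stat1 : S_stat1 := by
  intro E _ _ _ Ξ hc h a b t ha hb ht
  have hM : ∀ r, ‖Ξ r‖ ≤ ‖Ξ 0‖ := fun r => by
    have := h 0 0 r
    rw [zero_add] at this
    rw [norm_eq_sqrt_re_inner (𝕜 := ℂ), this, ← norm_eq_sqrt_re_inner]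
  have hy : ∀ c, ‖iavg (fun r => Ξ (r + c)) a + iavg (fun r => Ξ (r + c)) b‖ ≤
      ‖iavg Ξ a + iavg Ξ b‖ := fun c => by
    have i := ip hc (hc.comp (continuous_add_const c)) fun r r' => h r r' c
    simp only [Function.comp_def] at i
    rw [norm_eq_sqrt_re_inner (𝕜 := ℂ), norm_eq_sqrt_re_inner (𝕜 := ℂ) (iavg Ξ a + iavg Ξ b)]
    simp only [inner_add_left, inner_add_right, i, le_refl]
  have cA : ∀ s, Continuous fun c => iavg (fun r => Ξ (r + c)) s := fun s =>
    continuous_iavg (f := fun c r => Ξ (r + c)) (by fun_prop) s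
  have n0 := intervalIntegral.norm_integral_le_of_norm_le_const (a := 0) (b := t) fun c _ => hy c
  rw [intervalIntegral.integral_add ((cA a).intervalIntegrable _ _) ((cA b).intervalIntegrable _ _),
    sub_zero] at n0
  have n1 := key hc hM ha t
  have n2 := key hc hM hb t
  have t0 : 0 < |t| := abs_pos.2 ht
  have e : ‖iavg Ξ t‖ = ‖∫ r in (0 : ℝ)..t, Ξ r‖ / |t| := by
    unfold iavg
    rw [norm_smul, Real.norm_eq_abs, abs_inv, div_eq_inv_mul]
  generalize (∫ c in (0 : ℝ)..t, iavg (fun r => Ξ (r + c)) a) = A at n0 n1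
  generalize (∫ c in (0 : ℝ)..t, iavg (fun r => Ξ (r + c)) b) = B at n0 n2
  generalize (∫ r in (0 : ℝ)..t, Ξ r) = F at n1 n2 e
  have e2 : 2 * ‖F‖ = ‖A + B - (A - F) - (B - F)‖ := by
    rw [show A + B - (A - F) - (B - F) = (2 : ℝ) • F by rw [two_smul]; abel, norm_smul,
      Real.norm_two]
  have n3 := norm_sub_le (A + B - (A - F)) (B - F)
  have n4 := norm_sub_le (A + B) (A - F)
  rw [e, ← mul_div_assoc, ← mul_div_cancel_right₀ ‖iavg Ξ a + iavg Ξ b‖ t0.ne', ← add_div]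
  exact div_le_div_of_nonneg_right (by linarith) t0.le

end Vale.Agent.P365
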