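import Vale.Agent.P365.Stm

open MeasureTheory Filter Topology Set

namespace Vale.Agent.P365

theorem s_tail : S_tail := by
  intro f C η hf h0 hC hη
  have hi : ∀ a b : ℝ, IntervalIntegrable f volume a b := fun a b => hf.intervalIntegrable a b
  have hn : ∀ a b : ℝ, a ≤ b → 0 ≤ ∫ r in a..b, f r := fun a b hab =>
    intervalIntegral.integral_nonneg hab (fun r _ => h0 r)
  have hb : ∀ T : ℝ, 0 ≤ T → ∫ r in (0 : ℝ)..T, f r ≤ C := by
    intro T hT
    have h1 := intervalIntegral.integral_add_adjacent_intervals (hi (-T) 0) (hi 0 T)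
    have h2 := hn (-T) 0 (by linarith)
    have h3 := hC T hT
    linarith
  let S : Set ℝ := {y | ∃ T : ℝ, 0 ≤ T ∧ y = ∫ r in (0 : ℝ)..T, f r}
  have hne : S.Nonempty := ⟨_, 0, le_rfl, rfl⟩
  have hbd : BddAbove S := ⟨C, by
    rintro y ⟨T, hT, rfl⟩
    exact hb T hT⟩
  obtain ⟨y, ⟨T₀, hT₀, rfl⟩, hy⟩ := exists_lt_of_lt_csSup hne (sub_lt_self (sSup S) hη)
  refine ⟨T₀, hT₀, fun t t' ht htt' => ?_⟩
  have h1 := intervalIntegral.integral_add_adjacent_intervals (hi 0 T₀) (hi T₀ t)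
  have h2 := intervalIntegral.integral_add_adjacent_intervals (hi 0 t) (hi t t')
  have h3 := hn T₀ t ht
  have h4 : ∫ r in (0 : ℝ)..t', f r ≤ sSup S := le_csSup hbd ⟨t', by linarith, rfl⟩
  linarith

end Vale.Agent.P365
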