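import Vale.Agent.P365.Stm

/-! The trace property of covariant families. -/

open MeasureTheory Filter Topology Set
open scoped InnerProductSpace

namespace Vale.Agent.P365

namespace Trace

variable {d : ℕ}

theorem prob (d : ℕ) : IsProbabilityMeasure (PP d) := by
  haveI : IsProbabilityMeasure unif := by
    unfold unif
    exact ProbabilityTheory.cond_isProbabilityMeasure_of_finite (by simp) (by simp)
  unfold PP
  infer_instance

theorem inner_dlt (x : Site d) (ψ : L2 d) : ⟪dlt x, ψ⟫_ℂ = ψ x := by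
  unfold dlt
  rw [lp.inner_single_left]
  simp

theorem dlt_apply (x y : Site d) : (dlt x : L2 d) y = if y = x then 1 else 0 := by
  unfold dlt
  rw [lp.single_apply]
  by_cases h : y = x
  · subst h; simp
  · simp [h]

theorem norm_dlt (x : Site d) : ‖(dlt x : L2 d)‖ = 1 := by
  unfold dlt
  rw [lp.norm_single (by norm_num)]
  simp

theorem sq_sum (ψ : L2 d) (F : Finset (Site d)) : ∑ x ∈ F, ‖ψ x‖ ^ 2 ≤ ‖ψ‖ ^ 2 := by
  have := lp.sum_rpow_le_norm_rpow (p := 2) (by norm_num) ψ F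
  simpa using this

/-- one term of the matrix product -/
noncomputable def tm (A B : L2 d →L[ℂ] L2 d) (x : Site d) : ℂ := (A (dlt x)) 0 * (B (dlt 0)) x

theorem hasSum_tm (A B : L2 d →L[ℂ] L2 d) :
    HasSum (tm A B) ⟪dlt (0 : Site d), A (B (dlt 0))⟫_ℂ := by
  have h := (lp.hasSum_single (p := 2) (by norm_num) (B (dlt 0))).mapL
    ((innerSL ℂ (dlt (0 : Site d))).comp A)
  have e : tm A B = fun x => ((innerSL ℂ (dlt (0 : Site d))).comp A)
      (lp.single 2 x ((B (dlt 0)) x)) := by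
    funext x
    have : (lp.single 2 x ((B (dlt 0)) x) : L2 d) = ((B (dlt 0)) x) • dlt x := by
      unfold dlt
      rw [← lp.single_smul]
      simp
    rw [this, map_smul]
    simp only [ContinuousLinearMap.comp_apply, innerSL_apply_apply, inner_dlt, smul_eq_mul, tm]
    ring
  rw [e]
  simpa only [ContinuousLinearMap.comp_apply, innerSL_apply_apply] using h

theorem sum_tm (A B : L2 d →L[ℂ] L2 d) (F : Finset (Site d)) :
    ∑ x ∈ F, ‖tm A B x‖ ≤ ‖A‖ ^ 2 + ‖B‖ ^ 2 := by
  have h1 : ∀ x, ‖(A (dlt x)) 0‖ = ‖(ContinuousLinearMap.adjoint A (dlt 0)) x‖ := fun x => by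
    rw [← inner_dlt, ← inner_dlt, ← ContinuousLinearMap.adjoint_inner_left, norm_inner_symm]
  have h2 : ∀ C : L2 d →L[ℂ] L2 d, ∑ x ∈ F, ‖(C (dlt 0)) x‖ ^ 2 ≤ ‖C‖ ^ 2 := fun C => by
    refine (sq_sum _ F).trans (pow_le_pow_left₀ (norm_nonneg _) ?_ 2)
    simpa [norm_dlt] using C.le_opNorm (dlt 0)
  have h3 := h2 (ContinuousLinearMap.adjoint A)
  rw [LinearIsometryEquiv.norm_map] at h3
  refine le_trans ?_ (add_le_add h3 (h2 B))
  rw [← Finset.sum_add_distrib]
  refine Finset.sum_le_sum fun x _ => ?_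
  rw [tm, norm_mul, h1]
  nlinarith [sq_nonneg (‖(ContinuousLinearMap.adjoint A (dlt 0)) x‖ - ‖(B (dlt 0)) x‖),
    mul_nonneg (norm_nonneg ((ContinuousLinearMap.adjoint A (dlt 0)) x))
      (norm_nonneg ((B (dlt 0)) x))]

variable {T : Site d → L2 d →L[ℂ] L2 d} {A B : (Site d → ℝ) → L2 d →L[ℂ] L2 d}

theorem cont_tm (hA : Cov T A) (hB : Cov T B) (x : Site d) :
    Continuous fun ω => tm (A ω) (B ω) x := by
  simp only [tm, ← inner_dlt]
  exact (continuous_const.inner (hA.2.1 _)).mul (continuous_const.inner (hB.2.1 _))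

theorem bd_tm (hA : Cov T A) (hB : Cov T B) :
    ∃ C : ℝ, ∀ ω (F : Finset (Site d)), ∑ x ∈ F, ‖tm (A ω) (B ω) x‖ ≤ C := by
  obtain ⟨M, hM⟩ := hA.1
  obtain ⟨N, hN⟩ := hB.1
  exact ⟨M ^ 2 + N ^ 2, fun ω F => (sum_tm _ _ F).trans (add_le_add
    (pow_le_pow_left₀ (norm_nonneg _) (hM ω) 2) (pow_le_pow_left₀ (norm_nonneg _) (hN ω) 2))⟩

theorem int_tm (hA : Cov T A) (hB : Cov T B) (x : Site d) :
    Integrable (fun ω => tm (A ω) (B ω) x) (PP d) := by
  haveI := prob d
  obtain ⟨C, hC⟩ := bd_tm hA hB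
  refine Integrable.of_bound (cont_tm hA hB x).aestronglyMeasurable C
    (Eventually.of_forall fun ω => ?_)
  simpa using hC ω {x}

theorem hasSum_int (hA : Cov T A) (hB : Cov T B) :
    HasSum (fun x => ∫ ω, tm (A ω) (B ω) x ∂(PP d))
      (∫ ω, ⟪dlt (0 : Site d), A ω (B ω (dlt 0))⟫_ℂ ∂(PP d)) := by
  haveI := prob d
  obtain ⟨C, hC⟩ := bd_tm hA hB
  have h := hasSum_integral_of_summable_integral_norm (μ := PP d)
    (F := fun x ω => tm (A ω) (B ω) x) (int_tm hA hB) (by
      refine summable_of_sum_le (c := C) (fun x => integral_nonneg fun _ => norm_nonneg _)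
        fun F => ?_
      rw [← integral_finset_sum F fun x _ => (int_tm hA hB x).norm]
      refine (integral_mono (integrable_finset_sum F fun x _ => (int_tm hA hB x).norm)
        (integrable_const C) fun ω => hC ω F).trans ?_
      simp)
  have e : ∀ ω, ∑' x, tm (A ω) (B ω) x = ⟪dlt (0 : Site d), A ω (B ω (dlt 0))⟫_ℂ :=
    fun ω => (hasSum_tm _ _).tsum_eq
  simpa only [e] using h

theorem shift_dlt (hT : IsShift T) (x z : Site d) : T x (dlt z) = dlt (z - x) := by
  ext y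
  rw [hT, dlt_apply, dlt_apply]
  simp only [eq_sub_iff_add_eq]

theorem tm_cov (hT : IsShift T) (hA : Cov T A) (hB : Cov T B) (x : Site d) (ω : Site d → ℝ) :
    tm (A ω) (B ω) x = tm (B (sh x ω)) (A (sh x ω)) (-x) := by
  have h1 := hT x (A ω (dlt x)) (-x)
  have h2 := hT x (B ω (dlt 0)) 0
  rw [hA.2.2, shift_dlt hT, sub_self, neg_add_cancel] at h1
  rw [hB.2.2, shift_dlt hT, zero_sub, zero_add] at h2
  rw [tm, tm, h1, h2, mul_comm]

end Trace

open Trace in
theorem s_trace : S_sinv → S_trace := by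
  intro hs d T A B hT _ hA hB
  have h1 := hasSum_int hA hB
  have h2 := (Equiv.neg (Site d)).hasSum_iff.2 (hasSum_int hB hA)
  refine h1.unique ?_
  have e : (fun x => ∫ ω, tm (A ω) (B ω) x ∂(PP d)) =
      (fun x => ∫ ω, tm (B ω) (A ω) x ∂(PP d)) ∘ Equiv.neg (Site d) := by
    funext x
    simp only [Function.comp, Equiv.neg_apply, tm_cov hT hA hB x]
    have := integral_map (μ := PP d) (hs d x).measurable.aemeasurable
      (f := fun ω => tm (B ω) (A ω) (-x)) (cont_tm hB hA (-x)).aestronglyMeasurable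
    rw [(hs d x).map_eq] at this
    exact this.symm
  rw [e]
  exact h2

end Vale.Agent.P365
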