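import Vale.Agent.P365.Stm

/-! Joint continuity of the time evolution. -/

open MeasureTheory Filter Topology Set
open scoped InnerProductSpace

namespace Vale.Agent.P365

theorem s_ucont : S_ucont := by
  intro E _ _ _ d A M hA hM hc ψ
  rw [continuous_iff_continuousAt]
  rintro ⟨r₀, w₀⟩
  have hg : Continuous fun p : ℝ × (Site d → ℝ) => U (A w₀) p.1 ψ :=
    (continuous_U_apply (A w₀) ψ).comp continuous_fst
  have hy : Continuous fun q : (ℝ × (Site d → ℝ)) × ℝ => U (A w₀) q.2 ψ :=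
    (continuous_U_apply (A w₀) ψ).comp continuous_snd
  have h1 : Continuous fun q : (ℝ × (Site d → ℝ)) × ℝ => A q.1.2 (U (A w₀) q.2 ψ) :=
    sc_apply (B := fun q : (ℝ × (Site d → ℝ)) × ℝ => A q.1.2) (fun q => hM _)
      (fun v => (hc v).comp (continuous_snd.comp continuous_fst)) hy
  have h2 : Continuous fun q : (ℝ × (Site d → ℝ)) × ℝ => ‖(A q.1.2 - A w₀) (U (A w₀) q.2 ψ)‖ :=
    (h1.sub ((A w₀).continuous.comp hy)).norm
  have h3 : Continuous fun p : ℝ × (Site d → ℝ) =>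
      |∫ τ in (0 : ℝ)..p.1, ‖(A p.2 - A w₀) (U (A w₀) τ ψ)‖| :=
    (intervalIntegral.continuous_parametric_intervalIntegral_of_continuous
      (f := fun (p : ℝ × (Site d → ℝ)) (τ : ℝ) => ‖(A p.2 - A w₀) (U (A w₀) τ ψ)‖) h2
      continuous_fst).abs
  have h4 := h3.tendsto (r₀, w₀)
  have e : |∫ τ in (0 : ℝ)..r₀, ‖(A w₀ - A w₀) (U (A w₀) τ ψ)‖| = 0 := by simp
  rw [e] at h4
  have h5 : Tendsto (fun p : ℝ × (Site d → ℝ) => U (A p.2) p.1 ψ - U (A w₀) p.1 ψ)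
      (𝓝 (r₀, w₀)) (𝓝 0) :=
    squeeze_zero_norm (fun p => duh_bound (A w₀) (hA p.2) ψ p.1) h4
  have h6 := h5.add (hg.tendsto (r₀, w₀))
  simp only [sub_add_cancel, zero_add] at h6
  exact h6

end Vale.Agent.P365
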