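import Vale.Agent.P365.Stm

/-! Assembly: the averaged velocity tends to zero in mean square. -/

open MeasureTheory Filter Topology Set
open scoped InnerProductSpace

namespace Vale.Agent.P365

theorem abs_clip_le (s : ℝ) : |clip s| ≤ 1 := by
  unfold clip
  rw [abs_le]
  exact ⟨le_max_left _ _, max_le (by norm_num) (min_le_left _ _)⟩

theorem vel_cont {E : Type} [NormedAddCommGroup E] [InnerProductSpace ℂ E] [CompleteSpace E]
    {X : Type} [TopologicalSpace X] {H : X → E →L[ℂ] E} (V : E →L[ℂ] E) (δ : E)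
    (hsa : ∀ ω, IsSelfAdjoint (H ω))
    (hU : ∀ ψ, Continuous (fun p : ℝ × X => U (H p.2) p.1 ψ)) :
    Continuous (fun p : ℝ × X => U (H p.2) (-p.1) (V (U (H p.2) p.1 δ))) ∧
      ∀ τ : ℝ, Continuous (fun ω => avg (H ω) V τ δ) := by
  have hξ : Continuous (fun p : ℝ × X => U (H p.2) (-p.1) (V (U (H p.2) p.1 δ))) := by
    refine sc_apply (B := fun p : ℝ × X => U (H p.2) (-p.1)) (M := 1)
      (fun p => opNorm_U (hsa _) _) (fun v => ?_) (V.continuous.comp (hU _))
    have := (hU v).comp (continuous_fst.neg.prodMk continuous_snd :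
      Continuous (fun p : ℝ × X => (-p.1, p.2)))
    exact this
  refine ⟨hξ, fun τ => ?_⟩
  have h2 : Continuous (fun p : X × ℝ => U (H p.1) (-p.2) (V (U (H p.1) p.2 δ))) := by
    have := hξ.comp (continuous_snd.prodMk continuous_fst :
      Continuous (fun p : X × ℝ => (p.2, p.1)))
    exact this
  exact continuous_iavg (f := fun (ω : X) (r : ℝ) => U (H ω) (-r) (V (U (H ω) r δ))) h2 τ

theorem s_vel (hmodel : S_model) (hhcont : S_hcont) (hucont : S_ucont) (herg : S_erg)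
    (hstatm : S_statm) (hgood : S_good) (hslice : S_slice) (hcore : S_core) (hrank : S_rank) :
    S_vel := by
  intro d lam H i V hlam hF hV
  obtain ⟨-, hm2, -, hm4⟩ := hmodel d lam
  have hsa : ∀ ω, IsSelfAdjoint (H ω) := fun ω => (hm2 _ _ (fun x => abs_clip_le _) (hF ω)).1
  have hnorm : ∀ ω, ‖H ω‖ ≤ 2 * d + |lam| := fun ω => (hm2 _ _ (fun x => abs_clip_le _) (hF ω)).2
  have hVsa : IsSelfAdjoint V := hm4 i V hV
  have hU := hucont (L2 d) d H _ hsa hnorm (hhcont d lam H hF)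
  obtain ⟨hξ, hcavg⟩ := vel_cont V (dlt 0) hsa hU
  have hb : ∀ (r : ℝ) (ω : Site d → ℝ),
      ‖U (H ω) (-r) (V (U (H ω) r (dlt 0)))‖ ≤ ‖V‖ * ‖dlt (0 : Site d)‖ := by
    intro r ω
    rw [norm_U (hsa ω)]
    refine (V.le_opNorm _).trans (le_of_eq ?_)
    rw [norm_U (hsa ω)]
  obtain ⟨t, ht, hae, hfin⟩ := herg (L2 d) d
    (fun r ω => U (H ω) (-r) (V (U (H ω) r (dlt 0)))) _ hξ hb (hstatm d lam H i V hF hV)
  refine ⟨fun τ => ?_, hfin ?_⟩
  · refine Integrable.of_bound ((hcavg τ).norm.pow 2).aestronglyMeasurable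
      ((‖V‖ * ‖dlt (0 : Site d)‖) ^ 2) (Eventually.of_forall fun ω => ?_)
    rw [Real.norm_eq_abs, abs_of_nonneg (by positivity)]
    exact pow_le_pow_left₀ (norm_nonneg _) (norm_avg_le (hsa ω) V τ _) 2
  have hg := hgood d lam H i V t hF hV hae
  obtain ⟨hs1, hs2, -⟩ := hslice d
  obtain ⟨hr1, hr2⟩ := hrank d lam H hlam.le hF
  have hS : MeasurableSet {ω : Site d → ℝ |
      Tendsto (fun n => ‖avg (H ω) V (t n) (dlt 0)‖) atTop (𝓝 0)} :=
    measurableSet_tendsto _ (fun n => (hcavg (t n)).norm.measurable)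
  have key := hs2 _ hS ?_
  · filter_upwards [key] with ω hω
    exact tendsto_zero_iff_norm_tendsto_zero.mpr hω
  filter_upwards [hs1 _ hg] with ω hω
  have hI : ∀ s ∈ Set.Ioc (-1 : ℝ) 1, H (Function.update ω 0 s) = H (Function.update ω 0 0) +
      (s : ℂ) • Pr (((Real.sqrt lam : ℝ) : ℂ) • dlt (0 : Site d)) :=
    fun s hs => hr1 ω s (Set.Ioc_subset_Icc_self hs)
  have hc := hcore (L2 d) (H (Function.update ω 0 0)) V
    (((Real.sqrt lam : ℝ) : ℂ) • dlt (0 : Site d)) (-1) 1 t (hsa _) hVsa ht (by norm_num)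
    (fun s hs => by rw [← hI s hs]; exact hr2 _ i V _ hV (hsa _) hVsa)
    (by
      filter_upwards [hω, ae_restrict_mem measurableSet_Ioc] with s h1 hs
      rw [← hI s hs]; exact h1)
  filter_upwards [hc, ae_restrict_mem measurableSet_Ioc] with s h1 hs
  rw [← hI s hs] at h1
  simp only [avg_smul] at h1
  have hne : ((Real.sqrt lam : ℝ) : ℂ) ≠ 0 := by
    exact_mod_cast (Real.sqrt_pos.mpr hlam).ne'
  have h2 := h1.const_smul (((Real.sqrt lam : ℝ) : ℂ)⁻¹)
  simp only [smul_smul, inv_mul_cancel₀ hne, one_smul, smul_zero] at h2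
  exact tendsto_zero_iff_norm_tendsto_zero.mp h2

end Vale.Agent.P365
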