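import Vale.Agent.P365.Hilb
import Vale.Agent.P365.Disc
import Vale.Agent.P365.Spec02
import Vale.Agent.P365.Spec
import Vale.Agent.P365.Tail
import Vale.Agent.P365.PearA
import Vale.Agent.P365.Pear1
import Vale.Agent.P365.Pear
import Vale.Agent.P365.Lim
import Vale.Agent.P365.Cmp
import Vale.Agent.P365.Mq
import Vale.Agent.P365.Over
import Vale.Agent.P365.Orth
import Vale.Agent.P365.Cnt
import Vale.Agent.P365.Kill
import Vale.Agent.P365.Pi
import Vale.Agent.P365.Meas
import Vale.Agent.P365.AvM
import Vale.Agent.P365.Proj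
import Vale.Agent.P365.Anti
import Vale.Agent.P365.Jconj
import Vale.Agent.P365.Core
import Vale.Agent.P365.Stat1
import Vale.Agent.P365.Stat
import Vale.Agent.P365.LpC
import Vale.Agent.P365.Erg
import Vale.Agent.P365.Ext
import Vale.Agent.P365.Ucont
import Vale.Agent.P365.Mul
import Vale.Agent.P365.Shift
import Vale.Agent.P365.Model
import Vale.Agent.P365.Hcont
import Vale.Agent.P365.Rank
import Vale.Agent.P365.Sinv
import Vale.Agent.P365.Slice
import Vale.Agent.P365.Trace
import Vale.Agent.P365.CovC
import Vale.Agent.P365.Statm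
import Vale.Agent.P365.Good
import Vale.Agent.P365.Pos1
import Vale.Agent.P365.Pos
import Vale.Agent.P365.MainA
import Vale.Agent.P365.Vel

/-! Final assembly. -/

namespace Vale.Agent.P365

theorem t_model : S_model := s_model s_mul s_shift

theorem t_spec : S_spec := s_spec (s_spec02 (s_disc s_hilb))

theorem t_mq : S_mq := s_mq s_lim

theorem t_orth : S_orth := s_orth (s_pear (s_pear1 s_tail s_pearA)) s_lim s_cmp t_mq s_over

theorem t_proj : S_proj :=
  s_proj s_pi (s_avM t_spec s_lim s_meas) (s_kill t_orth t_mq s_cnt) s_lim s_meas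

theorem t_core : S_core := s_core t_proj (s_anti s_lim)

theorem t_cov : S_cov := s_cov t_model s_hcont s_ucont

theorem t_vel : S_vel :=
  s_vel t_model s_hcont s_ucont (s_erg (s_stat s_stat1) s_lp)
    (s_statm s_shift (s_trace s_sinv) t_cov t_model) (s_good s_shift t_cov s_sinv s_ext t_model)
    s_slice t_core (s_rank s_J)

theorem t_pos : S_pos := s_pos s_shift (s_pos1 s_mul)

theorem t_main : S_main := s_main t_vel t_pos t_model s_slice

end Vale.Agent.P365
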