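import Vale.Agent.P365.Defs3
import Vale.Agent.P365.Fin

/-! Resolvents. -/

open MeasureTheory Filter Topology Set
open scoped InnerProductSpace

namespace Vale.Agent.P365

section General

variable {E : Type} [NormedAddCommGroup E] [InnerProductSpace ℂ E] [CompleteSpace E]

/-- The resolvent. -/
noncomputable def res (A : E →L[ℂ] E) (z : ℂ) : E →L[ℂ] E := Ring.inverse (A - z • 1)

theorem isUnit_sub {A : E →L[ℂ] E} (hA : IsSelfAdjoint A) {z : ℂ} (hz : z.im ≠ 0) :
    IsUnit (A - z • (1 : E →L[ℂ] E)) := by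
  have h : z ∉ spectrum ℂ A := fun h => hz (hA.im_eq_zero_of_mem_spectrum h)
  rw [spectrum.notMem_iff, Algebra.algebraMap_eq_smul_one] at h
  simpa using h.neg

theorem res_right {A : E →L[ℂ] E} (hA : IsSelfAdjoint A) {z : ℂ} (hz : z.im ≠ 0) (v : E) :
    A (res A z v) - z • res A z v = v := by
  have := congrArg (fun B : E →L[ℂ] E => B v) (Ring.mul_inverse_cancel _ (isUnit_sub hA hz))
  exact this

theorem res_left {A : E →L[ℂ] E} (hA : IsSelfAdjoint A) {z : ℂ} (hz : z.im ≠ 0) (v : E) :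
    res A z (A v - z • v) = v := by
  have := congrArg (fun B : E →L[ℂ] E => B v) (Ring.inverse_mul_cancel _ (isUnit_sub hA hz))
  exact this

theorem res_im {A : E →L[ℂ] E} (hA : IsSelfAdjoint A) {z : ℂ} (hz : z.im ≠ 0) (v : E) :
    (⟪v, res A z v⟫_ℂ).im = z.im * ‖res A z v‖ ^ 2 := by
  set u := res A z v with hu
  have h1 : ⟪v, u⟫_ℂ = ⟪A u, u⟫_ℂ - (starRingEnd ℂ) z * ((‖u‖ ^ 2 : ℝ) : ℂ) := by
    conv_lhs => rw [← res_right hA hz v, ← hu]
    rw [inner_sub_left, inner_smul_left, inner_self_eq_norm_sq_to_K]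
    simp
  have h2 : (⟪A u, u⟫_ℂ).im = 0 := by
    have h3 : (starRingEnd ℂ) ⟪A u, u⟫_ℂ = ⟪A u, u⟫_ℂ := by
      rw [inner_conj_symm, inner_sa hA]
    exact Complex.conj_eq_iff_im.mp h3
  rw [h1, Complex.sub_im, h2, Complex.mul_im, Complex.ofReal_im, Complex.ofReal_re, Complex.conj_im]
  ring

theorem norm_res_le {A : E →L[ℂ] E} (hA : IsSelfAdjoint A) {z : ℂ} (hz : z.im ≠ 0) (v : E) :
    ‖res A z v‖ ≤ ‖v‖ / |z.im| := by
  have h0 : 0 < |z.im| := abs_pos.mpr hz
  have h1 : |z.im| * ‖res A z v‖ ^ 2 ≤ ‖v‖ * ‖res A z v‖ := by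
    calc |z.im| * ‖res A z v‖ ^ 2 = |(⟪v, res A z v⟫_ℂ).im| := by
          rw [res_im hA hz, abs_mul, abs_of_nonneg (sq_nonneg ‖res A z v‖)]
      _ ≤ ‖⟪v, res A z v⟫_ℂ‖ := Complex.abs_im_le_norm _
      _ ≤ _ := norm_inner_le_norm _ _
  rw [le_div_iff₀ h0]
  rcases (norm_nonneg (res A z v)).eq_or_lt with h | h
  · rw [← h, zero_mul]; exact norm_nonneg _
  · nlinarith

theorem res_adj {A : E →L[ℂ] E} (hA : IsSelfAdjoint A) {z : ℂ} (hz : z.im ≠ 0) (v w : E) :
    ⟪res A z v, w⟫_ℂ = ⟪v, res A ((starRingEnd ℂ) z) w⟫_ℂ := by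
  have hz' : ((starRingEnd ℂ) z).im ≠ 0 := by simpa using hz
  conv_lhs => rw [← res_right hA hz' w]
  conv_rhs => rw [← res_right hA hz v]
  rw [inner_sub_left, inner_sub_right, inner_smul_left, inner_smul_right, inner_sa hA]

/-- Intertwining passes to resolvents. -/
theorem res_intertwine {A B T : E →L[ℂ] E} (hA : IsSelfAdjoint A) (hB : IsSelfAdjoint B)
    (h : ∀ v, T (A v) = B (T v)) {z : ℂ} (hz : z.im ≠ 0) (v : E) :
    T (res A z v) = res B z (T v) := by
  conv_rhs => rw [← res_right hA hz v, map_sub, map_smul, h, res_left hB hz]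

/-- Second resolvent identity. -/
theorem res_sub {A B : E →L[ℂ] E} (hA : IsSelfAdjoint A) (hB : IsSelfAdjoint B) {z w : ℂ}
    (hz : z.im ≠ 0) (hw : w.im ≠ 0) (v : E) :
    res A z v - res B w v = res A z ((B - A) (res B w v) + (z - w) • res B w v) := by
  have h1 : (B - A) (res B w v) + (z - w) • res B w v = v - (A (res B w v) - z • res B w v) := by
    conv_rhs => rw [← res_right hB hw v]
    rw [res_left hB hw, sub_apply, sub_smul]
    abel
  rw [h1, map_sub, res_left hA hz]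

end General

/-- The spectral parameter at energy `e` and height `1 / (n + 1)`. -/
noncomputable def zz (e : ℝ) (n : ℕ) : ℂ := ⟨e, 1 / ((n : ℝ) + 1)⟩

theorem zz_im_pos (e : ℝ) (n : ℕ) : 0 < (zz e n).im := by
  change 0 < 1 / ((n : ℝ) + 1)
  positivity

/-- The Green function. -/
noncomputable def gr {d : ℕ} (H : (Site d → ℝ) → L2 d →L[ℂ] L2 d) (n : ℕ) (x y : Site d)
    (p : (Site d → ℝ) × ℝ) : ℂ := (res (H p.1) (zz p.2 n) (dlt y)) x

/-- Product of the law of the potential and Lebesgue measure on an energy window. -/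
noncomputable def nu (d : ℕ) (L : ℝ) : Measure ((Site d → ℝ) × ℝ) :=
  (PP d).prod (volume.restrict (Set.Ioc (-L) L))

instance nu_fin (d : ℕ) (L : ℝ) : IsFiniteMeasure (nu d L) := by
  unfold nu; infer_instance

/-- Boundary value of the imaginary part of the Green function. -/
noncomputable def rl {d : ℕ} (H : (Site d → ℝ) → L2 d →L[ℂ] L2 d) (x y : Site d)
    (p : (Site d → ℝ) × ℝ) : ℝ := limUnder atTop (fun n => (gr H n x y p).im)

/-- Raising the potential at the origin by `t`. -/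
noncomputable def up {d : ℕ} (t : ℝ) (p : (Site d → ℝ) × ℝ) : (Site d → ℝ) × ℝ :=
  (Function.update p.1 0 (p.1 0 + t), p.2)

/-- Shift on the product space. -/
def shp {d : ℕ} (a : Site d) (p : (Site d → ℝ) × ℝ) : (Site d → ℝ) × ℝ := (sh a p.1, p.2)

theorem shp_mp (d : ℕ) (L : ℝ) (a : Site d) : MeasurePreserving (shp a) (nu d L) (nu d L) :=
  (s_sinv d a).prod (MeasurePreserving.id _)

theorem fam_sa {d : ℕ} {lam : ℝ} {H : (Site d → ℝ) → L2 d →L[ℂ] L2 d} (hF : IsFam lam H)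
    (ω : Site d → ℝ) : IsSelfAdjoint (H ω) :=
  ((t_model d lam).2.1 _ _ (fun _ => abs_clip_le _) (hF ω)).1

theorem inner_dlt {d : ℕ} (x : Site d) (ψ : L2 d) : ⟪dlt x, ψ⟫_ℂ = ψ x := by
  unfold dlt
  rw [lp.inner_single_left]
  simp

theorem norm_dlt {d : ℕ} (x : Site d) : ‖dlt x‖ = 1 := by
  unfold dlt
  rw [lp.norm_single (by norm_num)]
  simp

end Vale.Agent.P365
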