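import Vale.Agent.P365.Stm4

open MeasureTheory Filter Topology Set
open scoped InnerProductSpace

namespace Vale.Agent.P365

theorem b_fatou : T_sym → T_fatou := by
  intro hs μ _
  filter_upwards [Besicovitch.ae_tendsto_rnDeriv μ volume, Measure.rnDeriv_lt_top μ volume]
    with e h1 h2
  have h3 := (ENNReal.tendsto_toReal h2.ne).comp h1
  have h4 : Tendsto (fun r : ℝ => μ.real (Metric.closedBall e r) / (2 * r)) (𝓝[>] 0)
      (𝓝 (dens μ e)) := by
    refine h3.congr' ?_
    filter_upwards [self_mem_nhdsWithin] with r hr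
    have hr' : (0 : ℝ) < r := hr
    simp only [Function.comp, ENNReal.toReal_div, Real.volume_closedBall, Measure.real]
    rw [ENNReal.toReal_ofReal (by positivity)]
  have h5 : Tendsto (fun n : ℕ => 1 / ((n : ℝ) + 1)) atTop (𝓝[>] 0) :=
    tendsto_nhdsWithin_iff.mpr ⟨tendsto_one_div_add_atTop_nhds_zero_nat,
      Eventually.of_forall fun n => by simp only [Set.mem_Ioi]; positivity⟩
  exact (hs μ e _ h4).comp h5

theorem b_gcov : T_gcov := by
  intro d lam H hF n x y a p
  obtain ⟨T, hT, -, -⟩ := s_shift d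
  have hc := (t_cov d lam T H hT hF).1.2.2 a p.1
  have h1 := res_intertwine (fam_sa hF p.1) (fam_sa hF (sh a p.1)) hc (zz_im_pos p.2 n).ne'
    (dlt (y + a))
  have h2 : T a (dlt (y + a)) = dlt y := by
    refine lp.ext (funext fun w => ?_)
    rw [hT]
    unfold dlt
    by_cases h : w = y
    · subst h; simp
    · rw [lp.single_apply_ne _ _ _ (fun h' => h (add_right_cancel h')), lp.single_apply_ne _ _ _ h]
  unfold gr shp
  rw [← hT a, h1, h2]

theorem b_lim : T_poi → T_fatou → O_lim := by
  intro hp hf E _ _ _ A ψ μ hA hμ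
  have := hμ.1
  filter_upwards [hf μ] with e he
  refine he.congr fun n => ?_
  unfold qn
  rw [← res_im hA (zz_im_pos e n).ne', hp E A ψ μ _ hA hμ (zz_im_pos e n)]
  rfl

end Vale.Agent.P365
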