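import Vale.Agent.P365.Stm4

open MeasureTheory Filter Topology Set
open scoped InnerProductSpace

namespace Vale.Agent.P365

theorem b_poi : T_poi := by
  intro E _ _ _ A ψ μ z hA hμ hz
  set e := z.re with he
  set η := z.im with hη
  have hpos : ∀ x : ℝ, 0 < (x - e) ^ 2 + η ^ 2 := fun x => by positivity
  have hc : Continuous (fun x : ℝ => η / ((x - e) ^ 2 + η ^ 2)) :=
    continuous_const.div (by fun_prop) (fun x => (hpos x).ne')
  let f : BoundedContinuousFunction ℝ ℝ := BoundedContinuousFunction.ofNormedAddCommGroup _ hc (1 / η)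
    (fun x => by
      rw [Real.norm_eq_abs, abs_of_pos (div_pos hz (hpos x)), div_le_div_iff₀ (hpos x) hz]
      nlinarith [sq_nonneg (x - e)])
  have h1 := hμ.2 f
  have hf : (f : ℝ → ℝ) = fun x : ℝ => η / ((x - e) ^ 2 + η ^ 2) := rfl
  rw [hf] at h1
  set K := cfc (fun x : ℝ => η / ((x - e) ^ 2 + η ^ 2)) A with hK
  have h2 : cfc (fun x : ℝ => (x - e) ^ 2 + η ^ 2) A =
      (A - algebraMap ℝ _ e) ^ 2 + algebraMap ℝ _ (η ^ 2) := by
    rw [cfc_add A _ _ (by fun_prop) (by fun_prop), cfc_pow _ 2 A (by fun_prop),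
      cfc_sub _ _ A (by fun_prop) (by fun_prop), cfc_id' ℝ A, cfc_const e A, cfc_const _ A]
  have h3 : K * ((A - algebraMap ℝ _ e) ^ 2 + algebraMap ℝ _ (η ^ 2)) = algebraMap ℝ _ η := by
    rw [← h2, hK, ← cfc_mul _ _ A hc.continuousOn (by fun_prop), ← cfc_const η A]
    congr 1
    funext x
    exact div_mul_cancel₀ _ (hpos x).ne'
  have hz' : ((starRingEnd ℂ) z).im ≠ 0 := by simpa using hz.ne'
  set u := res A z ψ with hu
  set w := res A ((starRingEnd ℂ) z) u with hw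
  have e1 : A u - z • u = ψ := res_right hA hz.ne' ψ
  have e2 : A w - (starRingEnd ℂ) z • w = u := res_right hA hz' u
  have hzz : z = (e : ℂ) + η * Complex.I := (Complex.re_add_im z).symm
  have halg : ∀ (c : ℝ) (v : E), (algebraMap ℝ (E →L[ℂ] E) c) v = (c : ℂ) • v := by
    intro c v
    rw [Algebra.algebraMap_eq_smul_one]
    simp
  have h4 : ((A - algebraMap ℝ _ e) ^ 2 + algebraMap ℝ (E →L[ℂ] E) (η ^ 2) : E →L[ℂ] E) w = ψ := by
    rw [← e1, ← e2, add_apply, sq, mul_apply_eq_comp, sub_apply, sub_apply, halg, halg, halg]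
    simp only [map_sub, map_smul, smul_sub, smul_smul]
    have hc1 : (starRingEnd ℂ) z = (e : ℂ) - η * Complex.I := by
      apply Complex.ext <;> simp [he, hη]
    rw [hc1]
    conv_rhs => rw [hzz]
    have hI : ((e : ℂ) + η * Complex.I) * ((e : ℂ) - η * Complex.I) = (e : ℂ) * e + ((η ^ 2 : ℝ) : ℂ) := by
      push_cast
      linear_combination (-(η : ℂ) ^ 2) * Complex.I_mul_I
    rw [hI]
    module
  have h5 : K ψ = (η : ℂ) • w := by
    rw [← h4, ← mul_apply_eq_comp, h3, halg]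
  have h6 : ⟪ψ, w⟫_ℂ = ((‖u‖ ^ 2 : ℝ) : ℂ) := by
    rw [hw, ← res_adj hA hz.ne', ← hu, inner_self_eq_norm_sq_to_K]
    simp
  rw [h5, inner_smul_right, h6] at h1
  rw [res_im hA hz.ne', ← hu]
  exact_mod_cast h1

end Vale.Agent.P365
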