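import Vale.Agent.P365.Stm4

open MeasureTheory Filter Topology Set
open scoped InnerProductSpace

namespace Vale.Agent.P365

theorem b_fin : T_far → T_alg → T_weg → T_up → T_grk → T_gpos → T_fin := by
  intro hfar halg hweg hup hgrk hgpos d lam L H e hlam hL hF he ε γ hε hγ
  set M := 10 * L / (lam * γ) with hM
  have hM0 : 0 < M := by positivity
  set t := min 1 (γ / (10 * L)) with ht
  have ht0 : 0 < t := lt_min one_pos (by positivity)
  have ht1 : t ≤ 1 := min_le_left _ _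
  have ht2 : t ≤ γ / (10 * L) := min_le_right _ _
  obtain ⟨C, hC, hal⟩ := halg (lam * t) (ε ^ 2 / M) M (by positivity) (by positivity) hM0
  have hδ : 0 < ε ^ 2 / (2 * C) := by positivity
  have hγ5 : 0 < γ / 5 := by positivity
  obtain ⟨n₁, K₁, h1⟩ := hfar d lam L H e hlam hL hF he t _ _ ht0.le (by linarith) hδ hγ5
  obtain ⟨n₂, K₂, h2⟩ := hfar d lam L H e hlam hL hF he (2 * t) _ _ (by linarith) (by linarith)
    hδ hγ5
  refine ⟨max n₁ n₂, max K₁ K₂, fun n k hn hk => ?_⟩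
  set y : Site d := (k : ℤ) • e with hy
  have b1 := h1 n k ((le_max_left _ _).trans hn) ((le_max_left _ _).trans hk)
  have b2 := h2 n k ((le_max_right _ _).trans hn) ((le_max_right _ _).trans hk)
  have hMγ : 2 * L / (lam * M) = γ / 5 := by rw [hM]; field_simp; ring
  have b3 := hweg d lam L M H hlam hL hM0 hF n 0
  have b4 := hweg d lam L M H hlam hL hM0 hF n y
  rw [hMγ] at b3 b4
  have b5 : nu d L {p | p.1 0 ∉ Set.Icc (-1) (1 - 2 * t)} ≤ ENNReal.ofReal (γ / 5) := by
    refine (hup d L (2 * t) hL (by linarith) (by linarith)).2.2.trans (ENNReal.ofReal_le_ofReal ?_)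
    rw [le_div_iff₀ (by positivity)] at ht2
    nlinarith
  rw [← hy] at b1 b2
  refine le_trans (measure_mono (t := (((
      {p | p.1 0 ∈ Set.Icc (-1) (1 - t) ∧
        ε ^ 2 / (2 * C) ≤ |(gr H n y y (up t p)).im - (gr H n y y p).im|} ∪
      {p | p.1 0 ∈ Set.Icc (-1) (1 - 2 * t) ∧
        ε ^ 2 / (2 * C) ≤ |(gr H n y y (up (2 * t) p)).im - (gr H n y y p).im|}) ∪
      {p | M < ‖gr H n 0 0 p‖}) ∪ {p | M < ‖gr H n y y p‖}) ∪
      {p | p.1 0 ∉ Set.Icc (-1) (1 - 2 * t)}) ?_) ?_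
  · intro p hp
    by_contra hcon
    simp only [Set.mem_union, Set.mem_ofPred_eq, not_or, not_and, not_le, not_lt, not_not] at hcon
    obtain ⟨⟨⟨⟨c1, c2⟩, c3⟩, c4⟩, c5⟩ := hcon
    have c6 : p.1 0 ∈ Set.Icc (-1) (1 - t) := ⟨c5.1, c5.2.trans (by linarith)⟩
    have hp' : ε ≤ |(gr H n y 0 p).im| := hp
    obtain ⟨g1, g2, -⟩ := hgpos d lam H hF n y 0 p
    have g0 := (hgpos d lam H hF n 0 0 p).1
    have hsq : ε ^ 2 ≤ (gr H n y 0 p).im ^ 2 := by
      rw [← sq_abs (gr H n y 0 p).im]; gcongr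
    have him : (gr H n y y p).im ≤ M := ((le_abs_self _).trans (Complex.abs_im_le_norm _)).trans c4
    have hθ : ε ^ 2 / M ≤ (gr H n 0 0 p).im := by
      rw [div_le_iff₀ hM0]; nlinarith
    have r1 := (hgrk d lam H hlam hF n y t p ht0.le c6).2
    have r2 := (hgrk d lam H hlam hF n y (2 * t) p (by linarith) c5).2
    have d1 := c1 c6
    have d2 := c2 c5
    rw [r1, Complex.sub_im, sub_sub_cancel_left, abs_neg] at d1
    rw [r2, Complex.sub_im, sub_sub_cancel_left, abs_neg,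
      show lam * (2 * t) = 2 * (lam * t) by ring] at d2
    have hw := hal _ _ _ hθ c3 d1.le d2.le
    have h7 : (gr H n y 0 p).im ^ 2 ≤ ‖gr H n y 0 p ^ 2‖ := by
      rw [norm_pow, ← sq_abs (gr H n y 0 p).im]
      exact pow_le_pow_left₀ (abs_nonneg _) (Complex.abs_im_le_norm _) 2
    have h8 : C * (ε ^ 2 / (2 * C)) = ε ^ 2 / 2 := by field_simp
    nlinarith [sq_pos_of_pos hε]
  · refine (measure_union_le _ _).trans ?_
    refine (add_le_add ((measure_union_le _ _).trans (add_le_add ((measure_union_le _ _).trans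
      (add_le_add ((measure_union_le _ _).trans (add_le_add b1 b2)) b3)) b4)) b5).trans ?_
    rw [← ENNReal.ofReal_add hγ5.le hγ5.le, ← ENNReal.ofReal_add (by positivity) hγ5.le,
      ← ENNReal.ofReal_add (by positivity) hγ5.le, ← ENNReal.ofReal_add (by positivity) hγ5.le]
    exact ENNReal.ofReal_le_ofReal (by linarith)

end Vale.Agent.P365
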