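import Vale.Agent.P365.Defs

/-! The second moment of the position. -/

open scoped ENNReal

namespace Vale.Agent.P365

/-- Second moment of the position in the state `ψ`. -/
noncomputable def mom {d : ℕ} (ψ : L2 d) : ℝ≥0∞ :=
  ∑' x : Site d, ENNReal.ofReal ((∑ i : Fin d, ((x i : ℤ) : ℝ) ^ 2) * ‖ψ x‖ ^ 2)

end Vale.Agent.P365
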