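import Vale.Agent.P365.Defs

/-! Spectral measures and their densities. -/

open MeasureTheory
open scoped InnerProductSpace BoundedContinuousFunction

namespace Vale.Agent.P365

/-- `μ` is the spectral measure of the vector `ψ` for the operator `A`. -/
def IsSpec {E : Type} [NormedAddCommGroup E] [InnerProductSpace ℂ E] [CompleteSpace E]
    (A : E →L[ℂ] E) (ψ : E) (μ : Measure ℝ) : Prop :=
  IsFiniteMeasure μ ∧ ∀ f : ℝ →ᵇ ℝ, ⟪ψ, (cfc (f : ℝ → ℝ) A) ψ⟫_ℂ = ((∫ x, f x ∂μ : ℝ) : ℂ)

/-- Density of the absolutely continuous part of `μ`. -/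
noncomputable def dens (μ : Measure ℝ) (e : ℝ) : ℝ := (μ.rnDeriv volume e).toReal

/-- Matrix of spectral densities between the sites `x` and `y`, by polarization. -/
noncomputable def kern {d : ℕ} (μ : L2 d → Measure ℝ) (x y : Site d) (e : ℝ) : ℝ :=
  (dens (μ (dlt x + dlt y)) e - dens (μ (dlt x)) e - dens (μ (dlt y)) e) / 2

end Vale.Agent.P365
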