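import Vale.Agent.P365.Defs3

/-! The invariant subspace generated by finitely many vectors. -/

namespace Vale.Agent.P365

/-- Linear span of the vectors `A ^ k (v j)`. -/
def gen {E : Type} [NormedAddCommGroup E] [InnerProductSpace ℂ E]
    (A : E →L[ℂ] E) {m : ℕ} (v : Fin m → E) : Submodule ℂ E :=
  Submodule.span ℂ (Set.range fun q : ℕ × Fin m => (A ^ q.1) (v q.2))

end Vale.Agent.P365
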