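import Vale.Agent.P365.Defs

/-! The probability of being far from the origin. -/

open scoped ENNReal

namespace Vale.Agent.P365

/-- Probability, in the state `ψ`, of a position at Euclidean distance more than `R`. -/
noncomputable def esc {d : ℕ} (R : ℝ) (ψ : L2 d) : ℝ≥0∞ :=
  ∑' x : Site d, if R < Real.sqrt (∑ i : Fin d, ((x i : ℤ) : ℝ) ^ 2) then
    ENNReal.ofReal (‖ψ x‖ ^ 2) else 0

end Vale.Agent.P365
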