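import Vale.Agent.P365.Defs3

/-! Absence of absolutely continuous vectors, absolutely continuous mass, time integrals. -/

open MeasureTheory
open scoped ENNReal

namespace Vale.Agent.P365

/-- No nonzero vector has an absolutely continuous spectral measure. -/
def NoAC {d : ℕ} (A : L2 d →L[ℂ] L2 d) : Prop :=
  ∀ (φ : L2 d) (μ : Measure ℝ), IsSpec A φ μ → μ.AbsolutelyContinuous volume → φ = 0

/-- Mass of the absolutely continuous part. -/
noncomputable def acm (μ : Measure ℝ) : ℝ≥0∞ := ∫⁻ e, μ.rnDeriv volume e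

/-- Expected time integral of an observable along the evolution of the vector at the origin. -/
noncomputable def tint {d : ℕ} (H : (Site d → ℝ) → L2 d →L[ℂ] L2 d) (Φ : L2 d → ℝ≥0∞) (T : ℝ) :
    ℝ≥0∞ :=
  ∫⁻ ω, (∫⁻ t in Set.Ioc 0 T, Φ (U (H ω) t (dlt 0))) ∂(PP d)

end Vale.Agent.P365
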