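import Vale.Agent.P365.Defs4

/-! Nowhere finite multiplicity of the absolutely continuous spectrum. -/

open MeasureTheory

namespace Vale.Agent.P365

/-- The band of every nonzero absolutely continuous vector is not finitely generated. -/
def InfAC {d : ℕ} (A : L2 d →L[ℂ] L2 d) : Prop :=
  ∀ μ : L2 d → Measure ℝ, (∀ ψ, IsSpec A ψ (μ ψ)) →
    ∀ φ : L2 d, φ ≠ 0 → (μ φ).AbsolutelyContinuous volume → ∀ (m : ℕ) (v : Fin m → L2 d),
      ∃ ψ : L2 d, (μ ψ).AbsolutelyContinuous (μ φ) ∧ ψ ∉ (gen A v).topologicalClosure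

end Vale.Agent.P365
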