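import Vale.Agent.P365.Stm2
import Vale.Agent.P365.MainA

/-! Convergence in the mean for every initial state. -/

open MeasureTheory Filter Topology Set
open scoped InnerProductSpace

namespace Vale.Agent.P365

namespace MainG

theorem prob_unif : IsProbabilityMeasure unif := by
  unfold unif
  exact ProbabilityTheory.cond_isProbabilityMeasure_of_finite (by simp) (by simp)

theorem prob_PP (d : ℕ) : IsProbabilityMeasure (PP d) := by
  have := prob_unif
  unfold PP
  infer_instance

/-- The abstract squeeze with an additive constant. -/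
theorem squeeze {X : Type} [MeasurableSpace X] (μ : Measure X) [IsProbabilityMeasure μ] {d : ℕ}
    (f : ℝ → X → ENNReal) (g : Fin d → ℝ → X → ℝ) (c : ℝ) (hc : 0 ≤ c)
    (hg : ∀ i t x, 0 ≤ g i t x) (hi : ∀ i t, Integrable (g i t) μ)
    (hl : ∀ i, Tendsto (fun t => ∫ x, g i t x ∂μ) atTop (𝓝 0))
    (hf : ∀ t, ∀ᵐ x ∂μ, f t x ≤ ENNReal.ofReal (c + 2 * (t ^ 2 * ∑ i, g i t x))) :
    Tendsto (fun t : ℝ => (∫⁻ x, f t x ∂μ) / ENNReal.ofReal (t ^ 2)) atTop (𝓝 0) := by
  have h1 : Tendsto (fun t => ∑ i, ∫ x, g i t x ∂μ) atTop (𝓝 0) := by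
    have := tendsto_finsetSum (Finset.univ : Finset (Fin d)) (fun i _ => hl i)
    simpa using this
  have h0 : Tendsto (fun t : ℝ => c / t ^ 2) atTop (𝓝 0) :=
    tendsto_const_nhds.div_atTop (tendsto_pow_atTop (by norm_num))
  have h1' : Tendsto (fun t : ℝ => c / t ^ 2 + 2 * ∑ i, ∫ x, g i t x ∂μ) atTop (𝓝 0) := by
    have := h0.add (h1.const_mul 2)
    simpa using this
  have h2 : Tendsto (fun t : ℝ => ENNReal.ofReal (c / t ^ 2 + 2 * ∑ i, ∫ x, g i t x ∂μ)) atTop
      (𝓝 0) := by
    have := ENNReal.tendsto_ofReal h1'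
    simpa using this
  refine tendsto_of_tendsto_of_tendsto_of_le_of_le' tendsto_const_nhds h2
    (Eventually.of_forall (fun _ => zero_le)) ?_
  filter_upwards [eventually_gt_atTop (0 : ℝ)] with t ht
  have hint : Integrable (fun x => ∑ i, g i t x) μ := integrable_finsetSum _ (fun i _ => hi i t)
  have hint2 : Integrable (fun x => 2 * (t ^ 2 * ∑ i, g i t x)) μ :=
    (hint.const_mul _).const_mul _
  have hint3 : Integrable (fun x => c + 2 * (t ^ 2 * ∑ i, g i t x)) μ :=
    (integrable_const c).add hint2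
  have h3 : ∫⁻ x, f t x ∂μ ≤ ENNReal.ofReal (t ^ 2) *
      ENNReal.ofReal (c / t ^ 2 + 2 * ∑ i, ∫ x, g i t x ∂μ) := by
    refine (lintegral_mono_ae (hf t)).trans (le_of_eq ?_)
    rw [← ofReal_integral_eq_lintegral_ofReal hint3
      (Eventually.of_forall (fun x => add_nonneg hc (mul_nonneg (by norm_num)
        (mul_nonneg (sq_nonneg _) (Finset.sum_nonneg (fun i _ => hg i t x)))))),
      integral_add (integrable_const c) hint2, integral_const_mul, integral_const_mul,
      integral_finsetSum _ (fun i _ => hi i t), ← ENNReal.ofReal_mul (sq_nonneg _)]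
    congr 1
    have ht2 : t ^ 2 ≠ 0 := pow_ne_zero 2 ht.ne'
    simp only [integral_const, probReal_univ, smul_eq_mul, one_mul]
    field_simp
  exact ENNReal.div_le_of_le_mul' h3

end MainG

theorem s_mainA : S_velg → S_momb → S_model → S_slice → S_mainA := by
  intro hvel hmom hmodel hslice d lam hlam H hH ψ hψ
  obtain ⟨hex, hsa, hV, -⟩ := hmodel d lam
  choose Hc hHc using fun ω : Site d → ℝ =>
    hex (fun x => clip (ω x)) (fun x => MainA.abs_clip (ω x))
  choose V hV using hV
  have hfam : IsFam lam Hc := hHc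
  have := MainG.prob_PP d
  refine MainG.squeeze (PP d) _ (fun i t ω => ‖avg (Hc ω) (V i) t ψ‖ ^ 2)
    (2 * (d * (mom ψ).toReal)) (by positivity)
    (fun i t ω => sq_nonneg _) (fun i t => (hvel d lam Hc i (V i) hlam hfam (hV i) ψ).1 t)
    (fun i => (hvel d lam Hc i (V i) hlam hfam (hV i) ψ).2) (fun t => ?_)
  filter_upwards [(hslice d).2.2] with ω hω
  have hc : (fun x => clip (ω x)) = ω := funext (fun x => MainA.clip_eq (hω x))
  have h1 : IsAnderson lam ω (Hc ω) := by
    have := hHc ω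
    rwa [hc] at this
  have h2 : H ω = Hc ω := MainA.and_ext (hH ω hω) h1
  have h3 : IsSelfAdjoint (Hc ω) := (hsa ω (Hc ω) (fun x => abs_le.mpr (hω x)) h1).1
  rw [h2]
  exact hmom d lam ω (Hc ω) V t ψ h1 h3 hV hψ

end Vale.Agent.P365
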