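import Vale.Agent.P365.Stm2
import Vale.Agent.P365.MainA

/-! Assembly of the almost sure statement for all states. -/

open MeasureTheory Filter Topology Set
open scoped InnerProductSpace ENNReal

namespace Vale.Agent.P365

namespace MainH

/-- The abstract squeeze along a sequence of times. -/
theorem squeeze {d : ℕ} (s : ℕ → ℝ) (hs : Tendsto s atTop atTop) (f : ℕ → ℝ≥0∞) (c : ℝ)
    (g : Fin d → ℕ → ℝ) (hl : ∀ i, Tendsto (g i) atTop (𝓝 0))
    (hf : ∀ n, f n ≤ ENNReal.ofReal (2 * c + 2 * (s n ^ 2 * ∑ i, g i n ^ 2))) :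
    Tendsto (fun n => f n / ENNReal.ofReal (s n ^ 2)) atTop (𝓝 0) := by
  have h1 : Tendsto (fun n => ∑ i, g i n ^ 2) atTop (𝓝 0) := by
    have := tendsto_finsetSum (Finset.univ : Finset (Fin d)) (fun i _ => (hl i).pow 2)
    simpa using this
  have h0 : Tendsto (fun n => (s n ^ 2)⁻¹) atTop (𝓝 0) :=
    tendsto_inv_atTop_zero.comp ((tendsto_pow_atTop two_ne_zero).comp hs)
  have h2 : Tendsto (fun n => 2 * c * (s n ^ 2)⁻¹ + 2 * ∑ i, g i n ^ 2) atTop (𝓝 0) := by
    have := (h0.const_mul (2 * c)).add (h1.const_mul 2)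
    simpa using this
  have h3 : Tendsto (fun n => ENNReal.ofReal (2 * c * (s n ^ 2)⁻¹ + 2 * ∑ i, g i n ^ 2)) atTop
      (𝓝 0) := by
    have := ENNReal.tendsto_ofReal h2
    simpa using this
  refine tendsto_of_tendsto_of_tendsto_of_le_of_le' tendsto_const_nhds h3
    (Eventually.of_forall (fun _ => zero_le)) ?_
  filter_upwards [hs.eventually (eventually_gt_atTop (0 : ℝ))] with n hn
  refine ENNReal.div_le_of_le_mul' ((hf n).trans (le_of_eq ?_))
  rw [← ENNReal.ofReal_mul (sq_nonneg _)]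
  congr 1
  have : s n ^ 2 ≠ 0 := pow_ne_zero _ hn.ne'
  field_simp

end MainH

theorem s_mainB : S_as → S_momb → S_model → S_slice → S_mainB := by
  intro has hmom hmodel hslice d lam hlam H hH t ht
  obtain ⟨hex, hsa, hV, -⟩ := hmodel d lam
  choose Hc hHc using fun ω : Site d → ℝ =>
    hex (fun x => clip (ω x)) (fun x => MainA.abs_clip (ω x))
  choose V hV using hV
  have hfam : IsFam lam Hc := hHc
  obtain ⟨k, hk, hae⟩ := has d lam Hc V t hlam hfam hV ht
  refine ⟨k, hk, ?_⟩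
  filter_upwards [(hslice d).2.2, hae] with ω hω hlim ψ hψ
  have hc : (fun x => clip (ω x)) = ω := funext (fun x => MainA.clip_eq (hω x))
  have h1 : IsAnderson lam ω (Hc ω) := by
    have := hHc ω
    rwa [hc] at this
  have h2 : H ω = Hc ω := MainA.and_ext (hH ω hω) h1
  have h3 : IsSelfAdjoint (Hc ω) := (hsa ω (Hc ω) (fun x => abs_le.mpr (hω x)) h1).1
  rw [h2]
  exact MainH.squeeze (fun n => t (k n)) (ht.comp hk.tendsto_atTop)
    (fun n => mom (U (Hc ω) (t (k n)) ψ)) (d * (mom ψ).toReal)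
    (fun i n => ‖avg (Hc ω) (V i) (t (k n)) ψ‖)
    (fun i => tendsto_zero_iff_norm_tendsto_zero.mp (hlim i ψ))
    (fun n => hmom d lam ω (Hc ω) V (t (k n)) ψ h1 h3 hV hψ)

end Vale.Agent.P365
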