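import Vale.Agent.P365.Stm2

/-! The second moment in terms of the averaged velocities. -/

open MeasureTheory Filter Topology Set
open scoped InnerProductSpace ENNReal

namespace Vale.Agent.P365

namespace Momb

theorem fin_le {d : ℕ} (ψ : L2 d) (h : mom ψ ≠ ⊤) (i : Fin d) (F : Finset (Site d)) :
    ∑ x ∈ F, ((x i : ℤ) : ℝ) ^ 2 * ‖ψ x‖ ^ 2 ≤ (mom ψ).toReal := by
  have h1 : ∑ x ∈ F, ((x i : ℤ) : ℝ) ^ 2 * ‖ψ x‖ ^ 2 ≤
      ∑ x ∈ F, (∑ j : Fin d, ((x j : ℤ) : ℝ) ^ 2) * ‖ψ x‖ ^ 2 := by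
    refine Finset.sum_le_sum fun x _ => mul_le_mul_of_nonneg_right ?_ (by positivity)
    exact Finset.single_le_sum (f := fun j : Fin d => ((x j : ℤ) : ℝ) ^ 2)
      (fun j _ => by positivity) (Finset.mem_univ i)
  refine h1.trans ?_
  rw [← ENNReal.ofReal_le_iff_le_toReal h,
    ENNReal.ofReal_sum_of_nonneg (fun x _ => by positivity)]
  exact ENNReal.sum_le_tsum F

end Momb

theorem s_momb : S_posg → S_momb := by
  intro hP d lam ω H V t ψ hA hsa hV hm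
  conv_lhs => unfold mom
  rw [ENNReal.tsum_eq_iSup_sum]
  refine iSup_le fun F => ?_
  rw [← ENNReal.ofReal_sum_of_nonneg (fun x _ => by positivity)]
  refine ENNReal.ofReal_le_ofReal ?_
  simp only [Finset.sum_mul]
  rw [Finset.sum_comm]
  have h : ∀ i : Fin d, ∑ x ∈ F, ((x i : ℤ) : ℝ) ^ 2 * ‖(U H t ψ) x‖ ^ 2 ≤
      2 * (mom ψ).toReal + 2 * (t ^ 2 * ‖avg H (V i) t ψ‖ ^ 2) := fun i =>
    hP d lam ω H (V i) i t _ F ψ hA hsa (hV i) (Momb.fin_le ψ hm i)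
  refine (Finset.sum_le_sum fun i _ => h i).trans (le_of_eq ?_)
  rw [Finset.sum_add_distrib, Finset.sum_const, Finset.card_univ, Fintype.card_fin, nsmul_eq_mul,
    ← Finset.mul_sum, ← Finset.mul_sum]
  ring

end Vale.Agent.P365
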