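import Vale.Agent.P365.Stm2
import Vale.Agent.P365.Pos1

/-! The gauge twisted position bound for a general state. -/

open MeasureTheory Filter Topology Set
open scoped InnerProductSpace

namespace Vale.Agent.P365

namespace Pos1g

theorem gen {E : Type} [NormedAddCommGroup E] [InnerProductSpace ℂ E] [CompleteSpace E]
    {H W G : E →L[ℂ] E} (hH : IsSelfAdjoint H) (h : ∀ v, G (H v) = (H + W) (G v)) (ψ : E)
    (t : ℝ) : ‖G (U H t ψ) - U H t ψ‖ ^ 2 ≤ 2 * ‖G ψ - ψ‖ ^ 2 +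
      2 * (t ^ 2 * ‖iavg (fun r => U H (-r) (W (U (H + W) r (G ψ)))) t‖ ^ 2) := by
  have h1 := duhamel_norm (H + W) H (G ψ) t
  rw [add_sub_cancel_left] at h1
  rw [U_intertwine h, ← norm_U hH (-t), map_sub, U_neg_U, ← sq_abs t, ← mul_pow, ← h1]
  have h2 := norm_sub_le_norm_sub_add_norm_sub (U H (-t) (U (H + W) t (G ψ))) (G ψ) ψ
  have h3 := pow_le_pow_left₀ (norm_nonneg _) h2 2
  nlinarith [sq_nonneg (‖U H (-t) (U (H + W) t (G ψ)) - G ψ‖ - ‖G ψ - ψ‖)]

theorem sq_le {d : ℕ} (φ : L2 d) {C : ℝ} (h : ∀ F : Finset (Site d), ∑ x ∈ F, ‖φ x‖ ^ 2 ≤ C) :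
    ‖φ‖ ^ 2 ≤ C := by
  have h1 := lp.norm_rpow_eq_tsum (p := 2) (by norm_num) φ
  have h2 := (lp.hasSum_norm (p := 2) (by norm_num) φ).summable
  simp only [ENNReal.toReal_ofNat, Real.rpow_ofNat] at h1 h2
  rw [h1]
  exact h2.tsum_le_of_sum_le h

theorem ph (θ : ℝ) (n : ℤ) :
    ‖Complex.exp (-(θ * n * Complex.I)) - 1‖ ^ 2 ≤ θ ^ 2 * (n : ℝ) ^ 2 := by
  have h := Real.norm_exp_I_mul_ofReal_sub_one_le (x := -(θ * n))
  rw [show Complex.I * ((-(θ * n) : ℝ) : ℂ) = -(θ * n * Complex.I) by push_cast; ring] at h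
  refine (pow_le_pow_left₀ (norm_nonneg _) h 2).trans (le_of_eq ?_)
  rw [Real.norm_eq_abs, sq_abs]
  ring

end Pos1g

open Pos1g in
theorem s_pos1g : S_mul → S_pos1g := by
  intro hm d lam ω H T i t θ B F W ψ hA hH hT hW hB
  obtain ⟨G, -, hG⟩ := hm d (fun x => Complex.exp (-(θ * (x i : ℤ) * Complex.I))) 1 zero_le_one
    fun x => by
      rw [Complex.norm_exp]
      simp
  have hW' : ∀ (φ : L2 d) (x : Site d), (W φ) x =
      (Complex.exp (θ * Complex.I) - 1) * φ (x + Pi.single i 1) +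
        (Complex.exp (-(θ * Complex.I)) - 1) * φ (x - Pi.single i 1) := fun φ x => by
    rw [hW, ContinuousLinearMap.add_apply, ContinuousLinearMap.smul_apply,
      ContinuousLinearMap.smul_apply, lp.coeFn_add, lp.coeFn_smul, lp.coeFn_smul, Pi.add_apply,
      Pi.smul_apply, Pi.smul_apply, hT, hT, smul_eq_mul, smul_eq_mul, sub_eq_add_neg x]
  have h1 : ∀ v, G (H v) = (H + W) (G v) := fun v => by
    refine lp.ext (funext fun x => ?_)
    rw [ContinuousLinearMap.add_apply, lp.coeFn_add, Pi.add_apply, hG, hA, hA, hW']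
    have e : ∀ j : Fin d, Complex.exp (-(θ * (x i : ℤ) * Complex.I)) *
        (v (x + Pi.single j 1) + v (x - Pi.single j 1)) =
        ((G v) (x + Pi.single j 1) + (G v) (x - Pi.single j 1)) + if j = i then
          (Complex.exp (θ * Complex.I) - 1) * (G v) (x + Pi.single i 1) +
            (Complex.exp (-(θ * Complex.I)) - 1) * (G v) (x - Pi.single i 1) else 0 := fun j => by
      simp only [hG, Pi.add_apply, Pi.sub_apply]
      by_cases c : j = i
      · subst c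
        rw [if_pos rfl, Pi.single_eq_same]
        linear_combination v (x + Pi.single j 1) * Pos1.ex1 θ (x j) +
          v (x - Pi.single j 1) * Pos1.ex2 θ (x j)
      · rw [if_neg c, Pi.single_eq_of_ne' c, add_zero, add_zero, sub_zero]
        ring
    rw [mul_add, Finset.mul_sum, Finset.sum_congr rfl fun j _ => e j, Finset.sum_add_distrib,
      Finset.sum_ite_eq', if_pos (Finset.mem_univ i), hG v x]
    ring
  have h2 : ∀ (v : L2 d) (x : Site d), ‖(G v - v) x‖ ^ 2 =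
      ‖Complex.exp (-(θ * (x i : ℤ) * Complex.I)) - 1‖ ^ 2 * ‖v x‖ ^ 2 := fun v x => by
    rw [lp.coeFn_sub, Pi.sub_apply, hG, ← mul_pow, ← norm_mul, sub_mul, one_mul]
  have h3 : ‖G ψ - ψ‖ ^ 2 ≤ θ ^ 2 * B := by
    refine sq_le _ fun F' => le_trans ?_ (mul_le_mul_of_nonneg_left (hB F') (sq_nonneg θ))
    rw [Finset.mul_sum]
    refine Finset.sum_le_sum fun x _ => ?_
    rw [h2, ← mul_assoc]
    exact mul_le_mul_of_nonneg_right (ph θ (x i)) (sq_nonneg _)
  refine ⟨G ψ, h3, ?_⟩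
  refine le_trans ?_ ((gen hH h1 ψ t).trans (add_le_add_left (by linarith) _))
  exact le_trans (le_of_eq (Finset.sum_congr rfl fun x _ => (h2 _ x).symm)) (Pos1.sum_le _ F)

end Vale.Agent.P365
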