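import Vale.Agent.P365.Stm2
import Vale.Agent.P365.Pos

/-! The position bound for a general state as the limit of the gauge twisted bounds. -/

open MeasureTheory Filter Topology Set
open scoped InnerProductSpace

namespace Vale.Agent.P365

namespace Posg

variable {E : Type} [NormedAddCommGroup E] [InnerProductSpace ℂ E] [CompleteSpace E]

theorem cont_XY (H : E →L[ℂ] E) (t : ℝ) :
    Continuous (fun p : ((E →L[ℂ] E) × (E →L[ℂ] E)) × E =>
      iavg (fun r => U H (-r) (p.1.1 (U (H + p.1.2) r p.2))) t) := by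
  refine continuous_iavg (f := fun p : ((E →L[ℂ] E) × (E →L[ℂ] E)) × E =>
    fun r => U H (-r) (p.1.1 (U (H + p.1.2) r p.2))) ?_ t
  have h1 : Continuous (fun q : (((E →L[ℂ] E) × (E →L[ℂ] E)) × E) × ℝ => U H (-q.2)) :=
    (continuous_U H).comp continuous_snd.neg
  have h2 : Continuous (fun q : (((E →L[ℂ] E) × (E →L[ℂ] E)) × E) × ℝ => U (H + q.1.1.2) q.2) :=
    continuous_U2.comp ((continuous_const.add continuous_fst.fst.snd).prodMk continuous_snd)
  exact h1.clm_apply (continuous_fst.fst.fst.clm_apply (h2.clm_apply continuous_fst.snd))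

omit [InnerProductSpace ℂ E] [CompleteSpace E] in
theorem lim_vec (v : E) (φ : ℝ → E) (C : ℝ) (h : ∀ θ, ‖φ θ - v‖ ^ 2 ≤ θ ^ 2 * C) :
    Tendsto φ (𝓝[≠] 0) (𝓝 v) := by
  refine Tendsto.mono_left ?_ nhdsWithin_le_nhds
  rw [tendsto_iff_norm_sub_tendsto_zero]
  have c : Continuous fun θ : ℝ => √(θ ^ 2 * C) := by fun_prop
  have z := c.tendsto 0
  rw [zero_pow two_ne_zero, zero_mul, Real.sqrt_zero] at z
  exact squeeze_zero (fun _ => norm_nonneg _) (fun θ => Real.le_sqrt_of_sq_le (h θ)) z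

theorem lim_gen (H A B : E →L[ℂ] E) (v : E) (φ : ℝ → E) (hφ : Tendsto φ (𝓝[≠] 0) (𝓝 v)) (t : ℝ)
    (W : ℝ → E →L[ℂ] E) (hW : ∀ θ : ℝ, W θ = (Complex.exp (θ * Complex.I) - 1) • A +
      (Complex.exp (-(θ * Complex.I)) - 1) • B) :
    Tendsto (fun θ : ℝ => (θ ^ 2)⁻¹ *
        ‖iavg (fun r => U H (-r) (W θ (U (H + W θ) r (φ θ)))) t‖ ^ 2) (𝓝[≠] 0)
      (𝓝 (‖avg H (Complex.I • A + (-Complex.I) • B) t v‖ ^ 2)) := by
  have hW' : ∀ θ : ℝ, W θ = (Complex.exp (θ * Complex.I) - 1) • A +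
      (Complex.exp (θ * (-Complex.I)) - 1) • B := by
    intro θ
    rw [hW θ, mul_neg]
  have h0 : Tendsto W (𝓝[≠] 0) (𝓝 0) := by
    have := ((Pos.exp_zero_lim Complex.I).smul_const A).add
      ((Pos.exp_zero_lim (-Complex.I)).smul_const B)
    simp only [zero_smul, add_zero] at this
    exact this.congr (fun θ => (hW' θ).symm)
  have h1 : Tendsto (fun θ : ℝ => ((θ : ℂ))⁻¹ • W θ) (𝓝[≠] 0)
      (𝓝 (Complex.I • A + (-Complex.I) • B)) := by
    have := ((Pos.slope_exp Complex.I).smul_const A).add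
      ((Pos.slope_exp (-Complex.I)).smul_const B)
    refine this.congr (fun θ => ?_)
    rw [hW' θ, smul_add, smul_smul, smul_smul]
  have h2 := ((cont_XY H t).tendsto ((Complex.I • A + (-Complex.I) • B, 0), v)).comp
    ((h1.prodMk_nhds h0).prodMk_nhds hφ)
  have h3 := (h2.norm).pow 2
  simp only [add_zero] at h3
  refine h3.congr (fun θ => ?_)
  simp only [Function.comp]
  have e : (fun r => U H (-r) ((((θ : ℂ))⁻¹ • W θ) (U (H + W θ) r (φ θ)))) =
      fun r => ((θ : ℂ))⁻¹ • U H (-r) (W θ (U (H + W θ) r (φ θ))) := by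
    funext r
    rw [smul_apply, map_smul]
  rw [e, iavg_smul, norm_smul, norm_inv, Complex.norm_real, mul_pow, inv_pow, Real.norm_eq_abs,
    sq_abs]

end Posg

theorem s_posg : S_shift → S_pos1g → S_posg := by
  intro hs h1 d lam ω H V i t B F ψ hA hH hV hB
  obtain ⟨T, hT, -, -⟩ := hs d
  have hVe : V = Complex.I • T (Pi.single i 1) + (-Complex.I) • T (-Pi.single i 1) := by
    ext ψ x
    rw [hV ψ x, add_apply, smul_apply,
      smul_apply, lp.coeFn_add, Pi.add_apply, lp.coeFn_smul, lp.coeFn_smul,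
      Pi.smul_apply, Pi.smul_apply, hT, hT, smul_eq_mul, smul_eq_mul, ← sub_eq_add_neg]
    ring
  obtain ⟨W, hW⟩ : ∃ W : ℝ → L2 d →L[ℂ] L2 d, ∀ θ : ℝ,
      W θ = (Complex.exp (θ * Complex.I) - 1) • T (Pi.single i 1) +
        (Complex.exp (-(θ * Complex.I)) - 1) • T (-Pi.single i 1) := ⟨_, fun _ => rfl⟩
  choose φ p1 p2 using fun θ : ℝ => h1 d lam ω H T i t θ B F (W θ) ψ hA hH hT (hW θ) hB
  have hR := (((Posg.lim_gen H (T (Pi.single i 1)) (T (-Pi.single i 1)) ψ φ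
    (Posg.lim_vec ψ φ B p1) t W hW).const_mul (t ^ 2)).const_mul 2).const_add (2 * B)
  rw [← hVe] at hR
  have hL : Tendsto (fun θ : ℝ => ∑ x ∈ F, (θ ^ 2)⁻¹ *
      ‖Complex.exp (-(θ * (x i : ℤ) * Complex.I)) - 1‖ ^ 2 * ‖(U H t ψ) x‖ ^ 2) (𝓝[≠] 0)
      (𝓝 (∑ x ∈ F, ((x i : ℤ) : ℝ) ^ 2 * ‖(U H t ψ) x‖ ^ 2)) :=
    tendsto_finsetSum F (fun x _ => (Pos.lim_coef (x i)).mul_const _)
  refine le_of_tendsto_of_tendsto hL hR (eventually_mem_nhdsWithin.mono fun θ hθ => ?_)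
  have h0 : θ ≠ 0 := hθ
  have hp : 0 ≤ (θ ^ 2)⁻¹ := by positivity
  have h' := mul_le_mul_of_nonneg_left (p2 θ) hp
  rw [Finset.mul_sum] at h'
  refine le_of_eq_of_le ?_ (h'.trans (le_of_eq ?_))
  · exact Finset.sum_congr rfl (fun x _ => mul_assoc _ _ _)
  · have k : ∀ a : ℝ, (θ ^ 2)⁻¹ * (2 * (θ ^ 2 * B) + 2 * (t ^ 2 * a)) =
        2 * B + 2 * (t ^ 2 * ((θ ^ 2)⁻¹ * a)) := fun a => by field_simp
    exact k _

end Vale.Agent.P365
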