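import Vale.Agent.P365.Stm2
import Vale.Agent.P365.Vel

open MeasureTheory Filter Topology Set
open scoped InnerProductSpace

namespace Vale.Agent.P365

namespace Velg

theorem gen {E κ Ω : Type} [NormedAddCommGroup E] [NormedSpace ℂ E] [MeasurableSpace Ω]
    (μ : Measure Ω) [IsProbabilityMeasure μ] (a : ℝ → Ω → E → E) (M : ℝ) (e : κ → E)
    (hadd : ∀ t ω v w, a t ω (v + w) = a t ω v + a t ω w)
    (hsm : ∀ t ω (c : ℂ) v, a t ω (c • v) = c • a t ω v)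
    (hb : ∀ t ω v, ‖a t ω v‖ ≤ M * ‖v‖)
    (hi : ∀ t v, Integrable (fun ω => ‖a t ω v‖ ^ 2) μ)
    (he : ∀ v, ∃ c : κ → ℂ, HasSum (fun x => c x • e x) v)
    (h : ∀ x, Tendsto (fun t => ∫ ω, ‖a t ω (e x)‖ ^ 2 ∂μ) atTop (𝓝 0)) (v : E) :
    Tendsto (fun t => ∫ ω, ‖a t ω v‖ ^ 2 ∂μ) atTop (𝓝 0) := by
  classical
  have hnn : ∀ t v, 0 ≤ ∫ ω, ‖a t ω v‖ ^ 2 ∂μ := fun t v => integral_nonneg fun ω => sq_nonneg _
  have h2 : ∀ t v w, ∫ ω, ‖a t ω (v + w)‖ ^ 2 ∂μ ≤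
      2 * ∫ ω, ‖a t ω v‖ ^ 2 ∂μ + 2 * ∫ ω, ‖a t ω w‖ ^ 2 ∂μ := fun t v w => by
    rw [← integral_const_mul, ← integral_const_mul,
      ← integral_add ((hi t v).const_mul 2) ((hi t w).const_mul 2)]
    refine integral_mono (hi t _) (((hi t v).const_mul 2).add ((hi t w).const_mul 2)) fun ω => ?_
    have h3 : ‖a t ω (v + w)‖ ≤ ‖a t ω v‖ + ‖a t ω w‖ := by
      rw [hadd]
      exact norm_add_le _ _
    have h4 := pow_le_pow_left₀ (norm_nonneg _) h3 2
    show ‖a t ω (v + w)‖ ^ 2 ≤ 2 * ‖a t ω v‖ ^ 2 + 2 * ‖a t ω w‖ ^ 2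
    nlinarith [sq_nonneg (‖a t ω v‖ - ‖a t ω w‖)]
  have h5 : ∀ t v, ∫ ω, ‖a t ω v‖ ^ 2 ∂μ ≤ (M * ‖v‖) ^ 2 := fun t v => by
    have := integral_mono (hi t v) (integrable_const ((M * ‖v‖) ^ 2)) fun ω =>
      pow_le_pow_left₀ (norm_nonneg _) (hb t ω v) 2
    simpa using this
  have h6 : ∀ (c : ℂ) x, Tendsto (fun t => ∫ ω, ‖a t ω (c • e x)‖ ^ 2 ∂μ) atTop (𝓝 0) :=
    fun c x => by
      have := (h x).const_mul (‖c‖ ^ 2)
      rw [mul_zero] at this
      refine this.congr fun t => ?_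
      rw [← integral_const_mul]
      exact integral_congr_ae (ae_of_all _ fun ω => by simp only [hsm, norm_smul, mul_pow])
  obtain ⟨c, hc⟩ := he v
  have h7 : ∀ F : Finset κ,
      Tendsto (fun t => ∫ ω, ‖a t ω (∑ x ∈ F, c x • e x)‖ ^ 2 ∂μ) atTop (𝓝 0) := fun F => by
    induction F using Finset.induction_on with
    | empty =>
      refine squeeze_zero (fun t => hnn t _) (fun t => h5 t _) ?_
      simp
    | insert x F hx ih =>
      rw [Finset.sum_insert hx]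
      refine squeeze_zero (fun t => hnn t _) (fun t => h2 t _ _) ?_
      simpa using ((h6 (c x) x).const_mul 2).add (ih.const_mul 2)
  refine tendsto_order.2 ⟨fun b hb' => Eventually.of_forall fun t => hb'.trans_le (hnn t v),
    fun b hb' => ?_⟩
  have h8 : Tendsto (fun F : Finset κ => (M * ‖v - ∑ x ∈ F, c x • e x‖) ^ 2) atTop (𝓝 0) := by
    have := ((((tendsto_const_nhds (x := v)).sub hc).norm).const_mul M).pow 2
    simpa using this
  obtain ⟨F, hF⟩ := (h8.eventually (gt_mem_nhds (show (0 : ℝ) < b / 4 by linarith))).exists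
  filter_upwards [(h7 F).eventually (gt_mem_nhds (show (0 : ℝ) < b / 4 by linarith))] with t ht
  have h9 := h2 t (∑ x ∈ F, c x • e x) (v - ∑ x ∈ F, c x • e x)
  rw [add_sub_cancel] at h9
  linarith [h5 t (v - ∑ x ∈ F, c x • e x)]

end Velg

theorem s_velg : S_vel → S_velx → S_model → S_velg := by
  intro hvel hvelx hmodel d lam H i V hlam hF hV ψ
  obtain ⟨-, hm2, -, -⟩ := hmodel d lam
  have hsa : ∀ ω, IsSelfAdjoint (H ω) := fun ω => (hm2 _ _ (fun x => abs_clip_le _) (hF ω)).1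
  obtain ⟨hc, hx⟩ := hvelx d lam H i V hF hV
  have hi : ∀ t φ, Integrable (fun ω => ‖avg (H ω) V t φ‖ ^ 2) (PP d) := fun t φ =>
    Integrable.of_bound ((hc t φ).norm.pow 2).aestronglyMeasurable ((‖V‖ * ‖φ‖) ^ 2)
      (ae_of_all _ fun ω => by
        rw [Real.norm_eq_abs, abs_of_nonneg (sq_nonneg _)]
        exact pow_le_pow_left₀ (norm_nonneg _) (norm_avg_le (hsa ω) V t φ) 2)
  refine ⟨fun t => hi t ψ, ?_⟩
  refine Velg.gen (PP d) (fun t ω φ => avg (H ω) V t φ) ‖V‖ (fun x : Site d => dlt x)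
    (fun t ω v w => avg_add _ _ _ _ _) (fun t ω c v => avg_smul _ _ _ _ _)
    (fun t ω v => norm_avg_le (hsa ω) V t v) hi (fun v => ⟨fun x => v x, ?_⟩) (fun x => ?_) ψ
  · have k := lp.hasSum_single (p := 2) (by simp) v
    simpa only [dlt, ← lp.single_smul, smul_eq_mul, mul_one] using k
  · simp only [hx]
    exact (hvel d lam H i V hlam hF hV).2

end Vale.Agent.P365
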