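import Vale.Agent.P365.Stm2
import Vale.Agent.P365.Vel
import Vale.Agent.P365.Good

/-! Continuity of the averaged velocity and independence of the starting site. -/

open MeasureTheory Filter Topology Set
open scoped InnerProductSpace

namespace Vale.Agent.P365

theorem s_velx : S_shift → S_cov → S_sinv → S_model → S_hcont → S_ucont → S_velx := by
  intro h1 h2 h3 h5 hh hu d lam H i V hF hV
  obtain ⟨T, hT, hn, -⟩ := h1 d
  obtain ⟨c1, -, c2, -⟩ := h2 d lam T H hT hF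
  obtain ⟨-, hm2, -, -⟩ := h5 d lam
  have hsa : ∀ ω, IsSelfAdjoint (H ω) := fun ω => (hm2 _ _ (fun x => abs_clip_le _) (hF ω)).1
  have hnorm : ∀ ω, ‖H ω‖ ≤ 2 * d + |lam| := fun ω => (hm2 _ _ (fun x => abs_clip_le _) (hF ω)).2
  have hU := hu (L2 d) d H _ hsa hnorm (hh d lam H hF)
  have hc : ∀ t ψ, Continuous (fun ω => avg (H ω) V t ψ) := fun t ψ => (vel_cont V ψ hsa hU).2 t
  refine ⟨hc, fun t x => ?_⟩
  have e : ∀ ω : Site d → ℝ, ‖avg (H ω) V t (dlt x)‖ = ‖avg (H (sh x ω)) V t (dlt 0)‖ := by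
    intro ω
    rw [← hn (-x) (avg (H (sh x ω)) V t (dlt 0)),
      Good.map_avg (c1.2.2 (-x) (sh x ω)) ((c2 i V hV).2.2 (-x) ω), Good.sh_sh,
      Good.shift_dlt hT]
  simp only [e]
  have k := integral_map (μ := PP d) (h3 d x).measurable.aemeasurable
    (f := fun ω => ‖avg (H ω) V t (dlt 0)‖ ^ 2) ((hc t (dlt 0)).norm.pow 2).aestronglyMeasurable
  rw [(h3 d x).map_eq] at k
  exact k.symm

end Vale.Agent.P365
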