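import Vale.Agent.P365.Fin
import Vale.Agent.P365.Pos1g
import Vale.Agent.P365.Posg
import Vale.Agent.P365.Momb
import Vale.Agent.P365.Velx
import Vale.Agent.P365.Velg
import Vale.Agent.P365.Asub
import Vale.Agent.P365.MainG
import Vale.Agent.P365.MainH

/-! Final assembly for general initial states. -/

namespace Vale.Agent.P365

theorem t_momb : S_momb := s_momb (s_posg s_shift (s_pos1g s_mul))

theorem t_velx : S_velx := s_velx s_shift t_cov s_sinv t_model s_hcont s_ucont

theorem t_mainA : S_mainA := s_mainA (s_velg t_vel t_velx t_model) t_momb t_model s_slice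

theorem t_mainB : S_mainB := s_mainB (s_as t_vel t_velx t_model) t_momb t_model s_slice

end Vale.Agent.P365
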