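import Vale.Agent.P365.Stm3

/-! Boundary values of the Green function on the product space. -/

open MeasureTheory Filter Topology Set
open scoped InnerProductSpace ENNReal

namespace Vale.Agent.P365

namespace MAe

theorem gen {X : Type} [MeasurableSpace X] (μ : Measure X) (ν : Measure ℝ) [SFinite ν]
    (f : ℕ → X × ℝ → ℝ) (hf : ∀ n, StronglyMeasurable (f n))
    (h : ∀ ω, ∀ᵐ e ∂ν, ∃ c, Tendsto (fun n => f n (ω, e)) atTop (𝓝 c)) :
    ∀ᵐ p ∂(μ.prod ν), Tendsto (fun n => f n p) atTop (𝓝 (limUnder atTop (fun n => f n p))) := by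
  have hm : MeasurableSet {p | ∃ c, Tendsto (fun n => f n p) atTop (𝓝 c)} :=
    StronglyMeasurable.measurableSet_exists_tendsto hf
  have h1 := (Measure.ae_prod_mem_iff_ae_ae_mem (μ := μ) (ν := ν) hm).2
    (Eventually.of_forall h)
  filter_upwards [h1] with p hp
  exact tendsto_nhds_limUnder hp

end MAe

theorem m_ae : T_exspec → T_conv → T_gcont → T_ae := by
  intro hex hconv hcont d lam L H hF
  have hm : ∀ (x y : Site d) (n : ℕ), StronglyMeasurable (fun p => (gr H n x y p).im) :=
    fun x y n =>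
      (Complex.continuous_im.comp (hcont d lam H hF n x y)).measurable.stronglyMeasurable
  refine ⟨fun x y => (StronglyMeasurable.limUnder (l := atTop) (hm x y)).measurable, ?_⟩
  rw [ae_all_iff]
  intro x
  rw [ae_all_iff]
  intro y
  refine MAe.gen (PP d) (volume.restrict (Set.Ioc (-L) L)) (fun n p => (gr H n x y p).im)
    (hm x y) (fun ω => ?_)
  choose μ hμ using fun ψ => hex (L2 d) (H ω) ψ (fam_sa hF ω)
  refine ae_restrict_of_ae ?_
  filter_upwards [hconv d lam H hF ω μ hμ] with e he
  exact ⟨_, he.2 x y⟩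

end Vale.Agent.P365
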