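import Vale.Agent.P365.Stm3

/-! Two couplings determine the square of the Green function. -/

namespace Vale.Agent.P365

namespace MAlg

theorem one {κ M δ : ℝ} {w a : ℂ} (hκ : 0 < κ) (h0 : 0 < a.im) (hM : ‖a‖ ≤ M)
    (h : |((κ : ℂ) * w / (1 + (κ : ℂ) * a)).im| ≤ δ) :
    |κ * w.im * (1 + κ * a.re) - κ * w.re * (κ * a.im)| ≤ (1 + κ * M) ^ 2 * δ := by
  have h1 : (1 + (κ : ℂ) * a) ≠ 0 := fun e => by
    have := congrArg Complex.im e
    simp [hκ.ne', h0.ne'] at this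
  have h2 := Complex.normSq_pos.2 h1
  have h3 : ‖1 + (κ : ℂ) * a‖ ≤ 1 + κ * M := (norm_add_le _ _).trans (by
    rw [norm_one, norm_mul, Complex.norm_real, Real.norm_eq_abs, abs_of_pos hκ]
    gcongr)
  rw [Complex.div_im, ← sub_div, abs_div, abs_of_pos h2, div_le_iff₀ h2] at h
  simp only [Complex.mul_im, Complex.mul_re, Complex.add_re, Complex.add_im, Complex.ofReal_re,
    Complex.ofReal_im, Complex.one_re, Complex.one_im, zero_mul, add_zero, sub_zero, zero_add] at h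
  have h4 : 0 ≤ δ := nonneg_of_mul_nonneg_left ((abs_nonneg _).trans h) h2
  refine h.trans ?_
  rw [mul_comm, Complex.normSq_eq_norm_sq]
  gcongr

end MAlg

theorem m_alg : T_alg := by
  intro κ θ M hκ hθ hM
  obtain ⟨B, hB⟩ : ∃ B, B = (4 * (1 + κ * M) ^ 2 + (1 + 2 * κ * M) ^ 2) / (2 * κ) := ⟨_, rfl⟩
  have B0 : 0 < B := by rw [hB]; positivity
  refine ⟨(κ * B * (1 + κ * M) + (1 + κ * M) ^ 2) / (κ * (κ * θ)) + B, by positivity,
    fun w a δ h1 h2 h3 h4 => ?_⟩
  have d0 : 0 ≤ δ := (abs_nonneg _).trans h3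
  have k1 := MAlg.one hκ (hθ.trans_le h1) h2 h3
  have k2 := MAlg.one (by positivity) (hθ.trans_le h1) h2 h4
  have k3 : |w.im| ≤ B * δ := by
    rw [hB, div_mul_eq_mul_div, le_div_iff₀ (by positivity), ← abs_of_pos (mul_pos two_pos hκ),
      ← abs_mul, abs_of_pos (mul_pos two_pos hκ), abs_le]
    rw [abs_le] at k1 k2
    constructor <;> linarith [k1.1, k1.2, k2.1, k2.2]
  have k4 : |κ * w.im * (1 + κ * a.re)| ≤ κ * (B * δ) * (1 + κ * M) := by
    have : |1 + κ * a.re| ≤ 1 + κ * M := (abs_add_le _ _).trans (by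
      rw [abs_one, abs_mul, abs_of_pos hκ]
      gcongr
      exact (Complex.abs_re_le_norm a).trans h2)
    rw [abs_mul, abs_mul, abs_of_pos hκ]
    gcongr
  have k5 : |w.re| * (κ * (κ * θ)) ≤ |κ * w.re * (κ * a.im)| := by
    rw [abs_mul, abs_mul, abs_of_pos hκ, abs_of_pos (mul_pos hκ (hθ.trans_le h1)), mul_comm κ |_|,
      mul_assoc]
    gcongr
  have k6 := abs_sub_abs_le_abs_sub (κ * w.re * (κ * a.im)) (κ * w.im * (1 + κ * a.re))
  rw [abs_sub_comm] at k6
  refine (Complex.norm_le_abs_re_add_abs_im w).trans ?_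
  rw [add_mul _ B, div_mul_eq_mul_div]
  refine add_le_add ?_ k3
  rw [le_div_iff₀ (by positivity)]
  linarith

end Vale.Agent.P365
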