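import Vale.Agent.P365.Stm3

open MeasureTheory Filter Topology Set
open scoped InnerProductSpace ENNReal

namespace Vale.Agent.P365

namespace MCnt

theorem ptw {X : Type} (N m : ℕ) (B : ℕ → Set X) (Bad : Set X)
    (h : ∀ (p : X) (s : Finset ℕ), p ∉ Bad → s ⊆ Finset.range N → (∀ i ∈ s, p ∈ B i) →
      s.card ≤ m) (p : X) :
    ∑ i ∈ Finset.range N, (B i).indicator (1 : X → ℝ≥0∞) p ≤
      (m : ℝ≥0∞) + N * Bad.indicator (1 : X → ℝ≥0∞) p := by
  classical
  have e : ∑ i ∈ Finset.range N, (B i).indicator (1 : X → ℝ≥0∞) p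
      = (((Finset.range N).filter (fun i => p ∈ B i)).card : ℝ≥0∞) := by
    rw [Finset.card_filter]
    push_cast
    refine Finset.sum_congr rfl fun i _ => ?_
    by_cases hi : p ∈ B i <;> simp [hi]
  rw [e]
  by_cases hp : p ∈ Bad
  · have h1 : ((Finset.range N).filter (fun i => p ∈ B i)).card ≤ N := by
      simpa using Finset.card_filter_le (Finset.range N) (fun i => p ∈ B i)
    have h2 : (((Finset.range N).filter (fun i => p ∈ B i)).card : ℝ≥0∞) ≤ N := by
      exact_mod_cast h1
    simp only [indicator_of_mem hp, Pi.one_apply, mul_one]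
    exact h2.trans le_add_self
  · have h1 := h p _ hp (Finset.filter_subset (fun i => p ∈ B i) (Finset.range N))
      (fun i hi => (Finset.mem_filter.mp hi).2)
    have h2 : (((Finset.range N).filter (fun i => p ∈ B i)).card : ℝ≥0∞) ≤ m := by
      exact_mod_cast h1
    exact h2.trans le_self_add

end MCnt

theorem m_cnt : T_cnt := by
  intro X _ ν N m B Bad b hB hBad hb h
  have h1 : (N : ℝ≥0∞) * b =
      ∫⁻ p, ∑ i ∈ Finset.range N, (B i).indicator (1 : X → ℝ≥0∞) p ∂ν := by
    rw [lintegral_finsetSum _ (fun i _ => measurable_one.indicator (hB i))]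
    simp only [lintegral_indicator_one (hB _), hb]
    simp
  have h2 : ∫⁻ p, ((m : ℝ≥0∞) + N * Bad.indicator (1 : X → ℝ≥0∞) p) ∂ν =
      m * ν Set.univ + N * ν Bad := by
    rw [lintegral_add_left measurable_const, lintegral_const,
      lintegral_const_mul _ (measurable_one.indicator hBad), lintegral_indicator_one hBad]
  rw [h1, ← h2]
  exact lintegral_mono fun p => MCnt.ptw N m B Bad h p

end Vale.Agent.P365
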