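import Vale.Agent.P365.Stm3

/-! Unbounded rank on the product space. -/

open MeasureTheory Filter Topology Set
open scoped InnerProductSpace ENNReal

namespace Vale.Agent.P365

theorem m_comb : T_null → T_ae → T_gcov → T_gpos → T_comb := by
  intro h1 h2 h3 h4 d lam L H hd hlam hL hF
  have cov : ∀ (x y a : Site d) (p : (Site d → ℝ) × ℝ),
      rl H (x + a) (y + a) p = rl H x y (shp a p) := fun x y a p => by
    unfold rl
    simp only [h3 d lam H hF]
  have a1 : ∀ᵐ p ∂(nu d L), ∀ (a : Site d) (j m : ℕ), ¬(1 / ((j : ℝ) + 1) ≤ rl H 0 0 (shp a p) ∧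
      ∀ z : Fin m → Site d, (Matrix.of fun i k => rl H (z i) (z k) (shp a p)).det = 0) := by
    refine ae_all_iff.2 fun a => ae_all_iff.2 fun j => ae_all_iff.2 fun m => ?_
    have a2 : ∀ᵐ p ∂(nu d L), ¬(1 / ((j : ℝ) + 1) ≤ rl H 0 0 p ∧
        ∀ z : Fin m → Site d, (Matrix.of fun i k => rl H (z i) (z k) p).det = 0) :=
      measure_eq_zero_iff_ae_notMem.1 (h1 d lam L H hd hlam hL hF _ m (by positivity))
    exact (shp_mp d L a).quasiMeasurePreserving.ae a2
  filter_upwards [a1, (h2 d lam L H hF).2] with p hp hq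
  by_cases h0 : ∀ x, rl H x x p = 0
  · exact Or.inl h0
  · refine Or.inr fun m => ?_
    obtain ⟨x, hx⟩ := not_forall.1 h0
    have b1 : 0 ≤ rl H x x p := ge_of_tendsto' (hq x x) fun n => (h4 d lam H hF n x x p).1.le
    obtain ⟨j, hj⟩ := exists_nat_one_div_lt (lt_of_le_of_ne b1 (Ne.symm hx))
    have b2 : rl H 0 0 (shp x p) = rl H x x p := by rw [← cov, zero_add]
    obtain ⟨z, hz⟩ := not_forall.1 fun h => hp x j m ⟨b2 ▸ hj.le, h⟩
    refine ⟨fun i => z i + x, ?_⟩
    simpa only [cov] using hz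

end Vale.Agent.P365
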