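import Vale.Agent.P365.Stm3

open MeasureTheory Filter Topology Set
open scoped InnerProductSpace ENNReal

namespace Vale.Agent.P365

namespace MConv

theorem one (hpoi : T_poi) (hfat : T_fatou) {d : ℕ} (A : L2 d →L[ℂ] L2 d) (hA : IsSelfAdjoint A)
    (ψ : L2 d) (μ : Measure ℝ) (hμ : IsSpec A ψ μ) :
    ∀ᵐ e : ℝ, Tendsto (fun n => (⟪ψ, res A (zz e n) ψ⟫_ℂ).im) atTop
      (𝓝 (Real.pi * dens μ e)) := by
  have hfin : IsFiniteMeasure μ := hμ.1
  filter_upwards [hfat μ] with e he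
  refine he.congr fun n => ?_
  rw [hpoi (L2 d) A ψ μ (zz e n) hA hμ (zz_im_pos e n)]
  rfl

end MConv

theorem m_conv : T_poi → T_fatou → T_gpos → T_conv := by
  intro hpoi hfat hpos d lam H hF ω μ hμ
  have hA := fam_sa hF ω
  have h1 : ∀ᵐ e : ℝ, ∀ x : Site d, Tendsto (fun n => (gr H n x x (ω, e)).im) atTop
      (𝓝 (Real.pi * dens (μ (dlt x)) e)) := by
    rw [ae_all_iff]
    intro x
    filter_upwards [MConv.one hpoi hfat (H ω) hA (dlt x) (μ (dlt x)) (hμ _)] with e he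
    refine he.congr fun n => ?_
    rw [inner_dlt]
    rfl
  have h2 : ∀ᵐ e : ℝ, ∀ x y : Site d,
      Tendsto (fun n => (⟪dlt x + dlt y, res (H ω) (zz e n) (dlt x + dlt y)⟫_ℂ).im) atTop
      (𝓝 (Real.pi * dens (μ (dlt x + dlt y)) e)) := by
    rw [ae_all_iff]
    intro x
    rw [ae_all_iff]
    intro y
    exact MConv.one hpoi hfat (H ω) hA _ _ (hμ _)
  filter_upwards [h1, h2] with e he1 he2
  refine ⟨he1, fun x y => ?_⟩
  have h3 := (((he2 x y).sub (he1 x)).sub (he1 y)).div_const 2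
  have h4 : Real.pi * kern μ x y e = (Real.pi * dens (μ (dlt x + dlt y)) e -
      Real.pi * dens (μ (dlt x)) e - Real.pi * dens (μ (dlt y)) e) / 2 := by
    unfold kern
    ring
  rw [h4]
  refine h3.congr fun n => ?_
  have h5 := (hpos d lam H hF n x y (ω, e)).2.2
  simp only at h5
  rw [h5]
  ring

end Vale.Agent.P365
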