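import Vale.Agent.P365.Stm3

/-! Existence of spectral measures. -/

open MeasureTheory Filter Topology Set
open scoped InnerProductSpace CompactlySupported BoundedContinuousFunction

namespace Vale.Agent.P365

namespace MExspec

variable {E : Type} [NormedAddCommGroup E] [InnerProductSpace ℂ E] [CompleteSpace E]

/-- The positive functional of the vector `ψ`. -/
noncomputable def lam {A : E →L[ℂ] E} (hA : IsSelfAdjoint A) (ψ : E) :
    C_c(spectrum ℝ A, ℝ) →ₚ[ℝ] ℝ :=
  PositiveLinearMap.mk₀
    { toFun := fun f => (⟪ψ, (cfcHom (R := ℝ) hA f.toContinuousMap) ψ⟫_ℂ).re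
      map_add' := fun f g => by
        have e : (f + g).toContinuousMap = f.toContinuousMap + g.toContinuousMap := rfl
        rw [e, map_add, add_apply, inner_add_right, Complex.add_re]
      map_smul' := fun c f => by
        have e : (c • f).toContinuousMap = c • f.toContinuousMap := rfl
        rw [e, map_smul, smul_apply, ← Complex.coe_smul, inner_smul_right,
          Complex.re_ofReal_mul]
        rfl }
    fun f hf => by
      have h : 0 ≤ cfcHom (R := ℝ) hA f.toContinuousMap :=
        (cfcHom_nonneg_iff hA).2 fun x => hf x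
      exact ((ContinuousLinearMap.nonneg_iff_isPositive _).1 h).re_inner_nonneg_right ψ

end MExspec

theorem m_exspec : T_exspec := by
  intro E _ _ _ A ψ hA
  refine ⟨(RealRMK.rieszMeasure (MExspec.lam hA ψ)).map Subtype.val, inferInstance, fun f => ?_⟩
  have hf : ContinuousOn (f : ℝ → ℝ) (spectrum ℝ A) := f.continuous.continuousOn
  rw [integral_map measurable_subtype_coe.aemeasurable f.continuous.aestronglyMeasurable]
  have k := RealRMK.integral_rieszMeasure (MExspec.lam hA ψ)
    ⟨⟨_, hf.domRestrict⟩, HasCompactSupport.of_compactSpace _⟩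
  have s : IsSelfAdjoint (cfc (f : ℝ → ℝ) A) := cfc_predicate _ _
  have r := s.isSymmetric.coe_re_inner_self_apply ψ
  refine r.symm.trans (congrArg Complex.ofReal ?_)
  refine Eq.trans ?_ k.symm
  rw [cfc_apply (f : ℝ → ℝ) A hA hf]
  rfl

end Vale.Agent.P365
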