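import Vale.Agent.P365.Stm3

/-! Far sites do not feel the origin, uniformly in the height. -/

open MeasureTheory Filter Topology Set
open scoped InnerProductSpace ENNReal

namespace Vale.Agent.P365

namespace MFar

theorem tri {a a₀ b b₀ δ : ℝ} (h : δ ≤ |a - b|) :
    (δ / 3 ≤ |a - a₀| ∨ δ / 3 ≤ |a₀ - b₀|) ∨ δ / 3 ≤ |b - b₀| := by
  by_contra k
  simp only [not_or, not_le, abs_lt] at k
  rcases le_abs.1 h with h | h <;> linarith [k.1.1.1, k.1.1.2, k.1.2.1, k.1.2.2, k.2.1, k.2.2]

end MFar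

theorem m_far : T_unif → T_mid → T_up → T_gcont → T_far := by
  intro hu hm hup hc d lam L H e hlam hL hF he t δ γ ht0 ht2 hδ hγ
  obtain ⟨n₀, h1⟩ := hu d lam L H hF (δ / 3) (γ / 3) (by positivity) (by positivity)
  obtain ⟨K, h2⟩ := hm d lam L H e hlam hF he n₀ t (δ / 3) (γ / 3) ht0 (by positivity)
    (by positivity)
  refine ⟨n₀, K, fun n k hn hk => ?_⟩
  have a1 := h1 n hn ((k : ℤ) • e)
  have a2 := h2 k hk
  generalize (k : ℤ) • e = y at a1 a2 ⊢
  have mS : MeasurableSet {p | δ / 3 ≤ |(gr H n y y p).im - (gr H n₀ y y p).im|} :=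
    (isClosed_le continuous_const ((Complex.continuous_im.comp (hc d lam H hF n y y)).sub
      (Complex.continuous_im.comp (hc d lam H hF n₀ y y))).abs).measurableSet
  have a3 := ((hup d L t hL ht0 ht2).2.1 _ mS).trans a1
  have e3 : ENNReal.ofReal γ =
      ENNReal.ofReal (γ / 3) + ENNReal.ofReal (γ / 3) + ENNReal.ofReal (γ / 3) := by
    rw [← ENNReal.ofReal_add (by positivity) (by positivity),
      ← ENNReal.ofReal_add (by positivity) (by positivity)]
    exact congrArg _ (by ring)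
  rw [e3]
  refine le_trans (measure_mono fun p hp => ?_) ((measure_union_le _ _).trans
    (add_le_add ((measure_union_le _ _).trans (add_le_add a3 a2)) a1))
  rcases MFar.tri (a₀ := (gr H n₀ y y (up t p)).im) (b₀ := (gr H n₀ y y p).im) hp.2 with
    (h | h) | h
  · exact Or.inl (Or.inl ⟨hp.1, h⟩)
  · exact Or.inl (Or.inr ⟨hp.1, h⟩)
  · exact Or.inr h

end Vale.Agent.P365
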