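import Vale.Agent.P365.Stm3

/-! Continuity of the Green function. -/

open MeasureTheory Filter Topology Set
open scoped InnerProductSpace ENNReal

namespace Vale.Agent.P365

namespace MGcont

theorem zz_cont (n : ℕ) : Continuous fun e : ℝ => zz e n := by
  have h : (fun e : ℝ => zz e n) = fun e : ℝ => (e : ℂ) + zz 0 n := by
    funext e
    apply Complex.ext <;> simp [zz]
  rw [h]
  fun_prop

theorem res_cont {d : ℕ} {lam : ℝ} {H : (Site d → ℝ) → L2 d →L[ℂ] L2 d} (hF : IsFam lam H)
    (n : ℕ) (v : L2 d) : Continuous fun p : (Site d → ℝ) × ℝ => res (H p.1) (zz p.2 n) v := by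
  refine continuous_iff_continuousAt.2 fun p0 => ?_
  rw [ContinuousAt, tendsto_iff_norm_sub_tendsto_zero]
  generalize hu : res (H p0.1) (zz p0.2 n) v = u
  have h1 : Continuous fun p : (Site d → ℝ) × ℝ =>
      ‖(H p0.1 u - H p.1 u) + (zz p.2 n - zz p0.2 n) • u‖ / |(zz 0 n).im| :=
    (((continuous_const.sub ((s_hcont d lam H hF u).comp continuous_fst)).add
      ((((zz_cont n).comp continuous_snd).sub continuous_const).smul
        continuous_const)).norm).div_const _
  have h2 := h1.tendsto p0
  simp only [sub_self, zero_smul, add_zero, norm_zero, zero_div] at h2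
  refine squeeze_zero (fun _ => norm_nonneg _) (fun p => ?_) h2
  have h3 := res_sub (fam_sa hF p.1) (fam_sa hF p0.1) (zz_im_pos p.2 n).ne'
    (zz_im_pos p0.2 n).ne' v
  rw [hu] at h3
  rw [h3]
  exact norm_res_le (fam_sa hF p.1) (zz_im_pos p.2 n).ne' _

end MGcont

theorem m_gcont : T_gcont := by
  intro d lam H hF n x y
  have h : gr H n x y = fun p => ⟪dlt x, res (H p.1) (zz p.2 n) (dlt y)⟫_ℂ :=
    funext fun p => (inner_dlt x _).symm
  rw [h]
  exact continuous_const.inner (MGcont.res_cont hF n _)

end Vale.Agent.P365
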