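import Vale.Agent.P365.Stm3

/-! Decay of the Green function along a ray. -/

open MeasureTheory Filter Topology Set

namespace Vale.Agent.P365

namespace MGdec

/-- Coordinates of a square summable vector tend to zero along the cofinite filter. -/
theorem coord_tendsto {d : ℕ} (ψ : L2 d) :
    Tendsto (fun x : Site d => ψ x) cofinite (𝓝 0) := by
  have h2 : (0 : ℝ) < (2 : ENNReal).toReal := by norm_num
  have hs := (lp.memℓp ψ).summable h2
  have ht := hs.tendsto_cofinite_zero
  have h22 : (2 : ENNReal).toReal = ((2 : ℕ) : ℝ) := by norm_num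
  simp only [h22, Real.rpow_natCast] at ht
  rw [tendsto_zero_iff_norm_tendsto_zero]
  have h3 := (Real.continuous_sqrt.tendsto 0).comp ht
  simp only [Real.sqrt_zero] at h3
  refine h3.congr fun x => ?_
  simp [Real.sqrt_sq (norm_nonneg _)]

end MGdec

theorem m_gdec : T_gdec := by
  intro d H e he n p
  have hinj : Function.Injective (fun k : ℕ => ((k : ℤ) • e : Site d)) :=
    (smul_left_injective ℤ he).comp Nat.cast_injective
  have h1 := hinj.tendsto_cofinite
  rw [Nat.cofinite_eq_atTop] at h1
  exact (MGdec.coord_tendsto (res (H p.1) (zz p.2 n) (dlt 0))).comp h1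

end Vale.Agent.P365
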