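import Vale.Agent.P365.Stm3

/-! Diagonal dominance. -/

namespace Vale.Agent.P365

theorem m_gersh : T_gersh := by
  intro ι r y m ε s hε hm h1 h2
  have mem : ∀ i, s.orderEmbOfCardLe hm.le i ∈ s := s.orderEmbOfCardLe_mem hm.le
  generalize s.orderEmbOfCardLe hm.le = e at mem
  refine ⟨fun i => y (e i), det_ne_zero_of_sum_row_lt_diag fun k => ?_⟩
  have p : 0 < ε / (m + 1) := by positivity
  refine (Finset.sum_le_card_nsmul _ _ (ε / (m + 1)) fun j hj => (h2 _ (mem k) _ (mem j)
    (e.injective.ne (Finset.ne_of_mem_erase hj).symm)).le).trans_lt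
    (lt_of_lt_of_le ?_ ((h1 _ (mem k)).trans (le_abs_self _)))
  have c : ((Finset.univ.erase k).card : ℝ) < m + 1 := by
    have := Finset.card_le_univ (Finset.univ.erase k)
    rw [Fintype.card_fin] at this
    exact_mod_cast Nat.lt_succ_of_le this
  rw [nsmul_eq_mul]
  exact (mul_lt_mul_of_pos_right c p).trans_eq (mul_div_cancel₀ _ (by positivity))

end Vale.Agent.P365
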