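import Vale.Agent.P365.Stm3

open MeasureTheory Filter Topology Set
open scoped InnerProductSpace ENNReal

namespace Vale.Agent.P365

namespace MGpos

theorem expand {d : ℕ} (R : L2 d →L[ℂ] L2 d) (s : ℝ) (x y : Site d) :
    (⟪(s : ℂ) • dlt x + dlt y, R ((s : ℂ) • dlt x + dlt y)⟫_ℂ).im =
      (R (dlt x) x).im * (s * s) + ((R (dlt y) x).im + (R (dlt x) y).im) * s +
        (R (dlt y) y).im := by
  rw [map_add, map_smul, inner_add_left, inner_add_right, inner_add_right, inner_smul_left,
    inner_smul_left, inner_smul_right, inner_smul_right, inner_dlt, inner_dlt, inner_dlt, inner_dlt,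
    Complex.conj_ofReal]
  simp only [Complex.add_im, Complex.im_ofReal_mul]
  ring

end MGpos

open MGpos in
theorem m_gpos : T_gsym → T_gpos := by
  intro hs d lam H hF n x y p
  have hA := fam_sa hF p.1
  have hz := zz_im_pos p.2 n
  have e : (res (H p.1) (zz p.2 n) (dlt x) y).im = (gr H n x y p).im :=
    congrArg Complex.im (hs d lam H hF n y x p)
  have key : ∀ s : ℝ, (⟪(s : ℂ) • dlt x + dlt y,
      res (H p.1) (zz p.2 n) ((s : ℂ) • dlt x + dlt y)⟫_ℂ).im =
      (gr H n x x p).im * (s * s) + 2 * (gr H n x y p).im * s + (gr H n y y p).im := by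
    intro s
    rw [expand, e, two_mul]
    rfl
  refine ⟨?_, ?_, ?_⟩
  · have h1 := res_im hA hz.ne' (dlt x)
    rw [inner_dlt] at h1
    have h2 : res (H p.1) (zz p.2 n) (dlt x) ≠ 0 := fun h => by
      have h3 := res_right hA hz.ne' (dlt x)
      rw [h, map_zero, smul_zero, sub_zero] at h3
      have h4 := norm_dlt x
      rw [← h3, norm_zero] at h4
      exact zero_ne_one h4
    exact (mul_pos hz (pow_pos (norm_pos_iff.2 h2) 2)).trans_eq h1.symm
  · have h1 := discrim_le_zero (a := (gr H n x x p).im) (b := 2 * (gr H n x y p).im)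
      (c := (gr H n y y p).im) fun s => by
        rw [← key s, res_im hA hz.ne']
        positivity
    rw [discrim] at h1
    linarith
  · have h1 := key 1
    rw [Complex.ofReal_one, one_smul] at h1
    rw [h1]
    ring

end Vale.Agent.P365
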