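import Vale.Agent.P365.Stm3

/-! The rank one formula in the model. -/

open MeasureTheory Filter Topology Set
open scoped InnerProductSpace

namespace Vale.Agent.P365

namespace MGrk

theorem up_eq {d : ℕ} {lam : ℝ} {H : (Site d → ℝ) → L2 d →L[ℂ] L2 d} (hH : IsFam lam H)
    (ω : Site d → ℝ) {t : ℝ} (ht : 0 ≤ t) (hω : ω 0 ∈ Set.Icc (-1) (1 - t)) :
    H (Function.update ω 0 (ω 0 + t)) = H ω + ((lam * t : ℝ) : ℂ) • Pr (dlt (0 : Site d)) := by
  refine ContinuousLinearMap.ext fun ψ => Rank.ext_app fun x => ?_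
  have h1 : ω 0 ∈ Set.Icc (-1 : ℝ) 1 := ⟨hω.1, by linarith [hω.2]⟩
  have h2 : ω 0 + t ∈ Set.Icc (-1 : ℝ) 1 := ⟨by linarith [hω.1], by linarith [hω.2]⟩
  rw [add_apply, smul_apply, Pr_apply, Rank.add_app,
    Rank.smul_app, Rank.smul_app, inner_dlt, Rank.dlt_apply, hH _ ψ x, hH _ ψ x]
  by_cases hx : x = 0
  · subst hx
    simp only [Function.update_self, Rank.clip_eq h1, Rank.clip_eq h2, if_true]
    push_cast
    ring
  · simp only [Function.update_of_ne hx, if_neg hx]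
    ring

end MGrk

theorem m_grk : T_rk1 → T_gsym → T_grk := by
  intro h1 h2 d lam H hlam hH n y t p ht hp
  obtain ⟨-, hb, hf⟩ := h1 (L2 d) (H p.1) (dlt 0) (lam * t) (zz p.2 n) (fam_sa hH p.1)
    (zz_im_pos _ _)
  have e0 : ∀ a b : Site d, ⟪dlt a, res (H p.1) (zz p.2 n) (dlt b)⟫_ℂ = gr H n a b p :=
    fun a b => inner_dlt _ _
  constructor
  · rw [e0, norm_dlt, abs_of_nonneg (mul_nonneg hlam.le ht)] at hb
    refine hb.trans (le_of_eq ?_)
    have : (zz p.2 n).im = 1 / ((n : ℝ) + 1) := rfl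
    rw [this]
    field_simp
  · have e1 : gr H n y y (up t p) =
        ⟪dlt y, res (H p.1 + ((lam * t : ℝ) : ℂ) • Pr (dlt (0 : Site d))) (zz p.2 n) (dlt y)⟫_ℂ := by
      rw [inner_dlt, ← MGrk.up_eq hH p.1 ht hp]
      rfl
    rw [e1, hf, e0, e0, e0, e0, h2 d lam H hH n 0 y p, sq]

end Vale.Agent.P365
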