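import Vale.Agent.P365.Stm3

/-! Symmetry of the Green function. -/

open MeasureTheory Filter Topology Set
open scoped InnerProductSpace

namespace Vale.Agent.P365

namespace MGsym

theorem sub_app {d : ℕ} (φ ψ : L2 d) (x : Site d) : (φ - ψ) x = φ x - ψ x := by
  rw [lp.coeFn_sub]
  rfl

theorem star_dlt {d : ℕ} (y : Site d) : star (dlt y) = dlt y := by
  refine Rank.ext_app fun x => ?_
  rw [Rank.star_app, Rank.dlt_apply]
  split_ifs <;> simp

theorem star_res {d : ℕ} {lam : ℝ} {H : (Site d → ℝ) → L2 d →L[ℂ] L2 d} (hF : IsFam lam H)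
    (ω : Site d → ℝ) {z : ℂ} (hz : z.im ≠ 0) (w : L2 d) :
    res (H ω) ((starRingEnd ℂ) z) (star w) = star (res (H ω) z w) := by
  have hz' : ((starRingEnd ℂ) z).im ≠ 0 := by simpa using hz
  have h1 : star w = H ω (star (res (H ω) z w)) - (starRingEnd ℂ) z • star (res (H ω) z w) := by
    conv_lhs => rw [← res_right (fam_sa hF ω) hz w]
    generalize res (H ω) z w = u
    refine Rank.ext_app fun x => ?_
    rw [Rank.star_app, sub_app, sub_app, Rank.smul_app, Rank.smul_app, hF ω u x, hF ω (star u) x]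
    simp only [Rank.star_app, map_add, map_sub, map_sum, map_mul, Complex.conj_ofReal]
  rw [h1, res_left (fam_sa hF ω) hz']

end MGsym

theorem m_gsym : T_gsym := by
  intro d lam H hF n x y p
  have hz : (zz p.2 n).im ≠ 0 := (zz_im_pos p.2 n).ne'
  have hz' : ((starRingEnd ℂ) (zz p.2 n)).im ≠ 0 := by simpa using hz
  have h1 := res_adj (fam_sa hF p.1) hz' (dlt x) (dlt y)
  rw [Complex.conj_conj, inner_dlt, ← inner_conj_symm, inner_dlt] at h1
  have h2 := MGsym.star_res hF p.1 hz (dlt x)
  rw [MGsym.star_dlt] at h2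
  rw [h2, Rank.star_app, Complex.conj_conj] at h1
  exact h1.symm

end Vale.Agent.P365
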