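import Vale.Agent.P365.Stm3

/-! Off diagonal decay in measure of the boundary values. -/

open MeasureTheory Filter Topology Set
open scoped InnerProductSpace ENNReal

namespace Vale.Agent.P365

theorem m_key : T_fin → T_ae → T_gcont → T_key := by
  intro hf ha hc d lam L H e hl hL hF he ε γ hε hγ
  obtain ⟨n₀, K, h⟩ := hf d lam L H e hl hL hF he (ε / 2) (γ / 2) (half_pos hε) (half_pos hγ)
  refine ⟨max K 1, lt_max_of_lt_right one_pos, fun k hk => ?_⟩
  have h1 := tendstoInMeasure_iff_norm.1 (tendstoInMeasure_of_tendsto_ae (μ := nu d L)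
    (f := fun n p => (gr H n ((k : ℤ) • e) 0 p).im) (g := rl H ((k : ℤ) • e) 0)
    (fun n => (Complex.continuous_im.comp
      (hc d lam H hF n _ _)).measurable.aestronglyMeasurable)
    ((ha d lam L H hF).2.mono fun p hp => hp _ _)) (ε / 2) (half_pos hε)
  obtain ⟨n, h2, h3⟩ := ((eventually_ge_atTop n₀).and (ENNReal.tendsto_nhds_zero.1 h1
    (ENNReal.ofReal (γ / 2)) (ENNReal.ofReal_pos.2 (half_pos hγ)))).exists
  refine le_trans (measure_mono fun p hp => ?_) ((measure_union_le _ _).trans
    ((add_le_add (h n k h2 ((le_max_left _ _).trans hk)) h3).trans (le_of_eq ?_)))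
  · by_contra c
    simp only [mem_union, mem_setOf_eq, not_or, not_le, Real.norm_eq_abs] at c hp
    have := abs_sub_abs_le_abs_sub (rl H ((k : ℤ) • e) 0 p) (gr H n ((k : ℤ) • e) 0 p).im
    rw [abs_sub_comm] at this
    linarith [c.1, c.2]
  · rw [← ENNReal.ofReal_add (half_pos hγ).le (half_pos hγ).le, add_halves]

end Vale.Agent.P365
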