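import Vale.Agent.P365.Stm3

/-! Layer cake form of the Poisson integral. -/

open MeasureTheory Filter Topology Set

namespace Vale.Agent.P365

namespace MLayer

noncomputable def k (η u : ℝ) : ℝ := 2 * u / (η * (1 + u ^ 2) ^ 2)

theorem hd {η : ℝ} (hη : 0 < η) (u : ℝ) :
    HasDerivAt (fun u : ℝ => -(η * (1 + u ^ 2))⁻¹) (k η u) u := by
  have h1 : HasDerivAt (fun u : ℝ => η * (1 + u ^ 2)) (η * (2 * u)) u := by
    simpa using (((hasDerivAt_pow 2 u).const_add 1).const_mul η)
  refine (h1.inv (by positivity)).neg.congr_deriv ?_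
  unfold k
  field_simp

theorem lim {η : ℝ} (hη : 0 < η) :
    Tendsto (fun u : ℝ => -(η * (1 + u ^ 2))⁻¹) atTop (𝓝 0) := by
  have h1 : Tendsto (fun u : ℝ => η * (1 + u ^ 2)) atTop atTop :=
    (tendsto_atTop_add_const_left _ 1 (tendsto_pow_atTop two_ne_zero)).const_mul_atTop hη
  simpa using h1.inv_tendsto_atTop.neg

theorem int_k {η : ℝ} (hη : 0 < η) {a : ℝ} (ha : 0 ≤ a) : IntegrableOn (k η) (Ioi a) :=
  integrableOn_Ioi_deriv_of_nonneg' (fun u _ => hd hη u)
    (fun u hu => by have := lt_of_le_of_lt ha hu; unfold k; positivity) (lim hη)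

theorem val_k {η : ℝ} (hη : 0 < η) {a : ℝ} (ha : 0 ≤ a) :
    ∫ u in Ioi a, k η u = (η * (1 + a ^ 2))⁻¹ := by
  rw [integral_Ioi_of_hasDerivAt_of_tendsto' (fun u _ => hd hη u) (int_k hη ha) (lim hη)]
  ring

end MLayer

open MLayer

theorem m_layer : T_layer := by
  intro μ _ e η hη
  let S : Set (ℝ × ℝ) := {p | dist p.1 e ≤ η * p.2}
  have hS : MeasurableSet S := (isClosed_le (by fun_prop) (by fun_prop)).measurableSet
  have hI : Integrable (S.indicator fun p => k η p.2) (μ.prod (volume.restrict (Ioi 0))) :=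
    (Integrable.comp_snd (int_k hη le_rfl) μ).indicator hS
  have h1 : ∀ x : ℝ, η / ((x - e) ^ 2 + η ^ 2) =
      ∫ u in Ioi (0 : ℝ), S.indicator (fun p => k η p.2) (x, u) := fun x => by
    have ha : 0 ≤ |x - e| / η := by positivity
    have e1 : (fun u => S.indicator (fun p => k η p.2) (x, u)) =
        (Ici (|x - e| / η)).indicator (k η) := by
      funext u
      have : (x, u) ∈ S ↔ u ∈ Ici (|x - e| / η) := by
        simp only [S, mem_ofPred_eq, mem_Ici, Real.dist_eq, div_le_iff₀ hη, mul_comm]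
      by_cases h : (x, u) ∈ S
      · rw [indicator_of_mem h, indicator_of_mem (this.1 h)]
      · rw [indicator_of_notMem h, indicator_of_notMem fun h' => h (this.2 h')]
    have e2 : (Ioi (0 : ℝ) ∩ Ici (|x - e| / η) : Set ℝ) =ᵐ[volume] Ioi (|x - e| / η) := by
      have e3 : ∀ᵐ u : ℝ, u ≠ |x - e| / η := by simp [ae_iff]
      filter_upwards [e3] with u hu
      apply propext
      exact ⟨fun h => lt_of_le_of_ne h.2 hu.symm, fun h => ⟨lt_of_le_of_lt ha h, le_of_lt h⟩⟩
    rw [e1, setIntegral_indicator measurableSet_Ici, setIntegral_congr_set e2, val_k hη ha,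
      div_pow, sq_abs]
    field_simp
    ring
  simp only [h1]
  rw [integral_integral_swap (f := fun x u => S.indicator (fun p => k η p.2) (x, u)) hI]
  refine setIntegral_congr_fun measurableSet_Ioi fun u hu => ?_
  have e1 : (fun x => S.indicator (fun p => k η p.2) (x, u)) =
      (Metric.closedBall e (η * u)).indicator fun _ => k η u := by
    funext x
    have : (x, u) ∈ S ↔ x ∈ Metric.closedBall e (η * u) := Iff.rfl
    by_cases h : (x, u) ∈ S
    · rw [indicator_of_mem h, indicator_of_mem (this.1 h)]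
    · rw [indicator_of_notMem h, indicator_of_notMem fun h' => h (this.2 h')]
  have hu' : 0 < u := hu
  rw [e1, integral_indicator_const _ Metric.isClosed_closedBall.measurableSet, smul_eq_mul]
  unfold k
  field_simp
  ring

end Vale.Agent.P365
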