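import Vale.Agent.P365.Stm3

/-! Assembly of the multiplicity theorem. -/

open MeasureTheory Filter Topology Set
open scoped InnerProductSpace ENNReal

namespace Vale.Agent.P365

theorem m_main : T_comb → T_conv → T_main := by
  intro hcomb hconv d lam hd hlam H hH
  choose Hc hHc using fun ω : Site d → ℝ =>
    (t_model d lam).1 (fun x => clip (ω x)) (fun x => abs_clip_le (ω x))
  have hfam : IsFam lam Hc := hHc
  have h1 := fun l : ℕ => Measure.ae_ae_of_ae_prod
    (hcomb d lam ((l : ℝ) + 1) Hc hd hlam (by positivity) hfam)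
  filter_upwards [(s_slice d).2.2, ae_all_iff.2 h1] with ω hω h2 μ hμ
  have hc : (fun x => clip (ω x)) = ω := funext fun x => MainA.clip_eq (hω x)
  have h3 : IsAnderson lam ω (Hc ω) := by
    have := hHc ω
    rwa [hc] at this
  rw [MainA.and_ext (hH ω hω) h3] at hμ
  have h4 := ae_all_iff.2 fun l : ℕ => (ae_restrict_iff' measurableSet_Ioc).1 (h2 l)
  filter_upwards [hconv d lam Hc hfam ω μ hμ, h4] with e h5 h6
  obtain ⟨l, hl⟩ := exists_nat_gt |e|
  have h7 := abs_lt.1 hl
  refine (h6 l ⟨by linarith [h7.1], by linarith [h7.2]⟩).imp (fun h x => ?_) fun h m => ?_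
  · have k : rl Hc x x (ω, e) = Real.pi * dens (μ (dlt x)) e := (h5.1 x).limUnder_eq
    exact (mul_eq_zero.1 (k.symm.trans (h x))).resolve_left Real.pi_ne_zero
  · obtain ⟨z, hz⟩ := h m
    refine ⟨z, fun h0 => hz ?_⟩
    have k : (Matrix.of fun i j => rl Hc (z i) (z j) (ω, e)) =
        Real.pi • Matrix.of fun i j => kern μ (z i) (z j) e := by
      ext i j
      exact (h5.2 (z i) (z j)).limUnder_eq
    rw [k, Matrix.det_smul, h0, mul_zero]

end Vale.Agent.P365
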