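import Vale.Agent.P365.Stm3

open MeasureTheory Filter Topology Set
open scoped InnerProductSpace ENNReal

namespace Vale.Agent.P365

namespace MMid

theorem bound (κ C : ℝ) (hκ : 0 ≤ κ) (a b g w : ℂ) (hw : ‖w⁻¹‖ ≤ C)
    (h : a = b - (κ : ℂ) * g ^ 2 / w) : |a.im - b.im| ≤ κ * C * ‖g‖ ^ 2 := by
  rw [← Complex.sub_im]
  refine (Complex.abs_im_le_norm _).trans ?_
  have h1 : a - b = -((κ : ℂ) * w⁻¹ * g ^ 2) := by
    rw [h, div_eq_mul_inv]
    ring
  rw [h1, norm_neg, norm_mul, norm_mul, norm_pow, Complex.norm_real, Real.norm_of_nonneg hκ]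
  gcongr

end MMid

theorem m_mid : T_grk → T_gdec → T_gcont → T_mid := by
  intro hrk hdec hcont d lam L H e hlam hF he n₀ t δ γ ht hδ hγ
  set C : ℝ := 1 + lam * t * ((n₀ : ℝ) + 1) with hC
  have hκ : 0 ≤ lam * t := by positivity
  let f : ℕ → (Site d → ℝ) × ℝ → ℝ := fun k p => lam * t * C * ‖gr H n₀ ((k : ℤ) • e) 0 p‖ ^ 2
  have hf : ∀ k, Continuous (f k) := fun k =>
    continuous_const.mul ((hcont d lam H hF n₀ _ _).norm.pow 2)
  have hlim : ∀ p, Tendsto (fun k => f k p) atTop (𝓝 0) := by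
    intro p
    have h1 := (((hdec d H e he n₀ p).norm).pow 2).const_mul (lam * t * C)
    rw [norm_zero, zero_pow two_ne_zero, mul_zero] at h1
    exact h1
  have hm : TendstoInMeasure (nu d L) f atTop (fun _ => 0) :=
    tendstoInMeasure_of_tendsto_ae (fun k => (hf k).aestronglyMeasurable)
      (Eventually.of_forall hlim)
  have h2 := tendstoInMeasure_iff_norm.mp hm δ hδ
  obtain ⟨K, hK⟩ := ENNReal.tendsto_atTop_zero.mp h2 (ENNReal.ofReal γ) (ENNReal.ofReal_pos.mpr hγ)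
  refine ⟨K, fun k hk => (measure_mono ?_).trans (hK k hk)⟩
  rintro p ⟨hp1, hp2⟩
  obtain ⟨h3, h4⟩ := hrk d lam H hlam hF n₀ ((k : ℤ) • e) t p ht hp1
  have h5 := MMid.bound (lam * t) C hκ _ _ _ _ h3 h4
  change δ ≤ ‖f k p - 0‖
  rw [sub_zero, Real.norm_eq_abs]
  exact (hp2.trans h5).trans (le_abs_self _)

end Vale.Agent.P365
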