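import Vale.Agent.P365.Stm3

/-! The set of bounded rank and positive density is null. -/

open MeasureTheory Filter Topology Set
open scoped InnerProductSpace ENNReal

namespace Vale.Agent.P365

namespace MNull

theorem num (N : ℕ) : (N : ℝ≥0∞) * ((N * N : ℕ) • ENNReal.ofReal (1 / ((N : ℝ) + 1) ^ 3)) ≤ 1 := by
  have h0 : (0 : ℝ) ≤ N := Nat.cast_nonneg N
  rw [nsmul_eq_mul, ← ENNReal.ofReal_natCast (N * N), ← ENNReal.ofReal_natCast N,
    ← ENNReal.ofReal_mul (Nat.cast_nonneg _), ← ENNReal.ofReal_mul h0, ENNReal.ofReal_le_one]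
  push_cast
  rw [← mul_assoc, mul_one_div, div_le_one (by positivity)]
  nlinarith [mul_nonneg h0 h0]

end MNull

theorem m_null : T_key → T_cnt → T_gersh → T_ae → T_gcov → T_gsym → T_null := by
  intro hkey hcnt hger hae hcov hsym d lam L H hd hl hL hF ε m hε
  have hm := (hae d lam L H hF).1
  have cov : ∀ x y a p, rl H (x + a) (y + a) p = rl H x y (shp a p) := fun x y a p => by
    simp only [rl, hcov d lam H hF]
  have sym : ∀ x y p, rl H x y p = rl H y x p := fun x y p => by
    simp only [rl, hsym d lam H hF _ x y]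
  set B : Set ((Site d → ℝ) × ℝ) := {p | ε ≤ rl H 0 0 p ∧
    ∀ z : Fin m → Site d, (Matrix.of fun i j => rl H (z i) (z j) p).det = 0} with hB
  have mB : MeasurableSet B := by
    refine (measurableSet_le measurable_const (hm 0 0)).inter ?_
    change MeasurableSet {p | ∀ z : Fin m → Site d, _}
    rw [ofPred_forall]
    refine MeasurableSet.iInter fun z => measurableSet_eq_fun ?_ measurable_const
    simp only [Matrix.det_apply', Matrix.of_apply]
    exact Finset.measurable_fun_sum _ fun σ _ =>
      (Finset.measurable_fun_prod _ fun i _ => hm _ _).const_mul _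
  let e : Site d := Pi.single ⟨0, hd⟩ 1
  have he : e ≠ 0 := fun h => by simpa [e] using congrFun h ⟨0, hd⟩
  by_contra hb
  obtain ⟨N, hN⟩ := ENNReal.exists_nat_mul_gt hb
    (b := m * nu d L univ + 1) (by finiteness)
  obtain ⟨K, K0, hK⟩ := hkey d lam L H e hl hL hF he (ε / (m + 1)) (1 / ((N : ℝ) + 1) ^ 3)
    (by positivity) (by positivity)
  let y : ℕ → Site d := fun i => ((i * K : ℕ) : ℤ) • e
  let T : Finset (ℕ × ℕ) := (Finset.range N ×ˢ Finset.range N).filter fun q => q.2 < q.1
  let S : ℕ × ℕ → Set ((Site d → ℝ) × ℝ) := fun q =>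
    {p | ε / (m + 1) ≤ |rl H ((((q.1 - q.2) * K : ℕ) : ℤ) • e) 0 p|}
  have mS : ∀ q, MeasurableSet (S q) := fun q =>
    measurableSet_le measurable_const (hm _ _).abs
  have hbad : nu d L (⋃ q ∈ T, shp (y q.2) ⁻¹' S q) ≤
      (N * N : ℕ) • ENNReal.ofReal (1 / ((N : ℝ) + 1) ^ 3) := by
    refine (measure_biUnion_finset_le _ _).trans ((Finset.sum_le_card_nsmul _ _ _
      fun q hq => ?_).trans (nsmul_le_nsmul_left zero_le ?_))
    · rw [(shp_mp d L _).measure_preimage (mS q).nullMeasurableSet]
      exact hK _ (Nat.le_mul_of_pos_left K (Nat.sub_pos_of_lt (Finset.mem_filter.1 hq).2))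
    · refine (Finset.card_filter_le _ _).trans_eq ?_
      rw [Finset.card_product, Finset.card_range]
  have h := hcnt _ (nu d L) N m (fun i => shp (y i) ⁻¹' B) (⋃ q ∈ T, shp (y q.2) ⁻¹' S q)
    (nu d L B) (fun i => (shp_mp d L _).measurable mB)
    (Finset.measurableSet_biUnion _ fun q _ => (shp_mp d L _).measurable (mS q))
    (fun i => (shp_mp d L _).measure_preimage mB.nullMeasurableSet) fun p s hp hs hi => by
      by_contra hc
      have hc' := not_le.1 hc
      have off : ∀ i ∈ s, ∀ j ∈ s, j < i → |rl H (y i) (y j) p| < ε / (m + 1) := by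
        intro i hi j hj hij
        have e1 : y i = (((i - j) * K : ℕ) : ℤ) • e + y j := by
          simp only [y]
          rw [← add_smul, ← Nat.cast_add, ← add_mul, Nat.sub_add_cancel hij.le]
        have e2 := cov ((((i - j) * K : ℕ) : ℤ) • e) 0 (y j) p
        rw [← e1, zero_add] at e2
        rw [e2]
        exact not_le.1 fun q => hp (mem_biUnion (show (i, j) ∈ T from Finset.mem_filter.2
          ⟨Finset.mem_product.2 ⟨hs hi, hs hj⟩, hij⟩) q)
      obtain ⟨z, hz⟩ := hger (Site d) (fun a b => rl H a b p) y m ε s hε hc'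
        (fun i h => by
          have e2 := cov 0 0 (y i) p
          rw [zero_add] at e2
          exact e2 ▸ (hi i h).1)
        fun i h j h' hij => by
          rcases lt_or_gt_of_ne hij with q | q
          · exact sym _ _ p ▸ off j h' i h q
          · exact off i h j h' q
      obtain ⟨i, h⟩ := Finset.card_pos.1 (lt_of_le_of_lt (Nat.zero_le m) hc')
      have e3 := (hi i h).2 fun a => z a - y i
      simp only [← cov, sub_add_cancel] at e3
      exact hz e3
  exact absurd (h.trans (add_le_add le_rfl
    ((mul_le_mul_right hbad _).trans (MNull.num N)))) (not_le.2 hN)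

end Vale.Agent.P365
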