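import Vale.Agent.P365.Stm3
import Vale.Agent.P365.Slice

/-! Resampling formula for the law of the potential. -/

open MeasureTheory Filter Topology Set
open scoped InnerProductSpace ENNReal

namespace Vale.Agent.P365

theorem m_resamp : T_resamp := by
  intro d S hS
  have h : MeasurePreserving (fun q : (Site d → ℝ) × ℝ => Function.update q.1 0 q.2)
      ((PP d).prod unif) (PP d) := Slice.mp unif 0
  rw [← h.measure_preimage hS.nullMeasurableSet, Measure.prod_apply (h.measurable hS)]
  rfl

end Vale.Agent.P365
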