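import Vale.Agent.P365.Stm3

/-! Rank one perturbation formula for the resolvent. -/

open scoped InnerProductSpace

namespace Vale.Agent.P365

theorem m_rk1 : T_rk1 := by
  intro E _ _ _ A δ κ z hA hz
  have hB : IsSelfAdjoint (A + (κ : ℂ) • Pr δ) := add_Pr_sa hA δ κ
  set B := A + (κ : ℂ) • Pr δ with hBd
  have key : ∀ v w : E, ⟪v, res A z w⟫_ℂ - ⟪v, res B z w⟫_ℂ =
      κ * ⟪δ, res B z w⟫_ℂ * ⟪v, res A z δ⟫_ℂ := by
    intro v w
    have h := res_sub hA hB hz.ne' hz.ne' w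
    have e : B - A = (κ : ℂ) • Pr δ := by rw [hBd, add_sub_cancel_left]
    rw [sub_self, zero_smul, add_zero, e, smul_apply, Pr_apply, map_smul, map_smul] at h
    rw [← inner_sub_right, h, inner_smul_right, inner_smul_right, mul_assoc]
  have h1 : (1 + κ * ⟪δ, res A z δ⟫_ℂ) * (1 - κ * ⟪δ, res B z δ⟫_ℂ) = 1 := by
    linear_combination (κ : ℂ) * key δ δ
  have h0 : 1 + κ * ⟪δ, res A z δ⟫_ℂ ≠ 0 := left_ne_zero_of_mul_eq_one h1
  refine ⟨h0, ?_, fun v w => ?_⟩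
  · rw [← eq_inv_of_mul_eq_one_right h1]
    have h2 : ‖⟪δ, res B z δ⟫_ℂ‖ ≤ ‖δ‖ ^ 2 / z.im := by
      have h3 := norm_res_le hB hz.ne' δ
      rw [abs_of_pos hz] at h3
      calc _ ≤ ‖δ‖ * ‖res B z δ‖ := norm_inner_le_norm _ _
        _ ≤ ‖δ‖ * (‖δ‖ / z.im) := mul_le_mul_of_nonneg_left h3 (norm_nonneg _)
        _ = _ := by ring
    calc _ ≤ ‖(1 : ℂ)‖ + ‖(κ : ℂ) * ⟪δ, res B z δ⟫_ℂ‖ := norm_sub_le _ _
      _ = 1 + |κ| * ‖⟪δ, res B z δ⟫_ℂ‖ := by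
        rw [norm_one, norm_mul, Complex.norm_real, Real.norm_eq_abs]
      _ ≤ 1 + |κ| * (‖δ‖ ^ 2 / z.im) := by gcongr
      _ = _ := by ring
  · have h2 := key δ w
    have h3 := key v w
    field_simp
    linear_combination (-(1 + κ * ⟪δ, res A z δ⟫_ℂ)) * h3 + κ * ⟪v, res A z δ⟫_ℂ * h2

end Vale.Agent.P365
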