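import Vale.Agent.P365.Stm3

open MeasureTheory Filter Topology Set

namespace Vale.Agent.P365

namespace MSym

theorem der (u : ℝ) : HasDerivAt (fun u : ℝ => 2 * Real.arctan u - 2 * u / (1 + u ^ 2))
    (4 * u ^ 2 / (1 + u ^ 2) ^ 2) u := by
  have h0 : (1 + u ^ 2) ≠ 0 := by positivity
  have h1 : HasDerivAt (fun u : ℝ => 1 + u ^ 2) (2 * u) u := by
    simpa using (hasDerivAt_pow 2 u).const_add 1
  have h2 : HasDerivAt (fun u : ℝ => 2 * u) 2 u := by
    simpa using (hasDerivAt_id u).const_mul 2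
  refine (((Real.hasDerivAt_arctan u).const_mul 2).sub (h2.div h1 h0)).congr_deriv ?_
  field_simp
  ring

theorem lim : Tendsto (fun u : ℝ => 2 * Real.arctan u - 2 * u / (1 + u ^ 2)) atTop
    (𝓝 Real.pi) := by
  have h1 : Tendsto (fun u : ℝ => 2 * Real.arctan u) atTop (𝓝 (2 * (Real.pi / 2))) :=
    (Real.tendsto_arctan_atTop.mono_right nhdsWithin_le_nhds).const_mul 2
  have h2 : Tendsto (fun u : ℝ => 2 * u / (1 + u ^ 2)) atTop (𝓝 0) := by
    have h3 : Tendsto (fun u : ℝ => 2 / u) atTop (𝓝 0) := tendsto_id.const_div_atTop 2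
    refine squeeze_zero' ?_ ?_ h3
    · filter_upwards [eventually_gt_atTop 0] with u hu
      positivity
    · filter_upwards [eventually_gt_atTop 0] with u hu
      rw [div_le_div_iff₀ (by positivity) hu]
      nlinarith
  have h4 := h1.sub h2
  have e : 2 * (Real.pi / 2) - 0 = Real.pi := by ring
  rwa [e] at h4

theorem hint : IntegrableOn (fun u : ℝ => 4 * u ^ 2 / (1 + u ^ 2) ^ 2) (Ioi 0) :=
  integrableOn_Ioi_deriv_of_nonneg' (fun u _ => der u) (fun u _ => by positivity) lim

theorem hval : ∫ u in Ioi (0 : ℝ), 4 * u ^ 2 / (1 + u ^ 2) ^ 2 = Real.pi := by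
  rw [integral_Ioi_of_hasDerivAt_of_nonneg' (fun u _ => der u) (fun u _ => by positivity) lim]
  simp

theorem bdd (μ : Measure ℝ) [IsFiniteMeasure μ] (e D : ℝ)
    (h : Tendsto (fun r : ℝ => μ.real (Metric.closedBall e r) / (2 * r)) (𝓝[>] 0) (𝓝 D)) :
    ∃ C : ℝ, ∀ r : ℝ, 0 < r → μ.real (Metric.closedBall e r) / (2 * r) ≤ C := by
  have h1 := h.eventually (gt_mem_nhds (lt_add_one D))
  obtain ⟨r0, hr0, h2⟩ := (mem_nhdsGT_iff_exists_Ioo_subset).1 h1
  have hr0' : 0 < r0 := hr0
  refine ⟨max (D + 1) (μ.real univ / (2 * r0)), fun r hr => ?_⟩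
  by_cases hc : r < r0
  · exact le_max_of_le_left (le_of_lt (h2 ⟨hr, hc⟩))
  · refine le_max_of_le_right ?_
    exact div_le_div₀ measureReal_nonneg (measureReal_mono (subset_univ _)) (by positivity)
      (by linarith [not_lt.1 hc])

theorem meas (μ : Measure ℝ) [IsFiniteMeasure μ] (e : ℝ) :
    Measurable (fun r : ℝ => μ.real (Metric.closedBall e r) / (2 * r)) := by
  have h1 : Monotone (fun r : ℝ => μ.real (Metric.closedBall e r)) := fun a b hab =>
    measureReal_mono (Metric.closedBall_subset_closedBall hab)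
  exact h1.measurable.div (measurable_id.const_mul 2)

end MSym

theorem m_sym : T_layer → T_sym := by
  intro hL μ _ e D h
  obtain ⟨C, hC⟩ := MSym.bdd μ e D h
  have key : Tendsto (fun η : ℝ => ∫ u in Ioi (0 : ℝ),
      (μ.real (Metric.closedBall e (η * u)) / (2 * (η * u))) * (4 * u ^ 2 / (1 + u ^ 2) ^ 2))
      (𝓝[>] 0) (𝓝 (∫ u in Ioi (0 : ℝ), D * (4 * u ^ 2 / (1 + u ^ 2) ^ 2))) := by
    refine tendsto_integral_filter_of_dominated_convergence
      (fun u => C * (4 * u ^ 2 / (1 + u ^ 2) ^ 2)) ?_ ?_ (MSym.hint.const_mul C) ?_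
    · refine Eventually.of_forall fun η => Measurable.aestronglyMeasurable ?_
      refine ((MSym.meas μ e).comp (measurable_id.const_mul η)).mul ?_
      fun_prop
    · filter_upwards [self_mem_nhdsWithin] with η hη
      have hη' : 0 < η := hη
      filter_upwards [ae_restrict_mem measurableSet_Ioi] with u hu
      have hu' : 0 < u := hu
      have p1 : 0 ≤ μ.real (Metric.closedBall e (η * u)) / (2 * (η * u)) :=
        div_nonneg measureReal_nonneg (by positivity)
      have p2 : 0 ≤ 4 * u ^ 2 / (1 + u ^ 2) ^ 2 := by positivity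
      rw [Real.norm_eq_abs, abs_of_nonneg (mul_nonneg p1 p2)]
      exact mul_le_mul_of_nonneg_right (hC _ (mul_pos hη' hu')) p2
    · filter_upwards [ae_restrict_mem measurableSet_Ioi] with u hu
      have hu' : 0 < u := hu
      refine Tendsto.mul_const _ (h.comp ?_)
      refine tendsto_nhdsWithin_iff.2 ⟨?_, ?_⟩
      · have : Tendsto (fun η : ℝ => η * u) (𝓝 0) (𝓝 (0 * u)) :=
          (continuous_id.mul continuous_const).tendsto 0
        rw [zero_mul] at this
        exact this.mono_left nhdsWithin_le_nhds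
      · filter_upwards [self_mem_nhdsWithin] with η hη
        exact mul_pos hη hu'
  rw [integral_const_mul, MSym.hval, mul_comm D] at key
  refine key.congr' ?_
  filter_upwards [self_mem_nhdsWithin] with η hη
  exact (hL μ e η hη).symm

end Vale.Agent.P365
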