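import Vale.Agent.P365.Stm3

/-! Raising the potential at the origin does not increase the measure. -/

open MeasureTheory Filter Topology Set
open scoped InnerProductSpace ENNReal

namespace Vale.Agent.P365

namespace MUp

theorem un_shift {t : ℝ} (ht : 0 ≤ t) (S : Set ℝ) :
    unif {s | s ∈ Icc (-1) (1 - t) ∧ s + t ∈ S} ≤ unif S := by
  unfold unif
  rw [ProbabilityTheory.cond_apply measurableSet_Icc, ProbabilityTheory.cond_apply measurableSet_Icc,
    ← measure_preimage_add_right volume t (Icc (-1) 1 ∩ S)]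
  refine mul_le_mul_right (measure_mono fun s hs => ?_) _
  exact mem_preimage.2 (mem_inter (mem_Icc.2 ⟨by linarith [hs.2.1.1], by linarith [hs.2.1.2]⟩)
    hs.2.2)

theorem un_out (t : ℝ) : unif (Icc (-1) (1 - t))ᶜ ≤ ENNReal.ofReal (t / 2) := by
  unfold unif
  rw [ProbabilityTheory.cond_apply measurableSet_Icc]
  have h : volume (Icc (-1 : ℝ) 1 ∩ (Icc (-1) (1 - t))ᶜ) ≤ volume (Icc (1 - t) 1) :=
    measure_mono fun s hs => ⟨le_of_not_ge fun k => hs.2 ⟨hs.1.1, k⟩, hs.1.2⟩
  refine (mul_le_mul_right h _).trans (le_of_eq ?_)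
  rw [Real.volume_Icc, Real.volume_Icc, ← ENNReal.ofReal_inv_of_pos (by norm_num),
    ← ENNReal.ofReal_mul (by norm_num)]
  exact congrArg _ (by ring)

theorem meas_up {d : ℕ} (t : ℝ) :
    Measurable fun ω : Site d → ℝ => Function.update ω 0 (ω 0 + t) := by
  refine measurable_pi_iff.2 fun x => ?_
  by_cases h : x = 0
  · subst h
    simp only [Function.update_self]
    fun_prop
  · simp only [Function.update_of_ne h]
    exact measurable_pi_apply x

theorem pp_up (h : T_resamp) {d : ℕ} {t : ℝ} (ht : 0 ≤ t) {S : Set (Site d → ℝ)}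
    (hS : MeasurableSet S) :
    PP d {ω | ω 0 ∈ Icc (-1) (1 - t) ∧ Function.update ω 0 (ω 0 + t) ∈ S} ≤ PP d S := by
  have m : MeasurableSet
      {ω : Site d → ℝ | ω 0 ∈ Icc (-1) (1 - t) ∧ Function.update ω 0 (ω 0 + t) ∈ S} :=
    (measurable_pi_apply 0 measurableSet_Icc).inter (meas_up t hS)
  rw [h d _ m, h d S hS]
  refine lintegral_mono fun ω => le_trans (le_of_eq (congrArg _ ?_))
    (un_shift ht {s | Function.update ω 0 s ∈ S})
  ext s
  simp only [mem_ofPred_eq, Function.update_self, Function.update_idem]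

end MUp

theorem m_up : T_resamp → T_up := by
  intro h d L t hL t0 _
  have mu : Measurable (up (d := d) t) :=
    ((MUp.meas_up t).comp measurable_fst).prodMk measurable_snd
  refine ⟨mu, fun S hS => ?_, ?_⟩
  · have m : MeasurableSet {p : (Site d → ℝ) × ℝ | p.1 0 ∈ Icc (-1) (1 - t) ∧ up t p ∈ S} :=
      (((measurable_pi_apply 0).comp measurable_fst) measurableSet_Icc).inter (mu hS)
    unfold nu
    rw [Measure.prod_apply_symm m, Measure.prod_apply_symm hS]
    exact lintegral_mono fun e => MUp.pp_up h t0 (measurable_prodMk_right hS)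
  · have e : {p : (Site d → ℝ) × ℝ | p.1 0 ∉ Icc (-1) (1 - t)} =
        (Function.eval 0 ⁻¹' (Icc (-1) (1 - t))ᶜ) ×ˢ univ := by
      ext p
      simp only [mem_ofPred_eq, mem_prod, mem_preimage, mem_compl_iff, mem_univ, and_true]
    have e2 : PP d (Function.eval 0 ⁻¹' (Icc (-1) (1 - t))ᶜ) = unif (Icc (-1) (1 - t))ᶜ :=
      (measurePreserving_eval_infinitePi (fun _ : Site d => unif) 0).measure_preimage
        measurableSet_Icc.compl.nullMeasurableSet
    unfold nu
    rw [e, Measure.prod_prod, e2, Measure.restrict_apply_univ, Real.volume_Ioc]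
    refine (mul_le_mul_left (MUp.un_out t) _).trans (le_of_eq ?_)
    rw [← ENNReal.ofReal_mul (by linarith)]
    exact congrArg _ (by ring)

end Vale.Agent.P365
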