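import Vale.Agent.P365.Stm3

/-! Wegner type bound for the diagonal Green function. -/

open MeasureTheory Filter Topology Set
open scoped InnerProductSpace ENNReal

namespace Vale.Agent.P365

namespace MWeg

theorem scal {a : ℂ} {κ M : ℝ} (ha : 0 < a.im) (hM : 0 < M) (h0 : 1 + κ * a ≠ 0)
    (h : M < ‖a - κ * (a * a) / (1 + κ * a)‖) : |κ + (a⁻¹).re| < 1 / M := by
  have ha0 : a ≠ 0 := by
    rintro rfl
    simp at ha
  have e : (a - κ * (a * a) / (1 + κ * a)) * (κ + a⁻¹) = 1 := by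
    have k1 := mul_inv_cancel₀ ha0
    have k2 := mul_inv_cancel₀ h0
    rw [div_eq_mul_inv]
    linear_combination (1 - κ * a * (1 + κ * a)⁻¹) * k1 - κ * a * k2
  have e2 := congrArg norm e
  rw [norm_mul, norm_one] at e2
  have h1 : |κ + (a⁻¹).re| ≤ ‖(κ : ℂ) + a⁻¹‖ := by
    have := Complex.abs_re_le_norm ((κ : ℂ) + a⁻¹)
    rwa [Complex.add_re, Complex.ofReal_re] at this
  have h2 : 0 < ‖(κ : ℂ) + a⁻¹‖ := by
    rcases (norm_nonneg ((κ : ℂ) + a⁻¹)).eq_or_lt with h3 | h3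
    · rw [← h3, mul_zero] at e2
      exact absurd e2 zero_ne_one
    · exact h3
  refine h1.trans_lt ?_
  rw [lt_div_iff₀ hM, mul_comm, ← e2]
  exact mul_lt_mul_of_pos_right h h2

theorem unif_le {lam M c : ℝ} (hl : 0 < lam) (hM : 0 < M) {S : Set ℝ}
    (h : ∀ s ∈ Icc (-1 : ℝ) 1, s ∈ S → |lam * s + c| < 1 / M) :
    unif S ≤ ENNReal.ofReal (1 / (lam * M)) := by
  have h1 : Icc (-1 : ℝ) 1 ∩ S ⊆ Ioo ((-c - 1 / M) / lam) ((-c + 1 / M) / lam) := by
    intro s hs
    have h2 := abs_lt.1 (h s hs.1 hs.2)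
    constructor
    · rw [div_lt_iff₀ hl]; linarith [h2.1]
    · rw [lt_div_iff₀ hl]; linarith [h2.2]
  rw [unif, ProbabilityTheory.cond_apply measurableSet_Icc]
  refine (mul_le_mul_right (measure_mono h1) _).trans (le_of_eq ?_)
  rw [Real.volume_Icc, Real.volume_Ioo, ← ENNReal.ofReal_inv_of_pos (by norm_num),
    ← ENNReal.ofReal_mul (by norm_num)]
  congr 1
  field_simp
  ring

theorem pr_smul {d : ℕ} {lam : ℝ} (hl : 0 ≤ lam) (s : ℝ) (δ : L2 d) :
    (s : ℂ) • Pr (((Real.sqrt lam : ℝ) : ℂ) • δ) = ((lam * s : ℝ) : ℂ) • Pr δ := by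
  refine ContinuousLinearMap.ext fun v => ?_
  have e : ((lam * s : ℝ) : ℂ) = (s : ℂ) * ((Real.sqrt lam : ℝ) : ℂ) * ((Real.sqrt lam : ℝ) : ℂ) := by
    rw [mul_assoc, ← Complex.ofReal_mul, Real.mul_self_sqrt hl, ← Complex.ofReal_mul, mul_comm]
  simp only [Pr, smul_apply, InnerProductSpace.rankOne_apply, inner_smul_left, Complex.conj_ofReal,
    smul_smul, e]
  congr 1
  ring

end MWeg

open MWeg in
theorem m_weg : T_rk1 → T_gpos → T_gcov → T_gcont → T_resamp → T_weg := by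
  intro hrk hpos hcov hcont hres d lam L M H hl hL hM hF n y
  have hS : MeasurableSet {p : (Site d → ℝ) × ℝ | M < ‖gr H n 0 0 p‖} :=
    (isOpen_lt continuous_const (hcont d lam H hF n 0 0).norm).measurableSet
  have e1 : {p | M < ‖gr H n y y p‖} = shp y ⁻¹' {p | M < ‖gr H n 0 0 p‖} := by
    ext p
    have := hcov d lam H hF n 0 0 y p
    rw [zero_add] at this
    simp only [mem_preimage, Set.mem_ofPred_eq, this]
  rw [e1, (shp_mp d L y).measure_preimage hS.nullMeasurableSet, nu, Measure.prod_apply_symm hS]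
  have key : ∀ e : ℝ, PP d ((fun ω => (ω, e)) ⁻¹' {p : (Site d → ℝ) × ℝ | M < ‖gr H n 0 0 p‖}) ≤
      ENNReal.ofReal (1 / (lam * M)) := by
    intro e
    rw [hres d _ (measurable_prodMk_right hS)]
    refine (lintegral_mono (g := fun _ => ENNReal.ofReal (1 / (lam * M))) fun ω => ?_).trans
      (by simp)
    refine unif_le (c := ((gr H n 0 0 (Function.update ω 0 0, e))⁻¹).re) hl hM fun s hs h => ?_
    obtain ⟨h1, -, h2⟩ := hrk (L2 d) (H (Function.update ω 0 0)) (dlt 0) (lam * s) (zz e n)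
      (fam_sa hF _) (zz_im_pos e n)
    have h3 := h2 (dlt 0) (dlt 0)
    rw [← pr_smul hl.le, ← (s_rank s_J d lam H hl.le hF).1 ω s hs] at h3
    simp only [inner_dlt] at h1 h3
    have h4 : M < ‖gr H n 0 0 (Function.update ω 0 s, e)‖ := h
    exact scal (hpos d lam H hF n 0 0 (Function.update ω 0 0, e)).1 hM h1 (h3 ▸ h4)
  refine (lintegral_mono key).trans (le_of_eq ?_)
  rw [lintegral_const, Measure.restrict_apply_univ, Real.volume_Ioc,
    ← ENNReal.ofReal_mul (by positivity)]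
  congr 1
  field_simp
  ring

end Vale.Agent.P365
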