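import Vale.Agent.P365.Stm4

/-! Approximation of indicator functions by bounded continuous functions. -/

open MeasureTheory Filter Topology Set
open scoped InnerProductSpace ENNReal

namespace Vale.Agent.P365

namespace OAppr

theorem clip_mem (t : ℝ) : 0 ≤ max 0 (min 1 t) ∧ max 0 (min 1 t) ≤ 1 :=
  ⟨le_max_left _ _, max_le zero_le_one (min_le_left _ _)⟩

/-- The clipped function. -/
noncomputable def cl (g : BoundedContinuousFunction ℝ ℝ) : BoundedContinuousFunction ℝ ℝ :=
  BoundedContinuousFunction.mkOfBound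
    ⟨fun x => max 0 (min 1 (g x)), continuous_const.max (continuous_const.min g.continuous)⟩ 1
    fun x y => by
      have h1 := clip_mem (g x)
      have h2 := clip_mem (g y)
      show dist (max 0 (min 1 (g x))) (max 0 (min 1 (g y))) ≤ 1
      rw [Real.dist_eq, abs_le]
      constructor <;> linarith [h1.1, h1.2, h2.1, h2.2]

theorem cl_apply (g : BoundedContinuousFunction ℝ ℝ) (x : ℝ) : cl g x = max 0 (min 1 (g x)) := rfl

end OAppr

theorem o_appr : O_appr := by
  intro μ _ S hS
  have hm : Measurable (S.indicator fun _ => (1 : ℝ)) := measurable_const.indicator hS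
  have hi : Integrable (S.indicator fun _ => (1 : ℝ)) μ := (integrable_const 1).indicator hS
  have hne : ∀ n : ℕ, (2⁻¹ : ℝ≥0∞) ^ n ≠ 0 := fun n => pow_ne_zero n (by simp)
  choose g hg _ using fun n : ℕ => hi.exists_boundedContinuous_lintegral_sub_le (hne n)
  refine ⟨fun n => OAppr.cl (g n), fun n x => OAppr.clip_mem _, ?_⟩
  have hme : ∀ n, Measurable fun x => ‖S.indicator (fun _ => (1 : ℝ)) x - g n x‖ₑ := fun n =>
    (hm.sub (g n).continuous.measurable).enorm
  have hfin : ∫⁻ x, ∑' n, ‖S.indicator (fun _ => (1 : ℝ)) x - g n x‖ₑ ∂μ ≠ ⊤ := by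
    rw [lintegral_tsum fun n => (hme n).aemeasurable]
    refine ne_top_of_le_ne_top ?_ (ENNReal.tsum_le_tsum hg)
    rw [ENNReal.tsum_geometric]
    simp
  filter_upwards [ae_lt_top (Measurable.ennreal_tsum hme) hfin] with x hx
  have h1 := ENNReal.tendsto_atTop_zero_of_tsum_ne_top hx.ne
  have h2 : Tendsto (fun n => ‖S.indicator (fun _ => (1 : ℝ)) x - g n x‖) atTop (𝓝 0) := by
    have h3 := (ENNReal.tendsto_toReal ENNReal.zero_ne_top).comp h1
    simpa [Function.comp_def] using h3
  have h4 : Tendsto (fun n => g n x) atTop (𝓝 (S.indicator (fun _ => (1 : ℝ)) x)) := by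
    rw [tendsto_iff_norm_sub_tendsto_zero]
    simpa only [norm_sub_rev] using h2
  have hc : Continuous fun t : ℝ => max 0 (min 1 t) :=
    continuous_const.max (continuous_const.min continuous_id)
  have h5 := (hc.tendsto _).comp h4
  have e : max 0 (min 1 (S.indicator (fun _ => (1 : ℝ)) x)) = S.indicator (fun _ => (1 : ℝ)) x := by
    by_cases h : x ∈ S
    · rw [indicator_of_mem h]
      simp
    · rw [indicator_of_notMem h]
      simp
  rw [e] at h5
  exact h5

end Vale.Agent.P365
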