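import Vale.Agent.P365.Stm4

/-! The component of a vector in the band of an absolutely continuous vector. -/

open MeasureTheory Filter Topology Set
open scoped InnerProductSpace ENNReal

namespace Vale.Agent.P365

namespace OBand

theorem band (ν ρ : Measure ℝ) [IsFiniteMeasure ν] [IsFiniteMeasure ρ] (hρ : ρ ≪ volume) :
    ∃ S : Set ℝ, MeasurableSet S ∧ ν.restrict S ≪ ρ ∧
      ∀ᵐ e : ℝ, 0 < dens ρ e → dens (ν.restrict Sᶜ) e = 0 := by
  obtain ⟨s, hs, h1, h2⟩ := Measure.mutuallySingular_singularPart ν (volume : Measure ℝ)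
  have hm : Measurable (ρ.rnDeriv volume) := Measure.measurable_rnDeriv _ _
  have hS : MeasurableSet ({e | ρ.rnDeriv volume e ≠ 0} ∩ s) :=
    (hm (measurableSet_singleton 0).compl).inter hs
  refine ⟨_, hS, Measure.AbsolutelyContinuous.mk (fun T hT h0 => ?_), ?_⟩
  · rw [Measure.restrict_apply hT]
    rw [← Measure.withDensity_rnDeriv_eq ρ volume hρ, withDensity_apply_eq_zero hm] at h0
    have h3 : volume (T ∩ ({e | ρ.rnDeriv volume e ≠ 0} ∩ s)) = 0 :=
      measure_mono_null (fun x hx => mem_inter hx.2.1 hx.1) h0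
    rw [Measure.haveLebesgueDecomposition_add ν volume, Measure.add_apply,
      measure_mono_null (fun x hx => hx.2.2) h1, withDensity_absolutelyContinuous _ _ h3, add_zero]
  · have h4 : ∀ᵐ e : ℝ, e ∈ s := h2
    filter_upwards [Measure.rnDeriv_restrict ν volume hS.compl, h4] with e he hes hp
    have h5 : ρ.rnDeriv volume e ≠ 0 := fun h => by
      unfold dens at hp
      rw [h, ENNReal.toReal_zero] at hp
      exact lt_irrefl _ hp
    unfold dens
    rw [he, indicator_of_notMem (notMem_compl_iff.mpr (mem_inter h5 hes)), ENNReal.toReal_zero]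

end OBand

theorem o_band : O_uniq → O_cut → O_band := by
  intro hu hc E _ _ _ A μ φ u hA hμ hφ
  have := (hμ u).1
  have := (hμ φ).1
  obtain ⟨S, hS, h1, h2⟩ := OBand.band (μ u) (μ φ) hφ
  obtain ⟨χ, h3, h4⟩ := hc E A u (μ u) S hA (hμ u) hS
  refine ⟨χ, ?_, ?_⟩
  · rw [(hu E A χ _ hA h3).2 _ (hμ χ)]
    exact h1
  · rw [(hu E A (u - χ) _ hA h4).2 _ (hμ (u - χ))]
    exact h2

end Vale.Agent.P365
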