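import Vale.Agent.P365.Stm4

/-! P365: approximation in norm gives approximation of the densities. -/

open MeasureTheory Filter Topology Set
open scoped InnerProductSpace ENNReal

namespace Vale.Agent.P365

namespace OClos

theorem ae_zero (ν : ℕ → Measure ℝ) (h : ∀ k, ν k Set.univ ≤ ENNReal.ofReal ((1 / 2) ^ k)) :
    ∀ᵐ e : ℝ, Tendsto (fun k => dens (ν k) e) atTop (𝓝 0) := by
  have hm : ∀ k, Measurable ((ν k).rnDeriv volume) := fun k => Measure.measurable_rnDeriv _ _
  have h1 : ∫⁻ e, ∑' k, (ν k).rnDeriv volume e ≠ ∞ := by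
    rw [lintegral_tsum fun k => (hm k).aemeasurable]
    refine ne_top_of_le_ne_top ?_
      (ENNReal.tsum_le_tsum fun k => Measure.lintegral_rnDeriv_le.trans (h k))
    rw [← ENNReal.ofReal_tsum_of_nonneg (fun k => by positivity) summable_geometric_two]
    exact ENNReal.ofReal_ne_top
  filter_upwards [ae_lt_top (Measurable.tsum hm) h1] with e he
  have h2 := ENNReal.tendsto_atTop_zero_of_tsum_ne_top he.ne
  have h3 := (ENNReal.tendsto_toReal ENNReal.zero_ne_top).comp h2
  rw [ENNReal.toReal_zero] at h3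
  exact h3

end OClos

theorem o_clos : O_uniq → O_clos := by
  intro hu E _ _ _ A μ W ψ hA hμ hψ
  have h1 : ∀ k : ℕ, ∃ w ∈ W, ‖ψ - w‖ ^ 2 ≤ (1 / 2) ^ k := by
    intro k
    have h2 : ψ ∈ closure (W : Set E) := hψ
    obtain ⟨w, hw, hd⟩ := Metric.mem_closure_iff.1 h2 (Real.sqrt ((1 / 2) ^ k))
      (Real.sqrt_pos.2 (by positivity))
    refine ⟨w, hw, ?_⟩
    rw [dist_eq_norm] at hd
    exact ((Real.lt_sqrt (norm_nonneg _)).1 hd).le
  choose w hw hd using h1
  refine ⟨w, hw, OClos.ae_zero (fun k => μ (ψ - w k)) fun k => ?_⟩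
  rw [(hu E A (ψ - w k) (μ (ψ - w k)) hA (hμ _)).1]
  exact ENNReal.ofReal_le_ofReal (hd k)

end Vale.Agent.P365
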