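import Vale.Agent.P365.Stm4

/-! Spectral cut of a vector along a Borel set. -/

open MeasureTheory Filter Topology Set
open scoped InnerProductSpace ENNReal

namespace Vale.Agent.P365

namespace OCut

theorem int_ind (μ : Measure ℝ) {S : Set ℝ} (hS : MeasurableSet S) (h : ℝ → ℝ) :
    ∫ x, S.indicator (fun _ => (1 : ℝ)) x ^ 2 * h x ∂μ = ∫ x, h x ∂(μ.restrict S) := by
  rw [← integral_indicator hS]
  congr 1
  funext x
  by_cases hx : x ∈ S <;> simp [hx]

theorem abs_ind (S : Set ℝ) (x : ℝ) : |S.indicator (fun _ => (1 : ℝ)) x| ≤ 1 := by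
  by_cases hx : x ∈ S <;> simp [hx]

end OCut

theorem o_cut : O_cut0 → O_appr → O_cut := by
  intro h0 ha E _ _ _ A ψ μ S hA hμ hS
  have hfin := hμ.1
  obtain ⟨f, hf, hl⟩ := ha μ S hS
  obtain ⟨χ, c1, c2⟩ := h0 E A ψ μ (S.indicator fun _ => 1) f hA hμ
    (measurable_const.indicator hS) (OCut.abs_ind S)
    (fun n x => abs_le.2 ⟨by linarith [(hf n x).1], (hf n x).2⟩) hl
  obtain ⟨χ', d1, d2⟩ := h0 E A ψ μ (Sᶜ.indicator fun _ => 1) (fun n => 1 - f n) hA hμ
    (measurable_const.indicator hS.compl) (OCut.abs_ind Sᶜ)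
    (fun n x => by
      show |1 - f n x| ≤ 1
      exact abs_le.2 ⟨by linarith [(hf n x).2], by linarith [(hf n x).1]⟩)
    (by
      filter_upwards [hl] with x hx
      have e : Sᶜ.indicator (fun _ => (1 : ℝ)) x = 1 - S.indicator (fun _ => (1 : ℝ)) x := by
        by_cases h : x ∈ S <;> simp [h]
      rw [e]
      exact tendsto_const_nhds.sub hx)
  have e : ∀ n, (cfc ((1 - f n : BoundedContinuousFunction ℝ ℝ) : ℝ → ℝ) A) ψ =
      ψ - (cfc (f n : ℝ → ℝ) A) ψ := fun n => by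
    have e1 : cfc ((1 - f n : BoundedContinuousFunction ℝ ℝ) : ℝ → ℝ) A =
        cfc (fun x : ℝ => (fun _ : ℝ => (1 : ℝ)) x - f n x) A := rfl
    rw [e1, cfc_sub _ _ A continuousOn_const (f n).continuous.continuousOn, cfc_const_one ℝ A hA]
    rfl
  have e2 : ψ - χ = χ' := tendsto_nhds_unique (tendsto_const_nhds.sub c1) (d1.congr e)
  refine ⟨χ, ⟨inferInstance, fun h => ?_⟩, ⟨inferInstance, fun h => ?_⟩⟩
  · rw [c2 h, OCut.int_ind μ hS]
  · rw [e2, d2 h, OCut.int_ind μ hS.compl]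

end Vale.Agent.P365
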