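import Vale.Agent.P365.Stm4

/-! Strong limits of the continuous functional calculus. -/

open MeasureTheory Filter Topology Set
open scoped InnerProductSpace BoundedContinuousFunction

namespace Vale.Agent.P365

namespace OCut0

variable {E : Type} [NormedAddCommGroup E] [InnerProductSpace ℂ E] [CompleteSpace E]
  {A : E →L[ℂ] E} {ψ : E} {μ : Measure ℝ}

theorem tri (hS : IsSpec A ψ μ) (f h : ℝ →ᵇ ℝ) :
    ⟪(cfc (f : ℝ → ℝ) A) ψ, (cfc (h : ℝ → ℝ) A) ((cfc (f : ℝ → ℝ) A) ψ)⟫_ℂ =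
      ((∫ x, f x ^ 2 * h x ∂μ : ℝ) : ℂ) := by
  have e : cfc ((f * (h * f) : ℝ →ᵇ ℝ) : ℝ → ℝ) A =
      cfc (f : ℝ → ℝ) A * (cfc (h : ℝ → ℝ) A * cfc (f : ℝ → ℝ) A) := by
    rw [← cfc_mul _ _ A h.continuous.continuousOn f.continuous.continuousOn]
    exact cfc_mul _ _ A f.continuous.continuousOn (h * f).continuous.continuousOn
  have k := hS.2 (f * (h * f))
  rw [e] at k
  rw [inner_sa (cfc_predicate (f : ℝ → ℝ) A)]
  refine k.trans (congrArg _ (integral_congr_ae (ae_of_all _ fun x => ?_)))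
  show f x * (h x * f x) = f x ^ 2 * h x
  ring

theorem nrm (hA : IsSelfAdjoint A) (hS : IsSpec A ψ μ) (f f' : ℝ →ᵇ ℝ) :
    ‖(cfc (f : ℝ → ℝ) A) ψ - (cfc (f' : ℝ → ℝ) A) ψ‖ ^ 2 = ∫ x, (f x - f' x) ^ 2 ∂μ := by
  have e : cfc ((f - f' : ℝ →ᵇ ℝ) : ℝ → ℝ) A = cfc (f : ℝ → ℝ) A - cfc (f' : ℝ → ℝ) A :=
    cfc_sub _ _ A f.continuous.continuousOn f'.continuous.continuousOn
  have e1 : cfc ((1 : ℝ →ᵇ ℝ) : ℝ → ℝ) A = 1 := cfc_one ℝ A hA
  have k := tri hS (f - f') 1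
  rw [e, e1, one_apply_eq_self, inner_self_eq_norm_sq_to_K, sub_apply] at k
  have k2 : ‖(cfc (f : ℝ → ℝ) A) ψ - (cfc (f' : ℝ → ℝ) A) ψ‖ ^ 2 =
      ∫ x, (f - f') x ^ 2 * (1 : ℝ →ᵇ ℝ) x ∂μ :=
    Complex.ofReal_injective ((Complex.ofReal_pow _ 2).trans k)
  simpa using k2

end OCut0

theorem o_cut0 : O_cut0 := by
  intro E _ _ _ A ψ μ g f hA hS mg bg bf hl
  have fin := hS.1
  have mf : ∀ n, Measurable (f n : ℝ → ℝ) := fun n => (f n).continuous.measurable
  have sq : ∀ n x, ‖(f n x - g x) ^ 2‖ ≤ 4 := fun n x => by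
    rw [Real.norm_eq_abs, abs_of_nonneg (sq_nonneg _)]
    obtain ⟨a, b⟩ := abs_le.1 (bf n x)
    obtain ⟨c, d⟩ := abs_le.1 (bg x)
    nlinarith
  have ms : ∀ n, AEStronglyMeasurable (fun x => (f n x - g x) ^ 2) μ := fun n =>
    (((mf n).sub mg).pow_const 2).aestronglyMeasurable
  have ia : ∀ n, Integrable (fun x => (f n x - g x) ^ 2) μ := fun n =>
    (integrable_const (4 : ℝ)).mono' (ms n) (ae_of_all _ (sq n))
  have ta : Tendsto (fun n => ∫ x, (f n x - g x) ^ 2 ∂μ) atTop (𝓝 0) := by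
    have := tendsto_integral_of_dominated_convergence (f := fun _ => (0 : ℝ)) _ ms
      (integrable_const (4 : ℝ)) (fun n => ae_of_all _ (sq n)) (hl.mono fun x hx => by
        simpa using (hx.sub_const (g x)).pow 2)
    simpa using this
  have hc : CauchySeq fun n => (cfc (f n : ℝ → ℝ) A) ψ := by
    refine Metric.cauchySeq_iff.2 fun ε hε => ?_
    obtain ⟨N, hN⟩ := eventually_atTop.1 (ta.eventually_lt_const (show 0 < ε ^ 2 / 4 by positivity))
    refine ⟨N, fun m hm n hn => ?_⟩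
    rw [dist_eq_norm]
    refine lt_of_pow_lt_pow_left₀ 2 hε.le ?_
    rw [OCut0.nrm hA hS]
    have k : ∫ x, (f m x - f n x) ^ 2 ∂μ ≤
        ∫ x, (2 * (f m x - g x) ^ 2 + 2 * (f n x - g x) ^ 2) ∂μ :=
      integral_mono_of_nonneg (ae_of_all _ fun x => sq_nonneg _)
        (((ia m).const_mul 2).add ((ia n).const_mul 2)) (ae_of_all _ fun x => by
          show (f m x - f n x) ^ 2 ≤ 2 * (f m x - g x) ^ 2 + 2 * (f n x - g x) ^ 2
          nlinarith [sq_nonneg (f m x + f n x - 2 * g x)])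
    rw [integral_add ((ia m).const_mul 2) ((ia n).const_mul 2), integral_const_mul,
      integral_const_mul] at k
    linarith [hN m hm, hN n hn]
  obtain ⟨χ, hχ⟩ := cauchySeq_tendsto_of_complete hc
  refine ⟨χ, hχ, fun h => ?_⟩
  have t1 := hχ.inner (𝕜 := ℂ) (((cfc (h : ℝ → ℝ) A).continuous.tendsto χ).comp hχ)
  have t2 : Tendsto (fun n => ∫ x, f n x ^ 2 * h x ∂μ) atTop (𝓝 (∫ x, g x ^ 2 * h x ∂μ)) := by
    refine tendsto_integral_of_dominated_convergence (fun _ => ‖h‖)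
      (fun n => (((mf n).pow_const 2).mul h.continuous.measurable).aestronglyMeasurable)
      (integrable_const _) (fun n => ae_of_all _ fun x => ?_)
      (hl.mono fun x hx => (hx.pow 2).mul_const _)
    rw [norm_mul, norm_pow]
    exact (mul_le_of_le_one_left (norm_nonneg _)
      (pow_le_one₀ (norm_nonneg _) (bf n x))).trans (h.norm_coe_le_norm x)
  refine tendsto_nhds_unique t1 (((Complex.continuous_ofReal.tendsto _).comp t2).congr fun n => ?_)
  exact (OCut0.tri hS (f n) h).symm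

end Vale.Agent.P365
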