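import Vale.Agent.P365.Stm4

/-! Real linear dependence in a complex space of small dimension. -/

open MeasureTheory Filter Topology Set
open scoped InnerProductSpace ENNReal

namespace Vale.Agent.P365

namespace ODep

theorem ker {m M : ℕ} (c : Fin M → Fin m → ℂ) (h : 2 * m < M) :
    ∃ t : Fin M → ℝ, (∃ i, t i ≠ 0) ∧ ∑ i, t i • c i = 0 := by
  have k : ¬LinearIndependent ℝ c := fun hc => by
    have := hc.fintype_card_le_finrank
    rw [Module.finrank_pi_fintype, Finset.sum_const, Complex.finrank_real_complex,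
      Finset.card_univ, Fintype.card_fin, Fintype.card_fin, smul_eq_mul] at this
    omega
  obtain ⟨t, h1, h2⟩ := Fintype.not_linearIndependent_iff.1 k
  exact ⟨t, h2, h1⟩

end ODep

theorem o_dep : O_dep := by
  intro E _ _ m M b a h ha
  choose c hc using fun i => (Submodule.mem_span_range_iff_exists_fun ℂ).1 (ha i)
  obtain ⟨t, ⟨i, hi⟩, ht⟩ := ODep.ker c h
  have h0 : ∑ i, (t i : ℂ) • a i = 0 := by
    simp only [← hc, Finset.smul_sum, smul_smul]
    rw [Finset.sum_comm]
    refine Finset.sum_eq_zero fun j _ => ?_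
    have := congrFun ht j
    simp only [Finset.sum_apply, Pi.smul_apply, Complex.real_smul, Pi.zero_apply] at this
    rw [← Finset.sum_smul, this, zero_smul]
  have p : 0 < ∑ i, t i ^ 2 :=
    Finset.sum_pos' (fun i _ => sq_nonneg _) ⟨i, Finset.mem_univ _, by positivity⟩
  refine ⟨fun i => (√(∑ i, t i ^ 2))⁻¹ * t i, ?_, ?_⟩
  · simp only [mul_pow, ← Finset.mul_sum]
    rw [inv_pow, Real.sq_sqrt p.le, inv_mul_cancel₀ p.ne']
  · simp only [Complex.ofReal_mul, mul_smul, ← Finset.smul_sum]
    rw [h0, smul_zero]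

end Vale.Agent.P365
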