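import Vale.Agent.P365.Stm4

open MeasureTheory Filter Topology Set

namespace Vale.Agent.P365

namespace ODet

theorem expand {M : ℕ} (G : Matrix (Fin M) (Fin M) ℝ) (hs : ∀ i j, G i j = G j i)
    (t u : Fin M → ℝ) (x : ℝ) :
    ∑ i, ∑ j, (t i + x * u i) * G i j * (t j + x * u j) =
      (∑ i, ∑ j, u i * G i j * u j) * (x * x) + (2 * ∑ i, ∑ j, u i * G i j * t j) * x +
        ∑ i, ∑ j, t i * G i j * t j := by
  have h1 : ∑ i, ∑ j, t i * G i j * u j = ∑ i, ∑ j, u i * G i j * t j := by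
    rw [Finset.sum_comm]
    refine Finset.sum_congr rfl fun i _ => Finset.sum_congr rfl fun j _ => ?_
    rw [hs j i]
    ring
  have h2 : ∀ i j, (t i + x * u i) * G i j * (t j + x * u j) =
      u i * G i j * u j * (x * x) + (u i * G i j * t j * x + t i * G i j * u j * x) +
        t i * G i j * t j := fun i j => by ring
  simp only [h2, Finset.sum_add_distrib, ← Finset.sum_mul, h1]
  ring

end ODet

theorem o_det : O_det := by
  intro M G hs hp hε
  have hc : Continuous fun t : Fin M → ℝ => ∑ i, ∑ j, t i * G i j * t j := by fun_prop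
  have hK : IsCompact {t : Fin M → ℝ | ∑ i, t i ^ 2 = 1} := by
    refine Metric.isCompact_of_isClosed_isBounded (isClosed_eq (by fun_prop) continuous_const) ?_
    refine (Metric.isBounded_closedBall (x := (0 : Fin M → ℝ)) (r := 1)).subset fun t ht => ?_
    rw [mem_closedBall_zero_iff, pi_norm_le_iff_of_nonneg zero_le_one]
    intro i
    have h1 : t i ^ 2 ≤ ∑ i, t i ^ 2 :=
      Finset.single_le_sum (f := fun i => t i ^ 2) (fun i _ => sq_nonneg _) (Finset.mem_univ i)
    have h2 : ∑ i, t i ^ 2 = 1 := ht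
    rw [Real.norm_eq_abs]
    exact (sq_le_one_iff_abs_le_one _).1 (by linarith)
  obtain ⟨t1, ht1, -⟩ := hε 1 one_pos
  obtain ⟨t, ht, hmin⟩ := hK.exists_isMinOn ⟨t1, ht1⟩ hc.continuousOn
  have h0 : ∑ i, ∑ j, t i * G i j * t j = 0 := by
    refine le_antisymm (le_of_forall_pos_le_add fun ε he => ?_) (hp t)
    obtain ⟨s, hs1, hs2⟩ := hε ε he
    have h3 : ∑ i, ∑ j, t i * G i j * t j ≤ ∑ i, ∑ j, s i * G i j * s j := hmin hs1
    linarith
  have hu : ∀ u : Fin M → ℝ, ∑ i, ∑ j, u i * G i j * t j = 0 := by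
    intro u
    have h4 := discrim_le_zero (a := ∑ i, ∑ j, u i * G i j * u j)
      (b := 2 * ∑ i, ∑ j, u i * G i j * t j) (c := ∑ i, ∑ j, t i * G i j * t j) fun x => by
        rw [← ODet.expand G hs t u x]
        exact hp fun i => t i + x * u i
    rw [discrim, h0] at h4
    have h5 : (∑ i, ∑ j, u i * G i j * t j) ^ 2 ≤ 0 := by nlinarith
    exact pow_eq_zero_iff (two_ne_zero) |>.1 (le_antisymm h5 (sq_nonneg _))
  refine Matrix.exists_mulVec_eq_zero_iff.1 ⟨t, ?_, ?_⟩
  · intro h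
    have h2 : ∑ i, t i ^ 2 = 1 := ht
    simp [h] at h2
  · funext k
    have h6 := hu (Pi.single k 1)
    rw [Finset.sum_eq_single k (fun b _ hb => by simp [Pi.single_eq_of_ne hb]) (by simp)] at h6
    simpa [Matrix.mulVec, dotProduct] using h6

end Vale.Agent.P365
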