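import Vale.Agent.P365.Stm4

/-! Boundary values of the resolvent form. -/

namespace Vale.Agent.P365

theorem o_lim : T_poi → T_fatou → O_lim := by
  intro h1 h2 E _ _ _ A ψ μ hA hμ
  have := hμ.1
  filter_upwards [h2 μ] with e he
  exact he.congr fun n => ((res_im hA (zz_im_pos e n).ne' ψ).symm.trans
    (h1 E A ψ μ _ hA hμ (zz_im_pos e n))).symm

end Vale.Agent.P365
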