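import Vale.Agent.P365.Stm4

/-! From density matrices to invariant subspaces. -/

open MeasureTheory Filter Topology Set
open scoped InnerProductSpace ENNReal

namespace Vale.Agent.P365

namespace OMain

theorem qn_le {E : Type} [NormedAddCommGroup E] [InnerProductSpace ℂ E] [CompleteSpace E]
    (A : E →L[ℂ] E) (e : ℝ) (n : ℕ) (a b c : E) :
    qn A e n (a - c) ≤ 2 * qn A e n (a - b) + 2 * qn A e n (b - c) := by
  have h1 : ‖res A (zz e n) (a - c)‖ ≤ ‖res A (zz e n) (a - b)‖ + ‖res A (zz e n) (b - c)‖ := by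
    rw [← sub_add_sub_cancel a b c, map_add]
    exact norm_add_le _ _
  have h2 := pow_le_pow_left₀ (norm_nonneg _) h1 2
  have h3 : ‖res A (zz e n) (a - c)‖ ^ 2 ≤
      2 * ‖res A (zz e n) (a - b)‖ ^ 2 + 2 * ‖res A (zz e n) (b - c)‖ ^ 2 := by
    nlinarith [sq_nonneg (‖res A (zz e n) (a - b)‖ - ‖res A (zz e n) (b - c)‖)]
  have h4 := mul_le_mul_of_nonneg_left h3 (zz_im_pos e n).le
  unfold qn
  linarith

theorem mem_cl {d : ℕ} (φ : L2 d) :
    φ ∈ (Submodule.span ℂ (Set.range (dlt : Site d → L2 d))).topologicalClosure := by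
  refine (Submodule.isClosed_topologicalClosure _).mem_of_tendsto
    (lp.hasSum_single (p := 2) (by simp) φ) (Eventually.of_forall fun s => ?_)
  refine Submodule.le_topologicalClosure _ (Submodule.sum_mem _ fun x _ => ?_)
  have e : lp.single 2 x (φ x) = φ x • dlt x := by
    rw [dlt, ← lp.single_smul, smul_eq_mul, mul_one]
  rw [e]
  exact Submodule.smul_mem _ _ (Submodule.subset_span ⟨x, rfl⟩)

end OMain

theorem o_main : O_band → O_clos → O_pos → O_lim → O_pt1 → O_pt2 → O_main := by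
  intro hband hclos hpos hlim hpt1 hpt2 d A μ hA hμ hae φ hφ hac m v
  by_contra hn0
  have hn : ∀ ψ, μ ψ ≪ μ φ → ψ ∈ (gen A v).topologicalClosure := fun ψ h => by
    by_contra h'
    exact hn0 ⟨ψ, h, h'⟩
  choose χ hχ1 hχ2 using fun x : Site d => hband (L2 d) A μ φ (dlt x) hA hμ hac
  choose w hw1 hw2 using fun x => hclos (L2 d) A μ (gen A v) (χ x) hA hμ (hn _ (hχ1 x))
  obtain ⟨p, hp1, hp2⟩ := hclos (L2 d) A μ _ φ hA hμ (OMain.mem_cl φ)
  have L := fun ψ => hlim (L2 d) A ψ (μ ψ) hA (hμ ψ)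
  obtain ⟨e, he, h0, a1, a2, a3, a4, a5, a6, a7, a8, a9⟩ :=
    ((hpos (L2 d) A φ (μ φ) hA (hμ φ) hac hφ).and_eventually (hae.and <| (L φ).and <|
      (ae_all_iff.2 fun k => L (φ - p k)).and <| (ae_all_iff.2 fun x => L (dlt x)).and <|
      (ae_all_iff.2 fun x => ae_all_iff.2 fun y => L (dlt x + dlt y)).and <|
      (ae_all_iff.2 fun x => L (dlt x - χ x)).and <|
      (ae_all_iff.2 fun x => ae_all_iff.2 fun k => L (χ x - w x k)).and <|
      (ae_all_iff.2 hχ2).and <| (ae_all_iff.2 hw2).and hp2)).exists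
  rcases h0 with h0 | h0
  · have h1 := hpt1 (L2 d) A (Site d) dlt e _ φ p _ (fun x => by simpa [h0 x] using a3 x) hp1 a2
      (by simpa using a9.const_mul Real.pi) a1
    exact absurd h1 (not_le.2 (mul_pos Real.pi_pos he))
  · obtain ⟨z, hz⟩ := h0 (2 * m + 1)
    have h1 := hpt2 (L2 d) A e m (2 * m + 1) v (fun i => dlt (z i))
      (Real.pi • Matrix.of fun i j => kern μ (z i) (z j) e) hA (Nat.lt_succ_self _)
      (fun i j => by
        have h2 := (((a4 (z i) (z j)).sub (a3 (z i))).sub (a3 (z j))).div_const 2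
        have e2 : (Real.pi • Matrix.of fun i j => kern μ (z i) (z j) e) i j =
            (Real.pi * dens (μ (dlt (z i) + dlt (z j))) e - Real.pi * dens (μ (dlt (z i))) e -
              Real.pi * dens (μ (dlt (z j))) e) / 2 := by
          rw [Matrix.smul_apply, Matrix.of_apply, smul_eq_mul, kern]
          ring
        rw [e2]
        exact h2)
      (fun i ε hε => by
        have h2 := (a8 (z i)).const_mul Real.pi
        rw [mul_zero] at h2
        obtain ⟨k, hk⟩ := (h2.eventually (gt_mem_nhds (a := ε / 4) (by positivity))).exists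
        have h3 := a5 (z i)
        rw [a7 (z i) he, mul_zero] at h3
        refine ⟨w (z i) k, hw1 _ k, ?_⟩
        filter_upwards [h3.eventually (gt_mem_nhds (a := ε / 4) (by positivity)),
          (a6 (z i) k).eventually (gt_mem_nhds hk)] with n b1 b2
        linarith [OMain.qn_le A e n (dlt (z i)) (χ (z i)) (w (z i) k)])
    rw [Matrix.det_smul] at h1
    exact mul_ne_zero (pow_ne_zero _ Real.pi_ne_zero) hz h1

end Vale.Agent.P365
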