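import Vale.Agent.P365.Stm4

/-! Positivity of the density of a nonzero absolutely continuous vector. -/

open MeasureTheory Filter Topology Set
open scoped InnerProductSpace ENNReal

namespace Vale.Agent.P365

theorem o_pos : O_uniq → O_pos := by
  intro hU E _ _ _ A φ μ hA hs hac hφ hn
  haveI : IsFiniteMeasure μ := hs.1
  have h1 : μ.rnDeriv volume =ᵐ[volume] 0 := by
    filter_upwards [hn, Measure.rnDeriv_lt_top μ volume] with e h1 h2
    have h3 : (μ.rnDeriv volume e).toReal = 0 :=
      le_antisymm (not_lt.mp h1) ENNReal.toReal_nonneg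
    exact ((ENNReal.toReal_eq_zero_iff _).mp h3).resolve_right h2.ne
  have h2 : μ = 0 := by
    rw [← Measure.withDensity_rnDeriv_eq μ volume hac, withDensity_congr_ae h1, withDensity_zero]
  have h3 := (hU E A φ μ hA hs).1
  rw [h2, Measure.coe_zero, Pi.zero_apply, eq_comm, ENNReal.ofReal_eq_zero] at h3
  have h4 : 0 < ‖φ‖ ^ 2 := pow_pos (norm_pos_iff.mpr hφ) 2
  linarith

end Vale.Agent.P365
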