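import Vale.Agent.P365.Stm4

/-! Vanishing densities on a generating family. -/

open MeasureTheory Filter Topology Set
open scoped InnerProductSpace ENNReal

namespace Vale.Agent.P365

namespace OPt1

variable {E : Type} [NormedAddCommGroup E] [InnerProductSpace ℂ E] [CompleteSpace E]
  (A : E →L[ℂ] E) (e : ℝ)

theorem nn (n : ℕ) (a : E) : 0 ≤ qn A e n a := mul_nonneg (zz_im_pos e n).le (sq_nonneg _)

theorem add (n : ℕ) (a b : E) : qn A e n (a + b) ≤ 2 * qn A e n a + 2 * qn A e n b := by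
  unfold qn
  rw [map_add]
  have h1 := norm_add_le (res A (zz e n) a) (res A (zz e n) b)
  have h2 := pow_le_pow_left₀ (norm_nonneg _) h1 2
  have h3 : ‖res A (zz e n) a + res A (zz e n) b‖ ^ 2 ≤
      2 * ‖res A (zz e n) a‖ ^ 2 + 2 * ‖res A (zz e n) b‖ ^ 2 := by
    nlinarith [sq_nonneg (‖res A (zz e n) a‖ - ‖res A (zz e n) b‖)]
  have h4 := mul_le_mul_of_nonneg_left h3 (zz_im_pos e n).le
  linarith

theorem smul (n : ℕ) (c : ℂ) (a : E) : qn A e n (c • a) = ‖c‖ ^ 2 * qn A e n a := by
  unfold qn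
  rw [map_smul, norm_smul]
  ring

theorem span {ι : Type} {u : ι → E} (h : ∀ x, Tendsto (fun n => qn A e n (u x)) atTop (𝓝 0))
    {w : E} (hw : w ∈ Submodule.span ℂ (Set.range u)) :
    Tendsto (fun n => qn A e n w) atTop (𝓝 0) := by
  induction hw using Submodule.span_induction with
  | mem x hx => obtain ⟨y, rfl⟩ := hx; exact h y
  | zero => simp [qn]
  | add a b _ _ ha hb =>
    have h1 := (ha.const_mul 2).add (hb.const_mul 2)
    rw [mul_zero, add_zero] at h1
    exact squeeze_zero (fun n => nn A e n _) (fun n => add A e n a b) h1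
  | smul c a _ ha =>
    have h1 := ha.const_mul (‖c‖ ^ 2)
    rw [mul_zero] at h1
    simpa only [smul] using h1

end OPt1

theorem o_pt1 : O_pt1 := by
  intro E _ _ _ A ι u e D₀ φ w D hu hw hD h0 hφ
  have h1 : ∀ k, D₀ ≤ 2 * D k := fun k => by
    have h2 := ((hD k).const_mul 2).add ((OPt1.span A e hu (hw k)).const_mul 2)
    rw [mul_zero, add_zero] at h2
    refine le_of_tendsto_of_tendsto' hφ h2 fun n => ?_
    have h3 := OPt1.add A e n (φ - w k) (w k)
    rwa [sub_add_cancel] at h3
  have h4 := h0.const_mul 2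
  rw [mul_zero] at h4
  exact ge_of_tendsto' h4 h1

end Vale.Agent.P365
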