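import Vale.Agent.P365.Stm4

open MeasureTheory Filter Topology Set
open scoped InnerProductSpace

namespace Vale.Agent.P365

namespace OPt2

variable {E : Type} [NormedAddCommGroup E] [InnerProductSpace ℂ E]

theorem quad {M : ℕ} (x : Fin M → E) (t : Fin M → ℝ) (η : ℝ) :
    ∑ i, ∑ j, t i * ((η * ‖x i + x j‖ ^ 2 - η * ‖x i‖ ^ 2 - η * ‖x j‖ ^ 2) / 2) * t j =
      η * ‖∑ i, (t i : ℂ) • x i‖ ^ 2 := by
  rw [← inner_self_eq_norm_sq (𝕜 := ℂ) (∑ i, (t i : ℂ) • x i), sum_inner, map_sum,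
    Finset.mul_sum]
  refine Finset.sum_congr rfl fun i _ => ?_
  rw [inner_sum, map_sum, Finset.mul_sum]
  refine Finset.sum_congr rfl fun j _ => ?_
  rw [norm_add_sq (𝕜 := ℂ), inner_smul_left, inner_smul_right, Complex.conj_ofReal]
  simp only [RCLike.re_to_complex, Complex.re_ofReal_mul]
  ring

theorem zz_norm (e : ℝ) (n : ℕ) : ‖zz e n‖ ≤ |e| + 1 := by
  refine (Complex.norm_le_abs_re_add_abs_im _).trans ?_
  rw [abs_of_pos (zz_im_pos e n)]
  refine add_le_add le_rfl ?_
  change 1 / ((n : ℝ) + 1) ≤ 1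
  rw [div_le_one (by positivity)]
  linarith [(Nat.cast_nonneg n : (0 : ℝ) ≤ n)]

theorem sq_tend (e : ℝ) : Tendsto (fun n => Real.sqrt (zz e n).im) atTop (𝓝 0) := by
  have h : Tendsto (fun n : ℕ => (zz e n).im) atTop (𝓝 0) :=
    tendsto_one_div_add_atTop_nhds_zero_nat
  simpa using h.sqrt

theorem abs_le_one {M : ℕ} {t : Fin M → ℝ} (h : ∑ i, t i ^ 2 = 1) (i : Fin M) : |t i| ≤ 1 := by
  rw [← sq_le_one_iff_abs_le_one, ← h]
  exact Finset.single_le_sum (f := fun i => t i ^ 2) (fun _ _ => sq_nonneg _) (Finset.mem_univ i)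

theorem small {M : ℕ} (x w : Fin M → E) (t : Fin M → ℝ) (s δ : ℝ) (hs : 0 ≤ s)
    (h1 : ∑ i, t i ^ 2 = 1) (h2 : ∑ i, (t i : ℂ) • w i = 0) (h3 : ∀ i, s * ‖x i - w i‖ ≤ δ) :
    s * ‖∑ i, (t i : ℂ) • x i‖ ≤ M * δ := by
  have e : ∑ i, (t i : ℂ) • x i = ∑ i, (t i : ℂ) • (x i - w i) := by
    simp only [smul_sub, Finset.sum_sub_distrib, h2, sub_zero]
  rw [e]
  refine (mul_le_mul_of_nonneg_left (norm_sum_le _ _) hs).trans ?_
  rw [Finset.mul_sum]
  refine (Finset.sum_le_card_nsmul _ _ δ fun i _ => ?_).trans (by simp)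
  rw [norm_smul, Complex.norm_real, Real.norm_eq_abs]
  refine le_trans (mul_le_mul_of_nonneg_left ?_ hs) (h3 i)
  exact mul_le_of_le_one_left (norm_nonneg _) (abs_le_one h1 i)

end OPt2

open OPt2 in
theorem o_pt2 : O_poly → O_dep → O_det → O_pt2 := by
  intro hp hd hdet E _ _ _ A e m M v a G hA hM hG hψ
  have hq : ∀ (n : ℕ) (t : Fin M → ℝ),
      ∑ i, ∑ j, t i * ((qn A e n (a i + a j) - qn A e n (a i) - qn A e n (a j)) / 2) * t j =
        (zz e n).im * ‖∑ i, (t i : ℂ) • res A (zz e n) (a i)‖ ^ 2 := fun n t => by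
    simp only [qn, map_add]
    exact quad _ t _
  refine hdet M G (fun i j => ?_) (fun t => ?_) fun ε hε => ?_
  · refine tendsto_nhds_unique (hG i j) ((hG j i).congr fun n => ?_)
    rw [add_comm (a j), sub_right_comm]
  · refine ge_of_tendsto' (tendsto_finsetSum _ fun i _ => tendsto_finsetSum _ fun j _ =>
      ((hG i j).const_mul (t i)).mul_const (t j)) fun n => ?_
    rw [hq]
    exact mul_nonneg (zz_im_pos e n).le (sq_nonneg _)
  · have hM' : (0 : ℝ) < M := by exact_mod_cast (by omega : 0 < M)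
    set δ := Real.sqrt (ε / 2) / (2 * M) with hδ
    have hδ0 : 0 < δ := by positivity
    choose ψ hψ1 hψ2 using fun i => hψ i (δ ^ 2) (by positivity)
    choose C hC using fun i => hp E A m v (ψ i) (|e| + 1) hA (hψ1 i)
    have e1 : ∀ᶠ n in atTop, ∀ i, qn A e n (a i - ψ i) ≤ δ ^ 2 := eventually_all.2 hψ2
    have e2 : ∀ᶠ n in atTop, ∀ i, Real.sqrt (zz e n).im * C i ≤ δ := eventually_all.2 fun i => by
      have h := (sq_tend e).mul_const (C i)
      rw [zero_mul] at h
      exact (h.eventually_lt_const hδ0).mono fun _ h => h.le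
    have e3 : ∀ᶠ n in atTop, ∑ i, ∑ j,
        |G i j - (qn A e n (a i + a j) - qn A e n (a i) - qn A e n (a j)) / 2| < ε / 2 := by
      have h := tendsto_finsetSum Finset.univ fun i _ => tendsto_finsetSum Finset.univ
        fun j _ => ((hG i j).const_sub (G i j)).abs
      simp only [sub_self, abs_zero, Finset.sum_const_zero] at h
      exact h.eventually_lt_const (half_pos hε)
    obtain ⟨n, ⟨f1, f2⟩, f3⟩ := ((e1.and e2).and e3).exists
    have hη := zz_im_pos e n
    choose w hw1 hw2 using fun i => hC i (zz e n) hη.ne' (zz_norm e n)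
    obtain ⟨t, ht1, ht2⟩ := hd E m M _ w hM hw1
    refine ⟨t, ht1, ?_⟩
    have hs := Real.sqrt_nonneg (zz e n).im
    have g1 := small (fun i => res A (zz e n) (a i)) w t _ (2 * δ) hs ht1 ht2 fun i => by
      have b1 : Real.sqrt (zz e n).im * ‖res A (zz e n) (a i - ψ i)‖ ≤ δ := by
        refine (pow_le_pow_iff_left₀ (by positivity) hδ0.le two_ne_zero).1 ?_
        rw [mul_pow, Real.sq_sqrt hη.le]
        exact f1 i
      have b2 := (mul_le_mul_of_nonneg_left (hw2 i) hs).trans (f2 i)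
      have b3 : ‖res A (zz e n) (a i) - w i‖ ≤
          ‖res A (zz e n) (a i - ψ i)‖ + ‖res A (zz e n) (ψ i) - w i‖ := by
        rw [map_sub]
        exact norm_sub_le_norm_sub_add_norm_sub _ _ _
      have b4 := mul_le_mul_of_nonneg_left b3 hs
      linarith
    have g2 : (M : ℝ) * (2 * δ) = Real.sqrt (ε / 2) := by
      rw [hδ]
      field_simp
    rw [g2] at g1
    have g3 := pow_le_pow_left₀ (by positivity) g1 2
    rw [mul_pow, Real.sq_sqrt hη.le, Real.sq_sqrt (half_pos hε).le, ← hq] at g3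
    have g4 : ∑ i, ∑ j, t i * G i j * t j - ∑ i, ∑ j,
        t i * ((qn A e n (a i + a j) - qn A e n (a i) - qn A e n (a j)) / 2) * t j < ε / 2 := by
      refine lt_of_le_of_lt ?_ f3
      rw [← Finset.sum_sub_distrib]
      refine Finset.sum_le_sum fun i _ => ?_
      rw [← Finset.sum_sub_distrib]
      refine Finset.sum_le_sum fun j _ => ?_
      rw [← sub_mul, ← mul_sub]
      refine (le_abs_self _).trans ?_
      rw [abs_mul, abs_mul]
      exact (mul_le_of_le_one_right (by positivity) (abs_le_one ht1 j)).trans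
        (mul_le_of_le_one_left (abs_nonneg _) (abs_le_one ht1 i))
    linarith

end Vale.Agent.P365
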