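import Vale.Agent.P365.Stm4

/-! Uniqueness and total mass of spectral measures. -/

open MeasureTheory Filter Topology Set
open scoped InnerProductSpace ENNReal

namespace Vale.Agent.P365

theorem o_uniq : O_uniq := by
  intro E _ _ _ A ψ μ hA ⟨hf, h⟩
  refine ⟨?_, fun μ' ⟨hf', h'⟩ => ext_of_forall_integral_eq_of_IsFiniteMeasure fun f =>
    Complex.ofReal_injective ((h' f).symm.trans (h f))⟩
  have h1 := h 1
  rw [BoundedContinuousFunction.coe_one, cfc_one ℝ A hA] at h1
  simp only [Pi.one_apply, integral_const, smul_eq_mul, mul_one] at h1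
  have h2 : ((‖ψ‖ ^ 2 : ℝ) : ℂ) = (μ.real univ : ℂ) := by
    rw [← h1]
    push_cast
    exact (inner_self_eq_norm_sq_to_K ψ).symm
  rw [Complex.ofReal_injective h2, ofReal_measureReal]

end Vale.Agent.P365
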