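import Vale.Agent.P365.Bk
import Vale.Agent.P365.Bk2
import Vale.Agent.P365.Bk3
import Vale.Agent.P365.MExspec
import Vale.Agent.P365.MLayer
import Vale.Agent.P365.MSym
import Vale.Agent.P365.MRk1
import Vale.Agent.P365.MGsym
import Vale.Agent.P365.MGpos
import Vale.Agent.P365.MGcont
import Vale.Agent.P365.MGdec
import Vale.Agent.P365.MGrk
import Vale.Agent.P365.MWeg
import Vale.Agent.P365.MResamp
import Vale.Agent.P365.MUp
import Vale.Agent.P365.MConv
import Vale.Agent.P365.MAe
import Vale.Agent.P365.MUnif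
import Vale.Agent.P365.MMid
import Vale.Agent.P365.MFar
import Vale.Agent.P365.MAlg
import Vale.Agent.P365.MKey
import Vale.Agent.P365.MCnt
import Vale.Agent.P365.MGersh
import Vale.Agent.P365.MNull
import Vale.Agent.P365.MComb
import Vale.Agent.P365.MMain
import Vale.Agent.P365.OUniq
import Vale.Agent.P365.OCut0
import Vale.Agent.P365.OAppr
import Vale.Agent.P365.OCut
import Vale.Agent.P365.OBand
import Vale.Agent.P365.OClos
import Vale.Agent.P365.OPos
import Vale.Agent.P365.OLim
import Vale.Agent.P365.OPoly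
import Vale.Agent.P365.ODep
import Vale.Agent.P365.ODet
import Vale.Agent.P365.OPt1
import Vale.Agent.P365.OPt2
import Vale.Agent.P365.OMain

/-! Final assembly of the multiplicity theorem. -/

namespace Vale.Agent.P365

theorem u_fatou : T_fatou := b_fatou (m_sym m_layer)

theorem u_gpos : T_gpos := m_gpos m_gsym

theorem u_grk : T_grk := m_grk m_rk1 m_gsym

theorem u_conv : T_conv := m_conv b_poi u_fatou u_gpos

theorem u_ae : T_ae := m_ae m_exspec u_conv m_gcont

theorem u_up : T_up := m_up m_resamp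

theorem u_far : T_far :=
  m_far (m_unif u_ae b_gcov m_gcont) (m_mid u_grk m_gdec m_gcont) u_up m_gcont

theorem u_key : T_key :=
  m_key (b_fin u_far m_alg (m_weg m_rk1 u_gpos b_gcov m_gcont m_resamp) u_up u_grk u_gpos) u_ae
    m_gcont

theorem u_main : T_main :=
  m_main (m_comb (m_null u_key m_cnt m_gersh u_ae b_gcov m_gsym) u_ae b_gcov u_gpos) u_conv

theorem u_op : O_main :=
  o_main (o_band o_uniq (o_cut o_cut0 o_appr)) (o_clos o_uniq) (o_pos o_uniq)
    (o_lim b_poi u_fatou) o_pt1 (o_pt2 o_poly o_dep o_det)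

end Vale.Agent.P365
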