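import Vale.Agent.P365.Stm5

open MeasureTheory
open scoped ENNReal

namespace Vale.Agent.P365

namespace VBox

theorem hs {d : ℕ} (ψ : L2 d) : HasSum (fun y => ‖ψ y‖ ^ 2) (‖ψ‖ ^ 2) := by
  have h := lp.hasSum_norm (p := 2) (by norm_num) ψ
  simpa using h

theorem sq_le (a b : ℂ) (γ : ℝ) (hγ : 0 < γ) :
    ‖a‖ ^ 2 ≤ (1 + γ) * ‖a - b‖ ^ 2 + (1 + 1 / γ) * ‖b‖ ^ 2 := by
  have h1 : ‖a‖ ≤ ‖a - b‖ + ‖b‖ := by simpa using norm_add_le (a - b) b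
  have h2 : ‖a‖ ^ 2 ≤ (‖a - b‖ + ‖b‖) ^ 2 := pow_le_pow_left₀ (norm_nonneg _) h1 2
  have h3 : 2 * (‖a - b‖ * ‖b‖) ≤ γ * ‖a - b‖ ^ 2 + 1 / γ * ‖b‖ ^ 2 := by
    have h4 : γ * ‖a - b‖ ^ 2 + 1 / γ * ‖b‖ ^ 2 - 2 * (‖a - b‖ * ‖b‖) =
        (γ * ‖a - b‖ - ‖b‖) ^ 2 / γ := by
      field_simp
      ring
    have h5 : 0 ≤ (γ * ‖a - b‖ - ‖b‖) ^ 2 / γ := by positivity
    linarith
  nlinarith

end VBox

open VBox in
theorem v_box : V_box := by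
  intro d n ψ χ α γ hγ hα hψ hχ
  obtain ⟨B, hB⟩ : ∃ B, B = Fintype.piFinset (fun _ : Fin d => Finset.Icc (-(n : ℤ)) n) := ⟨_, rfl⟩
  rw [← hB]
  have h1 : ∑ y ∈ B, ‖(ψ - χ) y‖ ^ 2 ≤ 1 - α := by
    rw [← hχ]
    exact sum_le_hasSum B (fun _ _ => by positivity) (hs _)
  have h2 : ∑ y ∈ B, ‖ψ y‖ ^ 2 ≤
      (1 + γ) * ∑ y ∈ B, ‖(ψ - χ) y‖ ^ 2 + (1 + 1 / γ) * ∑ y ∈ B, ‖χ y‖ ^ 2 := by
    rw [Finset.mul_sum, Finset.mul_sum, ← Finset.sum_add_distrib]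
    exact Finset.sum_le_sum fun y _ => sq_le (ψ y) (χ y) γ hγ
  have h3 : HasSum (fun y => if y ∈ B then ‖ψ y‖ ^ 2 else 0) (∑ y ∈ B, ‖ψ y‖ ^ 2) := by
    have h4 := hasSum_sum_of_ne_finset_zero (L := SummationFilter.unconditional _)
      (f := fun y => if y ∈ B then ‖ψ y‖ ^ 2 else 0) (s := B) (fun y hy => if_neg hy)
    rwa [Finset.sum_congr rfl (fun y hy => if_pos hy)] at h4
  have h4 := ((hs ψ).sub h3).mul_left ((n : ℝ) ^ 2)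
  rw [hψ] at h4
  have h5 : ∀ y, 0 ≤ (n : ℝ) ^ 2 * (‖ψ y‖ ^ 2 - if y ∈ B then ‖ψ y‖ ^ 2 else 0) := by
    intro y
    split_ifs
    · simp
    · rw [sub_zero]
      positivity
  have h6 : (n : ℝ) ^ 2 * (α - γ - (1 + 1 / γ) * ∑ y ∈ B, ‖χ y‖ ^ 2) ≤
      (n : ℝ) ^ 2 * (1 ^ 2 - ∑ y ∈ B, ‖ψ y‖ ^ 2) := by
    refine mul_le_mul_of_nonneg_left ?_ (by positivity)
    have h7 := mul_le_mul_of_nonneg_left h1 (by linarith : 0 ≤ 1 + γ)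
    have h8 := mul_nonneg hγ.le hα
    linarith
  refine (ENNReal.ofReal_le_ofReal h6).trans ?_
  rw [← h4.tsum_eq, ENNReal.ofReal_tsum_of_nonneg h5 h4.summable, mom]
  refine ENNReal.tsum_le_tsum fun y => ENNReal.ofReal_le_ofReal ?_
  split_ifs with hy
  · rw [sub_self, mul_zero]
    positivity
  · rw [sub_zero]
    refine mul_le_mul_of_nonneg_right ?_ (by positivity)
    rw [hB, Fintype.mem_piFinset, not_forall] at hy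
    obtain ⟨i, hi⟩ := hy
    have h7 : (n : ℤ) ^ 2 ≤ y i ^ 2 := by
      rw [Finset.mem_Icc, not_and_or, not_le, not_le] at hi
      have h0 : (0 : ℤ) ≤ n := Int.natCast_nonneg n
      rcases hi with hi | hi <;> nlinarith
    have h8 : (n : ℝ) ^ 2 ≤ ((y i : ℤ) : ℝ) ^ 2 := by exact_mod_cast h7
    exact h8.trans (Finset.single_le_sum (f := fun i => ((y i : ℤ) : ℝ) ^ 2)
      (fun _ _ => by positivity) (Finset.mem_univ i))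

end Vale.Agent.P365
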