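import Vale.Agent.P365.Stm5

/-! The spectral cut of the vector at the origin. -/

open MeasureTheory Filter Topology Set
open scoped InnerProductSpace BoundedContinuousFunction

namespace Vale.Agent.P365

namespace VChi

theorem cut {E : Type} [NormedAddCommGroup E] [InnerProductSpace ℂ E] [CompleteSpace E]
    {A : E →L[ℂ] E} {u : E} {μ : Measure ℝ} {S : Set ℝ} (hA : IsSelfAdjoint A)
    (hμ : IsSpec A u μ) (hS : MeasurableSet S) (hu : ‖u‖ = 1) :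
    ∃ (χ : E) (f : ℕ → ℝ →ᵇ ℝ), (∀ n x, 0 ≤ f n x ∧ f n x ≤ 1) ∧
      (∀ᵐ x ∂μ, Tendsto (fun n => f n x) atTop (𝓝 (S.indicator (fun _ => (1 : ℝ)) x))) ∧
      Tendsto (fun n => (cf (f n : ℝ → ℝ) A) u) atTop (𝓝 χ) ∧
      ‖u - χ‖ ^ 2 = 1 - ∫ x in S, (1 : ℝ →ᵇ ℝ) x ∂μ := by
  have fin := hμ.1
  obtain ⟨f, hf, hl⟩ := o_appr μ S hS
  have bf : ∀ n x, |f n x| ≤ 1 := fun n x => abs_le.2 ⟨by linarith [(hf n x).1], (hf n x).2⟩
  obtain ⟨χ, hχ, hn⟩ := o_cut0 E A u μ (S.indicator fun _ => (1 : ℝ)) f hA hμ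
    (measurable_const.indicator hS) (fun x => by
      by_cases h : x ∈ S <;> simp [h]) bf hl
  refine ⟨χ, f, hf, hl, hχ, ?_⟩
  have e1 : cfc ((1 : ℝ →ᵇ ℝ) : ℝ → ℝ) A = 1 := cfc_one ℝ A hA
  have e2 : ∫ x, S.indicator (fun _ => (1 : ℝ)) x ∂μ = ∫ x in S, (1 : ℝ →ᵇ ℝ) x ∂μ :=
    integral_indicator hS
  have k := hn 1
  rw [e1, one_apply_eq_self, inner_self_eq_norm_sq_to_K] at k
  have k2 : ‖χ‖ ^ 2 = ∫ x, S.indicator (fun _ => (1 : ℝ)) x ^ 2 * (1 : ℝ →ᵇ ℝ) x ∂μ :=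
    Complex.ofReal_injective ((Complex.ofReal_pow _ 2).trans k)
  have k3 : ‖χ‖ ^ 2 = ∫ x in S, (1 : ℝ →ᵇ ℝ) x ∂μ := by
    rw [k2, ← e2]
    refine integral_congr_ae (ae_of_all _ fun x => ?_)
    by_cases h : x ∈ S <;> simp [h]
  have t1 := (tendsto_const_nhds (x := u)).inner (𝕜 := ℂ) hχ
  have t2 : Tendsto (fun n => ∫ x, f n x ∂μ) atTop
      (𝓝 (∫ x, S.indicator (fun _ => (1 : ℝ)) x ∂μ)) :=
    tendsto_integral_of_dominated_convergence (fun _ => (1 : ℝ))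
      (fun n => (f n).continuous.aestronglyMeasurable) (integrable_const _)
      (fun n => ae_of_all _ fun x => bf n x) hl
  have k4 : ⟪u, χ⟫_ℂ = ((∫ x, S.indicator (fun _ => (1 : ℝ)) x ∂μ : ℝ) : ℂ) :=
    tendsto_nhds_unique t1 (((Complex.continuous_ofReal.tendsto _).comp t2).congr fun n =>
      (hμ.2 (f n)).symm)
  rw [@norm_sub_sq ℂ, hu, k3, k4, e2]
  simp only [RCLike.re_to_complex, Complex.ofReal_re]
  ring

noncomputable def bc (t : ℝ) : ℝ →ᵇ ℝ :=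
  BoundedContinuousFunction.ofNormedAddCommGroup (fun x => Real.cos (t * x)) (by fun_prop) 1
    fun _ => Real.abs_cos_le_one _

noncomputable def bs (t : ℝ) : ℝ →ᵇ ℝ :=
  BoundedContinuousFunction.ofNormedAddCommGroup (fun x => Real.sin (t * x)) (by fun_prop) 1
    fun _ => Real.abs_sin_le_one _

theorem intg (μ : Measure ℝ) (hμ : IsFiniteMeasure μ) (h : ℝ →ᵇ ℝ) (S : Set ℝ) :
    Integrable (fun x => h x * dens μ x) (volume.restrict S) :=
  (Measure.integrable_toReal_rnDeriv.integrableOn).bdd_mul (c := ‖h‖)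
    h.continuous.aestronglyMeasurable (ae_of_all _ fun x => h.norm_coe_le_norm x)

theorem nsq (a b : ℝ) : ‖(a : ℂ) - Complex.I * b‖ ^ 2 = a ^ 2 + b ^ 2 := by
  rw [Complex.sq_norm, Complex.normSq_apply]
  simp
  ring

end VChi

open VChi in
theorem v_chi : V_ucfc → V_real → V_mix → V_sing → V_chi := by
  intro hu hr hm hs d A μ S₀ hA hst hμ hS₀
  obtain ⟨S, hS, hi⟩ := hs (Site d × Bool)
    (fun p => μ (if p.2 then dlt p.1 + dlt 0 else dlt p.1)) (fun _ => (hμ _).1) S₀ hS₀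
  have hi1 : ∀ (y : Site d) (h : ℝ →ᵇ ℝ), ∫ x in S, h x ∂(μ (dlt y + dlt 0)) =
      ∫ x in S₀, h x * dens (μ (dlt y + dlt 0)) x := fun y h => hi (y, true) h
  have hi2 : ∀ (y : Site d) (h : ℝ →ᵇ ℝ), ∫ x in S, h x ∂(μ (dlt y)) =
      ∫ x in S₀, h x * dens (μ (dlt y)) x := fun y h => hi (y, false) h
  obtain ⟨χ, f, hf, hl, hχ, hn⟩ := cut hA (hμ (dlt 0)) hS (norm_dlt 0)
  have hJ : ∀ h : ℝ → ℝ, Continuous h → ∀ ψ : L2 d, star (cf h A ψ) = cf h A (star ψ) :=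
    hr (L2 d) A star hA continuous_star star_add (fun c a => by
      refine Rank.ext_app fun x => ?_
      rw [Rank.star_app, lp.coeFn_smul, lp.coeFn_smul, Pi.smul_apply, Pi.smul_apply, Rank.star_app]
      simp) hst
  have hχs : star χ = χ := by
    refine tendsto_nhds_unique ((continuous_star.tendsto χ).comp hχ) (hχ.congr fun n => ?_)
    exact ((hJ _ (f n).continuous _).trans (by rw [MGsym.star_dlt])).symm
  have key : ∀ (h : ℝ →ᵇ ℝ) (y : Site d), (cf (h : ℝ → ℝ) A χ) y =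
      ((∫ e in S₀, h e * kern μ y 0 e : ℝ) : ℂ) := by
    intro h y
    have h1 : (starRingEnd ℂ) ((cf (h : ℝ → ℝ) A χ) y) = (cf (h : ℝ → ℝ) A χ) y := by
      rw [← Rank.star_app, hJ _ h.continuous, hχs]
    have i2 : Integrable (fun a => h a * dens (μ (dlt y + dlt 0)) a - h a * dens (μ (dlt y)) a)
        (volume.restrict S₀) := (intg _ (hμ _).1 h S₀).sub (intg _ (hμ _).1 h S₀)
    rw [← Complex.conj_eq_iff_re.1 h1, ← inner_dlt,
      hm (L2 d) A μ (dlt 0) (dlt y) χ S f hA hμ hS hf hl hχ h, hi1, hi2, hi2,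
      ← integral_sub (intg _ (hμ _).1 h S₀) (intg _ (hμ _).1 h S₀),
      ← integral_sub i2 (intg _ (hμ _).1 h S₀), ← integral_div]
    refine congrArg _ (integral_congr_ae (ae_of_all _ fun x => ?_))
    simp only [kern]
    ring
  refine ⟨χ, ?_, fun y t => ?_⟩
  · rw [hn, hi2]
    simp
  · rw [hu (L2 d) A t χ hA, lp.coeFn_sub, Pi.sub_apply, lp.coeFn_smul, Pi.smul_apply, smul_eq_mul]
    have a := key (bc t) y
    have b := key (bs t) y
    change (cf (fun x : ℝ => Real.cos (t * x)) A χ) y =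
      ((∫ e in S₀, Real.cos (t * e) * kern μ y 0 e : ℝ) : ℂ) at a
    change (cf (fun x : ℝ => Real.sin (t * x)) A χ) y =
      ((∫ e in S₀, Real.sin (t * e) * kern μ y 0 e : ℝ) : ℂ) at b
    rw [a, b, nsq]

end Vale.Agent.P365
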