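import Vale.Agent.P365.Stm5

open MeasureTheory Filter Topology Set
open scoped InnerProductSpace ENNReal

namespace Vale.Agent.P365

namespace VEnd

theorem box_le (d n : ℕ) (τ : Site d → ℝ) (ε : ℝ) (G : Finset (Site d)) (hτ : ∀ y, 0 ≤ τ y)
    (hε : 0 ≤ ε) (hG : ∀ y, y ∉ G → τ y ≤ ε) :
    ∑ y ∈ Fintype.piFinset (fun _ : Fin d => Finset.Icc (-(n : ℤ)) n), τ y ≤
      ∑ y ∈ G, τ y + ε * (2 * (n : ℝ) + 1) ^ d := by
  classical
  set B := Fintype.piFinset (fun _ : Fin d => Finset.Icc (-(n : ℤ)) n) with hB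
  have hcard : (B.card : ℝ) = (2 * (n : ℝ) + 1) ^ d := by
    rw [hB, Fintype.card_piFinset, Finset.prod_const, Finset.card_univ, Fintype.card_fin,
      Int.card_Icc]
    have : ((n : ℤ) + 1 - -(n : ℤ)).toNat = 2 * n + 1 := by omega
    rw [this]
    push_cast
    ring
  have h1 : ∑ y ∈ B, τ y ≤ ∑ y ∈ B, ((if y ∈ G then τ y else 0) + ε) := by
    refine Finset.sum_le_sum fun y _ => ?_
    by_cases hy : y ∈ G
    · simp only [hy, if_true]; linarith
    · simp only [hy, if_false]; linarith [hG y hy]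
  rw [Finset.sum_add_distrib, Finset.sum_const, nsmul_eq_mul, hcard, ← Finset.sum_filter] at h1
  have h2 : ∑ y ∈ B.filter (fun y => y ∈ G), τ y ≤ ∑ y ∈ G, τ y :=
    Finset.sum_le_sum_of_subset_of_nonneg (fun y hy => (Finset.mem_filter.1 hy).2)
      fun y _ _ => hτ y
  linarith

end VEnd

open VEnd in
theorem v_end : V_end := by
  intro d τ α C F hd hC hτ hlim hF hfr
  by_contra hα
  push Not at hα
  set γ : ℝ := α / 2 with hγ
  have hγ0 : 0 < γ := by positivity
  set c : ℝ := (1 + 1 / γ) * 20 with hc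
  have hc0 : 0 < c := by positivity
  set K : ℝ := 4 * C / α + 1 with hK
  have hK1 : 1 ≤ K := by
    have : 0 ≤ 4 * C / α := by positivity
    linarith
  have hKC : C < K ^ 2 * (α / 4) := by
    have h1 : K * (α / 4) = C + α / 4 := by
      rw [hK]; field_simp
    have h2 : K * (α / 4) ≤ K ^ 2 * (α / 4) := by
      apply mul_le_mul_of_nonneg_right _ (by positivity)
      nlinarith
    linarith
  set P : ℝ := (2 * K + 3) ^ d with hP
  have hP0 : 0 < P := by positivity
  set ε : ℝ := α / (8 * c * P) with hε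
  have hε0 : 0 < ε := by positivity
  have hev : ∀ᶠ y in cofinite, τ y < ε := hlim.eventually (gt_mem_nhds hε0)
  have hfin : {y | ¬ τ y < ε}.Finite := Filter.eventually_cofinite.1 hev
  set G := hfin.toFinset with hG
  have hGε : ∀ y, y ∉ G → τ y ≤ ε := by
    intro y hy
    by_contra h
    apply hy
    rw [hG, Set.Finite.mem_toFinset]
    intro h'
    exact h h'.le
  set SG : ℝ := ∑ y ∈ G, τ y with hSG
  obtain ⟨T, hT, hT1, hT2⟩ := (hfr.and_eventually ((eventually_ge_atTop (1 : ℝ)).and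
    (eventually_ge_atTop (8 * c * SG / α)))).exists
  have hT0 : 0 < T := by linarith
  have hd0 : (d : ℝ) ≠ 0 := by positivity
  set s : ℝ := T ^ (1 / (d : ℝ)) with hs
  have hs1 : 1 ≤ s := Real.one_le_rpow hT1 (by positivity)
  have hsd : s ^ d = T := by
    rw [hs, ← Real.rpow_natCast, ← Real.rpow_mul hT0.le, one_div_mul_cancel hd0, Real.rpow_one]
  have hs2 : s ^ 2 = T ^ (2 / (d : ℝ)) := by
    rw [hs, ← Real.rpow_natCast, ← Real.rpow_mul hT0.le]
    congr 1
    push_cast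
    ring
  set n : ℕ := ⌈K * s⌉₊ with hn
  have hn1 : K * s ≤ n := Nat.le_ceil _
  have hn2 : (n : ℝ) < K * s + 1 := Nat.ceil_lt_add_one (by positivity)
  have hn3 : 2 * (n : ℝ) + 1 ≤ (2 * K + 3) * s := by nlinarith
  have hn4 : (2 * (n : ℝ) + 1) ^ d ≤ P * T := by
    rw [hP, ← hsd, ← mul_pow]
    exact pow_le_pow_left₀ (by positivity) hn3 d
  have hb := box_le d n τ ε G hτ hε0.le hGε
  set Bx : ℝ := ∑ y ∈ Fintype.piFinset (fun _ : Fin d => Finset.Icc (-(n : ℤ)) n), τ y with hBx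
  have h1 : c * SG ≤ T * (α / 8) := by
    rw [div_le_iff₀ hα] at hT2
    linarith
  have h2 : c * (ε * (2 * (n : ℝ) + 1) ^ d) ≤ T * (α / 8) := by
    have h3 : c * (ε * (P * T)) = T * (α / 8) := by
      rw [hε]; field_simp
    rw [← h3]
    gcongr
  have h4 : c * Bx ≤ T * (α / 4) := by
    have := mul_le_mul_of_nonneg_left hb hc0.le
    rw [mul_add] at this
    linarith
  have h5 : T * (α / 4) ≤ T * (α - γ) - c * Bx := by
    have : T * (α - γ) = T * (α / 4) + T * (α / 4) := by rw [hγ]; ring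
    linarith
  have h6 := (hF n γ T hγ0 hT0).trans hT
  rw [ENNReal.ofReal_le_ofReal_iff (by positivity), ← hs2] at h6
  have h7 : (K * s) ^ 2 * (T * (α / 4)) ≤ (n : ℝ) ^ 2 * (T * (α - γ) - c * Bx) :=
    mul_le_mul (pow_le_pow_left₀ (by positivity) hn1 2) h5 (by positivity) (by positivity)
  have h8 : C * (T * s ^ 2) < (K ^ 2 * (α / 4)) * (T * s ^ 2) :=
    mul_lt_mul_of_pos_right hKC (by positivity)
  have h9 : (K ^ 2 * (α / 4)) * (T * s ^ 2) = (K * s) ^ 2 * (T * (α / 4)) := by ring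
  linarith

end Vale.Agent.P365
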