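import Vale.Agent.P365.Stm5

/-! Integrability and the Cauchy Schwarz inequality for the boundary values. -/

open MeasureTheory Filter Topology Set
open scoped InnerProductSpace ENNReal

namespace Vale.Agent.P365

namespace VInt

theorem bd (μ : Measure ℝ) (s : Set ℝ) (f : ℝ → ℝ) (h : ∀ᵐ e : ℝ, f e = Real.pi * dens μ e) :
    ∫⁻ e in s, ‖f e‖ₑ ≤ ENNReal.ofReal Real.pi * μ Set.univ := by
  refine (lintegral_mono' Measure.restrict_le_self le_rfl).trans ?_
  refine (lintegral_mono_ae (g := fun e => ENNReal.ofReal Real.pi * μ.rnDeriv volume e) ?_).trans ?_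
  · filter_upwards [h] with e he
    rw [he, dens, Real.enorm_eq_ofReal (mul_nonneg Real.pi_pos.le ENNReal.toReal_nonneg),
      ENNReal.ofReal_mul Real.pi_pos.le]
    exact mul_le_mul_right ENNReal.ofReal_toReal_le _
  · rw [lintegral_const_mul _ (Measure.measurable_rnDeriv _ _)]
    exact mul_le_mul_right Measure.lintegral_rnDeriv_le _

end VInt

theorem v_int : V_int := by
  intro d lam L H hF
  have hae := u_ae d lam L H hF
  refine ⟨fun y => ⟨(hae.1 y y).aestronglyMeasurable, ?_⟩, fun y p => ?_, ?_⟩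
  · have key : ∀ ω, ∫⁻ e in Set.Ioc (-L) L, ‖rl H y y (ω, e)‖ₑ ≤ ENNReal.ofReal Real.pi := by
      intro ω
      choose μ hμ using fun ψ => m_exspec (L2 d) (H ω) ψ (fam_sa hF ω)
      refine (VInt.bd (μ (dlt y)) _ (fun e => rl H y y (ω, e)) ?_).trans (le_of_eq ?_)
      · filter_upwards [u_conv d lam H hF ω μ hμ] with e he
        exact (he.1 y).limUnder_eq
      · rw [(o_uniq (L2 d) (H ω) (dlt y) _ (fam_sa hF ω) (hμ _)).1, norm_dlt, one_pow,
          ENNReal.ofReal_one, mul_one]
    rw [hasFiniteIntegral_iff_enorm, nu, lintegral_prod _ (hae.1 y y).enorm.aemeasurable]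
    refine (lintegral_mono key).trans_lt ?_
    rw [lintegral_const, measure_univ, mul_one]
    exact ENNReal.ofReal_lt_top
  · unfold rl
    congr 1
    funext n
    rw [← b_gcov d lam H hF n 0 0 y p, zero_add]
  · filter_upwards [hae.2] with p hp y
    exact ⟨ge_of_tendsto' (hp y y) fun n => (u_gpos d lam H hF n y y p).1.le,
      le_of_tendsto_of_tendsto' ((hp y 0).pow 2) ((hp y y).mul (hp 0 0))
        fun n => (u_gpos d lam H hF n y 0 p).2.1⟩

end Vale.Agent.P365
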