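import Vale.Agent.P365.Stm5

/-! Off diagonal decay in measure in all directions. -/

open MeasureTheory Filter Topology Set
open scoped InnerProductSpace ENNReal

namespace Vale.Agent.P365

namespace VKey

theorem cof {d : ℕ} {P : Site d → Prop}
    (h : ∀ Y : ℕ → Site d, Function.Injective Y → ∃ K : ℕ, ∀ k, K ≤ k → P (Y k)) :
    ∀ᶠ y in cofinite, P y := by
  rw [Filter.eventually_cofinite]
  by_contra hinf
  have hi : Set.Infinite {y | ¬ P y} := hinf
  obtain ⟨K, hK⟩ := h (fun k => (hi.natEmbedding _ k : Site d))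
    (Subtype.val_injective.comp (hi.natEmbedding _).injective)
  exact (hi.natEmbedding _ K).2 (hK K le_rfl)

theorem mid (d : ℕ) (lam L : ℝ) (H : (Site d → ℝ) → L2 d →L[ℂ] L2 d) (hlam : 0 < lam)
    (hF : IsFam lam H) (n₀ : ℕ) (t δ γ : ℝ) (ht : 0 ≤ t) (hδ : 0 < δ) (hγ : 0 < γ) :
    ∀ᶠ y in cofinite, nu d L {p | p.1 0 ∈ Set.Icc (-1) (1 - t) ∧
        δ ≤ |(gr H n₀ y y (up t p)).im - (gr H n₀ y y p).im|} ≤ ENNReal.ofReal γ := by
  refine cof fun Y hY => ?_
  set C : ℝ := 1 + lam * t * ((n₀ : ℝ) + 1) with hC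
  have hκ : 0 ≤ lam * t := by positivity
  let f : ℕ → (Site d → ℝ) × ℝ → ℝ := fun k p => lam * t * C * ‖gr H n₀ (Y k) 0 p‖ ^ 2
  have hf : ∀ k, Continuous (f k) := fun k =>
    continuous_const.mul ((m_gcont d lam H hF n₀ _ _).norm.pow 2)
  have hlim : ∀ p, Tendsto (fun k => f k p) atTop (𝓝 0) := by
    intro p
    have h0 := hY.tendsto_cofinite
    rw [Nat.cofinite_eq_atTop] at h0
    have h00 : Tendsto (fun k => gr H n₀ (Y k) 0 p) atTop (𝓝 0) :=
      (MGdec.coord_tendsto (res (H p.1) (zz p.2 n₀) (dlt 0))).comp h0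
    have h1 := ((h00.norm).pow 2).const_mul (lam * t * C)
    rw [norm_zero, zero_pow two_ne_zero, mul_zero] at h1
    exact h1
  have hm : TendstoInMeasure (nu d L) f atTop (fun _ => 0) :=
    tendstoInMeasure_of_tendsto_ae (fun k => (hf k).aestronglyMeasurable)
      (Eventually.of_forall hlim)
  have h2 := tendstoInMeasure_iff_norm.mp hm δ hδ
  obtain ⟨K, hK⟩ := ENNReal.tendsto_atTop_zero.mp h2 (ENNReal.ofReal γ) (ENNReal.ofReal_pos.mpr hγ)
  refine ⟨K, fun k hk => (measure_mono ?_).trans (hK k hk)⟩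
  rintro p ⟨hp1, hp2⟩
  obtain ⟨h3, h4⟩ := u_grk d lam H hlam hF n₀ (Y k) t p ht hp1
  have h5 := MMid.bound (lam * t) C hκ _ _ _ _ h3 h4
  change δ ≤ ‖f k p - 0‖
  rw [sub_zero, Real.norm_eq_abs]
  exact (hp2.trans h5).trans (le_abs_self _)

theorem far (d : ℕ) (lam L : ℝ) (H : (Site d → ℝ) → L2 d →L[ℂ] L2 d) (hlam : 0 < lam)
    (hL : 0 < L) (hF : IsFam lam H) (t δ γ : ℝ) (ht0 : 0 ≤ t) (ht2 : t ≤ 2) (hδ : 0 < δ)
    (hγ : 0 < γ) :
    ∃ n₀ : ℕ, ∀ᶠ y in cofinite, ∀ n, n₀ ≤ n → nu d L {p | p.1 0 ∈ Set.Icc (-1) (1 - t) ∧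
        δ ≤ |(gr H n y y (up t p)).im - (gr H n y y p).im|} ≤ ENNReal.ofReal γ := by
  obtain ⟨n₀, h1⟩ := m_unif u_ae b_gcov m_gcont d lam L H hF (δ / 3) (γ / 3) (by positivity)
    (by positivity)
  refine ⟨n₀, (mid d lam L H hlam hF n₀ t (δ / 3) (γ / 3) ht0 (by positivity)
    (by positivity)).mono fun y a2 n hn => ?_⟩
  have a1 := h1 n hn y
  have mS : MeasurableSet {p | δ / 3 ≤ |(gr H n y y p).im - (gr H n₀ y y p).im|} :=
    (isClosed_le continuous_const ((Complex.continuous_im.comp (m_gcont d lam H hF n y y)).sub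
      (Complex.continuous_im.comp (m_gcont d lam H hF n₀ y y))).abs).measurableSet
  have a3 := ((u_up d L t hL ht0 ht2).2.1 _ mS).trans a1
  have e3 : ENNReal.ofReal γ =
      ENNReal.ofReal (γ / 3) + ENNReal.ofReal (γ / 3) + ENNReal.ofReal (γ / 3) := by
    rw [← ENNReal.ofReal_add (by positivity) (by positivity),
      ← ENNReal.ofReal_add (by positivity) (by positivity)]
    exact congrArg _ (by ring)
  rw [e3]
  refine le_trans (measure_mono fun p hp => ?_) ((measure_union_le _ _).trans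
    (add_le_add ((measure_union_le _ _).trans (add_le_add a3 a2)) a1))
  rcases MFar.tri (a₀ := (gr H n₀ y y (up t p)).im) (b₀ := (gr H n₀ y y p).im) hp.2 with
    (h | h) | h
  · exact Or.inl (Or.inl ⟨hp.1, h⟩)
  · exact Or.inl (Or.inr ⟨hp.1, h⟩)
  · exact Or.inr h

theorem fin (d : ℕ) (lam L : ℝ) (H : (Site d → ℝ) → L2 d →L[ℂ] L2 d) (hlam : 0 < lam)
    (hL : 0 < L) (hF : IsFam lam H) (ε γ : ℝ) (hε : 0 < ε) (hγ : 0 < γ) :
    ∃ n₀ : ℕ, ∀ᶠ y in cofinite, ∀ n, n₀ ≤ n →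
      nu d L {p | ε ≤ |(gr H n y 0 p).im|} ≤ ENNReal.ofReal γ := by
  have hweg := m_weg m_rk1 u_gpos b_gcov m_gcont m_resamp
  set M := 10 * L / (lam * γ) with hM
  have hM0 : 0 < M := by positivity
  set t := min 1 (γ / (10 * L)) with ht
  have ht0 : 0 < t := lt_min one_pos (by positivity)
  have ht1 : t ≤ 1 := min_le_left _ _
  have ht2 : t ≤ γ / (10 * L) := min_le_right _ _
  obtain ⟨C, hC, hal⟩ := m_alg (lam * t) (ε ^ 2 / M) M (by positivity) (by positivity) hM0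
  have hδ : 0 < ε ^ 2 / (2 * C) := by positivity
  have hγ5 : 0 < γ / 5 := by positivity
  obtain ⟨n₁, h1⟩ := far d lam L H hlam hL hF t _ _ ht0.le (by linarith) hδ hγ5
  obtain ⟨n₂, h2⟩ := far d lam L H hlam hL hF (2 * t) _ _ (by linarith) (by linarith) hδ hγ5
  refine ⟨max n₁ n₂, (h1.and h2).mono fun y hy n hn => ?_⟩
  have b1 := hy.1 n ((le_max_left _ _).trans hn)
  have b2 := hy.2 n ((le_max_right _ _).trans hn)
  have hMγ : 2 * L / (lam * M) = γ / 5 := by rw [hM]; field_simp; ring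
  have b3 := hweg d lam L M H hlam hL hM0 hF n 0
  have b4 := hweg d lam L M H hlam hL hM0 hF n y
  rw [hMγ] at b3 b4
  have b5 : nu d L {p | p.1 0 ∉ Set.Icc (-1) (1 - 2 * t)} ≤ ENNReal.ofReal (γ / 5) := by
    refine (u_up d L (2 * t) hL (by linarith) (by linarith)).2.2.trans
      (ENNReal.ofReal_le_ofReal ?_)
    rw [le_div_iff₀ (by positivity)] at ht2
    nlinarith
  refine le_trans (measure_mono (t := (((
      {p | p.1 0 ∈ Set.Icc (-1) (1 - t) ∧
        ε ^ 2 / (2 * C) ≤ |(gr H n y y (up t p)).im - (gr H n y y p).im|} ∪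
      {p | p.1 0 ∈ Set.Icc (-1) (1 - 2 * t) ∧
        ε ^ 2 / (2 * C) ≤ |(gr H n y y (up (2 * t) p)).im - (gr H n y y p).im|}) ∪
      {p | M < ‖gr H n 0 0 p‖}) ∪ {p | M < ‖gr H n y y p‖}) ∪
      {p | p.1 0 ∉ Set.Icc (-1) (1 - 2 * t)}) ?_) ?_
  · intro p hp
    by_contra hcon
    simp only [Set.mem_union, Set.mem_ofPred_eq, not_or, not_and, not_le, not_lt, not_not] at hcon
    obtain ⟨⟨⟨⟨c1, c2⟩, c3⟩, c4⟩, c5⟩ := hcon
    have c6 : p.1 0 ∈ Set.Icc (-1) (1 - t) := ⟨c5.1, c5.2.trans (by linarith)⟩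
    have hp' : ε ≤ |(gr H n y 0 p).im| := hp
    obtain ⟨g1, g2, -⟩ := u_gpos d lam H hF n y 0 p
    have g0 := (u_gpos d lam H hF n 0 0 p).1
    have hsq : ε ^ 2 ≤ (gr H n y 0 p).im ^ 2 := by
      rw [← sq_abs (gr H n y 0 p).im]; gcongr
    have him : (gr H n y y p).im ≤ M := ((le_abs_self _).trans (Complex.abs_im_le_norm _)).trans c4
    have hθ : ε ^ 2 / M ≤ (gr H n 0 0 p).im := by
      rw [div_le_iff₀ hM0]; nlinarith
    have r1 := (u_grk d lam H hlam hF n y t p ht0.le c6).2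
    have r2 := (u_grk d lam H hlam hF n y (2 * t) p (by linarith) c5).2
    have d1 := c1 c6
    have d2 := c2 c5
    rw [r1, Complex.sub_im, sub_sub_cancel_left, abs_neg] at d1
    rw [r2, Complex.sub_im, sub_sub_cancel_left, abs_neg,
      show lam * (2 * t) = 2 * (lam * t) by ring] at d2
    have hw := hal _ _ _ hθ c3 d1.le d2.le
    have h7 : (gr H n y 0 p).im ^ 2 ≤ ‖gr H n y 0 p ^ 2‖ := by
      rw [norm_pow, ← sq_abs (gr H n y 0 p).im]
      exact pow_le_pow_left₀ (abs_nonneg _) (Complex.abs_im_le_norm _) 2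
    have h8 : C * (ε ^ 2 / (2 * C)) = ε ^ 2 / 2 := by field_simp
    nlinarith [sq_pos_of_pos hε]
  · refine (measure_union_le _ _).trans ?_
    refine (add_le_add ((measure_union_le _ _).trans (add_le_add ((measure_union_le _ _).trans
      (add_le_add ((measure_union_le _ _).trans (add_le_add b1 b2)) b3)) b4)) b5).trans ?_
    rw [← ENNReal.ofReal_add hγ5.le hγ5.le, ← ENNReal.ofReal_add (by positivity) hγ5.le,
      ← ENNReal.ofReal_add (by positivity) hγ5.le, ← ENNReal.ofReal_add (by positivity) hγ5.le]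
    exact ENNReal.ofReal_le_ofReal (by linarith)

end VKey

theorem v_key : V_key := by
  intro d lam L H hl hL hF ε γ hε hγ
  obtain ⟨n₀, h⟩ := VKey.fin d lam L H hl hL hF (ε / 2) (γ / 2) (half_pos hε) (half_pos hγ)
  refine h.mono fun y hy => ?_
  have h1 := tendstoInMeasure_iff_norm.1 (tendstoInMeasure_of_tendsto_ae (μ := nu d L)
    (f := fun n p => (gr H n y 0 p).im) (g := rl H y 0)
    (fun n => (Complex.continuous_im.comp
      (m_gcont d lam H hF n _ _)).measurable.aestronglyMeasurable)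
    ((u_ae d lam L H hF).2.mono fun p hp => hp _ _)) (ε / 2) (half_pos hε)
  obtain ⟨n, h2, h3⟩ := ((eventually_ge_atTop n₀).and (ENNReal.tendsto_nhds_zero.1 h1
    (ENNReal.ofReal (γ / 2)) (ENNReal.ofReal_pos.2 (half_pos hγ)))).exists
  refine le_trans (measure_mono fun p hp => ?_) ((measure_union_le _ _).trans
    ((add_le_add (hy n h2) h3).trans (le_of_eq ?_)))
  · by_contra c
    simp only [mem_union, mem_ofPred_eq, not_or, not_le, Real.norm_eq_abs] at c hp
    have := abs_sub_abs_le_abs_sub (rl H y 0 p) (gr H n y 0 p).im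
    rw [abs_sub_comm] at this
    linarith [c.1, c.2]
  · rw [← ENNReal.ofReal_add (half_pos hγ).le (half_pos hγ).le, add_halves]

end Vale.Agent.P365
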