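import Vale.Agent.P365.Stm5

/-! Assembly of the strict Guarneri bound. -/

open MeasureTheory Filter Topology Set
open scoped InnerProductSpace ENNReal

namespace Vale.Agent.P365

theorem v_fam (htau : V_tau) (havg : V_avg) (hend : V_end) (hzero : V_zero)
    (hno : V_noac) (d : ℕ) (hd : 0 < d) (lam : ℝ) (hlam : 0 < lam)
    (H : (Site d → ℝ) → L2 d →L[ℂ] L2 d) (hF : IsFam lam H) (C : ℝ) (hC : 0 ≤ C)
    (hfr : ∃ᶠ T in atTop, ∫⁻ ω, (∫⁻ t in Set.Ioc 0 T, mom (U (H ω) t (dlt 0))) ∂(PP d) ≤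
      ENNReal.ofReal (C * (T * T ^ (2 / (d : ℝ))))) :
    ∀ᵐ ω ∂(PP d), ∀ μ : L2 d → Measure ℝ, (∀ ψ, IsSpec (H ω) ψ (μ ψ)) →
      ∀ φ : L2 d, μ φ ≪ volume → φ = 0 := by
  have h1 := hzero d lam H hF fun L M hL hM => by
    have h2 := hend d (fun y => ∫ p, {p | rl H 0 0 p ≤ M}.indicator (fun p => rl H y 0 p ^ 2) p
        ∂(nu d L)) ((∫ p, {p | rl H 0 0 p ≤ M}.indicator (rl H 0 0) p ∂(nu d L)) / Real.pi) C
      (fun T => ∫⁻ ω, (∫⁻ t in Set.Ioc 0 T, mom (U (H ω) t (dlt 0))) ∂(PP d)) hd hC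
      (fun y => integral_nonneg fun p => Set.indicator_nonneg (fun _ _ => sq_nonneg _) p)
      (htau d lam L M H hlam hL hM hF).2
      (fun n γ T hγ hT => havg d n lam L M γ T H hlam hL hM hγ hT hF) hfr
    rwa [div_le_iff₀ Real.pi_pos, zero_mul] at h2
  filter_upwards [h1] with ω h μ hμ
  exact hno d (H ω) μ (fam_sa hF ω) hμ (h μ hμ)

theorem v_main (htau : V_tau) (havg : V_avg) (hend : V_end) (hzero : V_zero)
    (hno : V_noac) (d : ℕ) (hd : 0 < d) (lam : ℝ) (hlam : 0 < lam)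
    (H : (Site d → ℝ) → L2 d →L[ℂ] L2 d)
    (hH : ∀ ω : Site d → ℝ, (∀ x, ω x ∈ Set.Icc (-1 : ℝ) 1) → IsAnderson lam ω (H ω)) :
    (∀ᵐ ω ∂(PP d), ∀ μ : L2 d → Measure ℝ, (∀ ψ, IsSpec (H ω) ψ (μ ψ)) →
      ∀ φ : L2 d, μ φ ≪ volume → φ = 0) ∨
    Tendsto (fun T : ℝ => (∫⁻ ω, (∫⁻ t in Set.Ioc 0 T, mom (U (H ω) t (dlt 0))) ∂(PP d)) /
      ENNReal.ofReal (T * T ^ (2 / (d : ℝ)))) atTop (𝓝 ⊤) := by
  choose Hc hHc using fun ω : Site d → ℝ =>
    (t_model d lam).1 (fun x => clip (ω x)) (fun x => abs_clip_le (ω x))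
  have hfam : IsFam lam Hc := hHc
  have hae : ∀ᵐ ω ∂(PP d), H ω = Hc ω := by
    filter_upwards [(s_slice d).2.2] with ω hω
    have hc : (fun x => clip (ω x)) = ω := funext fun x => MainA.clip_eq (hω x)
    have h3 : IsAnderson lam ω (Hc ω) := by
      have := hHc ω
      rwa [hc] at this
    exact MainA.and_ext (hH ω hω) h3
  rw [or_iff_not_imp_right]
  intro hn
  rw [ENNReal.tendsto_nhds_top_iff_nat, not_forall] at hn
  obtain ⟨C, hC⟩ := hn
  rw [Filter.not_eventually] at hC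
  have h1 := v_fam htau havg hend hzero hno d hd lam hlam Hc hfam C (Nat.cast_nonneg C) (by
    refine (hC.and_eventually (eventually_gt_atTop 0)).mono fun T hT => ?_
    have h2 : 0 < T * T ^ (2 / (d : ℝ)) := mul_pos hT.2 (Real.rpow_pos_of_pos hT.2 _)
    have h3 := not_lt.1 hT.1
    rw [ENNReal.div_le_iff (ENNReal.ofReal_pos.2 h2).ne' ENNReal.ofReal_ne_top] at h3
    rw [ENNReal.ofReal_mul (Nat.cast_nonneg C), ENNReal.ofReal_natCast]
    refine le_trans (le_of_eq (lintegral_congr_ae ?_)) h3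
    filter_upwards [hae] with ω h
    rw [h])
  filter_upwards [h1, hae] with ω h2 h3
  rwa [h3]

end Vale.Agent.P365
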