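import Vale.Agent.P365.Stm5

/-! Mixed matrix elements of a spectral cut. -/

open MeasureTheory Filter Topology Set
open scoped InnerProductSpace ENNReal BoundedContinuousFunction

namespace Vale.Agent.P365

namespace VMix

variable {E : Type} [NormedAddCommGroup E] [InnerProductSpace ℂ E] [CompleteSpace E]
  {A : E →L[ℂ] E}

theorem pol {μ : E → Measure ℝ} (hS : ∀ ψ, IsSpec A ψ (μ ψ)) (u v : E) (k : ℝ →ᵇ ℝ) :
    (⟪v, (cfc (k : ℝ → ℝ) A) u⟫_ℂ).re =
      ((∫ x, k x ∂(μ (v + u))) - (∫ x, k x ∂(μ v)) - ∫ x, k x ∂(μ u)) / 2 := by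
  have h1 := congrArg Complex.re ((hS (v + u)).2 k)
  have h2 := congrArg Complex.re ((hS v).2 k)
  have h3 := congrArg Complex.re ((hS u).2 k)
  rw [Complex.ofReal_re] at h1 h2 h3
  rw [map_add, inner_add_left, inner_add_right, inner_add_right, Complex.add_re, Complex.add_re,
    Complex.add_re] at h1
  have h4 : (⟪u, (cfc (k : ℝ → ℝ) A) v⟫_ℂ).re = (⟪v, (cfc (k : ℝ → ℝ) A) u⟫_ℂ).re := by
    rw [← inner_sa (cfc_predicate (k : ℝ → ℝ) A), ← inner_conj_symm, Complex.conj_re]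
  linarith

theorem lim {ν : Measure ℝ} [IsFiniteMeasure ν] {S : Set ℝ} (hS : MeasurableSet S)
    {g : ℕ → ℝ →ᵇ ℝ} (bg : ∀ n x, 0 ≤ g n x ∧ g n x ≤ 1)
    (hl : ∀ᵐ x ∂ν, Tendsto (fun n => g n x) atTop (𝓝 (S.indicator (fun _ => (1 : ℝ)) x)))
    (h : ℝ →ᵇ ℝ) :
    Tendsto (fun n => ∫ x, (h * g n) x ∂ν) atTop (𝓝 (∫ x in S, h x ∂ν)) := by
  rw [← integral_indicator hS]
  refine tendsto_integral_of_dominated_convergence (fun _ => ‖h‖)
    (fun n => (h * g n).continuous.measurable.aestronglyMeasurable)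
    (integrable_const _) (fun n => ae_of_all _ fun x => ?_) (hl.mono fun x hx => ?_)
  · show ‖h x * g n x‖ ≤ ‖h‖
    rw [norm_mul, Real.norm_of_nonneg (bg n x).1]
    exact (mul_le_of_le_one_right (norm_nonneg _) (bg n x).2).trans (h.norm_coe_le_norm x)
  · have e : S.indicator (fun y => h y) x = h x * S.indicator (fun _ => (1 : ℝ)) x := by
      by_cases hx : x ∈ S
      · rw [indicator_of_mem hx, indicator_of_mem hx, mul_one]
      · rw [indicator_of_notMem hx, indicator_of_notMem hx, mul_zero]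
    rw [e]
    exact hx.const_mul (h x)

theorem same (hA : IsSelfAdjoint A) {ν : Measure ℝ} {u χ : E} (hS : IsSpec A u ν) {G : ℝ → ℝ}
    {f g : ℕ → ℝ →ᵇ ℝ} (bf : ∀ n x, 0 ≤ f n x ∧ f n x ≤ 1) (bg : ∀ n x, 0 ≤ g n x ∧ g n x ≤ 1)
    (hf : ∀ᵐ x ∂ν, Tendsto (fun n => f n x) atTop (𝓝 (G x)))
    (hg : ∀ᵐ x ∂ν, Tendsto (fun n => g n x) atTop (𝓝 (G x)))
    (hχ : Tendsto (fun n => (cfc (f n : ℝ → ℝ) A) u) atTop (𝓝 χ)) :
    Tendsto (fun n => (cfc (g n : ℝ → ℝ) A) u) atTop (𝓝 χ) := by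
  have fin := hS.1
  have t1 : Tendsto (fun n => ∫ x, (g n x - f n x) ^ 2 ∂ν) atTop (𝓝 0) := by
    have := tendsto_integral_of_dominated_convergence (μ := ν)
      (F := fun n x => (g n x - f n x) ^ 2) (f := fun _ => (0 : ℝ)) (fun _ => (1 : ℝ))
      (fun n => (((g n).continuous.measurable.sub (f n).continuous.measurable).pow_const
        2).aestronglyMeasurable)
      (integrable_const _) (fun n => ae_of_all _ fun x => by
        rw [Real.norm_of_nonneg (sq_nonneg _)]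
        obtain ⟨a, b⟩ := bf n x
        obtain ⟨c, d⟩ := bg n x
        nlinarith) ((hf.and hg).mono fun x hx => by
        simpa using (hx.2.sub hx.1).pow 2)
    simpa using this
  have t2 : Tendsto (fun n => ‖(cfc (g n : ℝ → ℝ) A) u - (cfc (f n : ℝ → ℝ) A) u‖) atTop
      (𝓝 0) := by
    have := t1.sqrt
    rw [Real.sqrt_zero] at this
    refine this.congr fun n => ?_
    rw [← OCut0.nrm hA hS, Real.sqrt_sq (norm_nonneg _)]
  have t3 := (tendsto_zero_iff_norm_tendsto_zero.2 t2).add hχ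
  rw [zero_add] at t3
  exact t3.congr fun n => sub_add_cancel _ _

end VMix

theorem v_mix : V_mix := by
  intro E _ _ _ A μ u v χ S f hA hS mS bf hf hχ h
  have f1 := (hS u).1
  have f2 := (hS v).1
  have f3 := (hS (v + u)).1
  obtain ⟨g, bg, hg⟩ := o_appr (μ u + μ v + μ (v + u)) S mS
  rw [ae_add_measure_iff, ae_add_measure_iff] at hg
  obtain ⟨⟨g1, g2⟩, g3⟩ := hg
  have t0 := VMix.same hA (hS u) bf bg hf g1 hχ
  have t1 : Tendsto (fun n => (⟪v, (cfc (h : ℝ → ℝ) A) ((cfc (g n : ℝ → ℝ) A) u)⟫_ℂ).re) atTop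
      (𝓝 (⟪v, (cfc (h : ℝ → ℝ) A) χ⟫_ℂ).re) :=
    (Complex.continuous_re.tendsto _).comp
      (tendsto_const_nhds.inner (𝕜 := ℂ) (((cfc (h : ℝ → ℝ) A).continuous.tendsto χ).comp t0))
  have t2 := (((VMix.lim mS bg g3 h).sub (VMix.lim mS bg g2 h)).sub
    (VMix.lim mS bg g1 h)).div_const 2
  refine tendsto_nhds_unique t1 (t2.congr fun n => ?_)
  have e : cfc ((h * g n : ℝ →ᵇ ℝ) : ℝ → ℝ) A = cfc (h : ℝ → ℝ) A * cfc (g n : ℝ → ℝ) A :=
    cfc_mul _ _ A h.continuous.continuousOn (g n).continuous.continuousOn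
  rw [← VMix.pol hS u v (h * g n), e]
  rfl

end Vale.Agent.P365
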