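import Vale.Agent.P365.Stm5

/-! Vanishing densities exclude absolutely continuous vectors. -/

open MeasureTheory Filter Topology Set

namespace Vale.Agent.P365

theorem v_noac : V_noac := by
  intro d A μ hA hμ hae φ hac
  by_contra hφ
  obtain ⟨p, hp1, hp2⟩ := o_clos o_uniq (L2 d) A μ _ φ hA hμ (OMain.mem_cl φ)
  have L := fun ψ => o_lim b_poi u_fatou (L2 d) A ψ (μ ψ) hA (hμ ψ)
  obtain ⟨e, he, h0, a1, a2, a3, a9⟩ :=
    ((o_pos o_uniq (L2 d) A φ (μ φ) hA (hμ φ) hac hφ).and_eventually (hae.and <| (L φ).and <|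
      (ae_all_iff.2 fun k => L (φ - p k)).and <| (ae_all_iff.2 fun x => L (dlt x)).and hp2)).exists
  exact absurd (o_pt1 (L2 d) A (Site d) dlt e _ φ p _ (fun x => by simpa [h0 x] using a3 x) hp1 a2
    (by simpa using a9.const_mul Real.pi) a1) (not_le.2 (mul_pos Real.pi_pos he))

end Vale.Agent.P365
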