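import Vale.Agent.P365.Stm5

/-! Time averaged lower bound for a fixed potential. -/

open MeasureTheory Filter Topology Set
open scoped InnerProductSpace ENNReal

namespace Vale.Agent.P365

namespace VOut

theorem ofReal_le (μ : Measure ℝ) {g : ℝ → ℝ} (hg : Integrable g μ) :
    ENNReal.ofReal (∫ t, g t ∂μ) ≤ ∫⁻ t, ENNReal.ofReal (g t) ∂μ := by
  rw [integral_eq_lintegral_pos_part_sub_lintegral_neg_part hg]
  exact (ENNReal.ofReal_le_ofReal (sub_le_self _ ENNReal.toReal_nonneg)).trans
    ENNReal.ofReal_toReal_le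

theorem meas_dens (μ : Measure ℝ) : Measurable (dens μ) :=
  (Measure.measurable_rnDeriv μ volume).ennreal_toReal

theorem int_dens (μ : Measure ℝ) [IsFiniteMeasure μ] : Integrable (dens μ) :=
  Measure.integrable_toReal_rnDeriv

theorem plan (hp : V_plan) {k : ℝ → ℝ} {S : Set ℝ} {T : ℝ} (hT : 0 < T) (hS : MeasurableSet S)
    (h1 : Measurable k) (h2 : Integrable k) (h3 : IntegrableOn (fun e => k e ^ 2) S) :
    ∫ t in (0 : ℝ)..T, ((∫ e in S, Real.cos (t * e) * k e) ^ 2 +
      (∫ e in S, Real.sin (t * e) * k e) ^ 2) ≤ 20 * ∫ e in S, k e ^ 2 := by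
  have e1 : (fun e => S.indicator k e ^ 2) = S.indicator fun e => k e ^ 2 := by
    funext e
    by_cases h : e ∈ S <;> simp [h]
  have e2 : ∀ c : ℝ → ℝ, ∫ e, c e * S.indicator k e = ∫ e in S, c e * k e := fun c => by
    rw [← integral_indicator hS]
    congr 1
    funext e
    by_cases h : e ∈ S <;> simp [h]
  have h := hp (S.indicator k) T hT (h1.indicator hS) (h2.indicator hS)
    (by rw [e1]; exact (integrable_indicator_iff hS).2 h3)
  rw [e1, integral_indicator hS] at h
  simpa only [e2] using h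

theorem avg {ι : Type} (B : Finset ι) (u : ι → ℝ → ℝ) (hu : ∀ y, Continuous (u y))
    (a b c T : ℝ) : ∫ t in (0 : ℝ)..T, a * (b - c * ∑ y ∈ B, u y t) =
      a * (T * b - c * ∑ y ∈ B, ∫ t in (0 : ℝ)..T, u y t) := by
  have h : Continuous fun t => c * ∑ y ∈ B, u y t :=
    continuous_const.mul (continuous_finsetSum _ fun y _ => hu y)
  rw [intervalIntegral.integral_const_mul, intervalIntegral.integral_sub
    (continuous_const.intervalIntegrable _ _) (h.intervalIntegrable _ _),
    intervalIntegral.integral_const_mul, intervalIntegral.integral_finsetSum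
      fun y _ => (hu y).intervalIntegrable _ _, intervalIntegral.integral_const, sub_zero,
    smul_eq_mul]

end VOut

theorem v_out : V_plan → V_chi → V_box → V_out := by
  intro hp hchi hbox d n A μ S₀ γ T hA hs hμ hS hγ hT hk
  obtain ⟨χ, h1, h2⟩ := hchi d A μ S₀ hA hs hμ hS
  have hα : 0 ≤ ∫ e in S₀, dens (μ (dlt 0)) e := integral_nonneg fun _ => ENNReal.toReal_nonneg
  have hc : ∀ y, Continuous fun t : ℝ => ‖(U A t χ) y‖ ^ 2 := fun y => by
    simp only [← inner_dlt]
    exact (continuous_const.inner (continuous_U_apply A χ)).norm.pow 2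
  have hg := fun t : ℝ => hbox d n (U A t (dlt 0)) (U A t χ) _ γ hγ hα
    (by rw [norm_U hA, norm_dlt]) (by rw [← map_sub, norm_U hA, h1])
  refine le_trans ?_ (lintegral_mono hg)
  have hcg : Continuous fun t : ℝ => (n : ℝ) ^ 2 * ((∫ e in S₀, dens (μ (dlt 0)) e) - γ -
      (1 + 1 / γ) * ∑ y ∈ Fintype.piFinset (fun _ : Fin d => Finset.Icc (-(n : ℤ)) n),
        ‖(U A t χ) y‖ ^ 2) :=
    continuous_const.mul (continuous_const.sub
      (continuous_const.mul (continuous_finsetSum _ fun y _ => hc y)))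
  refine le_trans (ENNReal.ofReal_le_ofReal ?_)
    (VOut.ofReal_le _ (hcg.integrableOn_Icc.mono_set Ioc_subset_Icc_self))
  rw [← intervalIntegral.integral_of_le hT.le, VOut.avg _ _ hc]
  refine mul_le_mul_of_nonneg_left (sub_le_sub_left ?_ _) (sq_nonneg _)
  rw [mul_assoc, Finset.mul_sum _ _ (20 : ℝ)]
  refine mul_le_mul_of_nonneg_left (Finset.sum_le_sum fun y _ => ?_) (by positivity)
  simp only [h2]
  have f1 := (hμ (dlt y + dlt 0)).1
  have f2 := (hμ (dlt y)).1
  have f3 := (hμ (dlt 0)).1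
  exact VOut.plan hp hT hS
    ((((VOut.meas_dens _).sub (VOut.meas_dens _)).sub (VOut.meas_dens _)).div_const 2)
    ((((VOut.int_dens _).sub (VOut.int_dens _)).sub (VOut.int_dens _)).div_const 2) (hk y)

end Vale.Agent.P365
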