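import Vale.Agent.P365.Stm5

/-! P365: the Plancherel inequality on a finite time interval. -/

open MeasureTheory Filter Topology Set
open scoped InnerProductSpace ENNReal

namespace Vale.Agent.P365

namespace VPlan

theorem osc {f : ℝ → ℝ} (hf : Integrable f) {g : ℝ → ℝ} (hg : Continuous g)
    (hb : ∀ x, |g x| ≤ 1) : Continuous (fun t : ℝ => ∫ e, g (t * e) * f e) ∧
      ∀ t : ℝ, (∫ e, g (t * e) * f e) ^ 2 ≤ (∫ e, ‖f e‖) ^ 2 := by
  have h1 : ∀ t e : ℝ, ‖g (t * e) * f e‖ ≤ ‖f e‖ := fun t e => by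
    rw [norm_mul]
    exact mul_le_of_le_one_left (norm_nonneg _) (hb _)
  refine ⟨continuous_of_dominated (bound := fun e => ‖f e‖) (fun t => ?_)
    (fun t => ae_of_all _ (h1 t)) hf.norm (ae_of_all _ fun e => by fun_prop), fun t => ?_⟩
  · exact (hg.comp (continuous_const.mul continuous_id)).aestronglyMeasurable.mul hf.1
  · have h2 := norm_integral_le_of_norm_le hf.norm (ae_of_all _ (h1 t))
    rw [← sq_abs]
    exact pow_le_pow_left₀ (abs_nonneg _) h2 2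

theorem half (hk : V_ker) {f : ℝ → ℝ} {a : ℝ} (ha : 0 < a) (hm : Measurable f)
    (h2 : Integrable fun e => f e ^ 2) :
    Integrable (fun q : ℝ × ℝ => f q.2 ^ 2 * (2 * a / (a ^ 2 + (q.1 - q.2) ^ 2)))
      (volume.prod volume) ∧
    ∫ q : ℝ × ℝ, f q.2 ^ 2 * (2 * a / (a ^ 2 + (q.1 - q.2) ^ 2)) ∂(volume.prod volume) =
      2 * Real.pi * ∫ e, f e ^ 2 := by
  have e1 : ∀ y : ℝ, ∫ x : ℝ, f y ^ 2 * (2 * a / (a ^ 2 + (x - y) ^ 2)) = 2 * Real.pi * f y ^ 2 :=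
    fun y => by rw [integral_const_mul, (hk a y ha).2.2.2, mul_comm]
  have hi : Integrable (fun q : ℝ × ℝ => f q.2 ^ 2 * (2 * a / (a ^ 2 + (q.1 - q.2) ^ 2)))
      (volume.prod volume) := by
    refine (integrable_prod_iff' (Measurable.aestronglyMeasurable (by fun_prop))).2
      ⟨ae_of_all _ fun y => (hk a y ha).2.2.1.const_mul (f y ^ 2), ?_⟩
    refine (h2.const_mul (2 * Real.pi)).congr (ae_of_all _ fun y => ?_)
    simp only
    rw [← e1 y]
    exact integral_congr_ae (ae_of_all _ fun x => (Real.norm_of_nonneg (by positivity)).symm)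
  refine ⟨hi, ?_⟩
  rw [integral_prod_symm _ hi]
  simp only [e1]
  rw [integral_const_mul]

theorem schur (hk : V_ker) {f : ℝ → ℝ} {a : ℝ} (ha : 0 < a) (hm : Measurable f)
    (h2 : Integrable fun e => f e ^ 2) :
    ∫ q : ℝ × ℝ, f q.1 * f q.2 * (2 * a / (a ^ 2 + (q.1 - q.2) ^ 2)) ∂(volume.prod volume) ≤
      2 * Real.pi * ∫ e, f e ^ 2 := by
  obtain ⟨i1, e1⟩ := half hk ha hm h2
  have i2 := i1.swap
  have e2 := integral_prod_swap (μ := (volume : Measure ℝ)) (ν := (volume : Measure ℝ))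
    (fun q : ℝ × ℝ => f q.2 ^ 2 * (2 * a / (a ^ 2 + (q.1 - q.2) ^ 2)))
  have hb : ∀ q : ℝ × ℝ, ‖f q.1 * f q.2 * (2 * a / (a ^ 2 + (q.1 - q.2) ^ 2))‖ ≤
      1 / 2 * (f q.2 ^ 2 * (2 * a / (a ^ 2 + (q.1 - q.2) ^ 2)) +
        f q.1 ^ 2 * (2 * a / (a ^ 2 + (q.2 - q.1) ^ 2))) := fun q => by
    have k0 : 0 ≤ 2 * a / (a ^ 2 + (q.1 - q.2) ^ 2) := by positivity
    rw [sub_sq_comm q.2 q.1, norm_mul, Real.norm_of_nonneg k0, Real.norm_eq_abs]
    have k1 : |f q.1 * f q.2| ≤ 1 / 2 * (f q.2 ^ 2 + f q.1 ^ 2) :=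
      abs_le.2 ⟨by nlinarith [sq_nonneg (f q.1 + f q.2)], by nlinarith [sq_nonneg (f q.1 - f q.2)]⟩
    nlinarith [mul_le_mul_of_nonneg_right k1 k0]
  have h3 := norm_integral_le_of_norm_le ((i1.add i2).const_mul (1 / 2)) (ae_of_all _ hb)
  rw [integral_const_mul, integral_add' i1 i2, e1] at h3
  have e3 : ∫ q : ℝ × ℝ, ((fun q : ℝ × ℝ => f q.2 ^ 2 * (2 * a / (a ^ 2 + (q.1 - q.2) ^ 2))) ∘
      Prod.swap) q ∂(volume.prod volume) = 2 * Real.pi * ∫ e, f e ^ 2 := e2.trans e1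
  rw [e3] at h3
  linarith [le_abs_self (∫ q : ℝ × ℝ, f q.1 * f q.2 * (2 * a / (a ^ 2 + (q.1 - q.2) ^ 2))
    ∂(volume.prod volume)), Real.norm_eq_abs (∫ q : ℝ × ℝ, f q.1 * f q.2 *
      (2 * a / (a ^ 2 + (q.1 - q.2) ^ 2)) ∂(volume.prod volume))]

end VPlan

theorem v_plan : V_ker → V_plan0 → V_plan := by
  intro hk h0 f T hT hm hf h2
  have ha : 0 < 1 / T := by positivity
  obtain ⟨c1, c2⟩ := VPlan.osc hf Real.continuous_cos Real.abs_cos_le_one
  obtain ⟨s1, s2⟩ := VPlan.osc hf Real.continuous_sin Real.abs_sin_le_one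
  have h1 := (h0 f _ ha hm hf).le.trans (VPlan.schur hk ha hm h2)
  have hc := (c1.pow 2).add (s1.pow 2)
  have hb : ∀ t : ℝ, (∫ e, Real.cos (t * e) * f e) ^ 2 + (∫ e, Real.sin (t * e) * f e) ^ 2 ≤
      2 * (∫ e, ‖f e‖) ^ 2 := fun t => by linarith [c2 t, s2 t]
  have hn : ∀ t : ℝ, 0 ≤ (∫ e, Real.cos (t * e) * f e) ^ 2 + (∫ e, Real.sin (t * e) * f e) ^ 2 :=
    fun t => by positivity
  set G : ℝ → ℝ := fun t =>
    (∫ e, Real.cos (t * e) * f e) ^ 2 + (∫ e, Real.sin (t * e) * f e) ^ 2 with hG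
  have hc' : Continuous G := hc
  have hi : Integrable fun t : ℝ => Real.exp (-(1 / T * |t|)) * G t :=
    (hk _ 0 ha).1.mul_bdd hc'.aestronglyMeasurable
      (ae_of_all _ fun t => (Real.norm_of_nonneg (hn t)).trans_le (hb t))
  have h3 : ∫ t in Ioc 0 T, G t ≤ ∫ t in Ioc 0 T, Real.exp 1 * (Real.exp (-(1 / T * |t|)) * G t) := by
    refine setIntegral_mono_on (hc'.integrableOn_Icc.mono_set Ioc_subset_Icc_self)
      (hi.const_mul _).integrableOn measurableSet_Ioc fun t ht => ?_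
    rw [← mul_assoc, ← Real.exp_add]
    refine le_mul_of_one_le_left (hn t) (Real.one_le_exp ?_)
    rw [abs_of_pos ht.1, one_div_mul_eq_div]
    linarith [(div_le_one hT).2 ht.2]
  have h4 := setIntegral_le_integral (s := Ioc 0 T) (hi.const_mul (Real.exp 1))
    (ae_of_all _ fun t => mul_nonneg (Real.exp_pos _).le (mul_nonneg (Real.exp_pos _).le (hn t)))
  have h5 := h3.trans h4
  rw [integral_const_mul] at h5
  have h6 : 0 ≤ ∫ e, f e ^ 2 := integral_nonneg fun e => sq_nonneg _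
  have h7 : Real.exp 1 * (2 * Real.pi) ≤ 20 := by
    nlinarith [Real.pi_lt_d2, Real.exp_one_lt_d9, Real.pi_pos, Real.exp_pos 1]
  rw [intervalIntegral.integral_of_le hT.le]
  refine h5.trans ((mul_le_mul_of_nonneg_left h1 (Real.exp_pos 1).le).trans ?_)
  rw [← mul_assoc]
  exact mul_le_mul_of_nonneg_right h7 h6

end Vale.Agent.P365
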