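import Vale.Agent.P365.Stm5

open MeasureTheory Filter Topology Set
open scoped InnerProductSpace ENNReal

namespace Vale.Agent.P365

namespace VPlan0

theorem sq_sum {f : ℝ → ℝ} (hi : Integrable f) (t : ℝ) :
    (∫ e, Real.cos (t * e) * f e) ^ 2 + (∫ e, Real.sin (t * e) * f e) ^ 2 =
      ∫ q : ℝ × ℝ, f q.1 * f q.2 * Real.cos (t * (q.1 - q.2)) ∂(volume.prod volume) := by
  have i1 : Integrable fun e => Real.cos (t * e) * f e :=
    hi.bdd_mul (c := 1) (Continuous.aestronglyMeasurable (by fun_prop))
      (ae_of_all _ fun e => Real.abs_cos_le_one _)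
  have i2 : Integrable fun e => Real.sin (t * e) * f e :=
    hi.bdd_mul (c := 1) (Continuous.aestronglyMeasurable (by fun_prop))
      (ae_of_all _ fun e => Real.abs_sin_le_one _)
  rw [sq, sq, ← integral_prod_mul, ← integral_prod_mul,
    ← integral_add (i1.mul_prod i1) (i2.mul_prod i2)]
  refine integral_congr_ae (ae_of_all _ fun q => ?_)
  simp only
  rw [mul_sub, Real.cos_sub]
  ring

end VPlan0

theorem v_plan0 : V_ker → V_plan0 := by
  intro hk f a ha hm hi
  have i0 := (hk a 0 ha).1
  have i1 : Integrable (fun z : ℝ × (ℝ × ℝ) => Real.exp (-(a * |z.1|)) * (f z.2.1 * f z.2.2))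
      (volume.prod (volume.prod volume)) := i0.mul_prod (hi.mul_prod hi)
  have i2 : Integrable (Function.uncurry fun (t : ℝ) (q : ℝ × ℝ) =>
      Real.exp (-(a * |t|)) * (f q.1 * f q.2 * Real.cos (t * (q.1 - q.2))))
      (volume.prod (volume.prod volume)) := by
    have := i1.bdd_mul (c := 1)
      (f := fun z : ℝ × (ℝ × ℝ) => Real.cos (z.1 * (z.2.1 - z.2.2)))
      (Continuous.aestronglyMeasurable (by fun_prop)) (ae_of_all _ fun e => Real.abs_cos_le_one _)
    refine this.congr (ae_of_all _ fun z => ?_)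
    simp only [Function.uncurry]
    ring
  simp only [VPlan0.sq_sum hi, ← integral_const_mul]
  rw [integral_integral_swap i2]
  refine integral_congr_ae (ae_of_all _ fun q => ?_)
  simp only
  rw [← (hk a (q.1 - q.2) ha).2.1, ← integral_const_mul]
  refine integral_congr_ae (ae_of_all _ fun t => ?_)
  simp only
  ring

end Vale.Agent.P365
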