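import Vale.Agent.P365.Stm5

/-! The functional calculus commutes with an antilinear symmetry. -/

open MeasureTheory Filter Topology Set
open scoped InnerProductSpace ENNReal

namespace Vale.Agent.P365

namespace VReal

variable {E : Type} [NormedAddCommGroup E] [InnerProductSpace ℂ E] [CompleteSpace E]

theorem hom {A : E →L[ℂ] E} {J : E → E} (hA : IsSelfAdjoint A) (hJ : Continuous J)
    (ha : ∀ a b, J (a + b) = J a + J b) (hs : ∀ (c : ℝ) a, J ((c : ℂ) • a) = (c : ℂ) • J a)
    (hc : ∀ ψ, J (A ψ) = A (J ψ)) (g : C(spectrum ℝ A, ℝ)) :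
    ∀ ψ, J (cfcHom (R := ℝ) hA g ψ) = cfcHom (R := ℝ) hA g (J ψ) := by
  induction g using ContinuousMap.induction_on_of_compact with
  | const r =>
    intro ψ
    have e : cfcHom (R := ℝ) hA (ContinuousMap.const (spectrum ℝ A) r) = algebraMap ℝ _ r :=
      AlgHomClass.commutes (cfcHom (R := ℝ) hA) r
    have e2 : ∀ v : E, (algebraMap ℝ (E →L[ℂ] E) r) v = (r : ℂ) • v := fun v => by
      rw [Algebra.algebraMap_eq_smul_one, ContinuousLinearMap.smul_apply,
        ContinuousLinearMap.one_apply, Complex.coe_smul]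
    rw [e, e2, e2, hs]
  | id => intro ψ; rw [cfcHom_id]; exact hc ψ
  | star_id => intro ψ; rw [map_star, cfcHom_id, hA.star_eq]; exact hc ψ
  | add f g hf hg =>
    intro ψ
    rw [map_add, ContinuousLinearMap.add_apply, ContinuousLinearMap.add_apply, ha, hf, hg]
  | mul f g hf hg =>
    intro ψ
    rw [map_mul, ContinuousLinearMap.mul_apply, ContinuousLinearMap.mul_apply, hf, hg]
  | frequently f hf =>
    intro ψ
    have c1 : ∀ v : E, Continuous fun g : C(spectrum ℝ A, ℝ) => cfcHom (R := ℝ) hA g v :=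
      fun v => (cfcHom_continuous (R := ℝ) hA).clm_apply continuous_const
    have cl : IsClosed {g : C(spectrum ℝ A, ℝ) |
        J (cfcHom (R := ℝ) hA g ψ) = cfcHom (R := ℝ) hA g (J ψ)} :=
      isClosed_eq (hJ.comp (c1 ψ)) (c1 _)
    exact cl.mem_of_frequently_of_tendsto (hf.mono fun g hg => hg ψ) tendsto_id

end VReal

theorem v_real : V_real := by
  intro E _ _ _ A J hA hJ ha hs hc h hh ψ
  unfold cf
  rw [cfc_apply h A hA hh.continuousOn]
  exact VReal.hom hA hJ ha hs hc _ ψ

end Vale.Agent.P365
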