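import Vale.Agent.P365.Stm5

/-! Removing the singular parts. -/

open MeasureTheory Filter Topology Set
open scoped InnerProductSpace ENNReal

namespace Vale.Agent.P365

theorem v_sing : V_sing := by
  intro ι _ μ hμ S₀ hS₀
  choose s hs h1 h2 using fun i =>
    Measure.mutuallySingular_singularPart (μ i) (volume : Measure ℝ)
  have hT : MeasurableSet (S₀ ∩ ⋂ i, s i) := hS₀.inter (MeasurableSet.iInter hs)
  refine ⟨_, hT, fun i h => ?_⟩
  have := hμ i
  have e1 : (μ i).restrict (S₀ ∩ ⋂ i, s i) =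
      (volume.withDensity ((μ i).rnDeriv volume)).restrict (S₀ ∩ ⋂ i, s i) := by
    conv_lhs => rw [Measure.haveLebesgueDecomposition_add (μ i) volume]
    rw [Measure.restrict_add, Measure.restrict_eq_zero.2
      (measure_mono_null (fun x hx => mem_iInter.1 hx.2 i) (h1 i)), zero_add]
  have e2 : (S₀ ∩ ⋂ i, s i : Set ℝ) =ᵐ[volume] S₀ := by
    have h4 : ∀ᵐ e : ℝ, ∀ i, e ∈ s i := ae_all_iff.2 fun i => h2 i
    filter_upwards [h4] with e he
    exact propext ⟨fun h => h.1, fun h => ⟨h, mem_iInter.2 he⟩⟩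
  rw [e1, setIntegral_withDensity_eq_setIntegral_toReal_smul (Measure.measurable_rnDeriv _ _)
    (ae_restrict_of_ae (Measure.rnDeriv_lt_top _ _)) _ hT, setIntegral_congr_set e2]
  simp only [dens, smul_eq_mul, mul_comm]

end Vale.Agent.P365
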