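import Vale.Agent.P365.Stm5

/-! The truncated occupation times tend to zero in the mean. -/

open MeasureTheory Filter Topology Set
open scoped InnerProductSpace ENNReal

namespace Vale.Agent.P365

namespace VTau

variable {X : Type} [MeasurableSpace X] {ν : Measure X} [IsFiniteMeasure ν]

theorem tail {r : X → ℝ} (hm : Measurable r) (hi : Integrable r ν) :
    Tendsto (fun K : ℕ => ∫ p, max (r p - K) 0 ∂ν) atTop (𝓝 0) := by
  have h := tendsto_integral_of_dominated_convergence (μ := ν) (F := fun (K : ℕ) p => max (r p - K) 0)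
    (f := fun _ => (0 : ℝ)) (fun p => |r p|)
    (fun K => ((hm.sub_const _).max measurable_const).aestronglyMeasurable) hi.abs
    (fun K => Eventually.of_forall fun p => by
      have : (0 : ℝ) ≤ K := Nat.cast_nonneg K
      rw [Real.norm_of_nonneg (le_max_right _ _)]
      exact max_le (by linarith [le_abs_self (r p)]) (abs_nonneg _))
    (Eventually.of_forall fun p => by
      refine tendsto_const_nhds.congr' ?_
      filter_upwards [tendsto_natCast_atTop_atTop.eventually (eventually_ge_atTop (r p))] with K hK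
      exact (max_eq_right (sub_nonpos.mpr hK)).symm)
  simpa using h

theorem main {ι : Type} {l : Filter ι} {r : X → ℝ} {g : ι → X → ℝ} {s : ι → X → X} {M : ℝ}
    (hM : 0 < M) (hm : Measurable r) (hi : Integrable r ν) (hg : ∀ y, Measurable (g y))
    (hs : ∀ y, MeasurePreserving (s y) ν ν)
    (hae : ∀ᵐ p ∂ν, ∀ y, 0 ≤ r (s y p) ∧ g y p ^ 2 ≤ r (s y p) * r p)
    (hk : ∀ ε γ : ℝ, 0 < ε → 0 < γ → ∀ᶠ y in l, ν {p | ε ≤ |g y p|} ≤ ENNReal.ofReal γ) :
    (∀ y, Integrable ({p | r p ≤ M}.indicator (fun p => g y p ^ 2)) ν) ∧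
    Tendsto (fun y => ∫ p, {p | r p ≤ M}.indicator (fun p => g y p ^ 2) p ∂ν) l (𝓝 0) := by
  have h0 : ∀ y p, 0 ≤ {p | r p ≤ M}.indicator (fun p => g y p ^ 2) p := fun y p =>
    indicator_nonneg (fun _ _ => sq_nonneg _) p
  have h1 : ∀ y p, {p | r p ≤ M}.indicator (fun p => g y p ^ 2) p ≤ g y p ^ 2 := fun y p =>
    indicator_le_self' (fun _ _ => sq_nonneg _) p
  have h2 : ∀ y, ∀ᵐ p ∂ν, {p | r p ≤ M}.indicator (fun p => g y p ^ 2) p ≤ M * r (s y p) := by
    intro y
    filter_upwards [hae] with p hp
    by_cases h : p ∈ {p | r p ≤ M}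
    · rw [indicator_of_mem h, mul_comm M]
      exact (hp y).2.trans (mul_le_mul_of_nonneg_left h (hp y).1)
    · rw [indicator_of_notMem h]
      exact mul_nonneg hM.le (hp y).1
  have h3 : ∀ y, Integrable ({p | r p ≤ M}.indicator (fun p => g y p ^ 2)) ν := fun y =>
    Integrable.mono' (((hs y).integrable_comp_of_integrable hi).const_mul M)
      (((hg y).pow_const 2).indicator (measurableSet_le hm measurable_const)).aestronglyMeasurable
      ((h2 y).mono fun p hp => by rw [Real.norm_of_nonneg (h0 y p)]; exact hp)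
  refine ⟨h3, Metric.tendsto_nhds.mpr fun δ hδ => ?_⟩
  have ht := (tail hm hi).const_mul M
  rw [mul_zero] at ht
  obtain ⟨K, hK⟩ := (ht.eventually (gt_mem_nhds (show 0 < δ / 3 by positivity))).exists
  have hK0 : (0 : ℝ) ≤ K := Nat.cast_nonneg K
  have hV : 0 ≤ ν.real univ := measureReal_nonneg
  have hη : 0 < δ / 3 / (ν.real univ + 1) := by positivity
  have hγ : 0 < δ / 3 / (M * K + 1) := by positivity
  filter_upwards [hk _ _ (Real.sqrt_pos.mpr hη) hγ] with y hy
  rw [Real.dist_eq, sub_zero, abs_of_nonneg (integral_nonneg (h0 y))]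
  have hB : MeasurableSet {p | √(δ / 3 / (ν.real univ + 1)) ≤ |g y p|} :=
    measurableSet_le measurable_const (continuous_abs.measurable.comp (hg y))
  have i0 : Integrable (fun p => max (r p - K) 0) ν := (hi.sub (integrable_const _)).pos_part
  have i1 : Integrable (fun p => max (r (s y p) - K) 0) ν := (hs y).integrable_comp_of_integrable i0
  have i2 := (integrable_const (μ := ν) (M * K)).indicator hB
  have e1 : ∫ p, max (r (s y p) - K) 0 ∂ν = ∫ p, max (r p - K) 0 ∂ν := by
    have := integral_map (μ := ν) (hs y).measurable.aemeasurable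
      (f := fun p => max (r p - K) 0) (by rw [(hs y).map_eq]; exact i0.aestronglyMeasurable)
    rw [(hs y).map_eq] at this
    exact this.symm
  have h4 := integral_mono_ae (h3 y) (((integrable_const (δ / 3 / (ν.real univ + 1))).add i2).add
    (i1.const_mul M)) (by
      filter_upwards [h2 y] with p hp
      simp only [Pi.add_apply]
      have h5 : 0 ≤ M * max (r (s y p) - K) 0 := mul_nonneg hM.le (le_max_right _ _)
      by_cases h : p ∈ {p | √(δ / 3 / (ν.real univ + 1)) ≤ |g y p|}
      · rw [indicator_of_mem h]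
        linarith [mul_le_mul_of_nonneg_left (le_max_left (r (s y p) - K) 0) hM.le]
      · rw [indicator_of_notMem h]
        have h6 := (Real.lt_sqrt (abs_nonneg _)).mp (not_le.mp h)
        rw [sq_abs] at h6
        linarith [h1 y p])
  rw [integral_add' ((integrable_const _).add i2) (i1.const_mul M),
    integral_add' (integrable_const _) i2, integral_const_mul, e1, integral_const,
    integral_indicator_const _ hB, smul_eq_mul, smul_eq_mul] at h4
  have h7 : ν.real {p | √(δ / 3 / (ν.real univ + 1)) ≤ |g y p|} ≤ δ / 3 / (M * K + 1) :=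
    ENNReal.toReal_le_of_le_ofReal hγ.le hy
  have h8 : ν.real univ * (δ / 3 / (ν.real univ + 1)) ≤ δ / 3 := by
    rw [mul_comm, div_mul_eq_mul_div, div_le_iff₀ (by positivity)]
    linarith
  have h9 : δ / 3 / (M * K + 1) * (M * K) ≤ δ / 3 := by
    rw [div_mul_eq_mul_div, div_le_iff₀ (by positivity)]
    linarith
  linarith [mul_le_mul_of_nonneg_right h7 (mul_nonneg hM.le hK0)]

end VTau

theorem v_tau : V_key → V_int → V_tau := by
  intro hk hi d lam L M H hlam hL hM hF
  obtain ⟨h1, h2, h3⟩ := hi d lam L H hF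
  have hm := (u_ae d lam L H hF).1
  refine VTau.main (s := shp) hM (hm 0 0) (h1 0) (fun y => hm y 0) (shp_mp d L) ?_
    (hk d lam L H hlam hL hF)
  filter_upwards [h3] with p hp y
  rw [← h2 y p]
  exact hp y

end Vale.Agent.P365
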