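import Vale.Agent.P365.Stm5

open MeasureTheory Filter Topology Set

namespace Vale.Agent.P365

namespace VUcfc

theorem key {E : Type} [NormedAddCommGroup E] [InnerProductSpace ℂ E] [CompleteSpace E]
    (A : E →L[ℂ] E) (t : ℝ) (hA : IsSelfAdjoint A) :
    NormedSpace.exp ((-(t : ℂ) * Complex.I) • A) =
      cfc (fun x : ℝ => Real.cos (t * x)) A - Complex.I • cfc (fun x : ℝ => Real.sin (t * x)) A := by
  have hn : IsStarNormal A := hA.isStarNormal
  have hn' : IsStarNormal ((-(t : ℂ) * Complex.I) • A) := inferInstance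
  rw [← CFC.complex_exp_eq_normedSpace_exp hn',
    ← cfc_comp_smul (-(t : ℂ) * Complex.I) Complex.exp A (by fun_prop) hn,
    cfc_real_eq_complex _ hA, cfc_real_eq_complex _ hA,
    ← cfc_smul Complex.I _ A (by fun_prop), ← cfc_sub _ _ A (by fun_prop) (by fun_prop)]
  refine cfc_congr fun z hz => ?_
  have h0 : z.im = 0 := hA.im_eq_zero_of_mem_spectrum hz
  have e : z = (z.re : ℂ) := Complex.ext rfl (by simpa using h0)
  have e2 : (-(t : ℂ) * Complex.I) • z = ((-(t * z.re) : ℝ) : ℂ) * Complex.I := by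
    rw [smul_eq_mul]
    conv_lhs => rw [e]
    push_cast
    ring
  simp only [e2, Complex.exp_mul_I, smul_eq_mul]
  rw [← Complex.ofReal_cos, ← Complex.ofReal_sin, Real.cos_neg, Real.sin_neg]
  push_cast
  ring

end VUcfc

theorem v_ucfc : V_ucfc := by
  intro E _ _ _ A t v hA
  unfold U cf
  rw [VUcfc.key A t hA]
  rfl

end Vale.Agent.P365
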