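import Vale.Agent.P365.Stm6
import Vale.Agent.P365.VAvg

/-! The averaged lower bound. -/

open MeasureTheory Filter Topology Set
open scoped InnerProductSpace ENNReal

namespace Vale.Agent.P365

namespace WAvg

theorem per (ho : W_out) {d : ℕ} (n : ℕ) {lam : ℝ} (L M γ T : ℝ)
    {H : (Site d → ℝ) → L2 d →L[ℂ] L2 d} (hF : IsFam lam H) (hγ : 0 < γ) (hT : 0 < T)
    (ω : Site d → ℝ) (hm : Measurable (rl H 0 0))
    (hi : ∀ y, Integrable (fun e => {p | rl H 0 0 p ≤ M}.indicator (fun p => rl H y 0 p ^ 2) (ω, e))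
      (volume.restrict (Set.Ioc (-L) L))) :
    ENNReal.ofReal ((T * ((∫ e in Set.Ioc (-L) L,
        {p | rl H 0 0 p ≤ M}.indicator (rl H 0 0) (ω, e)) / Real.pi - γ) - (1 + 1 / γ) * 20 *
      ∑ y ∈ Fintype.piFinset (fun _ : Fin d => Finset.Icc (-(n : ℤ)) n),
        ∫ e in Set.Ioc (-L) L, {p | rl H 0 0 p ≤ M}.indicator (fun p => rl H y 0 p ^ 2) (ω, e))) ≤
      ∫⁻ t in Set.Ioc 0 T, esc n (U (H ω) t (dlt 0)) := by
  choose μ hμ using fun ψ => m_exspec (L2 d) (H ω) ψ (fam_sa hF ω)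
  have hc := u_conv d lam H hF ω μ hμ
  have a1 : ∀ᵐ e : ℝ, rl H 0 0 (ω, e) = Real.pi * dens (μ (dlt 0)) e :=
    hc.mono fun e he => (he.1 0).limUnder_eq
  have a2 : ∀ y, ∀ᵐ e : ℝ, rl H y 0 (ω, e) = Real.pi * kern μ y 0 e :=
    fun y => hc.mono fun e he => (he.2 y 0).limUnder_eq
  have hB : MeasurableSet {e : ℝ | rl H 0 0 (ω, e) ≤ M} :=
    measurableSet_le (hm.comp measurable_prodMk_left) measurable_const
  have e0 : ∀ f : (Site d → ℝ) × ℝ → ℝ, (fun e => {p | rl H 0 0 p ≤ M}.indicator f (ω, e)) =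
      {e : ℝ | rl H 0 0 (ω, e) ≤ M}.indicator (fun e => f (ω, e)) := fun f => rfl
  have e1 : ∀ f : (Site d → ℝ) × ℝ → ℝ,
      ∫ e in Set.Ioc (-L) L, {p | rl H 0 0 p ≤ M}.indicator f (ω, e) =
        ∫ e in {e : ℝ | rl H 0 0 (ω, e) ≤ M} ∩ Set.Ioc (-L) L, f (ω, e) := by
    intro f
    rw [e0, integral_indicator hB, Measure.restrict_restrict hB]
  have i2 : ∀ y, IntegrableOn (fun e => rl H y 0 (ω, e) ^ 2)
      ({e : ℝ | rl H 0 0 (ω, e) ≤ M} ∩ Set.Ioc (-L) L) := by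
    intro y
    have h := hi y
    rw [e0, integrable_indicator_iff hB] at h
    unfold IntegrableOn at h ⊢
    rwa [Measure.restrict_restrict hB] at h
  have hpi : (3 : ℝ) < Real.pi := Real.pi_gt_three
  have hpi0 : Real.pi ≠ 0 := Real.pi_ne_zero
  have i3 : ∀ y, IntegrableOn (fun e => kern μ y 0 e ^ 2)
      ({e : ℝ | rl H 0 0 (ω, e) ≤ M} ∩ Set.Ioc (-L) L) := by
    intro y
    refine Integrable.congr (Integrable.const_mul (i2 y) ((Real.pi ^ 2)⁻¹)) ?_
    refine ae_restrict_of_ae ((a2 y).mono fun e he => ?_)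
    show (Real.pi ^ 2)⁻¹ * rl H y 0 (ω, e) ^ 2 = kern μ y 0 e ^ 2
    rw [he]
    field_simp
  have l2 : ∀ y, ∫ e in {e : ℝ | rl H 0 0 (ω, e) ≤ M} ∩ Set.Ioc (-L) L, kern μ y 0 e ^ 2 ≤
      ∫ e in {e : ℝ | rl H 0 0 (ω, e) ≤ M} ∩ Set.Ioc (-L) L, rl H y 0 (ω, e) ^ 2 := by
    intro y
    refine integral_mono_ae (i3 y) (i2 y) (ae_restrict_of_ae ((a2 y).mono fun e he => ?_))
    show kern μ y 0 e ^ 2 ≤ rl H y 0 (ω, e) ^ 2
    rw [he, mul_pow]
    have h9 : (1 : ℝ) ≤ Real.pi ^ 2 := by nlinarith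
    exact le_mul_of_one_le_left (sq_nonneg _) h9
  have l1 : (∫ e in {e : ℝ | rl H 0 0 (ω, e) ≤ M} ∩ Set.Ioc (-L) L, rl H 0 0 (ω, e)) / Real.pi =
      ∫ e in {e : ℝ | rl H 0 0 (ω, e) ≤ M} ∩ Set.Ioc (-L) L, dens (μ (dlt 0)) e := by
    rw [integral_congr_ae (ae_restrict_of_ae a1), integral_const_mul]
    field_simp
  have hst : ∀ ψ, star (H ω ψ) = H ω (star ψ) := fun ψ => Rank.ext_app fun x => by
    rw [Rank.star_app, hF ω ψ x, hF ω (star ψ) x]
    simp only [Rank.star_app, map_add, map_sum, map_mul, Complex.conj_ofReal]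
  have key := ho d n (H ω) μ _ γ T (fam_sa hF ω) hst hμ (hB.inter measurableSet_Ioc) hγ hT i3
  refine le_trans (ENNReal.ofReal_le_ofReal ?_) key
  rw [e1, l1]
  refine sub_le_sub_left ?_ _
  refine mul_le_mul_of_nonneg_left (Finset.sum_le_sum fun y _ => ?_) (by positivity)
  rw [e1]
  exact l2 y

end WAvg

theorem w_avg : W_out → V_int → V_tau → W_avg := by
  intro ho hi ht d n lam L M γ T H hl hL hM hγ hT hF
  have hm : Measurable (rl H 0 0) := (u_ae d lam L H hF).1 0 0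
  have hS : MeasurableSet {p | rl H 0 0 p ≤ M} := measurableSet_le hm measurable_const
  have i1 : Integrable ({p | rl H 0 0 p ≤ M}.indicator (rl H 0 0)) (nu d L) :=
    ((hi d lam L H hF).1 0).indicator hS
  have i2 := (ht d lam L M H hl hL hM hF).1
  unfold nu at i1 i2 ⊢
  have j1 := i1.integral_prod_left
  have j2 := fun y => (i2 y).integral_prod_left
  have hae : ∀ᵐ ω ∂(PP d), ∀ y, Integrable
      (fun e => {p | rl H 0 0 p ≤ M}.indicator (fun p => rl H y 0 p ^ 2) (ω, e))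
        (volume.restrict (Set.Ioc (-L) L)) := ae_all_iff.2 fun y => (i2 y).prod_right_ae
  have j3 : Integrable (fun ω => ∑ y ∈ Fintype.piFinset (fun _ : Fin d => Finset.Icc (-(n : ℤ)) n),
      ∫ e in Set.Ioc (-L) L, {p | rl H 0 0 p ≤ M}.indicator (fun p => rl H y 0 p ^ 2) (ω, e))
        (PP d) := integrable_finsetSum _ fun y _ => j2 y
  have j4 : Integrable (fun ω => T * ((∫ e in Set.Ioc (-L) L,
      {p | rl H 0 0 p ≤ M}.indicator (rl H 0 0) (ω, e)) / Real.pi - γ)) (PP d) :=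
    ((j1.div_const _).sub (integrable_const γ)).const_mul T
  have j5 := j4.sub (j3.const_mul ((1 + 1 / γ) * 20))
  refine le_trans ?_ (lintegral_mono_ae (hae.mono fun ω hω =>
    WAvg.per ho n L M γ T hF hγ hT ω hm hω))
  refine le_trans (le_of_eq ?_) (VAvg.ofReal_int_le (PP d) _ j5)
  refine congrArg ENNReal.ofReal ?_
  symm
  show ∫ ω, (T * ((∫ e in Set.Ioc (-L) L,
      {p | rl H 0 0 p ≤ M}.indicator (rl H 0 0) (ω, e)) / Real.pi - γ) - (1 + 1 / γ) * 20 *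
    ∑ y ∈ Fintype.piFinset (fun _ : Fin d => Finset.Icc (-(n : ℤ)) n), ∫ e in Set.Ioc (-L) L,
      {p | rl H 0 0 p ≤ M}.indicator (fun p => rl H y 0 p ^ 2) (ω, e)) ∂(PP d) = _
  rw [integral_sub j4 (j3.const_mul _), integral_const_mul, integral_const_mul,
    integral_sub (j1.div_const _) (integrable_const γ), integral_div, integral_const,
    integral_finsetSum _ (fun y _ => j2 y), integral_prod _ i1]
  simp only [probReal_univ, smul_eq_mul, one_mul]
  rw [Finset.sum_congr rfl fun y _ => integral_prod _ (i2 y)]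

end Vale.Agent.P365
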