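import Vale.Agent.P365.Stm6
import Vale.Agent.P365.VEnd

/-! End game for the escape form. -/

open MeasureTheory Filter Topology Set
open scoped InnerProductSpace ENNReal

namespace Vale.Agent.P365

theorem w_end (d : ℕ) (hd : 0 < d) (τ : Site d → ℝ) (α a K : ℝ) (F : ℕ → ℝ → ℝ≥0∞)
    (hτ : ∀ y, 0 ≤ τ y) (hlim : Tendsto τ cofinite (𝓝 0)) (hK : 0 < K) (ha : a < α)
    (hF : ∀ (n : ℕ) (γ T : ℝ), 0 < γ → 0 < T →
      ENNReal.ofReal (T * (α - γ) - (1 + 1 / γ) * 20 *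
        ∑ y ∈ Fintype.piFinset (fun _ : Fin d => Finset.Icc (-(n : ℤ)) n), τ y) ≤ F n T) :
    ∀ᶠ T in atTop, ENNReal.ofReal (a * T) ≤ F ⌈K * T ^ (1 / (d : ℝ))⌉₊ T := by
  set β : ℝ := (α - a) / 3 with hβ
  have hβ0 : 0 < β := by rw [hβ]; linarith
  set c : ℝ := (1 + 1 / β) * 20 with hc
  have hc0 : 0 < c := by positivity
  set P : ℝ := (2 * K + 3) ^ d with hP
  have hP0 : 0 < P := by positivity
  set ε : ℝ := β / (c * P) with hε
  have hε0 : 0 < ε := by positivity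
  have hev : ∀ᶠ y in cofinite, τ y < ε := hlim.eventually (gt_mem_nhds hε0)
  have hfin : {y | ¬ τ y < ε}.Finite := Filter.eventually_cofinite.1 hev
  set G := hfin.toFinset with hG
  have hGε : ∀ y, y ∉ G → τ y ≤ ε := by
    intro y hy
    by_contra h
    apply hy
    rw [hG, Set.Finite.mem_toFinset]
    intro h'
    exact h h'.le
  set SG : ℝ := ∑ y ∈ G, τ y with hSG
  filter_upwards [eventually_ge_atTop (1 : ℝ), eventually_ge_atTop (c * SG / β)] with T hT1 hT2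
  have hT0 : 0 < T := by linarith
  have hd0 : (d : ℝ) ≠ 0 := by positivity
  set s : ℝ := T ^ (1 / (d : ℝ)) with hs
  have hs1 : 1 ≤ s := Real.one_le_rpow hT1 (by positivity)
  have hsd : s ^ d = T := by
    rw [hs, ← Real.rpow_natCast, ← Real.rpow_mul hT0.le, one_div_mul_cancel hd0, Real.rpow_one]
  set n : ℕ := ⌈K * s⌉₊ with hn
  have hn2 : (n : ℝ) < K * s + 1 := Nat.ceil_lt_add_one (by positivity)
  have hn3 : 2 * (n : ℝ) + 1 ≤ (2 * K + 3) * s := by nlinarith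
  have hn4 : (2 * (n : ℝ) + 1) ^ d ≤ P * T := by
    rw [hP, ← hsd, ← mul_pow]
    exact pow_le_pow_left₀ (by positivity) hn3 d
  have hb := VEnd.box_le d n τ ε G hτ hε0.le hGε
  refine le_trans (ENNReal.ofReal_le_ofReal ?_) (hF n β T hβ0 hT0)
  set Bx : ℝ := ∑ y ∈ Fintype.piFinset (fun _ : Fin d => Finset.Icc (-(n : ℤ)) n), τ y with hBx
  have h1 : c * SG ≤ T * β := by
    rw [div_le_iff₀ hβ0] at hT2
    linarith
  have h2 : c * (ε * (2 * (n : ℝ) + 1) ^ d) ≤ T * β := by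
    have h3 : c * (ε * (P * T)) = T * β := by
      rw [hε]; field_simp
    rw [← h3]
    gcongr
  have h4 := mul_le_mul_of_nonneg_left hb hc0.le
  rw [mul_add] at h4
  have h5 : T * (α - β) = a * T + T * β + T * β := by rw [hβ]; ring
  rw [← hc]
  linarith

theorem esc_anti {d : ℕ} {R R' : ℝ} (h : R ≤ R') (ψ : L2 d) : esc R' ψ ≤ esc R ψ := by
  refine ENNReal.tsum_le_tsum fun x => ?_
  split_ifs with h1 h2
  · exact le_rfl
  · exact absurd (h.trans_lt h1) h2
  · exact zero_le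
  · exact le_rfl

end Vale.Agent.P365
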