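import Vale.Agent.P365.Stm6

/-! The mean absolutely continuous mass. -/

open MeasureTheory Filter Topology Set
open scoped InnerProductSpace ENNReal

namespace Vale.Agent.P365

theorem w_trunc (hi : V_int) {d : ℕ} {lam : ℝ} {H : (Site d → ℝ) → L2 d →L[ℂ] L2 d}
    (hF : IsFam lam H) (L M : ℝ) :
    ENNReal.ofReal ((∫ p, {p | rl H 0 0 p ≤ M}.indicator (rl H 0 0) p ∂(nu d L)) / Real.pi) =
      ∫⁻ p, ({p | rl H 0 0 p ≤ M} ∩ Set.univ ×ˢ Set.Ioc (-L) L).indicator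
        (fun p => ENNReal.ofReal (rl H 0 0 p / Real.pi)) p ∂((PP d).prod volume) := by
  have hm : Measurable (rl H 0 0) := (u_ae d lam L H hF).1 0 0
  have hS : MeasurableSet {p | rl H 0 0 p ≤ M} := measurableSet_le hm measurable_const
  have hI : MeasurableSet ((Set.univ : Set (Site d → ℝ)) ×ˢ Set.Ioc (-L) L) :=
    MeasurableSet.univ.prod measurableSet_Ioc
  have hn : nu d L = ((PP d).prod volume).restrict (Set.univ ×ˢ Set.Ioc (-L) L) := by
    unfold nu
    rw [← Measure.prod_restrict, Measure.restrict_univ]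
  rw [lintegral_indicator (hS.inter hI), ← Measure.restrict_restrict hS, ← hn,
    ← lintegral_indicator hS, ← integral_div, ofReal_integral_eq_lintegral_ofReal
      ((((hi d lam L H hF).1 0).indicator hS).div_const _)]
  · refine lintegral_congr fun p => ?_
    by_cases h : p ∈ {p | rl H 0 0 p ≤ M}
    · rw [Set.indicator_of_mem h, Set.indicator_of_mem h]
    · rw [Set.indicator_of_notMem h, Set.indicator_of_notMem h, zero_div, ENNReal.ofReal_zero]
  · filter_upwards [(hi d lam L H hF).2.2] with p hp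
    refine div_nonneg ?_ Real.pi_pos.le
    by_cases h : p ∈ {p | rl H 0 0 p ≤ M}
    · rw [Set.indicator_of_mem h]; exact (hp 0).1
    · rw [Set.indicator_of_notMem h]

theorem w_mass {d : ℕ} {lam : ℝ} {H : (Site d → ℝ) → L2 d →L[ℂ] L2 d}
    (hF : IsFam lam H) (μ₀ : (Site d → ℝ) → Measure ℝ)
    (h0 : ∀ᵐ ω ∂(PP d), IsSpec (H ω) (dlt 0) (μ₀ ω)) :
    ∫⁻ ω, (∫⁻ e, (μ₀ ω).rnDeriv volume e) ∂(PP d) =
      ∫⁻ p, ENNReal.ofReal (rl H 0 0 p / Real.pi) ∂((PP d).prod volume) := by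
  have hm : Measurable (rl H 0 0) := (u_ae d lam 1 H hF).1 0 0
  rw [lintegral_prod _ (hm.div_const _).ennreal_ofReal.aemeasurable]
  refine lintegral_congr_ae (h0.mono fun ω hω => ?_)
  choose μ hμ using fun ψ => m_exspec (L2 d) (H ω) ψ (fam_sa hF ω)
  have h1 : μ₀ ω = μ (dlt 0) := (o_uniq _ _ _ _ (fam_sa hF ω) (hμ _)).2 _ hω
  have h2 := (hμ (dlt 0)).1
  refine lintegral_congr_ae ?_
  filter_upwards [u_conv d lam H hF ω μ hμ, Measure.rnDeriv_lt_top (μ (dlt 0)) volume] with e h3 h4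
  have h5 : rl H 0 0 (ω, e) = Real.pi * dens (μ (dlt 0)) e := (h3.1 0).limUnder_eq
  rw [h5, mul_div_cancel_left₀ _ Real.pi_ne_zero, h1, dens, ENNReal.ofReal_toReal h4.ne]

theorem w_sup (hi : V_int) {d : ℕ} {lam : ℝ} {H : (Site d → ℝ) → L2 d →L[ℂ] L2 d}
    (hF : IsFam lam H) (a : ℝ)
    (ha : ENNReal.ofReal a < ∫⁻ p, ENNReal.ofReal (rl H 0 0 p / Real.pi) ∂((PP d).prod volume)) :
    ∃ L : ℝ, 0 < L ∧
      a < (∫ p, {p | rl H 0 0 p ≤ L}.indicator (rl H 0 0) p ∂(nu d L)) / Real.pi := by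
  have hm : Measurable (rl H 0 0) := (u_ae d lam 1 H hF).1 0 0
  have h1 : ∫⁻ p, ENNReal.ofReal (rl H 0 0 p / Real.pi) ∂((PP d).prod volume) =
      ⨆ k : ℕ, ∫⁻ p, ({p | rl H 0 0 p ≤ (k : ℝ) + 1} ∩
        Set.univ ×ˢ Set.Ioc (-((k : ℝ) + 1)) ((k : ℝ) + 1)).indicator
        (fun p => ENNReal.ofReal (rl H 0 0 p / Real.pi)) p ∂((PP d).prod volume) := by
    rw [← lintegral_iSup]
    · refine lintegral_congr fun p => le_antisymm ?_ (iSup_le fun k => Set.indicator_le_self _ _ p)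
      obtain ⟨k, hk⟩ := exists_nat_gt (max (rl H 0 0 p) |p.2|)
      have h2 := (le_max_left _ _).trans_lt hk
      have h3 := abs_lt.1 ((le_max_right _ _).trans_lt hk)
      refine le_iSup_of_le k (le_of_eq ?_)
      rw [Set.indicator_of_mem]
      exact ⟨show rl H 0 0 p ≤ (k : ℝ) + 1 by linarith, Set.mem_univ _, by linarith [h3.1],
        by linarith [h3.2]⟩
    · exact fun k => (hm.div_const _).ennreal_ofReal.indicator
        ((measurableSet_le hm measurable_const).inter (MeasurableSet.univ.prod measurableSet_Ioc))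
    · intro k l hkl p
      have h2 : (k : ℝ) ≤ l := Nat.cast_le.2 hkl
      refine Set.indicator_le_indicator_of_subset ?_ (fun _ => zero_le) p
      rintro q ⟨q1, -, q2, q3⟩
      have q4 : rl H 0 0 q ≤ (k : ℝ) + 1 := q1
      exact ⟨show rl H 0 0 q ≤ (l : ℝ) + 1 by linarith, Set.mem_univ _, by linarith, by linarith⟩
  rw [h1, lt_iSup_iff] at ha
  obtain ⟨k, hk⟩ := ha
  rw [← w_trunc hi hF] at hk
  exact ⟨(k : ℝ) + 1, by positivity,
    lt_of_not_ge fun h => not_le.2 hk (ENNReal.ofReal_le_ofReal h)⟩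

theorem w_nil (hi : V_int) {d : ℕ} {lam : ℝ} {H : (Site d → ℝ) → L2 d →L[ℂ] L2 d}
    (hF : IsFam lam H)
    (ha : ∫⁻ p, ENNReal.ofReal (rl H 0 0 p / Real.pi) ∂((PP d).prod volume) = 0) (L M : ℝ) :
    ∫ p, {p | rl H 0 0 p ≤ M}.indicator (rl H 0 0) p ∂(nu d L) ≤ 0 := by
  have h1 := w_trunc hi hF L M
  have h2 := h1.le.trans ((lintegral_mono fun p => Set.indicator_le_self _ _ p).trans ha.le)
  rwa [nonpos_iff_eq_zero, ENNReal.ofReal_eq_zero, div_le_iff₀ Real.pi_pos, zero_mul] at h2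

end Vale.Agent.P365
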