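import Vale.Agent.P365.Stm6
import Vale.Agent.P365.VOut

/-! Escape probability for a fixed potential. -/

open MeasureTheory Filter Topology Set
open scoped InnerProductSpace ENNReal

namespace Vale.Agent.P365

namespace WOut

theorem sq_le (a b : ℂ) {γ : ℝ} (hγ : 0 < γ) :
    ‖a‖ ^ 2 ≤ (1 + γ) * ‖a - b‖ ^ 2 + (1 + 1 / γ) * ‖b‖ ^ 2 := by
  have h1 : ‖a‖ ≤ ‖a - b‖ + ‖b‖ := by simpa using norm_add_le (a - b) b
  have h2 : ‖a‖ ^ 2 ≤ (‖a - b‖ + ‖b‖) ^ 2 := pow_le_pow_left₀ (norm_nonneg _) h1 2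
  have h3 : 2 * ‖a - b‖ * ‖b‖ ≤ γ * ‖a - b‖ ^ 2 + 1 / γ * ‖b‖ ^ 2 := by
    have h4 : γ * ‖a - b‖ ^ 2 + 1 / γ * ‖b‖ ^ 2 - 2 * ‖a - b‖ * ‖b‖ =
        (γ * ‖a - b‖ - ‖b‖) ^ 2 / γ := by
      field_simp
      ring
    have h5 : 0 ≤ (γ * ‖a - b‖ - ‖b‖) ^ 2 / γ := by positivity
    linarith
  nlinarith

theorem hasSum_sq {d : ℕ} (ψ : L2 d) : HasSum (fun x => ‖ψ x‖ ^ 2) (‖ψ‖ ^ 2) := by
  have h := lp.hasSum_norm (p := 2) (by norm_num) ψ
  have h22 : (2 : ENNReal).toReal = ((2 : ℕ) : ℝ) := by norm_num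
  simpa only [h22, Real.rpow_natCast] using h

theorem out {d n : ℕ} {x : Site d}
    (hx : x ∉ Fintype.piFinset (fun _ : Fin d => Finset.Icc (-(n : ℤ)) n)) :
    (n : ℝ) < Real.sqrt (∑ i : Fin d, ((x i : ℤ) : ℝ) ^ 2) := by
  rw [Fintype.mem_piFinset, not_forall] at hx
  obtain ⟨i, hi⟩ := hx
  rw [Finset.mem_Icc, ← abs_le, not_le] at hi
  have h1 : (n : ℝ) < |((x i : ℤ) : ℝ)| := by exact_mod_cast hi
  refine h1.trans_le (Real.abs_le_sqrt ?_)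
  exact Finset.single_le_sum (f := fun i => ((x i : ℤ) : ℝ) ^ 2) (fun _ _ => sq_nonneg _)
    (Finset.mem_univ i)

end WOut

theorem w_box : W_box := by
  classical
  intro d n ψ χ α γ hγ hα h1 h2
  set B := Fintype.piFinset (fun _ : Fin d => Finset.Icc (-(n : ℤ)) n) with hB
  have h3 : ∑ y ∈ B, ‖(ψ - χ) y‖ ^ 2 ≤ 1 - α := by
    rw [← h2]
    exact sum_le_hasSum _ (fun _ _ => sq_nonneg _) (WOut.hasSum_sq _)
  have h4 : ∑ y ∈ B, ‖ψ y‖ ^ 2 ≤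
      (1 + γ) * ∑ y ∈ B, ‖(ψ - χ) y‖ ^ 2 + (1 + 1 / γ) * ∑ y ∈ B, ‖χ y‖ ^ 2 := by
    rw [Finset.mul_sum, Finset.mul_sum, ← Finset.sum_add_distrib]
    refine Finset.sum_le_sum fun y _ => ?_
    rw [MGsym.sub_app]
    exact WOut.sq_le _ _ hγ
  have h5 : HasSum (fun x => if x ∈ B then 0 else ‖ψ x‖ ^ 2) (1 - ∑ y ∈ B, ‖ψ y‖ ^ 2) := by
    have k1 := WOut.hasSum_sq ψ
    rw [h1, one_pow] at k1
    have k2 : HasSum (fun x => if x ∈ B then ‖ψ x‖ ^ 2 else 0) (∑ y ∈ B, ‖ψ y‖ ^ 2) := by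
      have k3 : HasSum (fun x => if x ∈ B then ‖ψ x‖ ^ 2 else 0)
          (∑ y ∈ B, if y ∈ B then ‖ψ y‖ ^ 2 else 0) :=
        hasSum_sum_of_ne_finset_zero fun y hy => if_neg hy
      rwa [Finset.sum_congr rfl fun y hy => if_pos hy] at k3
    have k4 : (fun x => if x ∈ B then 0 else ‖ψ x‖ ^ 2) =
        fun x => ‖ψ x‖ ^ 2 - if x ∈ B then ‖ψ x‖ ^ 2 else 0 := by
      funext x
      split_ifs <;> simp
    rw [k4]
    exact k1.sub k2
  have h6 : α - γ - (1 + 1 / γ) * ∑ y ∈ B, ‖χ y‖ ^ 2 ≤ 1 - ∑ y ∈ B, ‖ψ y‖ ^ 2 := by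
    nlinarith
  refine (ENNReal.ofReal_le_ofReal h6).trans ?_
  rw [← h5.tsum_eq, ENNReal.ofReal_tsum_of_nonneg (fun x => by positivity) h5.summable]
  refine ENNReal.tsum_le_tsum fun x => ?_
  by_cases hx : x ∈ B
  · rw [if_pos hx, ENNReal.ofReal_zero]
    exact zero_le
  · rw [if_neg hx, if_pos (WOut.out hx)]

theorem w_out : V_plan → V_chi → W_out := by
  intro hp hchi d n A μ S₀ γ T hA hs hμ hS hγ hT hk
  obtain ⟨χ, h1, h2⟩ := hchi d A μ S₀ hA hs hμ hS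
  have hα : 0 ≤ ∫ e in S₀, dens (μ (dlt 0)) e := integral_nonneg fun _ => ENNReal.toReal_nonneg
  have hc : ∀ y, Continuous fun t : ℝ => ‖(U A t χ) y‖ ^ 2 := fun y => by
    simp only [← inner_dlt]
    exact (continuous_const.inner (continuous_U_apply A χ)).norm.pow 2
  have hg := fun t : ℝ => w_box d n (U A t (dlt 0)) (U A t χ) _ γ hγ hα
    (by rw [norm_U hA, norm_dlt]) (by rw [← map_sub, norm_U hA, h1])
  refine le_trans ?_ (lintegral_mono hg)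
  have hcg : Continuous fun t : ℝ => ((∫ e in S₀, dens (μ (dlt 0)) e) - γ -
      (1 + 1 / γ) * ∑ y ∈ Fintype.piFinset (fun _ : Fin d => Finset.Icc (-(n : ℤ)) n),
        ‖(U A t χ) y‖ ^ 2) :=
    continuous_const.sub (continuous_const.mul (continuous_finsetSum _ fun y _ => hc y))
  refine le_trans (ENNReal.ofReal_le_ofReal ?_)
    (VOut.ofReal_le _ (hcg.integrableOn_Icc.mono_set Ioc_subset_Icc_self))
  have h3 := VOut.avg (Fintype.piFinset (fun _ : Fin d => Finset.Icc (-(n : ℤ)) n)) _ hc 1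
    ((∫ e in S₀, dens (μ (dlt 0)) e) - γ) (1 + 1 / γ) T
  simp only [one_mul] at h3
  rw [← intervalIntegral.integral_of_le hT.le, h3]
  refine sub_le_sub_left ?_ _
  rw [mul_assoc, Finset.mul_sum _ _ (20 : ℝ)]
  refine mul_le_mul_of_nonneg_left (Finset.sum_le_sum fun y _ => ?_) (by positivity)
  simp only [h2]
  have f1 := (hμ (dlt y + dlt 0)).1
  have f2 := (hμ (dlt y)).1
  have f3 := (hμ (dlt 0)).1
  exact VOut.plan hp hT hS
    ((((VOut.meas_dens _).sub (VOut.meas_dens _)).sub (VOut.meas_dens _)).div_const 2)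
    ((((VOut.int_dens _).sub (VOut.int_dens _)).sub (VOut.int_dens _)).div_const 2) (hk y)

end Vale.Agent.P365
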