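import Vale.Agent.P365.VKer
import Vale.Agent.P365.VPlan0
import Vale.Agent.P365.VPlan
import Vale.Agent.P365.VUcfc
import Vale.Agent.P365.VReal
import Vale.Agent.P365.VMix
import Vale.Agent.P365.VSing
import Vale.Agent.P365.VChi
import Vale.Agent.P365.VBox
import Vale.Agent.P365.VOut
import Vale.Agent.P365.VKey
import Vale.Agent.P365.VInt
import Vale.Agent.P365.VTau
import Vale.Agent.P365.VAvg
import Vale.Agent.P365.VEnd
import Vale.Agent.P365.VZero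
import Vale.Agent.P365.VNoac
import Vale.Agent.P365.VMain
import Vale.Agent.P365.WAvg
import Vale.Agent.P365.WEnd
import Vale.Agent.P365.WMass
import Vale.Agent.P365.WOut

/-! Final assembly of the strict Guarneri bound. -/

open MeasureTheory Filter Topology Set
open scoped InnerProductSpace ENNReal

namespace Vale.Agent.P365

theorem x_plan : V_plan := v_plan v_ker (v_plan0 v_ker)

theorem x_chi : V_chi := v_chi v_ucfc v_real v_mix v_sing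

theorem x_tau : V_tau := v_tau v_key v_int

theorem x_avg : V_avg := v_avg (v_out x_plan x_chi v_box) v_int x_tau

theorem x_wavg : W_avg := w_avg (w_out x_plan x_chi) v_int x_tau

theorem x_mom (d : ℕ) (hd : 0 < d) (lam : ℝ) (hlam : 0 < lam)
    (H : (Site d → ℝ) → L2 d →L[ℂ] L2 d)
    (hH : ∀ ω : Site d → ℝ, (∀ x, ω x ∈ Set.Icc (-1 : ℝ) 1) → IsAnderson lam ω (H ω)) :
    (∀ᵐ ω ∂(PP d), ∀ μ : L2 d → Measure ℝ, (∀ ψ, IsSpec (H ω) ψ (μ ψ)) →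
      ∀ φ : L2 d, μ φ ≪ volume → φ = 0) ∨
    Tendsto (fun T : ℝ => (∫⁻ ω, (∫⁻ t in Set.Ioc 0 T, mom (U (H ω) t (dlt 0))) ∂(PP d)) /
      ENNReal.ofReal (T * T ^ (2 / (d : ℝ)))) atTop (𝓝 ⊤) :=
  v_main x_tau x_avg v_end (v_zero v_int) v_noac d hd lam hlam H hH

theorem x_fam (d : ℕ) (hd : 0 < d) (lam : ℝ) (hlam : 0 < lam)
    (H : (Site d → ℝ) → L2 d →L[ℂ] L2 d) (hF : IsFam lam H) (μ₀ : (Site d → ℝ) → Measure ℝ)
    (h0 : ∀ᵐ ω ∂(PP d), IsSpec (H ω) (dlt 0) (μ₀ ω)) :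
    (∫⁻ ω, (∫⁻ e, (μ₀ ω).rnDeriv volume e) ∂(PP d) = 0 →
      ∀ᵐ ω ∂(PP d), ∀ μ : L2 d → Measure ℝ, (∀ ψ, IsSpec (H ω) ψ (μ ψ)) →
        ∀ φ : L2 d, μ φ ≪ volume → φ = 0) ∧
    ∀ K : ℝ, 0 < K → ∫⁻ ω, (∫⁻ e, (μ₀ ω).rnDeriv volume e) ∂(PP d) ≤
      liminf (fun T : ℝ => (∫⁻ ω, (∫⁻ t in Set.Ioc 0 T,
        esc (K * T ^ (1 / (d : ℝ))) (U (H ω) t (dlt 0))) ∂(PP d)) / ENNReal.ofReal T) atTop := by
  rw [w_mass hF μ₀ h0]
  refine ⟨fun hz => ?_, fun K hK => ?_⟩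
  · filter_upwards [v_zero v_int d lam H hF fun L M _ _ => w_nil v_int hF hz L M] with ω h μ hμ
    exact v_noac d (H ω) μ (fam_sa hF ω) hμ (h μ hμ)
  · refine ENNReal.le_of_forall_nnreal_lt fun r hr => ?_
    rw [← ENNReal.ofReal_coe_nnreal] at hr ⊢
    obtain ⟨L, hL, ha⟩ := w_sup v_int hF r hr
    have h1 := w_end d hd _ _ r K
      (fun n T => ∫⁻ ω, (∫⁻ t in Set.Ioc 0 T, esc n (U (H ω) t (dlt 0))) ∂(PP d))
      (fun y => integral_nonneg fun p => Set.indicator_nonneg (fun _ _ => sq_nonneg _) p)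
      (x_tau d lam L L H hlam hL hL hF).2 hK ha
      (fun n γ T hγ hT => x_wavg d n lam L L γ T H hlam hL hL hγ hT hF)
    refine le_liminf_of_le (h := ?_)
    filter_upwards [h1, eventually_gt_atTop 0] with T h2 hT
    rw [ENNReal.le_div_iff_mul_le (Or.inl (ENNReal.ofReal_pos.2 hT).ne')
      (Or.inl ENNReal.ofReal_ne_top), ← ENNReal.ofReal_mul r.coe_nonneg]
    exact h2.trans (lintegral_mono fun ω => lintegral_mono fun t => esc_anti (Nat.le_ceil _) _)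

theorem x_ae (d : ℕ) (lam : ℝ) (H : (Site d → ℝ) → L2 d →L[ℂ] L2 d)
    (hH : ∀ ω : Site d → ℝ, (∀ x, ω x ∈ Set.Icc (-1 : ℝ) 1) → IsAnderson lam ω (H ω)) :
    ∃ Hc : (Site d → ℝ) → L2 d →L[ℂ] L2 d, IsFam lam Hc ∧ ∀ᵐ ω ∂(PP d), H ω = Hc ω := by
  choose Hc hHc using fun ω : Site d → ℝ =>
    (t_model d lam).1 (fun x => clip (ω x)) (fun x => abs_clip_le (ω x))
  refine ⟨Hc, hHc, ?_⟩
  filter_upwards [(s_slice d).2.2] with ω hω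
  have hc : (fun x => clip (ω x)) = ω := funext fun x => MainA.clip_eq (hω x)
  have h3 : IsAnderson lam ω (Hc ω) := by
    have := hHc ω
    rwa [hc] at this
  exact MainA.and_ext (hH ω hω) h3

theorem x_esc (d : ℕ) (hd : 0 < d) (lam : ℝ) (hlam : 0 < lam)
    (H : (Site d → ℝ) → L2 d →L[ℂ] L2 d)
    (hH : ∀ ω : Site d → ℝ, (∀ x, ω x ∈ Set.Icc (-1 : ℝ) 1) → IsAnderson lam ω (H ω))
    (μ₀ : (Site d → ℝ) → Measure ℝ) (h0 : ∀ᵐ ω ∂(PP d), IsSpec (H ω) (dlt 0) (μ₀ ω)) :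
    (∫⁻ ω, (∫⁻ e, (μ₀ ω).rnDeriv volume e) ∂(PP d) = 0 →
      ∀ᵐ ω ∂(PP d), ∀ μ : L2 d → Measure ℝ, (∀ ψ, IsSpec (H ω) ψ (μ ψ)) →
        ∀ φ : L2 d, μ φ ≪ volume → φ = 0) ∧
    ∀ K : ℝ, 0 < K → ∫⁻ ω, (∫⁻ e, (μ₀ ω).rnDeriv volume e) ∂(PP d) ≤
      liminf (fun T : ℝ => (∫⁻ ω, (∫⁻ t in Set.Ioc 0 T,
        esc (K * T ^ (1 / (d : ℝ))) (U (H ω) t (dlt 0))) ∂(PP d)) / ENNReal.ofReal T) atTop := by
  obtain ⟨Hc, hF, hae⟩ := x_ae d lam H hH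
  obtain ⟨h1, h2⟩ := x_fam d hd lam hlam Hc hF μ₀ (by
    filter_upwards [h0, hae] with ω h3 h4
    rwa [← h4])
  refine ⟨fun hz => ?_, fun K hK => (h2 K hK).trans (le_of_eq ?_)⟩
  · filter_upwards [h1 hz, hae] with ω h3 h4
    rwa [h4]
  · congr 1
    funext T
    congr 1
    refine lintegral_congr_ae ?_
    filter_upwards [hae] with ω h
    rw [h]

end Vale.Agent.P365
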