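import Vale.Agent.P365.Fin5
import Vale.Agent.P365.Defs6

/-! Reformulation with named definitions. -/

open MeasureTheory Filter Topology Set
open scoped InnerProductSpace ENNReal

namespace Vale.Agent.P365

theorem y_noac {d : ℕ} {A : L2 d →L[ℂ] L2 d} (hA : IsSelfAdjoint A)
    (h : ∀ μ : L2 d → Measure ℝ, (∀ ψ, IsSpec A ψ (μ ψ)) → ∀ φ : L2 d, μ φ ≪ volume → φ = 0) :
    NoAC A := by
  intro φ ν hν hac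
  choose μ hμ using fun ψ => m_exspec (L2 d) A ψ hA
  refine h μ hμ φ ?_
  rwa [← (o_uniq _ A φ _ hA (hμ φ)).2 ν hν]

theorem y_ae {d : ℕ} {lam : ℝ} {H : (Site d → ℝ) → L2 d →L[ℂ] L2 d}
    (hH : ∀ ω : Site d → ℝ, (∀ x, ω x ∈ Set.Icc (-1 : ℝ) 1) → IsAnderson lam ω (H ω))
    (h : ∀ᵐ ω ∂(PP d), ∀ μ : L2 d → Measure ℝ, (∀ ψ, IsSpec (H ω) ψ (μ ψ)) →
      ∀ φ : L2 d, μ φ ≪ volume → φ = 0) : ∀ᵐ ω ∂(PP d), NoAC (H ω) := by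
  filter_upwards [h, (s_slice d).2.2] with ω h1 hω
  exact y_noac ((t_model d lam).2.1 ω (H ω) (fun x => abs_le.mpr (hω x)) (hH ω hω)).1 h1

theorem y_ex (d : ℕ) (lam : ℝ) (ω : Site d → ℝ) (hω : ∀ x, ω x ∈ Set.Icc (-1 : ℝ) 1) :
    ∃ H : L2 d →L[ℂ] L2 d, IsAnderson lam ω H ∧ IsSelfAdjoint H ∧
      ∀ ψ : L2 d, ∃! μ : Measure ℝ, IsSpec H ψ μ := by
  obtain ⟨h1, h2, -⟩ := t_model d lam
  obtain ⟨H, hH⟩ := h1 ω (fun x => abs_le.mpr (hω x))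
  have hsa := (h2 ω H (fun x => abs_le.mpr (hω x)) hH).1
  refine ⟨H, hH, hsa, fun ψ => ?_⟩
  obtain ⟨μ, hμ⟩ := m_exspec _ H ψ hsa
  exact ⟨μ, hμ, fun μ' h' => (o_uniq _ H ψ μ hsa hμ).2 μ' h'⟩

end Vale.Agent.P365
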