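import Vale.Agent.P365.Stm

open MeasureTheory Filter Topology Set
open scoped InnerProductSpace

namespace Vale.Agent.P365

namespace Hilb

lemma per (j k : ℕ) :
    Complex.exp ((((k : ℂ) - (j : ℂ)) * Complex.I) * ((2 * Real.pi : ℝ) : ℂ)) = 1 := by
  have h := Complex.exp_int_mul_two_pi_mul_I ((k : ℤ) - (j : ℤ))
  rw [← h]
  refine congrArg Complex.exp ?_
  push_cast
  ring

lemma ne (j k : ℕ) (h : j ≠ k) : ((k : ℂ) - (j : ℂ)) ≠ 0 := by
  rw [sub_ne_zero]
  exact_mod_cast h.symm

lemma I1 (j k : ℕ) :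
    ∫ t in (0 : ℝ)..(2 * Real.pi), Complex.exp ((((k : ℂ) - (j : ℂ)) * Complex.I) * (t : ℂ)) =
      if j = k then ((2 * Real.pi : ℝ) : ℂ) else 0 := by
  split_ifs with h
  · subst h
    simp
  · rw [integral_exp_mul_complex (mul_ne_zero (ne j k h) Complex.I_ne_zero), per]
    simp

lemma I2 (j k : ℕ) :
    ∫ t in (0 : ℝ)..(2 * Real.pi), ((Real.pi : ℂ) - (t : ℂ)) *
      Complex.exp ((((k : ℂ) - (j : ℂ)) * Complex.I) * (t : ℂ)) =
      -(2 * Real.pi * Complex.I) / ((j : ℂ) - (k : ℂ)) := by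
  by_cases h : j = k
  · subst h
    have hd : ∀ t ∈ uIcc (0 : ℝ) (2 * Real.pi),
        HasDerivAt (fun s : ℝ => (Real.pi : ℂ) * (s : ℂ) - (s : ℂ) * (s : ℂ) / 2)
          ((Real.pi : ℂ) - (t : ℂ)) t := by
      intro t _
      have h1 : HasDerivAt (fun z : ℂ => (Real.pi : ℂ) * z - z * z / 2)
          ((Real.pi : ℂ) * 1 - (1 * (t : ℂ) + (t : ℂ) * 1) / 2) (t : ℂ) :=
        ((hasDerivAt_id' _).const_mul _).sub
          (((hasDerivAt_id' _).mul (hasDerivAt_id' _)).div_const _)
      exact h1.comp_ofReal.congr_deriv (by ring)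
    have := intervalIntegral.integral_eq_sub_of_hasDerivAt hd
      (Continuous.intervalIntegrable (by fun_prop) _ _)
    simp only [sub_self, zero_mul, Complex.exp_zero, mul_one, div_zero]
    rw [this]
    push_cast
    ring
  · have hc := ne j k h
    have hp := per j k
    have hjk : (j : ℂ) - (k : ℂ) = -((k : ℂ) - (j : ℂ)) := by ring
    rw [hjk]
    generalize (k : ℂ) - (j : ℂ) = m at hc hp
    have hc' : m * Complex.I ≠ 0 := mul_ne_zero hc Complex.I_ne_zero
    have hd : ∀ t ∈ uIcc (0 : ℝ) (2 * Real.pi),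
        HasDerivAt (fun s : ℝ => ((Real.pi : ℂ) - (s : ℂ)) * Complex.exp (m * Complex.I * (s : ℂ)) /
            (m * Complex.I) + Complex.exp (m * Complex.I * (s : ℂ)) / (m * Complex.I) ^ 2)
          (((Real.pi : ℂ) - (t : ℂ)) * Complex.exp (m * Complex.I * (t : ℂ))) t := by
      intro t _
      have he : HasDerivAt (fun z : ℂ => Complex.exp (m * Complex.I * z))
          (Complex.exp (m * Complex.I * (t : ℂ)) * (m * Complex.I * 1)) (t : ℂ) :=
        ((hasDerivAt_id' _).const_mul _).cexp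
      have h1 := ((((hasDerivAt_id' (t : ℂ)).const_sub (Real.pi : ℂ)).mul he).div_const
        (m * Complex.I)).add (he.div_const ((m * Complex.I) ^ 2))
      refine h1.comp_ofReal.congr_deriv ?_
      generalize m * Complex.I = c at hc'
      field_simp
      ring
    rw [intervalIntegral.integral_eq_sub_of_hasDerivAt hd
      (Continuous.intervalIntegrable (by fun_prop) _ _), hp]
    simp only [Complex.ofReal_zero, mul_zero, Complex.exp_zero]
    push_cast
    field_simp
    linear_combination (-2 * (Real.pi : ℂ) * Complex.I * m) * Complex.I_sq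

lemma sq {E : Type} [NormedAddCommGroup E] [InnerProductSpace ℂ E] (N : ℕ) (x : ℕ → E) (t : ℝ) :
    ((‖∑ k ∈ Finset.range N, Complex.exp ((k : ℂ) * Complex.I * (t : ℂ)) • x k‖ ^ 2 : ℝ) : ℂ) =
      ∑ j ∈ Finset.range N, ∑ k ∈ Finset.range N,
        Complex.exp ((((k : ℂ) - (j : ℂ)) * Complex.I) * (t : ℂ)) * ⟪x j, x k⟫_ℂ := by
  rw [Complex.ofReal_pow]
  have h := inner_self_eq_norm_sq_to_K (𝕜 := ℂ)
    (∑ k ∈ Finset.range N, Complex.exp ((k : ℂ) * Complex.I * (t : ℂ)) • x k)
  refine h.symm.trans ?_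
  rw [sum_inner]
  refine Finset.sum_congr rfl fun j _ => ?_
  rw [inner_sum]
  refine Finset.sum_congr rfl fun k _ => ?_
  rw [inner_smul_left, inner_smul_right, ← mul_assoc, ← Complex.exp_conj, ← Complex.exp_add]
  refine congrArg (fun z => Complex.exp z * ⟪x j, x k⟫_ℂ) ?_
  simp only [map_mul, map_natCast, Complex.conj_I, Complex.conj_ofReal]
  ring

end Hilb

theorem s_hilb : S_hilb := by
  intro E _ _ _ N x
  set g : ℝ → ℝ := fun t =>
    ‖∑ k ∈ Finset.range N, Complex.exp ((k : ℂ) * Complex.I * (t : ℂ)) • x k‖ ^ 2 with hg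
  have hgc : Continuous g := by
    rw [hg]
    fun_prop
  have hpi := Real.pi_pos
  have A : ∫ t in (0 : ℝ)..(2 * Real.pi), g t =
      2 * Real.pi * ∑ j ∈ Finset.range N, ‖x j‖ ^ 2 := by
    apply Complex.ofReal_injective
    rw [← intervalIntegral.integral_ofReal]
    simp only [hg, Hilb.sq]
    rw [intervalIntegral.integral_finsetSum
      (fun j _ => Continuous.intervalIntegrable (by fun_prop) _ _)]
    rw [Finset.mul_sum, Complex.ofReal_sum]
    refine Finset.sum_congr rfl fun j hj => ?_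
    rw [intervalIntegral.integral_finsetSum
      (fun k _ => Continuous.intervalIntegrable (by fun_prop) _ _)]
    simp only [intervalIntegral.integral_mul_const, Hilb.I1, ite_mul, zero_mul]
    rw [Finset.sum_ite_eq, if_pos hj, inner_self_eq_norm_sq_to_K]
    push_cast
    rfl
  have B : ∫ t in (0 : ℝ)..(2 * Real.pi), ((Real.pi : ℂ) - (t : ℂ)) * (g t : ℂ) =
      -(2 * Real.pi * Complex.I) *
        ∑ j ∈ Finset.range N, ∑ k ∈ Finset.range N, ⟪x j, x k⟫_ℂ / ((j : ℂ) - (k : ℂ)) := by
    simp only [hg, Hilb.sq, Finset.mul_sum]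
    rw [intervalIntegral.integral_finsetSum
      (fun j _ => Continuous.intervalIntegrable (by fun_prop) _ _)]
    refine Finset.sum_congr rfl fun j _ => ?_
    rw [intervalIntegral.integral_finsetSum
      (fun k _ => Continuous.intervalIntegrable (by fun_prop) _ _)]
    refine Finset.sum_congr rfl fun k _ => ?_
    simp only [← mul_assoc]
    rw [intervalIntegral.integral_mul_const, Hilb.I2]
    ring
  have C : ‖∫ t in (0 : ℝ)..(2 * Real.pi), ((Real.pi : ℂ) - (t : ℂ)) * (g t : ℂ)‖ ≤
      ∫ t in (0 : ℝ)..(2 * Real.pi), Real.pi * g t := by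
    refine intervalIntegral.norm_integral_le_of_norm_le (by positivity)
      (Eventually.of_forall fun t ht => ?_) (Continuous.intervalIntegrable (by fun_prop) _ _)
    have h0 : 0 ≤ g t := by rw [hg]; positivity
    rw [norm_mul, ← Complex.ofReal_sub, Complex.norm_real, Complex.norm_real,
      Real.norm_of_nonneg h0]
    refine mul_le_mul_of_nonneg_right ?_ h0
    rw [Real.norm_eq_abs, abs_le]
    constructor <;> linarith [ht.1, ht.2]
  rw [B, intervalIntegral.integral_const_mul, A, norm_mul, norm_neg] at C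
  have hn : ‖(2 * Real.pi * Complex.I : ℂ)‖ = 2 * Real.pi := by
    simp [abs_of_pos hpi]
  rw [hn] at C
  refine le_of_mul_le_mul_left (C.trans (le_of_eq ?_)) (by positivity : (0 : ℝ) < 2 * Real.pi)
  ring

end Vale.Agent.P365
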