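import Vale.Agent.P365.Stm3

open MeasureTheory Filter Topology Set
open scoped InnerProductSpace ENNReal

namespace Vale.Agent.P365

theorem m_fatou : T_sym → T_fatou := by
  intro hsym μ _
  have h0 : Tendsto (fun n : ℕ => 1 / ((n : ℝ) + 1)) atTop (𝓝[>] 0) :=
    tendsto_nhdsWithin_iff.2 ⟨tendsto_one_div_add_atTop_nhds_zero_nat,
      Eventually.of_forall fun n => mem_Ioi.2 Nat.one_div_pos_of_nat⟩
  filter_upwards [Besicovitch.ae_tendsto_rnDeriv μ volume, Measure.rnDeriv_lt_top μ volume]
    with e h1 h2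
  refine (hsym μ e _ ?_).comp h0
  refine ((ENNReal.tendsto_toReal h2.ne).comp h1).congr' ?_
  filter_upwards [self_mem_nhdsWithin] with r hr
  have hr' : (0 : ℝ) < r := hr
  simp only [Function.comp_apply]
  rw [ENNReal.toReal_div, Real.volume_closedBall, ENNReal.toReal_ofReal (by positivity),
    Measure.real]

end Vale.Agent.P365
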