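import Vale.Agent.P365.Stm3

/-! Off diagonal smallness in measure, uniformly in the height. -/

open MeasureTheory Filter Topology Set
open scoped InnerProductSpace ENNReal

namespace Vale.Agent.P365

namespace MFin

theorem five {X : Type} [MeasurableSpace X] (ν : Measure X) {S A B C D E : Set X} {γ : ℝ}
    (hγ : 0 < γ) (h : S ⊆ A ∪ B ∪ C ∪ D ∪ E) (hA : ν A ≤ ENNReal.ofReal (γ / 5))
    (hB : ν B ≤ ENNReal.ofReal (γ / 5)) (hC : ν C ≤ ENNReal.ofReal (γ / 5))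
    (hD : ν D ≤ ENNReal.ofReal (γ / 5)) (hE : ν E ≤ ENNReal.ofReal (γ / 5)) :
    ν S ≤ ENNReal.ofReal γ := by
  have h5 : 0 ≤ γ / 5 := by positivity
  have e : ENNReal.ofReal γ = ENNReal.ofReal (γ / 5) + ENNReal.ofReal (γ / 5) +
      ENNReal.ofReal (γ / 5) + ENNReal.ofReal (γ / 5) + ENNReal.ofReal (γ / 5) := by
    rw [← ENNReal.ofReal_add h5 h5, ← ENNReal.ofReal_add (by positivity) h5,
      ← ENNReal.ofReal_add (by positivity) h5, ← ENNReal.ofReal_add (by positivity) h5]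
    congr 1
    ring
  rw [e]
  refine (measure_mono h).trans ?_
  refine (measure_union_le _ _).trans (add_le_add ?_ hE)
  refine (measure_union_le _ _).trans (add_le_add ?_ hD)
  refine (measure_union_le _ _).trans (add_le_add ?_ hC)
  exact (measure_union_le _ _).trans (add_le_add hA hB)

end MFin

theorem m_fin : T_far → T_alg → T_weg → T_up → T_grk → T_gpos → T_fin := by
  intro hfar halg hweg hup hgrk hpos d lam L H e hlam hL hH he ε γ hε hγ
  obtain ⟨M, hM, hM2⟩ : ∃ M : ℝ, 0 < M ∧ 2 * L / (lam * M) = γ / 5 :=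
    ⟨10 * L / (lam * γ), by positivity, by field_simp; ring⟩
  obtain ⟨t, ht0, ht1, ht2⟩ : ∃ t : ℝ, 0 < t ∧ t ≤ 1 ∧ L * (2 * t) ≤ γ / 5 := by
    refine ⟨min 1 (γ / (10 * L)), lt_min one_pos (by positivity), min_le_left _ _, ?_⟩
    have h1 : min 1 (γ / (10 * L)) ≤ γ / (10 * L) := min_le_right _ _
    have h2 : L * (2 * (γ / (10 * L))) = γ / 5 := by field_simp; ring
    rw [← h2]
    gcongr
  obtain ⟨C, hC, hal⟩ := halg (lam * t) (ε ^ 2 / M) M (by positivity) (by positivity) hM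
  have hδ : 0 < ε ^ 2 / (2 * C) := by positivity
  obtain ⟨n₁, K₁, h₁⟩ := hfar d lam L H e hlam hL hH he t _ (γ / 5) ht0.le (by linarith) hδ
    (by positivity)
  obtain ⟨n₂, K₂, h₂⟩ := hfar d lam L H e hlam hL hH he (2 * t) _ (γ / 5) (by positivity)
    (by linarith) hδ (by positivity)
  refine ⟨max n₁ n₂, max K₁ K₂, fun n k hn hk => ?_⟩
  have a1 := h₁ n k (le_of_max_le_left hn) (le_of_max_le_left hk)
  have a2 := h₂ n k (le_of_max_le_right hn) (le_of_max_le_right hk)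
  have a3 := hweg d lam L M H hlam hL hM hH n 0
  have a4 := hweg d lam L M H hlam hL hM hH n ((k : ℤ) • e)
  have a5 := ((hup d L (2 * t) hL (by positivity) (by linarith)).2.2).trans
    (ENNReal.ofReal_le_ofReal ht2)
  rw [hM2] at a3 a4
  refine MFin.five _ hγ (fun p hp => ?_) a1 a2 a3 a4 a5
  by_contra hn
  simp only [mem_union, mem_ofPred_eq, not_or, not_and, not_le, not_lt, not_not] at hn hp
  obtain ⟨⟨⟨⟨b1, b2⟩, b3⟩, b4⟩, b5⟩ := hn
  have b6 : p.1 0 ∈ Set.Icc (-1) (1 - t) := ⟨b5.1, b5.2.trans (by linarith)⟩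
  have c1 := b1 b6
  have c2 := b2 b5
  rw [(hgrk d lam H hlam hH n _ t p ht0.le b6).2, Complex.sub_im, sub_sub_cancel_left,
    abs_neg] at c1
  rw [(hgrk d lam H hlam hH n _ (2 * t) p (by positivity) b5).2, Complex.sub_im,
    sub_sub_cancel_left, abs_neg, show lam * (2 * t) = 2 * (lam * t) by ring] at c2
  obtain ⟨-, p2, -⟩ := hpos d lam H hH n ((k : ℤ) • e) 0 p
  obtain ⟨p1, -, -⟩ := hpos d lam H hH n 0 0 p
  have q1 : ε ^ 2 ≤ (gr H n ((k : ℤ) • e) 0 p).im ^ 2 := by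
    rw [← sq_abs (gr H n ((k : ℤ) • e) 0 p).im]
    exact pow_le_pow_left₀ hε.le hp 2
  have q2 : (gr H n ((k : ℤ) • e) ((k : ℤ) • e) p).im ≤ M :=
    ((le_abs_self _).trans (Complex.abs_im_le_norm _)).trans b4
  have q3 : ε ^ 2 / M ≤ (gr H n 0 0 p).im := by
    rw [div_le_iff₀ hM, mul_comm]
    exact q1.trans (p2.trans (mul_le_mul_of_nonneg_right q2 p1.le))
  have q4 := hal _ _ _ q3 b3 c1.le c2.le
  have q5 : ε ^ 2 ≤ ‖gr H n ((k : ℤ) • e) 0 p ^ 2‖ := by
    rw [norm_pow]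
    exact pow_le_pow_left₀ hε.le (hp.trans (Complex.abs_im_le_norm _)) 2
  have q6 : C * (ε ^ 2 / (2 * C)) = ε ^ 2 / 2 := by field_simp
  have q7 : 0 < ε ^ 2 := by positivity
  linarith

end Vale.Agent.P365
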