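import Vale.Agent.P365.Stm3

open MeasureTheory Filter Topology Set
open scoped InnerProductSpace ENNReal

namespace Vale.Agent.P365

namespace MGcov

theorem shift_dlt {d : ℕ} {T : Site d → L2 d →L[ℂ] L2 d} (hT : IsShift T) (a y : Site d) :
    T a (dlt (y + a)) = dlt y := by
  ext w
  rw [hT a _ w]
  unfold dlt
  by_cases h : w = y
  · subst h
    rw [lp.single_apply_self, lp.single_apply_self]
  · rw [lp.single_apply_ne _ _ _ h, lp.single_apply_ne _ _ _ (fun h' => h (add_right_cancel h'))]

end MGcov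

theorem m_gcov : T_gcov := by
  intro d lam H hF n x y a p
  obtain ⟨T, hT, -, -⟩ := s_shift d
  have hc := (t_cov d lam T H hT hF).1.2.2
  have h := res_intertwine (fam_sa hF p.1) (fam_sa hF (sh a p.1)) (T := T a)
    (fun v => hc a p.1 v) (zz_im_pos p.2 n).ne' (dlt (y + a))
  rw [MGcov.shift_dlt hT] at h
  change (res (H p.1) (zz p.2 n) (dlt (y + a))) (x + a) =
    (res (H (sh a p.1)) (zz p.2 n) (dlt y)) x
  rw [← h, hT a _ x]

end Vale.Agent.P365
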