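import Vale.Agent.P365.Stm3

open MeasureTheory
open scoped InnerProductSpace BoundedContinuousFunction

namespace Vale.Agent.P365

namespace MPoi

theorem cont (e η : ℝ) (h : 0 < η) : Continuous fun x : ℝ => η / ((x - e) ^ 2 + η ^ 2) :=
  continuous_const.div (by fun_prop) fun x => by positivity

noncomputable def pk (e η : ℝ) (h : 0 < η) : ℝ →ᵇ ℝ :=
  BoundedContinuousFunction.ofNormedAddCommGroup _ (cont e η h) (1 / η) fun x => by
    rw [Real.norm_of_nonneg (by positivity), div_le_div_iff₀ (by positivity) h]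
    nlinarith [sq_nonneg (x - e)]

variable {E : Type} [NormedAddCommGroup E] [InnerProductSpace ℂ E] [CompleteSpace E]

theorem mul_eq {A : E →L[ℂ] E} (hA : IsSelfAdjoint A) (e η : ℝ) (h : 0 < η) :
    cfc (fun x : ℝ => η / ((x - e) ^ 2 + η ^ 2)) A *
      ((A - algebraMap ℝ _ e) ^ 2 + algebraMap ℝ _ (η ^ 2)) = algebraMap ℝ _ η := by
  have hP : cfc (fun x : ℝ => (x - e) ^ 2 + η ^ 2) A
      = (A - algebraMap ℝ _ e) ^ 2 + algebraMap ℝ _ (η ^ 2) := by
    rw [cfc_add_const (η ^ 2) (fun x : ℝ => (x - e) ^ 2) A, cfc_pow (fun x : ℝ => x - e) 2 A,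
      cfc_sub (fun x : ℝ => x) (fun _ => e) A, cfc_id' ℝ A, cfc_const e A]
  rw [← hP, ← cfc_mul _ _ A (cont e η h).continuousOn, ← cfc_const η A]
  refine cfc_congr fun x _ => ?_
  exact div_mul_cancel₀ _ (by positivity)

end MPoi

theorem m_poi : T_poi := by
  intro E _ _ _ A ψ μ z hA hμ hz
  have hz' : ((starRingEnd ℂ) z).im ≠ 0 := by simpa using hz.ne'
  have h1 := res_right hA hz.ne' ψ
  have h2 := res_right hA hz' (res A z ψ)
  have h3 := res_adj hA hz.ne' ψ (res A z ψ)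
  rw [res_im hA hz.ne']
  set u := res A z ψ
  set w := res A ((starRingEnd ℂ) z) u
  have ha : ∀ (r : ℝ) (v : E), (algebraMap ℝ (E →L[ℂ] E) r) v = (r : ℂ) • v := by
    intro r v
    rw [Algebra.algebraMap_eq_smul_one, ContinuousLinearMap.smul_apply,
      ContinuousLinearMap.one_apply, Complex.coe_smul]
  have hw : ((A - algebraMap ℝ _ z.re) ^ 2 + algebraMap ℝ _ (z.im ^ 2) : E →L[ℂ] E) w = ψ := by
    rw [← h1, ← h2]
    simp only [sq, ContinuousLinearMap.add_apply, ContinuousLinearMap.mul_apply,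
      ContinuousLinearMap.sub_apply, ha, map_sub, map_smul]
    have e1 : z = (z.re : ℂ) + z.im * Complex.I := (Complex.re_add_im z).symm
    have e2 : (starRingEnd ℂ) z = (z.re : ℂ) - z.im * Complex.I := by
      apply Complex.ext <;> simp
    rw [e2]
    generalize z.re = a at e1 ⊢
    generalize z.im = b at e1 ⊢
    rw [e1]
    match_scalars
    · ring
    · ring
    · push_cast
      linear_combination (b : ℂ) ^ 2 * Complex.I_sq
  have hK := congrArg (fun B : E →L[ℂ] E => B w) (MPoi.mul_eq hA z.re z.im hz)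
  simp only [ContinuousLinearMap.mul_apply, hw, ha] at hK
  have h4 := hμ.2 (MPoi.pk z.re z.im hz)
  change ⟪ψ, (cfc (fun x : ℝ => z.im / ((x - z.re) ^ 2 + z.im ^ 2)) A) ψ⟫_ℂ =
    ((∫ x, z.im / ((x - z.re) ^ 2 + z.im ^ 2) ∂μ : ℝ) : ℂ) at h4
  rw [hK, inner_smul_right, ← h3, inner_self_eq_norm_sq_to_K] at h4
  apply Complex.ofReal_injective
  rw [← h4]
  simp

end Vale.Agent.P365
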