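import Vale.Agent.P365.Stm3

/-! Cauchy property in measure, uniform in the site. -/

open MeasureTheory Filter Topology Set
open scoped InnerProductSpace ENNReal

namespace Vale.Agent.P365

namespace MUnif

theorem cauchy {X : Type} [MeasurableSpace X] (ν : Measure X) [IsFiniteMeasure ν]
    (F : ℕ → X → ℝ) (r : X → ℝ) (hF : ∀ n, Measurable (F n))
    (h : ∀ᵐ p ∂ν, Tendsto (fun n => F n p) atTop (𝓝 (r p))) (δ γ : ℝ) (hδ : 0 < δ) (hγ : 0 < γ) :
    ∃ n₀ : ℕ, ∀ n, n₀ ≤ n → ν {p | δ ≤ |F n p - F n₀ p|} ≤ ENNReal.ofReal γ := by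
  have h1 := tendstoInMeasure_of_tendsto_ae (fun n => (hF n).aestronglyMeasurable) h
  have h2 := tendstoInMeasure_iff_dist.1 h1 (δ / 2) (half_pos hδ)
  have h3 := h2.eventually_le_const (ENNReal.ofReal_pos.2 (half_pos hγ))
  obtain ⟨n₀, hn⟩ := eventually_atTop.1 h3
  refine ⟨n₀, fun n hn' => ?_⟩
  have hs : {p | δ ≤ |F n p - F n₀ p|} ⊆
      {p | δ / 2 ≤ dist (F n p) (r p)} ∪ {p | δ / 2 ≤ dist (F n₀ p) (r p)} := by
    intro p hp
    by_contra hc
    simp only [mem_union, mem_ofPred_eq, not_or, not_le] at hc hp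
    have := dist_triangle_right (F n p) (F n₀ p) (r p)
    rw [Real.dist_eq] at this
    linarith [hc.1, hc.2]
  refine (measure_mono hs).trans ((measure_union_le _ _).trans ?_)
  refine (add_le_add (hn n hn') (hn n₀ le_rfl)).trans (le_of_eq ?_)
  rw [← ENNReal.ofReal_add (half_pos hγ).le (half_pos hγ).le, add_halves]

end MUnif

theorem m_unif : T_ae → T_gcov → T_gcont → T_unif := by
  intro hae hcov hcont d lam L H hF δ γ hδ hγ
  have hm : ∀ n, Measurable (fun p => (gr H n 0 0 p).im) := fun n =>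
    (Complex.continuous_im.comp (hcont d lam H hF n 0 0)).measurable
  obtain ⟨n₀, hn⟩ := MUnif.cauchy (nu d L) (fun n p => (gr H n 0 0 p).im) (rl H 0 0) hm
    ((hae d lam L H hF).2.mono fun p hp => hp 0 0) δ γ hδ hγ
  refine ⟨n₀, fun n hn' y => ?_⟩
  have e : {p | δ ≤ |(gr H n y y p).im - (gr H n₀ y y p).im|} =
      shp y ⁻¹' {p | δ ≤ |(gr H n 0 0 p).im - (gr H n₀ 0 0 p).im|} := by
    ext p
    simp only [mem_ofPred_eq, mem_preimage]
    rw [← hcov d lam H hF n 0 0 y p, ← hcov d lam H hF n₀ 0 0 y p, zero_add]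
  have hS : MeasurableSet {p | δ ≤ |(gr H n 0 0 p).im - (gr H n₀ 0 0 p).im|} :=
    measurableSet_le measurable_const ((hm n).sub (hm n₀)).abs
  rw [e, (shp_mp d L y).measure_preimage hS.nullMeasurableSet]
  exact hn n hn'

end Vale.Agent.P365
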