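import Vale.Agent.P365.Stm4

open MeasureTheory Filter Topology Set
open scoped InnerProductSpace ENNReal

namespace Vale.Agent.P365

theorem o_poly : O_poly := by
  intro E _ _ _ A m v ψ B hA hψ
  induction hψ using Submodule.span_induction with
  | mem x hx =>
    obtain ⟨⟨k, j⟩, rfl⟩ := hx
    simp only
    induction k with
    | zero =>
      refine ⟨0, fun z _ _ => ⟨res A z (v j), Submodule.subset_span ⟨j, rfl⟩, ?_⟩⟩
      simp
    | succ k ih =>
      obtain ⟨C, hC⟩ := ih
      refine ⟨‖(A ^ k) (v j)‖ + B * C, fun z hz hB => ?_⟩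
      obtain ⟨w, hw, h⟩ := hC z hz hB
      refine ⟨z • w, Submodule.smul_mem _ _ hw, ?_⟩
      have e := res_left hA hz ((A ^ k) (v j))
      rw [map_sub, map_smul, sub_eq_iff_eq_add] at e
      have e2 : (A ^ (k + 1)) (v j) = A ((A ^ k) (v j)) := by
        rw [pow_succ']
        rfl
      rw [e2, e, add_sub_assoc, ← smul_sub]
      refine (norm_add_le _ _).trans ?_
      rw [norm_smul]
      have := mul_le_mul hB h (norm_nonneg _) ((norm_nonneg _).trans hB)
      linarith
  | zero => exact ⟨0, fun z _ _ => ⟨0, Submodule.zero_mem _, by simp⟩⟩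
  | add x y _ _ hx hy =>
    obtain ⟨C, hC⟩ := hx
    obtain ⟨D, hD⟩ := hy
    refine ⟨C + D, fun z hz hB => ?_⟩
    obtain ⟨w, hw, h⟩ := hC z hz hB
    obtain ⟨w', hw', h'⟩ := hD z hz hB
    refine ⟨w + w', Submodule.add_mem _ hw hw', ?_⟩
    rw [map_add, add_sub_add_comm]
    exact (norm_add_le _ _).trans (add_le_add h h')
  | smul a x _ hx =>
    obtain ⟨C, hC⟩ := hx
    refine ⟨‖a‖ * C, fun z hz hB => ?_⟩
    obtain ⟨w, hw, h⟩ := hC z hz hB
    refine ⟨a • w, Submodule.smul_mem _ _ hw, ?_⟩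
    rw [map_smul, ← smul_sub, norm_smul]
    exact mul_le_mul_of_nonneg_left h (norm_nonneg a)

end Vale.Agent.P365
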