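import Vale.Agent.P365.Stm

/-! The limit operator maps `δ` into the cyclic space. -/

open MeasureTheory Filter Topology Set
open scoped InnerProductSpace

namespace Vale.Agent.P365

theorem s_proj : S_pi → S_avM → S_kill → S_lim → S_meas → S_proj := by
  intro hpi havM hkill hlim hmeas E _ _ _ H V Q δ a b t hH hV ht hab hQ
  obtain ⟨R, R1, R2, R3, R4⟩ := hpi E H δ hH
  have hm : AEStronglyMeasurable (fun s => R (Q s δ)) (volume.restrict (Set.Ioc a b)) :=
    R.continuous.comp_aestronglyMeasurable (hmeas E H V Q δ δ a b t hQ)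
  have hb : ∀ᵐ s ∂(volume.restrict (Set.Ioc a b)), ‖R (Q s δ)‖ ≤ ‖V‖ * ‖δ‖ := by
    filter_upwards [hQ] with s hs
    exact (R3 _).trans ((hlim E _ V (Q s) t (add_Pr_sa hH δ s) hV ht hs).1 δ)
  have hi : Integrable (fun s => R (Q s δ)) (volume.restrict (Set.Ioc a b)) :=
    Integrable.of_bound hm _ hb
  have hz : (fun s => R (Q s δ)) =ᵐ[volume.restrict (Set.Ioc a b)] 0 := by
    refine hi.ae_eq_zero_of_forall_setIntegral_eq_zero fun S hS _ => ?_
    have hM := havM E H V R Q δ a b t S hH hV ht hab hS R3 R4 hQ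
    have hin : ∀ w : E, ⟪w, ∫ s in S, R (Q s δ) ∂(volume.restrict (Set.Ioc a b))⟫_ℂ =
        ∫ s in S, ⟪w, R (Q s δ)⟫_ℂ ∂(volume.restrict (Set.Ioc a b)) :=
      fun w => (integral_inner hi.integrableOn w).symm
    generalize (∫ s in S, R (Q s δ) ∂(volume.restrict (Set.Ioc a b))) = ψ at hM hin ⊢
    have hp : Perp H δ ψ := by
      intro r
      have e : ∀ y : E, ⟪U H (-r) δ, y⟫_ℂ = ⟪δ, U H r y⟫_ℂ := fun y => by
        rw [inner_U_left hH, neg_neg]
      rw [← e, hin]
      refine integral_eq_zero_of_ae (Eventually.of_forall fun s => ?_)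
      exact (e _).trans (R1 _ r)
    have hK : 0 ≤ 2 * Real.pi * (b - a) * ‖V‖ ^ 2 :=
      mul_nonneg (mul_nonneg (by positivity) (sub_nonneg.2 hab.le)) (by positivity)
    have hk := hkill E H V Q δ ψ a b _ t hH hV ht hp hK hM hQ
    have h0 : ⟪ψ, ψ⟫_ℂ = 0 := by
      rw [hin ψ]
      refine integral_eq_zero_of_ae (ae_restrict_of_ae ?_)
      filter_upwards [hk, hQ] with s h1 h2
      have h3 : ⟪ψ, R (Q s δ)⟫_ℂ = 0 := by
        rw [R2 ψ _ hp, ← (hlim E _ V (Q s) t (add_Pr_sa hH δ s) hV ht h2).2.1 ψ δ,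
          ← inner_conj_symm, h1, map_zero]
      exact h3
    exact inner_self_eq_zero.1 h0
  filter_upwards [hz] with s hs ψ hψ
  have h1 : R (Q s δ) = 0 := hs
  rw [← R2 ψ _ hψ, h1, inner_zero_right]

end Vale.Agent.P365
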