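import Vale.Agent.P365.Stm

/-! Stationarity of the velocity curve. -/

open MeasureTheory Filter Topology Set
open scoped InnerProductSpace

namespace Vale.Agent.P365

namespace Statm

variable {E : Type} [NormedAddCommGroup E] [InnerProductSpace ℂ E] [CompleteSpace E]

theorem left {A V : E →L[ℂ] E} (hA : IsSelfAdjoint A) (hV : IsSelfAdjoint V) (δ : E)
    (r r' a : ℝ) :
    ⟪U A (-(r + a)) (V (U A (r + a) δ)), U A (-(r' + a)) (V (U A (r' + a) δ))⟫_ℂ =
      ⟪δ, U A (-a) ((U A (-r) * (V * (U A r * (U A (-r') * (V * (U A r' * U A a)))))) δ)⟫_ℂ := by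
  simp only [mul_apply_eq_comp]
  rw [inner_U_left hA, inner_sa hV, inner_U_left hA, ← U_add_apply, ← U_add_apply,
    ← U_add_apply, ← U_add_apply, show - -(r + a) + -(r' + a) = r + -r' by ring,
    show -(r + a) = -a + -r by ring]

theorem right {A V : E →L[ℂ] E} (hA : IsSelfAdjoint A) (hV : IsSelfAdjoint V) (δ : E)
    (r r' a : ℝ) :
    ⟪δ, (U A (-r) * (V * (U A r * (U A (-r') * (V * (U A r' * U A a)))))) (U A (-a) δ)⟫_ℂ =
      ⟪U A (-r) (V (U A r δ)), U A (-r') (V (U A r' δ))⟫_ℂ := by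
  simp only [mul_apply_eq_comp]
  rw [U_U_neg, inner_U_left hA, inner_sa hV, inner_U_left hA, neg_neg]

theorem clip_abs (s : ℝ) : |clip s| ≤ 1 :=
  abs_le.2 ⟨le_max_left _ _, max_le (by norm_num) (min_le_left _ _)⟩

end Statm

theorem s_statm : S_shift → S_trace → S_cov → S_model → S_statm := by
  intro h1 h2 h3 h4 d lam H i V hH hV r r' a
  obtain ⟨T, t1, -, t3⟩ := h1 d
  obtain ⟨-, c2, c3, c4⟩ := h3 d lam T H t1 hH
  obtain ⟨-, m2, -, m4⟩ := h4 d lam
  have sH : ∀ ω, IsSelfAdjoint (H ω) := fun ω =>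
    (m2 _ _ (fun x => Statm.clip_abs (ω x)) (hH ω)).1
  have sV := m4 i V hV
  have cV := c3 i V hV
  have key := h2 d T _ _ t1 t3 (c2 (-a))
    (c4 _ _ (c2 (-r)) (c4 _ _ cV (c4 _ _ (c2 r) (c4 _ _ (c2 (-r')) (c4 _ _ cV
      (c4 _ _ (c2 r') (c2 a)))))))
  refine (integral_congr_ae (Eventually.of_forall fun ω => Statm.left (sH ω) sV _ r r' a)).trans
    (key.trans (integral_congr_ae (Eventually.of_forall fun ω => Statm.right (sH ω) sV _ r r' a)))

end Vale.Agent.P365
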