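import Vale.Agent.P365.Bas

/-! Statements of the steps. Each one is proved in its own file. -/

open MeasureTheory Filter Topology Set
open scoped InnerProductSpace

namespace Vale.Agent.P365

/-- Hilbert inequality for vectors. -/
def S_hilb : Prop :=
  ∀ (E : Type) [NormedAddCommGroup E] [InnerProductSpace ℂ E] [CompleteSpace E]
    (N : ℕ) (x : ℕ → E),
    ‖∑ j ∈ Finset.range N, ∑ k ∈ Finset.range N, ⟪x j, x k⟫_ℂ / ((j : ℂ) - (k : ℂ))‖ ≤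
      Real.pi * ∑ j ∈ Finset.range N, ‖x j‖ ^ 2

/-- Discrete spectral averaging. -/
def S_disc : Prop :=
  ∀ (E : Type) [NormedAddCommGroup E] [InnerProductSpace ℂ E] [CompleteSpace E]
    (H : E →L[ℂ] E) (δ : E) (ε u T : ℝ) (N : ℕ) (y : ℕ → E),
    IsSelfAdjoint H → 0 < ε → 0 ≤ T →
    ∫ r in (-T)..T, ‖∑ j ∈ Finset.range N,
        ⟪y j, U (H + ((u + j * ε : ℝ) : ℂ) • Pr δ) r δ⟫_ℂ‖ ^ 2 ≤
      (2 * Real.pi / ε + 2 * T * ‖δ‖ ^ 2) * ∑ j ∈ Finset.range N, ‖y j‖ ^ 2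

/-- Spectral averaging, measurable and everywhere bounded coefficients. -/
def S_spec0 : Prop :=
  ∀ (E : Type) [NormedAddCommGroup E] [InnerProductSpace ℂ E] [CompleteSpace E]
    (H : E →L[ℂ] E) (δ : E) (a b M T : ℝ) (y : ℝ → E),
    IsSelfAdjoint H → a < b → 0 ≤ T → StronglyMeasurable y → (∀ s, ‖y s‖ ≤ M) →
    ∫ r in (-T)..T, ‖∫ s in Set.Ioc a b, ⟪y s, U (H + (s : ℂ) • Pr δ) r δ⟫_ℂ‖ ^ 2 ≤
      2 * Real.pi * (b - a) * M ^ 2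

/-- Spectral averaging. -/
def S_spec : Prop :=
  ∀ (E : Type) [NormedAddCommGroup E] [InnerProductSpace ℂ E] [CompleteSpace E]
    (H : E →L[ℂ] E) (δ : E) (a b M T : ℝ) (y : ℝ → E),
    IsSelfAdjoint H → a < b → 0 ≤ T → 0 ≤ M →
    AEStronglyMeasurable y (volume.restrict (Set.Ioc a b)) →
    (∀ᵐ s ∂(volume.restrict (Set.Ioc a b)), ‖y s‖ ≤ M) →
    ∫ r in (-T)..T, ‖∫ s in Set.Ioc a b, ⟪y s, U (H + (s : ℂ) • Pr δ) r δ⟫_ℂ‖ ^ 2 ≤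
      2 * Real.pi * (b - a) * M ^ 2

/-- Small tails of a nonnegative function with bounded integrals. -/
def S_tail : Prop :=
  ∀ (f : ℝ → ℝ) (C η : ℝ), Continuous f → (∀ r, 0 ≤ f r) →
    (∀ T, 0 ≤ T → ∫ r in (-T)..T, f r ≤ C) → 0 < η →
    ∃ T₀ : ℝ, 0 ≤ T₀ ∧ ∀ t t', T₀ ≤ t → t ≤ t' → ∫ r in t..t', f r ≤ η

/-- The differential estimate in the Pearson argument. -/
def S_pearA : Prop :=
  ∀ (E : Type) [NormedAddCommGroup E] [InnerProductSpace ℂ E] [CompleteSpace E]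
    (A : E →L[ℂ] E) (δ φ : E) (κ t r a : ℝ), IsSelfAdjoint A → 0 ≤ a →
    ‖⟪U (A + (κ : ℂ) • Pr δ) r (U A (t + a) φ), U A (r + (t + a)) φ⟫_ℂ -
        ⟪U (A + (κ : ℂ) • Pr δ) r (U A t φ), U A (r + t) φ⟫_ℂ‖ ≤
      |κ| * ∫ τ in (0 : ℝ)..a,
        (‖⟪δ, U A (t + τ) φ⟫_ℂ‖ * ‖⟪U (A + (κ : ℂ) • Pr δ) r δ, U A (r + (t + τ)) φ⟫_ℂ‖ +
          ‖⟪U (A + (κ : ℂ) • Pr δ) (-r) δ, U A (t + τ) φ⟫_ℂ‖ * ‖⟪δ, U A (r + (t + τ)) φ⟫_ℂ‖)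

/-- Rank one Kato Rosenblum theorem, forward Cauchy form. -/
def S_pear1 : Prop :=
  ∀ (E : Type) [NormedAddCommGroup E] [InnerProductSpace ℂ E] [CompleteSpace E]
    (A : E →L[ℂ] E) (δ φ : E) (κ K η : ℝ), IsSelfAdjoint A → 0 ≤ K → IsM A φ K → 0 < η →
    ∃ T₀ : ℝ, ∀ t r, T₀ ≤ t → 0 ≤ r →
      ‖U (A + (κ : ℂ) • Pr δ) r (U A t φ) - U A r (U A t φ)‖ ≤ η

/-- Rank one Kato Rosenblum theorem, both time directions. -/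
def S_pear : Prop :=
  ∀ (E : Type) [NormedAddCommGroup E] [InnerProductSpace ℂ E] [CompleteSpace E]
    (A : E →L[ℂ] E) (δ φ : E) (κ K η : ℝ), IsSelfAdjoint A → 0 ≤ K → IsM A φ K → 0 < η →
    ∃ T₀ : ℝ, ∀ t, T₀ ≤ t →
      (∀ r, 0 ≤ r → ‖U (A + (κ : ℂ) • Pr δ) r (U A t φ) - U A r (U A t φ)‖ ≤ η) ∧
      (∀ r, r ≤ 0 → ‖U (A + (κ : ℂ) • Pr δ) r (U A (-t) φ) - U A r (U A (-t) φ)‖ ≤ η)

/-- Properties of the limit operator. -/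
def S_lim : Prop :=
  ∀ (E : Type) [NormedAddCommGroup E] [InnerProductSpace ℂ E] [CompleteSpace E]
    (A V Q : E →L[ℂ] E) (t : ℕ → ℝ), IsSelfAdjoint A → IsSelfAdjoint V →
    Tendsto t atTop atTop → IsLim A V t Q →
    (∀ v, ‖Q v‖ ≤ ‖V‖ * ‖v‖) ∧ (∀ v w, ⟪Q v, w⟫_ℂ = ⟪v, Q w⟫_ℂ) ∧
      (∀ (ρ : ℝ) v, Q (U A ρ v) = U A ρ (Q v))

/-- Comparison of two limit operators. -/
def S_cmp : Prop :=
  ∀ (E : Type) [NormedAddCommGroup E] [InnerProductSpace ℂ E] [CompleteSpace E]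
    (A B V QA QB : E →L[ℂ] E) (t : ℕ → ℝ) (ψ b : E) (η : ℝ),
    IsSelfAdjoint A → IsSelfAdjoint B → Tendsto t atTop atTop →
    IsLim A V t QA → IsLim B V t QB → (∀ r, U B r ψ = U A r ψ) →
    ((∀ r, 0 ≤ r → ‖U B r b - U A r b‖ ≤ η) ∨ (∀ r, r ≤ 0 → ‖U B r b - U A r b‖ ≤ η)) →
    ‖⟪b, QB ψ⟫_ℂ - ⟪b, QA ψ⟫_ℂ‖ ≤ η * (‖V‖ * ‖ψ‖)

/-- The limit operator keeps bounded spectral density. -/
def S_mq : Prop :=
  ∀ (E : Type) [NormedAddCommGroup E] [InnerProductSpace ℂ E] [CompleteSpace E]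
    (H V Q : E →L[ℂ] E) (δ ψ : E) (s K : ℝ) (t : ℕ → ℝ), IsSelfAdjoint H → IsSelfAdjoint V →
    Tendsto t atTop atTop → Perp H δ ψ → 0 ≤ K → IsM H ψ K →
    IsLim (H + (s : ℂ) • Pr δ) V t Q → IsM (H + (s : ℂ) • Pr δ) (Q ψ) (K * ‖V‖ ^ 2)

/-- The exact time derivative of the overlap. -/
def S_over : Prop :=
  ∀ (E : Type) [NormedAddCommGroup E] [InnerProductSpace ℂ E] [CompleteSpace E]
    (H : E →L[ℂ] E) (δ b b' : E) (s s' T : ℝ), IsSelfAdjoint H →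
    ⟪U (H + (s : ℂ) • Pr δ) T b, U (H + (s' : ℂ) • Pr δ) T b'⟫_ℂ -
      ⟪U (H + (s : ℂ) • Pr δ) (-T) b, U (H + (s' : ℂ) • Pr δ) (-T) b'⟫_ℂ =
      (Complex.I * ((s : ℂ) - (s' : ℂ))) * ∫ r in (-T)..T,
        (starRingEnd ℂ) ⟪δ, U (H + (s : ℂ) • Pr δ) r b⟫_ℂ * ⟪δ, U (H + (s' : ℂ) • Pr δ) r b'⟫_ℂ

/-- Orthogonality of the amplitudes at two different couplings. -/
def S_orth : Prop :=
  ∀ (E : Type) [NormedAddCommGroup E] [InnerProductSpace ℂ E] [CompleteSpace E]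
    (H V Q Q' : E →L[ℂ] E) (δ ψ : E) (s s' K : ℝ) (t : ℕ → ℝ),
    IsSelfAdjoint H → IsSelfAdjoint V → Tendsto t atTop atTop → Perp H δ ψ → 0 ≤ K → IsM H ψ K →
    s ≠ s' → IsLim (H + (s : ℂ) • Pr δ) V t Q → IsLim (H + (s' : ℂ) • Pr δ) V t Q' →
    Tendsto (fun T : ℝ => ∫ r in (-T)..T,
        (starRingEnd ℂ) ⟪δ, U (H + (s : ℂ) • Pr δ) r (Q ψ)⟫_ℂ *
          ⟪δ, U (H + (s' : ℂ) • Pr δ) r (Q' ψ)⟫_ℂ) atTop (𝓝 0)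

/-- An orthogonal family of square integrable functions is countable. -/
def S_cnt : Prop :=
  ∀ (a : ℝ → ℝ → ℂ) (G : Set ℝ), (∀ s ∈ G, Continuous (a s)) →
    (∀ s ∈ G, ∃ C : ℝ, ∀ T, 0 ≤ T → ∫ r in (-T)..T, ‖a s r‖ ^ 2 ≤ C) →
    (∀ s ∈ G, ∀ s' ∈ G, s ≠ s' →
      Tendsto (fun T : ℝ => ∫ r in (-T)..T, (starRingEnd ℂ) (a s r) * a s' r) atTop (𝓝 0)) →
    {s | s ∈ G ∧ a s 0 ≠ 0}.Countable

/-- The limit operator does not couple `δ` to vectors of bounded density. -/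
def S_kill : Prop :=
  ∀ (E : Type) [NormedAddCommGroup E] [InnerProductSpace ℂ E] [CompleteSpace E]
    (H V : E →L[ℂ] E) (Q : ℝ → E →L[ℂ] E) (δ ψ : E) (a b K : ℝ) (t : ℕ → ℝ),
    IsSelfAdjoint H → IsSelfAdjoint V → Tendsto t atTop atTop → Perp H δ ψ → 0 ≤ K → IsM H ψ K →
    (∀ᵐ s ∂(volume.restrict (Set.Ioc a b)), IsLim (H + ((s : ℝ) : ℂ) • Pr δ) V t (Q s)) →
    ∀ᵐ s ∂(volume.restrict (Set.Ioc a b)), ⟪δ, Q s ψ⟫_ℂ = 0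

/-- The projection on the orthogonal complement of the cyclic space. -/
def S_pi : Prop :=
  ∀ (E : Type) [NormedAddCommGroup E] [InnerProductSpace ℂ E] [CompleteSpace E]
    (H : E →L[ℂ] E) (δ : E), IsSelfAdjoint H →
    ∃ R : E →L[ℂ] E, (∀ y, Perp H δ (R y)) ∧ (∀ ψ y, Perp H δ ψ → ⟪ψ, R y⟫_ℂ = ⟪ψ, y⟫_ℂ) ∧
      (∀ y, ‖R y‖ ≤ ‖y‖) ∧
      ∀ (v y : E) (s r : ℝ), ⟪v, U H r (R y)⟫_ℂ = ⟪R v, U (H + (s : ℂ) • Pr δ) r y⟫_ℂ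

/-- Measurability of the limit operator in the coupling. -/
def S_meas : Prop :=
  ∀ (E : Type) [NormedAddCommGroup E] [InnerProductSpace ℂ E] [CompleteSpace E]
    (H V : E →L[ℂ] E) (Q : ℝ → E →L[ℂ] E) (δ v : E) (a b : ℝ) (t : ℕ → ℝ),
    (∀ᵐ s ∂(volume.restrict (Set.Ioc a b)), IsLim (H + ((s : ℝ) : ℂ) • Pr δ) V t (Q s)) →
    AEStronglyMeasurable (fun s => Q s v) (volume.restrict (Set.Ioc a b))

/-- The averaged vector has bounded spectral density. -/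
def S_avM : Prop :=
  ∀ (E : Type) [NormedAddCommGroup E] [InnerProductSpace ℂ E] [CompleteSpace E]
    (H V R : E →L[ℂ] E) (Q : ℝ → E →L[ℂ] E) (δ : E) (a b : ℝ) (t : ℕ → ℝ) (S : Set ℝ),
    IsSelfAdjoint H → IsSelfAdjoint V → Tendsto t atTop atTop → a < b → MeasurableSet S →
    (∀ y, ‖R y‖ ≤ ‖y‖) →
    (∀ (v y : E) (s r : ℝ), ⟪v, U H r (R y)⟫_ℂ = ⟪R v, U (H + (s : ℂ) • Pr δ) r y⟫_ℂ) →
    (∀ᵐ s ∂(volume.restrict (Set.Ioc a b)), IsLim (H + ((s : ℝ) : ℂ) • Pr δ) V t (Q s)) →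
    IsM H (∫ s in S, R (Q s δ) ∂(volume.restrict (Set.Ioc a b)))
      (2 * Real.pi * (b - a) * ‖V‖ ^ 2)

/-- The limit operator maps `δ` into the cyclic space. -/
def S_proj : Prop :=
  ∀ (E : Type) [NormedAddCommGroup E] [InnerProductSpace ℂ E] [CompleteSpace E]
    (H V : E →L[ℂ] E) (Q : ℝ → E →L[ℂ] E) (δ : E) (a b : ℝ) (t : ℕ → ℝ),
    IsSelfAdjoint H → IsSelfAdjoint V → Tendsto t atTop atTop → a < b →
    (∀ᵐ s ∂(volume.restrict (Set.Ioc a b)), IsLim (H + ((s : ℝ) : ℂ) • Pr δ) V t (Q s)) →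
    ∀ᵐ s ∂(volume.restrict (Set.Ioc a b)), ∀ ψ, Perp H δ ψ → ⟪ψ, Q s δ⟫_ℂ = 0

/-- Time reversal puts `Q δ` in the orthogonal complement of the cyclic space. -/
def S_anti : Prop :=
  ∀ (E : Type) [NormedAddCommGroup E] [InnerProductSpace ℂ E] [CompleteSpace E]
    (A V Q : E →L[ℂ] E) (δ : E) (t : ℕ → ℝ), IsSelfAdjoint A → IsSelfAdjoint V →
    Tendsto t atTop atTop → IsLim A V t Q → Anti A V δ → Perp A δ (Q δ)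

/-- A conjugation gives the antisymmetry. -/
def S_J : Prop :=
  ∀ (E : Type) [NormedAddCommGroup E] [InnerProductSpace ℂ E] [CompleteSpace E]
    (A V : E →L[ℂ] E) (δ : E) (J : E → E), IsSelfAdjoint A → IsSelfAdjoint V →
    (∀ v w, J (v + w) = J v + J w) → (∀ (c : ℂ) v, J (c • v) = (starRingEnd ℂ) c • J v) →
    (∀ v w, ⟪J v, J w⟫_ℂ = ⟪w, v⟫_ℂ) → J δ = δ → (∀ v, J (A v) = A (J v)) →
    (∀ v, J (V v) = -V (J v)) → Anti A V δ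

/-- The deterministic core. -/
def S_core : Prop :=
  ∀ (E : Type) [NormedAddCommGroup E] [InnerProductSpace ℂ E] [CompleteSpace E]
    (H V : E →L[ℂ] E) (δ : E) (a b : ℝ) (t : ℕ → ℝ),
    IsSelfAdjoint H → IsSelfAdjoint V → Tendsto t atTop atTop → a < b →
    (∀ s ∈ Set.Ioc a b, Anti (H + ((s : ℝ) : ℂ) • Pr δ) V δ) →
    (∀ᵐ s ∂(volume.restrict (Set.Ioc a b)), ∃ Q, IsLim (H + ((s : ℝ) : ℂ) • Pr δ) V t Q) →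
    ∀ᵐ s ∂(volume.restrict (Set.Ioc a b)),
      Tendsto (fun n => avg (H + ((s : ℝ) : ℂ) • Pr δ) V (t n) δ) atTop (𝓝 0)

/-- Long averages are almost as short as any midpoint of two averages. -/
def S_stat1 : Prop :=
  ∀ (E : Type) [NormedAddCommGroup E] [InnerProductSpace ℂ E] [CompleteSpace E]
    (Ξ : ℝ → E), Continuous Ξ → (∀ r r' a : ℝ, ⟪Ξ (r + a), Ξ (r' + a)⟫_ℂ = ⟪Ξ r, Ξ r'⟫_ℂ) →
    ∀ a b t : ℝ, a ≠ 0 → b ≠ 0 → t ≠ 0 →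
      2 * ‖iavg Ξ t‖ ≤ ‖iavg Ξ a + iavg Ξ b‖ + 2 * (|a| + |b|) * ‖Ξ 0‖ / |t|

/-- Two sided mean ergodic theorem for a stationary curve. -/
def S_stat : Prop :=
  ∀ (E : Type) [NormedAddCommGroup E] [InnerProductSpace ℂ E] [CompleteSpace E]
    (Ξ : ℝ → E), Continuous Ξ → (∀ r r' a : ℝ, ⟪Ξ (r + a), Ξ (r' + a)⟫_ℂ = ⟪Ξ r, Ξ r'⟫_ℂ) →
    ∃ y : E, Tendsto (fun t => iavg Ξ t) atTop (𝓝 y) ∧ Tendsto (fun t => iavg Ξ (-t)) atTop (𝓝 y)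

/-- A bounded continuous random curve as a curve in the space of square integrable maps. -/
def S_lp : Prop :=
  ∀ (E : Type) [NormedAddCommGroup E] [InnerProductSpace ℂ E] [CompleteSpace E]
    (d : ℕ) (ξ : ℝ → (Site d → ℝ) → E) (M : ℝ),
    Continuous (fun p : ℝ × (Site d → ℝ) => ξ p.1 p.2) → (∀ r ω, ‖ξ r ω‖ ≤ M) →
    ∃ Ξ : ℝ → Lp E 2 (PP d), Continuous Ξ ∧ (∀ r, Ξ r =ᵐ[PP d] ξ r) ∧
      ∀ t, ((iavg Ξ t : Lp E 2 (PP d)) : (Site d → ℝ) → E) =ᵐ[PP d]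
        fun ω => iavg (fun r => ξ r ω) t

/-- Mean ergodic theorem for a random stationary curve. -/
def S_erg : Prop :=
  ∀ (E : Type) [NormedAddCommGroup E] [InnerProductSpace ℂ E] [CompleteSpace E]
    (d : ℕ) (ξ : ℝ → (Site d → ℝ) → E) (M : ℝ),
    Continuous (fun p : ℝ × (Site d → ℝ) => ξ p.1 p.2) → (∀ r ω, ‖ξ r ω‖ ≤ M) →
    (∀ r r' a : ℝ, ∫ ω, ⟪ξ (r + a) ω, ξ (r' + a) ω⟫_ℂ ∂(PP d) = ∫ ω, ⟪ξ r ω, ξ r' ω⟫_ℂ ∂(PP d)) →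
    ∃ t : ℕ → ℝ, Tendsto t atTop atTop ∧
      (∀ᵐ ω ∂(PP d), ∃ y : E, Tendsto (fun n => iavg (fun r => ξ r ω) (t n)) atTop (𝓝 y) ∧
        Tendsto (fun n => iavg (fun r => ξ r ω) (-(t n))) atTop (𝓝 y)) ∧
      ((∀ᵐ ω ∂(PP d), Tendsto (fun n => iavg (fun r => ξ r ω) (t n)) atTop (𝓝 0)) →
        Tendsto (fun τ : ℝ => ∫ ω, ‖iavg (fun r => ξ r ω) τ‖ ^ 2 ∂(PP d)) atTop (𝓝 0))

/-- From basis vectors to the limit operator. -/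
def S_ext : Prop :=
  ∀ (d : ℕ) (A V : L2 d →L[ℂ] L2 d) (t : ℕ → ℝ), IsSelfAdjoint A →
    (∀ x : Site d, ∃ y : L2 d, Tendsto (fun n => avg A V (t n) (dlt x)) atTop (𝓝 y) ∧
      Tendsto (fun n => avg A V (-(t n)) (dlt x)) atTop (𝓝 y)) →
    ∃ Q, IsLim A V t Q

/-- Joint continuity of the time evolution for a strongly continuous family. -/
def S_ucont : Prop :=
  ∀ (E : Type) [NormedAddCommGroup E] [InnerProductSpace ℂ E] [CompleteSpace E]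
    (d : ℕ) (A : (Site d → ℝ) → E →L[ℂ] E) (M : ℝ), (∀ ω, IsSelfAdjoint (A ω)) →
    (∀ ω, ‖A ω‖ ≤ M) → (∀ ψ, Continuous (fun ω => A ω ψ)) →
    ∀ ψ, Continuous (fun p : ℝ × (Site d → ℝ) => U (A p.2) p.1 ψ)

/-- Multiplication operators. -/
def S_mul : Prop :=
  ∀ (d : ℕ) (g : Site d → ℂ) (C : ℝ), 0 ≤ C → (∀ x, ‖g x‖ ≤ C) →
    ∃ G : L2 d →L[ℂ] L2 d, ‖G‖ ≤ C ∧ ∀ (ψ : L2 d) (x : Site d), (G ψ) x = g x * ψ x

/-- Translations. -/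
def S_shift : Prop :=
  ∀ d : ℕ, ∃ T : Site d → L2 d →L[ℂ] L2 d, IsShift T ∧ (∀ x ψ, ‖T x ψ‖ = ‖ψ‖) ∧
    ∀ x ψ φ, ⟪T x ψ, φ⟫_ℂ = ⟪ψ, T (-x) φ⟫_ℂ

/-- Existence and basic properties of the operators. -/
def S_model : Prop :=
  ∀ (d : ℕ) (lam : ℝ),
    (∀ ω : Site d → ℝ, (∀ x, |ω x| ≤ 1) → ∃ H, IsAnderson lam ω H) ∧
    (∀ (ω : Site d → ℝ) H, (∀ x, |ω x| ≤ 1) → IsAnderson lam ω H →
      IsSelfAdjoint H ∧ ‖H‖ ≤ 2 * d + |lam|) ∧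
    (∀ i : Fin d, ∃ V, IsVel i V) ∧ (∀ (i : Fin d) V, IsVel i V → IsSelfAdjoint V)

/-- Strong continuity in the potential. -/
def S_hcont : Prop :=
  ∀ (d : ℕ) (lam : ℝ) (H : (Site d → ℝ) → L2 d →L[ℂ] L2 d), IsFam lam H →
    ∀ ψ, Continuous (fun ω => H ω ψ)

/-- Rank one dependence on the potential at the origin, and time reversal. -/
def S_rank : Prop :=
  ∀ (d : ℕ) (lam : ℝ) (H : (Site d → ℝ) → L2 d →L[ℂ] L2 d), 0 ≤ lam → IsFam lam H →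
    (∀ (ω : Site d → ℝ) (s : ℝ), s ∈ Set.Icc (-1 : ℝ) 1 →
      H (Function.update ω 0 s) = H (Function.update ω 0 0) +
        (s : ℂ) • Pr (((Real.sqrt lam : ℝ) : ℂ) • dlt (0 : Site d))) ∧
    (∀ (ω : Site d → ℝ) (i : Fin d) (V : L2 d →L[ℂ] L2 d) (c : ℝ), IsVel i V →
      IsSelfAdjoint (H ω) → IsSelfAdjoint V → Anti (H ω) V ((c : ℂ) • dlt (0 : Site d)))

/-- Shift invariance of the law. -/
def S_sinv : Prop :=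
  ∀ (d : ℕ) (x : Site d), MeasurePreserving (sh x) (PP d) (PP d)

/-- Resampling the potential at the origin. -/
def S_slice : Prop :=
  ∀ d : ℕ,
    (∀ p : (Site d → ℝ) → Prop, (∀ᵐ ω ∂(PP d), p ω) →
      ∀ᵐ ω ∂(PP d), ∀ᵐ s ∂(volume.restrict (Set.Ioc (-1 : ℝ) 1)), p (Function.update ω 0 s)) ∧
    (∀ S : Set (Site d → ℝ), MeasurableSet S →
      (∀ᵐ ω ∂(PP d), ∀ᵐ s ∂(volume.restrict (Set.Ioc (-1 : ℝ) 1)), Function.update ω 0 s ∈ S) →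
      ∀ᵐ ω ∂(PP d), ω ∈ S) ∧
    (∀ᵐ ω ∂(PP d), ∀ x, ω x ∈ Set.Icc (-1 : ℝ) 1)

/-- The trace property. -/
def S_trace : Prop :=
  ∀ (d : ℕ) (T : Site d → L2 d →L[ℂ] L2 d) (A B : (Site d → ℝ) → L2 d →L[ℂ] L2 d),
    IsShift T → (∀ x ψ φ, ⟪T x ψ, φ⟫_ℂ = ⟪ψ, T (-x) φ⟫_ℂ) → Cov T A → Cov T B →
    ∫ ω, ⟪dlt (0 : Site d), A ω (B ω (dlt 0))⟫_ℂ ∂(PP d) =
      ∫ ω, ⟪dlt (0 : Site d), B ω (A ω (dlt 0))⟫_ℂ ∂(PP d)

/-- Closure properties of covariant families. -/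
def S_cov : Prop :=
  ∀ (d : ℕ) (lam : ℝ) (T : Site d → L2 d →L[ℂ] L2 d) (H : (Site d → ℝ) → L2 d →L[ℂ] L2 d),
    IsShift T → IsFam lam H →
    Cov T H ∧ (∀ r : ℝ, Cov T (fun ω => U (H ω) r)) ∧
      (∀ (i : Fin d) V, IsVel i V → Cov T (fun _ => V)) ∧
      (∀ A B, Cov T A → Cov T B → Cov T (fun ω => A ω * B ω))

/-- Stationarity of the velocity curve. -/
def S_statm : Prop :=
  ∀ (d : ℕ) (lam : ℝ) (H : (Site d → ℝ) → L2 d →L[ℂ] L2 d) (i : Fin d) (V : L2 d →L[ℂ] L2 d),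
    IsFam lam H → IsVel i V → ∀ r r' a : ℝ,
    ∫ ω, ⟪U (H ω) (-(r + a)) (V (U (H ω) (r + a) (dlt 0))),
        U (H ω) (-(r' + a)) (V (U (H ω) (r' + a) (dlt 0)))⟫_ℂ ∂(PP d) =
      ∫ ω, ⟪U (H ω) (-r) (V (U (H ω) r (dlt 0))), U (H ω) (-r') (V (U (H ω) r' (dlt 0)))⟫_ℂ ∂(PP d)

/-- Almost sure existence of the limit operator from convergence at the origin. -/
def S_good : Prop :=
  ∀ (d : ℕ) (lam : ℝ) (H : (Site d → ℝ) → L2 d →L[ℂ] L2 d) (i : Fin d) (V : L2 d →L[ℂ] L2 d)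
    (t : ℕ → ℝ), IsFam lam H → IsVel i V →
    (∀ᵐ ω ∂(PP d), ∃ y : L2 d, Tendsto (fun n => avg (H ω) V (t n) (dlt 0)) atTop (𝓝 y) ∧
      Tendsto (fun n => avg (H ω) V (-(t n)) (dlt 0)) atTop (𝓝 y)) →
    ∀ᵐ ω ∂(PP d), ∃ Q, IsLim (H ω) V t Q

/-- Gauge twisted form of the position bound. -/
def S_pos1 : Prop :=
  ∀ (d : ℕ) (lam : ℝ) (ω : Site d → ℝ) (H : L2 d →L[ℂ] L2 d) (T : Site d → L2 d →L[ℂ] L2 d)
    (i : Fin d) (t θ : ℝ) (F : Finset (Site d)) (W : L2 d →L[ℂ] L2 d),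
    IsAnderson lam ω H → IsSelfAdjoint H → IsShift T →
    W = (Complex.exp (θ * Complex.I) - 1) • T (Pi.single i 1) +
      (Complex.exp (-(θ * Complex.I)) - 1) • T (-Pi.single i 1) →
    ∑ x ∈ F, ‖Complex.exp (-(θ * (x i : ℤ) * Complex.I)) - 1‖ ^ 2 * ‖(U H t (dlt 0)) x‖ ^ 2 ≤
      t ^ 2 * ‖iavg (fun r => U H (-r) (W (U (H + W) r (dlt 0)))) t‖ ^ 2

/-- The second moment of the position is bounded by the integrated velocity. -/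
def S_pos : Prop :=
  ∀ (d : ℕ) (lam : ℝ) (ω : Site d → ℝ) (H V : L2 d →L[ℂ] L2 d) (i : Fin d) (t : ℝ)
    (F : Finset (Site d)), IsAnderson lam ω H → IsSelfAdjoint H → IsVel i V →
    ∑ x ∈ F, ((x i : ℤ) : ℝ) ^ 2 * ‖(U H t (dlt 0)) x‖ ^ 2 ≤ t ^ 2 * ‖avg H V t (dlt 0)‖ ^ 2

/-- The averaged velocity tends to zero in mean square. -/
def S_vel : Prop :=
  ∀ (d : ℕ) (lam : ℝ) (H : (Site d → ℝ) → L2 d →L[ℂ] L2 d) (i : Fin d) (V : L2 d →L[ℂ] L2 d),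
    0 < lam → IsFam lam H → IsVel i V →
    (∀ t, Integrable (fun ω => ‖avg (H ω) V t (dlt 0)‖ ^ 2) (PP d)) ∧
    Tendsto (fun t : ℝ => ∫ ω, ‖avg (H ω) V t (dlt 0)‖ ^ 2 ∂(PP d)) atTop (𝓝 0)

/-- The final statement. -/
def S_main : Prop :=
  ∀ (d : ℕ) (lam : ℝ), 0 < lam → ∀ H : (Site d → ℝ) → L2 d →L[ℂ] L2 d,
    (∀ ω : Site d → ℝ, (∀ x, ω x ∈ Set.Icc (-1 : ℝ) 1) → IsAnderson lam ω (H ω)) →
    Tendsto (fun t : ℝ => (∫⁻ ω, ∑' x : Site d, ENNReal.ofReal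
        ((∑ i : Fin d, ((x i : ℤ) : ℝ) ^ 2) * ‖(U (H ω) t (dlt 0)) x‖ ^ 2) ∂(PP d)) /
      ENNReal.ofReal (t ^ 2)) atTop (𝓝 0)

end Vale.Agent.P365
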