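import Vale.Agent.P365.Stm
import Vale.Agent.P365.Defs2

/-! Statements for general initial states. -/

open MeasureTheory Filter Topology Set
open scoped InnerProductSpace ENNReal

namespace Vale.Agent.P365

/-- Gauge twisted position bound for a general state. -/
def S_pos1g : Prop :=
  ∀ (d : ℕ) (lam : ℝ) (ω : Site d → ℝ) (H : L2 d →L[ℂ] L2 d) (T : Site d → L2 d →L[ℂ] L2 d)
    (i : Fin d) (t θ B : ℝ) (F : Finset (Site d)) (W : L2 d →L[ℂ] L2 d) (ψ : L2 d),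
    IsAnderson lam ω H → IsSelfAdjoint H → IsShift T →
    W = (Complex.exp (θ * Complex.I) - 1) • T (Pi.single i 1) +
      (Complex.exp (-(θ * Complex.I)) - 1) • T (-Pi.single i 1) →
    (∀ F' : Finset (Site d), ∑ x ∈ F', ((x i : ℤ) : ℝ) ^ 2 * ‖ψ x‖ ^ 2 ≤ B) →
    ∃ φ : L2 d, ‖φ - ψ‖ ^ 2 ≤ θ ^ 2 * B ∧
      ∑ x ∈ F, ‖Complex.exp (-(θ * (x i : ℤ) * Complex.I)) - 1‖ ^ 2 * ‖(U H t ψ) x‖ ^ 2 ≤
        2 * (θ ^ 2 * B) + 2 * (t ^ 2 * ‖iavg (fun r => U H (-r) (W (U (H + W) r φ))) t‖ ^ 2)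

/-- Position bound for a general state. -/
def S_posg : Prop :=
  ∀ (d : ℕ) (lam : ℝ) (ω : Site d → ℝ) (H V : L2 d →L[ℂ] L2 d) (i : Fin d) (t B : ℝ)
    (F : Finset (Site d)) (ψ : L2 d), IsAnderson lam ω H → IsSelfAdjoint H → IsVel i V →
    (∀ F' : Finset (Site d), ∑ x ∈ F', ((x i : ℤ) : ℝ) ^ 2 * ‖ψ x‖ ^ 2 ≤ B) →
    ∑ x ∈ F, ((x i : ℤ) : ℝ) ^ 2 * ‖(U H t ψ) x‖ ^ 2 ≤ 2 * B + 2 * (t ^ 2 * ‖avg H V t ψ‖ ^ 2)

/-- The second moment in terms of the averaged velocities. -/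
def S_momb : Prop :=
  ∀ (d : ℕ) (lam : ℝ) (ω : Site d → ℝ) (H : L2 d →L[ℂ] L2 d) (V : Fin d → L2 d →L[ℂ] L2 d)
    (t : ℝ) (ψ : L2 d), IsAnderson lam ω H → IsSelfAdjoint H → (∀ i, IsVel i (V i)) →
    mom ψ ≠ ⊤ →
    mom (U H t ψ) ≤ ENNReal.ofReal (2 * (d * (mom ψ).toReal) +
      2 * (t ^ 2 * ∑ i : Fin d, ‖avg H (V i) t ψ‖ ^ 2))

/-- The mean square velocity does not depend on the starting site. -/
def S_velx : Prop :=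
  ∀ (d : ℕ) (lam : ℝ) (H : (Site d → ℝ) → L2 d →L[ℂ] L2 d) (i : Fin d) (V : L2 d →L[ℂ] L2 d),
    IsFam lam H → IsVel i V →
    (∀ t ψ, Continuous (fun ω => avg (H ω) V t ψ)) ∧
    ∀ (t : ℝ) (x : Site d), ∫ ω, ‖avg (H ω) V t (dlt x)‖ ^ 2 ∂(PP d) =
      ∫ ω, ‖avg (H ω) V t (dlt 0)‖ ^ 2 ∂(PP d)

/-- Mean square convergence for every state. -/
def S_velg : Prop :=
  ∀ (d : ℕ) (lam : ℝ) (H : (Site d → ℝ) → L2 d →L[ℂ] L2 d) (i : Fin d) (V : L2 d →L[ℂ] L2 d),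
    0 < lam → IsFam lam H → IsVel i V → ∀ ψ : L2 d,
    (∀ t, Integrable (fun ω => ‖avg (H ω) V t ψ‖ ^ 2) (PP d)) ∧
    Tendsto (fun t : ℝ => ∫ ω, ‖avg (H ω) V t ψ‖ ^ 2 ∂(PP d)) atTop (𝓝 0)

/-- Almost sure strong convergence along a subsequence of any sequence of times. -/
def S_as : Prop :=
  ∀ (d : ℕ) (lam : ℝ) (H : (Site d → ℝ) → L2 d →L[ℂ] L2 d) (V : Fin d → L2 d →L[ℂ] L2 d)
    (t : ℕ → ℝ), 0 < lam → IsFam lam H → (∀ i, IsVel i (V i)) → Tendsto t atTop atTop →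
    ∃ k : ℕ → ℕ, StrictMono k ∧ ∀ᵐ ω ∂(PP d), ∀ (i : Fin d) (ψ : L2 d),
      Tendsto (fun n => avg (H ω) (V i) (t (k n)) ψ) atTop (𝓝 0)

/-- First final statement: convergence in the mean for every state. -/
def S_mainA : Prop :=
  ∀ (d : ℕ) (lam : ℝ), 0 < lam → ∀ H : (Site d → ℝ) → L2 d →L[ℂ] L2 d,
    (∀ ω : Site d → ℝ, (∀ x, ω x ∈ Set.Icc (-1 : ℝ) 1) → IsAnderson lam ω (H ω)) →
    ∀ ψ : L2 d, mom ψ ≠ ⊤ →
    Tendsto (fun t : ℝ => (∫⁻ ω, mom (U (H ω) t ψ) ∂(PP d)) / ENNReal.ofReal (t ^ 2)) atTop (𝓝 0)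

/-- Second final statement: almost surely, for all states at once, along subsequences. -/
def S_mainB : Prop :=
  ∀ (d : ℕ) (lam : ℝ), 0 < lam → ∀ H : (Site d → ℝ) → L2 d →L[ℂ] L2 d,
    (∀ ω : Site d → ℝ, (∀ x, ω x ∈ Set.Icc (-1 : ℝ) 1) → IsAnderson lam ω (H ω)) →
    ∀ t : ℕ → ℝ, Tendsto t atTop atTop → ∃ k : ℕ → ℕ, StrictMono k ∧
      ∀ᵐ ω ∂(PP d), ∀ ψ : L2 d, mom ψ ≠ ⊤ →
        Tendsto (fun n => mom (U (H ω) (t (k n)) ψ) / ENNReal.ofReal (t (k n) ^ 2)) atTop (𝓝 0)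

end Vale.Agent.P365
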