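import Vale.Agent.P365.Bas3

/-! Statements for the multiplicity theorem. -/

open MeasureTheory Filter Topology Set
open scoped InnerProductSpace ENNReal

namespace Vale.Agent.P365

/-- Existence of spectral measures. -/
def T_exspec : Prop :=
  ∀ (E : Type) [NormedAddCommGroup E] [InnerProductSpace ℂ E] [CompleteSpace E]
    (A : E →L[ℂ] E) (ψ : E), IsSelfAdjoint A → ∃ μ : Measure ℝ, IsSpec A ψ μ

/-- The imaginary part of the resolvent is the Poisson integral of the spectral measure. -/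
def T_poi : Prop :=
  ∀ (E : Type) [NormedAddCommGroup E] [InnerProductSpace ℂ E] [CompleteSpace E]
    (A : E →L[ℂ] E) (ψ : E) (μ : Measure ℝ) (z : ℂ), IsSelfAdjoint A → IsSpec A ψ μ → 0 < z.im →
    (⟪ψ, res A z ψ⟫_ℂ).im = ∫ x, z.im / ((x - z.re) ^ 2 + z.im ^ 2) ∂μ

/-- Layer cake form of the Poisson integral. -/
def T_layer : Prop :=
  ∀ (μ : Measure ℝ) [IsFiniteMeasure μ] (e η : ℝ), 0 < η →
    ∫ x, η / ((x - e) ^ 2 + η ^ 2) ∂μ =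
      ∫ u in Set.Ioi (0 : ℝ), (μ.real (Metric.closedBall e (η * u)) / (2 * (η * u))) *
        (4 * u ^ 2 / (1 + u ^ 2) ^ 2)

/-- Poisson integrals converge where the symmetric derivative exists. -/
def T_sym : Prop :=
  ∀ (μ : Measure ℝ) [IsFiniteMeasure μ] (e D : ℝ),
    Tendsto (fun r : ℝ => μ.real (Metric.closedBall e r) / (2 * r)) (𝓝[>] 0) (𝓝 D) →
    Tendsto (fun η : ℝ => ∫ x, η / ((x - e) ^ 2 + η ^ 2) ∂μ) (𝓝[>] 0) (𝓝 (Real.pi * D))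

/-- Fatou theorem for Poisson integrals. -/
def T_fatou : Prop :=
  ∀ (μ : Measure ℝ) [IsFiniteMeasure μ], ∀ᵐ e : ℝ,
    Tendsto (fun n : ℕ => ∫ x, (1 / ((n : ℝ) + 1)) / ((x - e) ^ 2 + (1 / ((n : ℝ) + 1)) ^ 2) ∂μ)
      atTop (𝓝 (Real.pi * dens μ e))

/-- Rank one perturbation formula. -/
def T_rk1 : Prop :=
  ∀ (E : Type) [NormedAddCommGroup E] [InnerProductSpace ℂ E] [CompleteSpace E]
    (A : E →L[ℂ] E) (δ : E) (κ : ℝ) (z : ℂ), IsSelfAdjoint A → 0 < z.im →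
    1 + κ * ⟪δ, res A z δ⟫_ℂ ≠ 0 ∧
    ‖(1 + κ * ⟪δ, res A z δ⟫_ℂ)⁻¹‖ ≤ 1 + |κ| * ‖δ‖ ^ 2 / z.im ∧
    ∀ v w : E, ⟪v, res (A + (κ : ℂ) • Pr δ) z w⟫_ℂ = ⟪v, res A z w⟫_ℂ -
      κ * (⟪v, res A z δ⟫_ℂ * ⟪δ, res A z w⟫_ℂ) / (1 + κ * ⟪δ, res A z δ⟫_ℂ)

/-- Symmetry of the Green function. -/
def T_gsym : Prop :=
  ∀ (d : ℕ) (lam : ℝ) (H : (Site d → ℝ) → L2 d →L[ℂ] L2 d), IsFam lam H →
    ∀ (n : ℕ) (x y : Site d) (p : (Site d → ℝ) × ℝ), gr H n x y p = gr H n y x p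

/-- Positivity, Cauchy Schwarz and polarization. -/
def T_gpos : Prop :=
  ∀ (d : ℕ) (lam : ℝ) (H : (Site d → ℝ) → L2 d →L[ℂ] L2 d), IsFam lam H →
    ∀ (n : ℕ) (x y : Site d) (p : (Site d → ℝ) × ℝ), 0 < (gr H n x x p).im ∧
      (gr H n x y p).im ^ 2 ≤ (gr H n x x p).im * (gr H n y y p).im ∧
      (⟪dlt x + dlt y, res (H p.1) (zz p.2 n) (dlt x + dlt y)⟫_ℂ).im =
        (gr H n x x p).im + (gr H n y y p).im + 2 * (gr H n x y p).im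

/-- Covariance of the Green function. -/
def T_gcov : Prop :=
  ∀ (d : ℕ) (lam : ℝ) (H : (Site d → ℝ) → L2 d →L[ℂ] L2 d), IsFam lam H →
    ∀ (n : ℕ) (x y a : Site d) (p : (Site d → ℝ) × ℝ),
      gr H n (x + a) (y + a) p = gr H n x y (shp a p)

/-- Continuity of the Green function. -/
def T_gcont : Prop :=
  ∀ (d : ℕ) (lam : ℝ) (H : (Site d → ℝ) → L2 d →L[ℂ] L2 d), IsFam lam H →
    ∀ (n : ℕ) (x y : Site d), Continuous (gr H n x y)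

/-- Decay of the Green function at fixed height. -/
def T_gdec : Prop :=
  ∀ (d : ℕ) (H : (Site d → ℝ) → L2 d →L[ℂ] L2 d) (e : Site d), e ≠ 0 →
    ∀ (n : ℕ) (p : (Site d → ℝ) × ℝ),
      Tendsto (fun k : ℕ => gr H n ((k : ℤ) • e) 0 p) atTop (𝓝 0)

/-- Rank one formula in the model. -/
def T_grk : Prop :=
  ∀ (d : ℕ) (lam : ℝ) (H : (Site d → ℝ) → L2 d →L[ℂ] L2 d), 0 < lam → IsFam lam H →
    ∀ (n : ℕ) (y : Site d) (t : ℝ) (p : (Site d → ℝ) × ℝ), 0 ≤ t → p.1 0 ∈ Set.Icc (-1) (1 - t) →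
      ‖(1 + ((lam * t : ℝ) : ℂ) * gr H n 0 0 p)⁻¹‖ ≤ 1 + lam * t * ((n : ℝ) + 1) ∧
      gr H n y y (up t p) = gr H n y y p -
        ((lam * t : ℝ) : ℂ) * gr H n y 0 p ^ 2 / (1 + ((lam * t : ℝ) : ℂ) * gr H n 0 0 p)

/-- Wegner type bound. -/
def T_weg : Prop :=
  ∀ (d : ℕ) (lam L M : ℝ) (H : (Site d → ℝ) → L2 d →L[ℂ] L2 d), 0 < lam → 0 < L → 0 < M →
    IsFam lam H → ∀ (n : ℕ) (y : Site d),
      nu d L {p | M < ‖gr H n y y p‖} ≤ ENNReal.ofReal (2 * L / (lam * M))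

/-- Resampling formula for the law of the potential. -/
def T_resamp : Prop :=
  ∀ (d : ℕ) (S : Set (Site d → ℝ)), MeasurableSet S →
    PP d S = ∫⁻ ω, unif {s | Function.update ω 0 s ∈ S} ∂(PP d)

/-- Raising the potential does not increase the measure. -/
def T_up : Prop :=
  ∀ (d : ℕ) (L t : ℝ), 0 < L → 0 ≤ t → t ≤ 2 →
    Measurable (up (d := d) t) ∧
    (∀ S : Set ((Site d → ℝ) × ℝ), MeasurableSet S →
      nu d L {p | p.1 0 ∈ Set.Icc (-1) (1 - t) ∧ up t p ∈ S} ≤ nu d L S) ∧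
    nu d L {p | p.1 0 ∉ Set.Icc (-1) (1 - t)} ≤ ENNReal.ofReal (L * t)

/-- Boundary values for a fixed potential. -/
def T_conv : Prop :=
  ∀ (d : ℕ) (lam : ℝ) (H : (Site d → ℝ) → L2 d →L[ℂ] L2 d), IsFam lam H →
    ∀ (ω : Site d → ℝ) (μ : L2 d → Measure ℝ), (∀ ψ, IsSpec (H ω) ψ (μ ψ)) →
      ∀ᵐ e : ℝ, (∀ x, Tendsto (fun n => (gr H n x x (ω, e)).im) atTop
          (𝓝 (Real.pi * dens (μ (dlt x)) e))) ∧
        ∀ x y, Tendsto (fun n => (gr H n x y (ω, e)).im) atTop (𝓝 (Real.pi * kern μ x y e))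

/-- Boundary values on the product space. -/
def T_ae : Prop :=
  ∀ (d : ℕ) (lam L : ℝ) (H : (Site d → ℝ) → L2 d →L[ℂ] L2 d), IsFam lam H →
    (∀ x y, Measurable (rl H x y)) ∧
    ∀ᵐ p ∂(nu d L), ∀ x y, Tendsto (fun n => (gr H n x y p).im) atTop (𝓝 (rl H x y p))

/-- Cauchy property in measure, uniform in the site. -/
def T_unif : Prop :=
  ∀ (d : ℕ) (lam L : ℝ) (H : (Site d → ℝ) → L2 d →L[ℂ] L2 d), IsFam lam H →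
    ∀ (δ γ : ℝ), 0 < δ → 0 < γ → ∃ n₀ : ℕ, ∀ n, n₀ ≤ n → ∀ y : Site d,
      nu d L {p | δ ≤ |(gr H n y y p).im - (gr H n₀ y y p).im|} ≤ ENNReal.ofReal γ

/-- At fixed height, far sites do not feel the origin. -/
def T_mid : Prop :=
  ∀ (d : ℕ) (lam L : ℝ) (H : (Site d → ℝ) → L2 d →L[ℂ] L2 d) (e : Site d), 0 < lam → IsFam lam H →
    e ≠ 0 → ∀ (n₀ : ℕ) (t δ γ : ℝ), 0 ≤ t → 0 < δ → 0 < γ → ∃ K : ℕ, ∀ k : ℕ, K ≤ k →
      nu d L {p | p.1 0 ∈ Set.Icc (-1) (1 - t) ∧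
        δ ≤ |(gr H n₀ ((k : ℤ) • e) ((k : ℤ) • e) (up t p)).im -
          (gr H n₀ ((k : ℤ) • e) ((k : ℤ) • e) p).im|} ≤ ENNReal.ofReal γ

/-- Far sites do not feel the origin, uniformly in the height. -/
def T_far : Prop :=
  ∀ (d : ℕ) (lam L : ℝ) (H : (Site d → ℝ) → L2 d →L[ℂ] L2 d) (e : Site d), 0 < lam → 0 < L →
    IsFam lam H → e ≠ 0 → ∀ (t δ γ : ℝ), 0 ≤ t → t ≤ 2 → 0 < δ → 0 < γ →
      ∃ n₀ K : ℕ, ∀ n k : ℕ, n₀ ≤ n → K ≤ k →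
      nu d L {p | p.1 0 ∈ Set.Icc (-1) (1 - t) ∧
        δ ≤ |(gr H n ((k : ℤ) • e) ((k : ℤ) • e) (up t p)).im -
          (gr H n ((k : ℤ) • e) ((k : ℤ) • e) p).im|} ≤ ENNReal.ofReal γ

/-- Two couplings determine the square of the Green function. -/
def T_alg : Prop :=
  ∀ κ θ M : ℝ, 0 < κ → 0 < θ → 0 < M → ∃ C : ℝ, 0 < C ∧ ∀ (w a : ℂ) (δ : ℝ), θ ≤ a.im → ‖a‖ ≤ M →
    |((κ : ℂ) * w / (1 + (κ : ℂ) * a)).im| ≤ δ →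
    |(((2 * κ : ℝ) : ℂ) * w / (1 + ((2 * κ : ℝ) : ℂ) * a)).im| ≤ δ → ‖w‖ ≤ C * δ

/-- Off diagonal smallness in measure, uniformly in the height. -/
def T_fin : Prop :=
  ∀ (d : ℕ) (lam L : ℝ) (H : (Site d → ℝ) → L2 d →L[ℂ] L2 d) (e : Site d), 0 < lam → 0 < L →
    IsFam lam H → e ≠ 0 → ∀ (ε γ : ℝ), 0 < ε → 0 < γ → ∃ n₀ K : ℕ, ∀ n k : ℕ, n₀ ≤ n → K ≤ k →
      nu d L {p | ε ≤ |(gr H n ((k : ℤ) • e) 0 p).im|} ≤ ENNReal.ofReal γ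

/-- Off diagonal decay in measure of the boundary values. -/
def T_key : Prop :=
  ∀ (d : ℕ) (lam L : ℝ) (H : (Site d → ℝ) → L2 d →L[ℂ] L2 d) (e : Site d), 0 < lam → 0 < L →
    IsFam lam H → e ≠ 0 → ∀ (ε γ : ℝ), 0 < ε → 0 < γ → ∃ K : ℕ, 0 < K ∧ ∀ k : ℕ, K ≤ k →
      nu d L {p | ε ≤ |rl H ((k : ℤ) • e) 0 p|} ≤ ENNReal.ofReal γ

/-- Counting lemma. -/
def T_cnt : Prop :=
  ∀ (X : Type) [MeasurableSpace X] (ν : Measure X) (N m : ℕ) (B : ℕ → Set X) (Bad : Set X)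
    (b : ℝ≥0∞), (∀ i, MeasurableSet (B i)) → MeasurableSet Bad → (∀ i, ν (B i) = b) →
    (∀ (p : X) (s : Finset ℕ), p ∉ Bad → s ⊆ Finset.range N → (∀ i ∈ s, p ∈ B i) → s.card ≤ m) →
    N * b ≤ m * ν Set.univ + N * ν Bad

/-- Diagonal dominance. -/
def T_gersh : Prop :=
  ∀ (ι : Type) (r : ι → ι → ℝ) (y : ℕ → ι) (m : ℕ) (ε : ℝ) (s : Finset ℕ), 0 < ε → m < s.card →
    (∀ i ∈ s, ε ≤ r (y i) (y i)) → (∀ i ∈ s, ∀ j ∈ s, i ≠ j → |r (y i) (y j)| < ε / (m + 1)) →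
    ∃ z : Fin m → ι, (Matrix.of fun i j => r (z i) (z j)).det ≠ 0

/-- The set of bounded rank and positive density is null. -/
def T_null : Prop :=
  ∀ (d : ℕ) (lam L : ℝ) (H : (Site d → ℝ) → L2 d →L[ℂ] L2 d), 0 < d → 0 < lam → 0 < L →
    IsFam lam H → ∀ (ε : ℝ) (m : ℕ), 0 < ε →
      nu d L {p | ε ≤ rl H 0 0 p ∧
        ∀ z : Fin m → Site d, (Matrix.of fun i j => rl H (z i) (z j) p).det = 0} = 0

/-- Unbounded rank on the product space. -/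
def T_comb : Prop :=
  ∀ (d : ℕ) (lam L : ℝ) (H : (Site d → ℝ) → L2 d →L[ℂ] L2 d), 0 < d → 0 < lam → 0 < L →
    IsFam lam H → ∀ᵐ p ∂(nu d L), (∀ x, rl H x x p = 0) ∨
      ∀ m : ℕ, ∃ z : Fin m → Site d, (Matrix.of fun i j => rl H (z i) (z j) p).det ≠ 0

/-- The multiplicity theorem. -/
def T_main : Prop :=
  ∀ (d : ℕ) (lam : ℝ), 0 < d → 0 < lam → ∀ H : (Site d → ℝ) → L2 d →L[ℂ] L2 d,
    (∀ ω : Site d → ℝ, (∀ x, ω x ∈ Set.Icc (-1 : ℝ) 1) → IsAnderson lam ω (H ω)) →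
    ∀ᵐ ω ∂(PP d), ∀ μ : L2 d → Measure ℝ, (∀ ψ, IsSpec (H ω) ψ (μ ψ)) →
      ∀ᵐ e : ℝ, (∀ x, dens (μ (dlt x)) e = 0) ∨
        ∀ m : ℕ, ∃ z : Fin m → Site d, (Matrix.of fun i j => kern μ (z i) (z j) e).det ≠ 0

end Vale.Agent.P365
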