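import Vale.Agent.P365.Stm3
import Vale.Agent.P365.Defs4

/-! Statements for the operator form of the multiplicity theorem. -/

open MeasureTheory Filter Topology Set
open scoped InnerProductSpace ENNReal

namespace Vale.Agent.P365

/-- Smoothed spectral density, up to the factor pi. -/
noncomputable def qn {E : Type} [NormedAddCommGroup E] [InnerProductSpace ℂ E] [CompleteSpace E]
    (A : E →L[ℂ] E) (e : ℝ) (n : ℕ) (ψ : E) : ℝ := (zz e n).im * ‖res A (zz e n) ψ‖ ^ 2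

/-- Uniqueness and total mass of spectral measures. -/
def O_uniq : Prop :=
  ∀ (E : Type) [NormedAddCommGroup E] [InnerProductSpace ℂ E] [CompleteSpace E]
    (A : E →L[ℂ] E) (ψ : E) (μ : Measure ℝ), IsSelfAdjoint A → IsSpec A ψ μ →
    μ Set.univ = ENNReal.ofReal (‖ψ‖ ^ 2) ∧ ∀ μ' : Measure ℝ, IsSpec A ψ μ' → μ' = μ

/-- Strong limits of the functional calculus along an approximating sequence. -/
def O_cut0 : Prop :=
  ∀ (E : Type) [NormedAddCommGroup E] [InnerProductSpace ℂ E] [CompleteSpace E]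
    (A : E →L[ℂ] E) (ψ : E) (μ : Measure ℝ) (g : ℝ → ℝ) (f : ℕ → BoundedContinuousFunction ℝ ℝ),
    IsSelfAdjoint A → IsSpec A ψ μ → Measurable g → (∀ x, |g x| ≤ 1) → (∀ n x, |f n x| ≤ 1) →
    (∀ᵐ x ∂μ, Tendsto (fun n => f n x) atTop (𝓝 (g x))) →
    ∃ χ : E, Tendsto (fun n => (cfc (f n : ℝ → ℝ) A) ψ) atTop (𝓝 χ) ∧
      ∀ h : BoundedContinuousFunction ℝ ℝ,
        ⟪χ, (cfc (h : ℝ → ℝ) A) χ⟫_ℂ = ((∫ x, g x ^ 2 * h x ∂μ : ℝ) : ℂ)

/-- Approximation of indicator functions. -/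
def O_appr : Prop :=
  ∀ (μ : Measure ℝ) [IsFiniteMeasure μ] (S : Set ℝ), MeasurableSet S →
    ∃ f : ℕ → BoundedContinuousFunction ℝ ℝ, (∀ n x, 0 ≤ f n x ∧ f n x ≤ 1) ∧
      ∀ᵐ x ∂μ, Tendsto (fun n => f n x) atTop (𝓝 (S.indicator (fun _ => (1 : ℝ)) x))

/-- Spectral cut of a vector along a Borel set. -/
def O_cut : Prop :=
  ∀ (E : Type) [NormedAddCommGroup E] [InnerProductSpace ℂ E] [CompleteSpace E]
    (A : E →L[ℂ] E) (ψ : E) (μ : Measure ℝ) (S : Set ℝ), IsSelfAdjoint A → IsSpec A ψ μ →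
    MeasurableSet S → ∃ χ : E, IsSpec A χ (μ.restrict S) ∧ IsSpec A (ψ - χ) (μ.restrict Sᶜ)

/-- The component of a vector in the band of an absolutely continuous vector. -/
def O_band : Prop :=
  ∀ (E : Type) [NormedAddCommGroup E] [InnerProductSpace ℂ E] [CompleteSpace E]
    (A : E →L[ℂ] E) (μ : E → Measure ℝ) (φ u : E), IsSelfAdjoint A → (∀ ψ, IsSpec A ψ (μ ψ)) →
    μ φ ≪ volume → ∃ χ : E, μ χ ≪ μ φ ∧ ∀ᵐ e : ℝ, 0 < dens (μ φ) e → dens (μ (u - χ)) e = 0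

/-- Approximation in norm gives approximation of the densities. -/
def O_clos : Prop :=
  ∀ (E : Type) [NormedAddCommGroup E] [InnerProductSpace ℂ E] [CompleteSpace E]
    (A : E →L[ℂ] E) (μ : E → Measure ℝ) (W : Submodule ℂ E) (ψ : E), IsSelfAdjoint A →
    (∀ ψ, IsSpec A ψ (μ ψ)) → ψ ∈ W.topologicalClosure →
    ∃ w : ℕ → E, (∀ k, w k ∈ W) ∧
      ∀ᵐ e : ℝ, Tendsto (fun k => dens (μ (ψ - w k)) e) atTop (𝓝 0)

/-- A nonzero absolutely continuous vector has positive density on a set of positive measure. -/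
def O_pos : Prop :=
  ∀ (E : Type) [NormedAddCommGroup E] [InnerProductSpace ℂ E] [CompleteSpace E]
    (A : E →L[ℂ] E) (φ : E) (μ : Measure ℝ), IsSelfAdjoint A → IsSpec A φ μ → μ ≪ volume →
    φ ≠ 0 → ∃ᵐ e : ℝ, 0 < dens μ e

/-- Boundary values of the smoothed density. -/
def O_lim : Prop :=
  ∀ (E : Type) [NormedAddCommGroup E] [InnerProductSpace ℂ E] [CompleteSpace E]
    (A : E →L[ℂ] E) (ψ : E) (μ : Measure ℝ), IsSelfAdjoint A → IsSpec A ψ μ →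
    ∀ᵐ e : ℝ, Tendsto (fun n => qn A e n ψ) atTop (𝓝 (Real.pi * dens μ e))

/-- Resolvents of polynomial images. -/
def O_poly : Prop :=
  ∀ (E : Type) [NormedAddCommGroup E] [InnerProductSpace ℂ E] [CompleteSpace E]
    (A : E →L[ℂ] E) (m : ℕ) (v : Fin m → E) (ψ : E) (B : ℝ), IsSelfAdjoint A → ψ ∈ gen A v →
    ∃ C : ℝ, ∀ z : ℂ, z.im ≠ 0 → ‖z‖ ≤ B →
      ∃ w ∈ Submodule.span ℂ (Set.range fun j => res A z (v j)), ‖res A z ψ - w‖ ≤ C

/-- Real linear dependence. -/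
def O_dep : Prop :=
  ∀ (E : Type) [NormedAddCommGroup E] [InnerProductSpace ℂ E] (m M : ℕ) (b : Fin m → E)
    (a : Fin M → E), 2 * m < M → (∀ i, a i ∈ Submodule.span ℂ (Set.range b)) →
    ∃ t : Fin M → ℝ, ∑ i, t i ^ 2 = 1 ∧ ∑ i, (t i : ℂ) • a i = 0

/-- A positive semidefinite matrix with arbitrarily small values on unit vectors is singular. -/
def O_det : Prop :=
  ∀ (M : ℕ) (G : Matrix (Fin M) (Fin M) ℝ), (∀ i j, G i j = G j i) →
    (∀ t : Fin M → ℝ, 0 ≤ ∑ i, ∑ j, t i * G i j * t j) →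
    (∀ ε : ℝ, 0 < ε → ∃ t : Fin M → ℝ, ∑ i, t i ^ 2 = 1 ∧ ∑ i, ∑ j, t i * G i j * t j ≤ ε) →
    G.det = 0

/-- Vanishing densities on a generating family. -/
def O_pt1 : Prop :=
  ∀ (E : Type) [NormedAddCommGroup E] [InnerProductSpace ℂ E] [CompleteSpace E]
    (A : E →L[ℂ] E) (ι : Type) (u : ι → E) (e D₀ : ℝ) (φ : E) (w : ℕ → E) (D : ℕ → ℝ),
    (∀ x, Tendsto (fun n => qn A e n (u x)) atTop (𝓝 0)) →
    (∀ k, w k ∈ Submodule.span ℂ (Set.range u)) →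
    (∀ k, Tendsto (fun n => qn A e n (φ - w k)) atTop (𝓝 (D k))) → Tendsto D atTop (𝓝 0) →
    Tendsto (fun n => qn A e n φ) atTop (𝓝 D₀) → D₀ ≤ 0

/-- Bounded rank of the density matrix in a finitely generated subspace. -/
def O_pt2 : Prop :=
  ∀ (E : Type) [NormedAddCommGroup E] [InnerProductSpace ℂ E] [CompleteSpace E]
    (A : E →L[ℂ] E) (e : ℝ) (m M : ℕ) (v : Fin m → E) (a : Fin M → E)
    (G : Matrix (Fin M) (Fin M) ℝ), IsSelfAdjoint A → 2 * m < M →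
    (∀ i j, Tendsto (fun n => (qn A e n (a i + a j) - qn A e n (a i) - qn A e n (a j)) / 2)
      atTop (𝓝 (G i j))) →
    (∀ (i : Fin M) (ε : ℝ), 0 < ε → ∃ ψ ∈ gen A v, ∀ᶠ n in atTop, qn A e n (a i - ψ) ≤ ε) →
    G.det = 0

/-- From density matrices to invariant subspaces. -/
def O_main : Prop :=
  ∀ (d : ℕ) (A : L2 d →L[ℂ] L2 d) (μ : L2 d → Measure ℝ), IsSelfAdjoint A →
    (∀ ψ, IsSpec A ψ (μ ψ)) →
    (∀ᵐ e : ℝ, (∀ x, dens (μ (dlt x)) e = 0) ∨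
      ∀ m : ℕ, ∃ z : Fin m → Site d, (Matrix.of fun i j => kern μ (z i) (z j) e).det ≠ 0) →
    ∀ φ : L2 d, φ ≠ 0 → μ φ ≪ volume → ∀ (m : ℕ) (v : Fin m → L2 d),
      ∃ ψ : L2 d, μ ψ ≪ μ φ ∧ ψ ∉ (gen A v).topologicalClosure

end Vale.Agent.P365
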