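import Vale.Agent.P365.Fin3
import Vale.Agent.P365.Defs2

/-! Statements for the strict Guarneri bound. -/

open MeasureTheory Filter Topology Set
open scoped InnerProductSpace ENNReal

namespace Vale.Agent.P365

/-- The real functional calculus on a general Hilbert space. -/
noncomputable def cf {E : Type} [NormedAddCommGroup E] [InnerProductSpace ℂ E] [CompleteSpace E]
    (h : ℝ → ℝ) (A : E →L[ℂ] E) : E →L[ℂ] E := cfc h A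

/-- The exponential kernel. -/
def V_ker : Prop :=
  ∀ (a u : ℝ), 0 < a →
    Integrable (fun t : ℝ => Real.exp (-(a * |t|))) ∧
    ∫ t : ℝ, Real.exp (-(a * |t|)) * Real.cos (t * u) = 2 * a / (a ^ 2 + u ^ 2) ∧
    Integrable (fun w : ℝ => 2 * a / (a ^ 2 + (w - u) ^ 2)) ∧
    ∫ w : ℝ, 2 * a / (a ^ 2 + (w - u) ^ 2) = 2 * Real.pi

/-- Weighted Plancherel identity. -/
def V_plan0 : Prop :=
  ∀ (f : ℝ → ℝ) (a : ℝ), 0 < a → Measurable f → Integrable f →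
    ∫ t : ℝ, Real.exp (-(a * |t|)) *
        ((∫ e, Real.cos (t * e) * f e) ^ 2 + (∫ e, Real.sin (t * e) * f e) ^ 2) =
      ∫ q : ℝ × ℝ, f q.1 * f q.2 * (2 * a / (a ^ 2 + (q.1 - q.2) ^ 2)) ∂(volume.prod volume)

/-- Plancherel inequality. -/
def V_plan : Prop :=
  ∀ (f : ℝ → ℝ) (T : ℝ), 0 < T → Measurable f → Integrable f → Integrable (fun e => f e ^ 2) →
    ∫ t in (0 : ℝ)..T, ((∫ e, Real.cos (t * e) * f e) ^ 2 + (∫ e, Real.sin (t * e) * f e) ^ 2) ≤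
      20 * ∫ e, f e ^ 2

/-- The time evolution in the functional calculus. -/
def V_ucfc : Prop :=
  ∀ (E : Type) [NormedAddCommGroup E] [InnerProductSpace ℂ E] [CompleteSpace E]
    (A : E →L[ℂ] E) (t : ℝ) (v : E), IsSelfAdjoint A →
    U A t v = (cf (fun x : ℝ => Real.cos (t * x)) A) v -
      Complex.I • (cf (fun x : ℝ => Real.sin (t * x)) A) v

/-- The functional calculus commutes with an antilinear symmetry. -/
def V_real : Prop :=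
  ∀ (E : Type) [NormedAddCommGroup E] [InnerProductSpace ℂ E] [CompleteSpace E]
    (A : E →L[ℂ] E) (J : E → E), IsSelfAdjoint A → Continuous J →
    (∀ a b, J (a + b) = J a + J b) → (∀ (c : ℝ) a, J ((c : ℂ) • a) = (c : ℂ) • J a) →
    (∀ ψ, J (A ψ) = A (J ψ)) →
    ∀ (h : ℝ → ℝ), Continuous h → ∀ ψ, J ((cf h A) ψ) = (cf h A) (J ψ)

/-- Mixed matrix elements of a spectral cut. -/
def V_mix : Prop :=
  ∀ (E : Type) [NormedAddCommGroup E] [InnerProductSpace ℂ E] [CompleteSpace E]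
    (A : E →L[ℂ] E) (μ : E → Measure ℝ) (u v χ : E) (S : Set ℝ)
    (f : ℕ → BoundedContinuousFunction ℝ ℝ), IsSelfAdjoint A → (∀ ψ, IsSpec A ψ (μ ψ)) →
    MeasurableSet S → (∀ n x, 0 ≤ f n x ∧ f n x ≤ 1) →
    (∀ᵐ x ∂(μ u), Tendsto (fun n => f n x) atTop (𝓝 (S.indicator (fun _ => (1 : ℝ)) x))) →
    Tendsto (fun n => (cf (f n : ℝ → ℝ) A) u) atTop (𝓝 χ) →
    ∀ h : BoundedContinuousFunction ℝ ℝ, (⟪v, (cf (h : ℝ → ℝ) A) χ⟫_ℂ).re =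
      ((∫ x in S, h x ∂(μ (v + u))) - (∫ x in S, h x ∂(μ v)) - ∫ x in S, h x ∂(μ u)) / 2

/-- Removing the singular parts. -/
def V_sing : Prop :=
  ∀ (ι : Type) [Countable ι] (μ : ι → Measure ℝ), (∀ i, IsFiniteMeasure (μ i)) →
    ∀ S₀ : Set ℝ, MeasurableSet S₀ → ∃ S : Set ℝ, MeasurableSet S ∧
      ∀ (i : ι) (h : BoundedContinuousFunction ℝ ℝ),
        ∫ x in S, h x ∂(μ i) = ∫ x in S₀, h x * dens (μ i) x

/-- The spectral cut of the vector at the origin and its matrix elements. -/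
def V_chi : Prop :=
  ∀ (d : ℕ) (A : L2 d →L[ℂ] L2 d) (μ : L2 d → Measure ℝ) (S₀ : Set ℝ), IsSelfAdjoint A →
    (∀ ψ, star (A ψ) = A (star ψ)) → (∀ ψ, IsSpec A ψ (μ ψ)) → MeasurableSet S₀ →
    ∃ χ : L2 d, ‖dlt 0 - χ‖ ^ 2 = 1 - ∫ e in S₀, dens (μ (dlt 0)) e ∧
      ∀ (y : Site d) (t : ℝ), ‖(U A t χ) y‖ ^ 2 =
        (∫ e in S₀, Real.cos (t * e) * kern μ y 0 e) ^ 2 +
          (∫ e in S₀, Real.sin (t * e) * kern μ y 0 e) ^ 2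

/-- Lower bound for the second moment by the mass outside a box. -/
def V_box : Prop :=
  ∀ (d n : ℕ) (ψ χ : L2 d) (α γ : ℝ), 0 < γ → 0 ≤ α → ‖ψ‖ = 1 → ‖ψ - χ‖ ^ 2 = 1 - α →
    ENNReal.ofReal ((n : ℝ) ^ 2 * (α - γ - (1 + 1 / γ) *
      ∑ y ∈ Fintype.piFinset (fun _ : Fin d => Finset.Icc (-(n : ℤ)) n), ‖χ y‖ ^ 2)) ≤ mom ψ

/-- Time averaged lower bound for a fixed potential. -/
def V_out : Prop :=
  ∀ (d n : ℕ) (A : L2 d →L[ℂ] L2 d) (μ : L2 d → Measure ℝ) (S₀ : Set ℝ) (γ T : ℝ),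
    IsSelfAdjoint A → (∀ ψ, star (A ψ) = A (star ψ)) → (∀ ψ, IsSpec A ψ (μ ψ)) →
    MeasurableSet S₀ → 0 < γ → 0 < T →
    (∀ y, IntegrableOn (fun e => kern μ y 0 e ^ 2) S₀) →
    ENNReal.ofReal ((n : ℝ) ^ 2 * (T * ((∫ e in S₀, dens (μ (dlt 0)) e) - γ) - (1 + 1 / γ) * 20 *
      ∑ y ∈ Fintype.piFinset (fun _ : Fin d => Finset.Icc (-(n : ℤ)) n),
        ∫ e in S₀, kern μ y 0 e ^ 2)) ≤ ∫⁻ t in Set.Ioc 0 T, mom (U A t (dlt 0))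

/-- Off diagonal decay in measure in all directions. -/
def V_key : Prop :=
  ∀ (d : ℕ) (lam L : ℝ) (H : (Site d → ℝ) → L2 d →L[ℂ] L2 d), 0 < lam → 0 < L →
    IsFam lam H → ∀ (ε γ : ℝ), 0 < ε → 0 < γ →
      ∀ᶠ y in cofinite, nu d L {p | ε ≤ |rl H y 0 p|} ≤ ENNReal.ofReal γ

/-- Integrability and the Cauchy Schwarz inequality for the boundary values. -/
def V_int : Prop :=
  ∀ (d : ℕ) (lam L : ℝ) (H : (Site d → ℝ) → L2 d →L[ℂ] L2 d), IsFam lam H →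
    (∀ y, Integrable (rl H y y) (nu d L)) ∧ (∀ y p, rl H y y p = rl H 0 0 (shp y p)) ∧
    ∀ᵐ p ∂(nu d L), ∀ y, 0 ≤ rl H y y p ∧ rl H y 0 p ^ 2 ≤ rl H y y p * rl H 0 0 p

/-- The truncated occupation times tend to zero in the mean. -/
def V_tau : Prop :=
  ∀ (d : ℕ) (lam L M : ℝ) (H : (Site d → ℝ) → L2 d →L[ℂ] L2 d), 0 < lam → 0 < L → 0 < M →
    IsFam lam H →
    (∀ y, Integrable ({p | rl H 0 0 p ≤ M}.indicator (fun p => rl H y 0 p ^ 2)) (nu d L)) ∧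
    Tendsto (fun y => ∫ p, {p | rl H 0 0 p ≤ M}.indicator (fun p => rl H y 0 p ^ 2) p ∂(nu d L))
      cofinite (𝓝 0)

/-- Averaged lower bound. -/
def V_avg : Prop :=
  ∀ (d n : ℕ) (lam L M γ T : ℝ) (H : (Site d → ℝ) → L2 d →L[ℂ] L2 d), 0 < lam → 0 < L → 0 < M →
    0 < γ → 0 < T → IsFam lam H →
    ENNReal.ofReal ((n : ℝ) ^ 2 * (T * ((∫ p, {p | rl H 0 0 p ≤ M}.indicator (rl H 0 0) p
        ∂(nu d L)) / Real.pi - γ) - (1 + 1 / γ) * 20 *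
      ∑ y ∈ Fintype.piFinset (fun _ : Fin d => Finset.Icc (-(n : ℤ)) n),
        ∫ p, {p | rl H 0 0 p ≤ M}.indicator (fun p => rl H y 0 p ^ 2) p ∂(nu d L))) ≤
      ∫⁻ ω, (∫⁻ t in Set.Ioc 0 T, mom (U (H ω) t (dlt 0))) ∂(PP d)

/-- The real variable end game. -/
def V_end : Prop :=
  ∀ (d : ℕ) (τ : Site d → ℝ) (α C : ℝ) (F : ℝ → ℝ≥0∞), 0 < d → 0 ≤ C → (∀ y, 0 ≤ τ y) →
    Tendsto τ cofinite (𝓝 0) →
    (∀ (n : ℕ) (γ T : ℝ), 0 < γ → 0 < T →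
      ENNReal.ofReal ((n : ℝ) ^ 2 * (T * (α - γ) - (1 + 1 / γ) * 20 *
        ∑ y ∈ Fintype.piFinset (fun _ : Fin d => Finset.Icc (-(n : ℤ)) n), τ y)) ≤ F T) →
    (∃ᶠ T in atTop, F T ≤ ENNReal.ofReal (C * (T * T ^ (2 / (d : ℝ))))) → α ≤ 0

/-- Vanishing of the truncated mass gives vanishing densities. -/
def V_zero : Prop :=
  ∀ (d : ℕ) (lam : ℝ) (H : (Site d → ℝ) → L2 d →L[ℂ] L2 d), IsFam lam H →
    (∀ L M : ℝ, 0 < L → 0 < M →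
      ∫ p, {p | rl H 0 0 p ≤ M}.indicator (rl H 0 0) p ∂(nu d L) ≤ 0) →
    ∀ᵐ ω ∂(PP d), ∀ μ : L2 d → Measure ℝ, (∀ ψ, IsSpec (H ω) ψ (μ ψ)) →
      ∀ᵐ e : ℝ, ∀ x, dens (μ (dlt x)) e = 0

/-- Vanishing densities exclude absolutely continuous vectors. -/
def V_noac : Prop :=
  ∀ (d : ℕ) (A : L2 d →L[ℂ] L2 d) (μ : L2 d → Measure ℝ), IsSelfAdjoint A →
    (∀ ψ, IsSpec A ψ (μ ψ)) → (∀ᵐ e : ℝ, ∀ x, dens (μ (dlt x)) e = 0) →
    ∀ φ : L2 d, μ φ ≪ volume → φ = 0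

end Vale.Agent.P365
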