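import Vale.Agent.P365.Stm5
import Vale.Agent.P365.Defs5

/-! Statements for the escape form of the strict Guarneri bound. -/

open MeasureTheory Filter Topology Set
open scoped InnerProductSpace ENNReal

namespace Vale.Agent.P365

/-- Lower bound for the escape probability. -/
def W_box : Prop :=
  ∀ (d n : ℕ) (ψ χ : L2 d) (α γ : ℝ), 0 < γ → 0 ≤ α → ‖ψ‖ = 1 → ‖ψ - χ‖ ^ 2 = 1 - α →
    ENNReal.ofReal (α - γ - (1 + 1 / γ) *
      ∑ y ∈ Fintype.piFinset (fun _ : Fin d => Finset.Icc (-(n : ℤ)) n), ‖χ y‖ ^ 2) ≤ esc n ψ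

/-- Time averaged lower bound for a fixed potential. -/
def W_out : Prop :=
  ∀ (d n : ℕ) (A : L2 d →L[ℂ] L2 d) (μ : L2 d → Measure ℝ) (S₀ : Set ℝ) (γ T : ℝ),
    IsSelfAdjoint A → (∀ ψ, star (A ψ) = A (star ψ)) → (∀ ψ, IsSpec A ψ (μ ψ)) →
    MeasurableSet S₀ → 0 < γ → 0 < T →
    (∀ y, IntegrableOn (fun e => kern μ y 0 e ^ 2) S₀) →
    ENNReal.ofReal (T * ((∫ e in S₀, dens (μ (dlt 0)) e) - γ) - (1 + 1 / γ) * 20 *
      ∑ y ∈ Fintype.piFinset (fun _ : Fin d => Finset.Icc (-(n : ℤ)) n),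
        ∫ e in S₀, kern μ y 0 e ^ 2) ≤ ∫⁻ t in Set.Ioc 0 T, esc n (U A t (dlt 0))

/-- Averaged lower bound. -/
def W_avg : Prop :=
  ∀ (d n : ℕ) (lam L M γ T : ℝ) (H : (Site d → ℝ) → L2 d →L[ℂ] L2 d), 0 < lam → 0 < L → 0 < M →
    0 < γ → 0 < T → IsFam lam H →
    ENNReal.ofReal (T * ((∫ p, {p | rl H 0 0 p ≤ M}.indicator (rl H 0 0) p
        ∂(nu d L)) / Real.pi - γ) - (1 + 1 / γ) * 20 *
      ∑ y ∈ Fintype.piFinset (fun _ : Fin d => Finset.Icc (-(n : ℤ)) n),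
        ∫ p, {p | rl H 0 0 p ≤ M}.indicator (fun p => rl H y 0 p ^ 2) p ∂(nu d L)) ≤
      ∫⁻ ω, (∫⁻ t in Set.Ioc 0 T, esc n (U (H ω) t (dlt 0))) ∂(PP d)

end Vale.Agent.P365
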