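import Vale.Agent.P365.Stm5

/-! The exponential kernel and its Fourier transform. -/

open MeasureTheory Filter Topology Set
open scoped InnerProductSpace ENNReal

namespace Vale.Agent.P365

namespace VKer

theorem int_exp {a : ℝ} (ha : 0 < a) : Integrable fun t : ℝ => Real.exp (-(a * |t|)) := by
  rw [← integrableOn_univ, ← Iic_union_Ioi (a := (0 : ℝ))]
  refine IntegrableOn.union ?_ ?_
  · refine (integrableOn_exp_mul_Iic ha 0).congr_fun (fun t ht => ?_) measurableSet_Iic
    simp only [abs_of_nonpos (mem_Iic.1 ht), mul_neg, neg_neg]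
  · refine (exp_neg_integrableOn_Ioi 0 ha).congr_fun (fun t ht => ?_) measurableSet_Ioi
    simp only [abs_of_pos (mem_Ioi.1 ht), neg_mul]

theorem int_half {a : ℝ} (u : ℝ) (ha : 0 < a) :
    ∫ t in Ioi (0 : ℝ), Real.exp (-(a * t)) * Real.cos (t * u) = a / (a ^ 2 + u ^ 2) := by
  have hre : ((-a : ℂ) + u * Complex.I).re < 0 := by simpa using ha
  have h1 := integral_exp_mul_complex_Ioi hre 0
  have h2 := integral_re (𝕜 := ℂ) (integrableOn_exp_mul_complex_Ioi hre 0)
  rw [h1] at h2
  have h3 : ∀ t : ℝ, RCLike.re (Complex.exp (((-a : ℂ) + u * Complex.I) * t)) =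
      Real.exp (-(a * t)) * Real.cos (t * u) := fun t => by
    simp [Complex.exp_re, mul_comm]
  simp only [h3] at h2
  rw [h2]
  have h4 : 0 < a ^ 2 + u ^ 2 := by positivity
  simp [Complex.div_re, Complex.normSq_apply]
  field_simp

theorem int_cos {a : ℝ} (u : ℝ) (ha : 0 < a) :
    ∫ t : ℝ, Real.exp (-(a * |t|)) * Real.cos (t * u) = 2 * a / (a ^ 2 + u ^ 2) := by
  have h : ∀ t : ℝ, Real.cos (t * u) = Real.cos (|t| * u) := fun t => by
    rcases abs_choice t with e | e <;> simp [e]
  rw [mul_div_assoc, ← int_half u ha,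
    ← integral_comp_abs (f := fun t => Real.exp (-(a * t)) * Real.cos (t * u))]
  exact integral_congr_ae (ae_of_all _ fun t => by simp only [← h t])

theorem ker_eq {a : ℝ} (ha : 0 < a) (w : ℝ) :
    2 * a / (a ^ 2 + w ^ 2) = 2 / a * (1 + (w / a) ^ 2)⁻¹ := by
  field_simp

end VKer

theorem v_ker : V_ker := by
  intro a u ha
  refine ⟨VKer.int_exp ha, VKer.int_cos u ha, ?_, ?_⟩
  · simp only [VKer.ker_eq ha]
    exact ((integrable_inv_one_add_sq.comp_div ha.ne').comp_sub_right u).const_mul _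
  · simp only [VKer.ker_eq ha]
    rw [integral_const_mul, integral_sub_right_eq_self (fun w : ℝ => (1 + (w / a) ^ 2)⁻¹) u,
      Measure.integral_comp_div (fun w : ℝ => (1 + w ^ 2)⁻¹) a, integral_univ_inv_one_add_sq,
      abs_of_pos ha, smul_eq_mul]
    field_simp

end Vale.Agent.P365
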