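import Vale.Agent.P365.Stm5

open MeasureTheory Filter Topology Set
open scoped InnerProductSpace ENNReal

namespace Vale.Agent.P365

namespace VZero

theorem zero {X : Type} [MeasurableSpace X] (ν : Measure X) (f : X → ℝ) (hm : Measurable f)
    (hi : Integrable f ν) (h0 : ∀ᵐ p ∂ν, 0 ≤ f p)
    (h : ∀ M : ℝ, 0 < M → ∫ p, {p | f p ≤ M}.indicator f p ∂ν ≤ 0) : ∀ᵐ p ∂ν, f p = 0 := by
  have key : ∀ j : ℕ, ∀ᵐ p ∂ν, {p | f p ≤ (j : ℝ) + 1}.indicator f p = 0 := fun j => by
    have hn : 0 ≤ᵐ[ν] {p | f p ≤ (j : ℝ) + 1}.indicator f := by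
      filter_upwards [h0] with p hp
      exact indicator_apply_nonneg fun _ => hp
    exact (integral_eq_zero_iff_of_nonneg_ae hn
      (hi.indicator (measurableSet_le hm measurable_const))).1
      (le_antisymm (h _ (by positivity)) (integral_nonneg_of_ae hn))
  filter_upwards [ae_all_iff.2 key] with p hp
  obtain ⟨j, hj⟩ := exists_nat_ge (f p)
  have := hp j
  rwa [indicator_of_mem (show p ∈ {p | f p ≤ (j : ℝ) + 1} from hj.trans (by linarith))] at this

end VZero

theorem v_zero : V_int → V_zero := by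
  intro hint d lam H hF h
  have h0 : ∀ l : ℕ, ∀ᵐ p ∂(nu d ((l : ℝ) + 1)), ∀ x, rl H x x p = 0 := fun l => by
    obtain ⟨a1, a2, a3⟩ := hint d lam ((l : ℝ) + 1) H hF
    have b := VZero.zero _ (rl H 0 0) ((u_ae d lam 1 H hF).1 0 0) (a1 0)
      (a3.mono fun p hp => (hp 0).1) fun M hM => h _ M (by positivity) hM
    refine ae_all_iff.2 fun x => ?_
    filter_upwards [(shp_mp d ((l : ℝ) + 1) x).quasiMeasurePreserving.ae b] with p hp
    rw [a2, hp]
  have h1 := fun l : ℕ => Measure.ae_ae_of_ae_prod (h0 l)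
  filter_upwards [ae_all_iff.2 h1] with ω h2 μ hμ
  have h4 := ae_all_iff.2 fun l : ℕ => (ae_restrict_iff' measurableSet_Ioc).1 (h2 l)
  filter_upwards [u_conv d lam H hF ω μ hμ, h4] with e h5 h6 x
  obtain ⟨l, hl⟩ := exists_nat_gt |e|
  have h7 := abs_lt.1 hl
  have k : rl H x x (ω, e) = Real.pi * dens (μ (dlt x)) e := (h5.1 x).limUnder_eq
  exact (mul_eq_zero.1 (k.symm.trans
    (h6 l ⟨by linarith [h7.1], by linarith [h7.2]⟩ x))).resolve_left Real.pi_ne_zero

end Vale.Agent.P365
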